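import Vale.Agent.P347Q.Defs

/-!
Module AbsIBP.  Abstract integration by parts structure and the Bochner type identity.
-/

open MeasureTheory ProbabilityTheory Function
open scoped ENNReal BigOperators ContDiff

namespace P347Q

/-- integration by parts for the measure `μ ~ exp(-H)` along the directions `e k` -/
structure IBPm {κ : Type*} [Fintype κ] {Z : Type*} [NormedAddCommGroup Z] [NormedSpace ℝ Z]
    [MeasurableSpace Z] (μ : Measure Z) (e : κ → Z) (H : Z → ℝ) : Prop where
  prob : IsProbabilityMeasure μ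
  temp : HasTemperateGrowth H
  int : ∀ f : Z → ℝ, HasTemperateGrowth f → Integrable f μ
  ibp : ∀ f : Z → ℝ, HasTemperateGrowth f → ∀ k,
    ∫ z, fderiv ℝ f z (e k) ∂μ = ∫ z, f z * fderiv ℝ H z (e k) ∂μ

variable {κ : Type*} [Fintype κ] {Z : Type*} [NormedAddCommGroup Z] [NormedSpace ℝ Z]
  [MeasurableSpace Z]

omit [MeasurableSpace Z] in
theorem temp_fderiv {F : Type*} [NormedAddCommGroup F] [NormedSpace ℝ F] {f : Z → F}
    (hf : HasTemperateGrowth f) : HasTemperateGrowth (fderiv ℝ f) := by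
  refine ⟨hf.1.fderiv_right (by simp), fun n => ?_⟩
  obtain ⟨k, C, h⟩ := hf.2 (n + 1)
  refine ⟨k, C, fun x => ?_⟩
  rw [norm_iteratedFDeriv_fderiv]
  exact h x

omit [MeasurableSpace Z] in
/-- directional derivatives of temperate functions are temperate -/
theorem temp_dir {f : Z → ℝ} (hf : HasTemperateGrowth f) (w : Z) :
    HasTemperateGrowth (fun z => fderiv ℝ f z w) := by
  have h1 := (ContinuousLinearMap.apply ℝ ℝ w : (Z →L[ℝ] ℝ) →L[ℝ] ℝ).hasTemperateGrowth
  exact h1.comp (temp_fderiv hf)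

omit [MeasurableSpace Z] in
theorem temp_diff {F : Type*} [NormedAddCommGroup F] [NormedSpace ℝ F] {f : Z → F}
    (hf : HasTemperateGrowth f) : Differentiable ℝ f :=
  hf.1.differentiable (by simp)

omit [MeasurableSpace Z] in
theorem fderiv_dir {f : Z → ℝ} (hf : HasTemperateGrowth f) (v w : Z) (z : Z) :
    fderiv ℝ (fun y => fderiv ℝ f y v) z w = fderiv ℝ (fderiv ℝ f) z w v := by
  have h1 : HasFDerivAt (fderiv ℝ f) (fderiv ℝ (fderiv ℝ f) z) z :=
    (temp_diff (temp_fderiv hf) z).hasFDerivAt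
  have h2 := (h1.clm_apply (hasFDerivAt_const v z)).fderiv
  rw [h2]
  simp

omit [MeasurableSpace Z] in
theorem dir_comm {f : Z → ℝ} (hf : HasTemperateGrowth f) (v w : Z) (z : Z) :
    fderiv ℝ (fun y => fderiv ℝ f y v) z w = fderiv ℝ (fun y => fderiv ℝ f y w) z v := by
  rw [fderiv_dir hf, fderiv_dir hf]
  have := (hf.1.contDiffAt (x := z)).isSymmSndFDerivAt
    (by rw [minSmoothness_of_isRCLikeNormedField]; exact ENat.LEInfty.out)
  exact this w v

theorem ibp_sq {μ : Measure Z} {e : κ → Z} {H : Z → ℝ} (h : IBPm μ e H) (G : κ → Z → ℝ)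
    (hG : ∀ k, HasTemperateGrowth (G k)) :
    ∫ z, (∑ k, (fderiv ℝ H z (e k) * G k z - fderiv ℝ (G k) z (e k))) ^ 2 ∂μ =
      ∑ k, ∑ l, ∫ z, fderiv ℝ (G k) z (e l) * fderiv ℝ (G l) z (e k) ∂μ +
      ∫ z, ∑ k, ∑ l, fderiv ℝ (fun y => fderiv ℝ H y (e l)) z (e k) * G k z * G l z ∂μ := by
  -- the adjoint derivative
  have hH := h.temp
  set D : κ → Z → ℝ := fun l z => fderiv ℝ H z (e l) * G l z - fderiv ℝ (G l) z (e l) with hD
  have hDt : ∀ l, HasTemperateGrowth (D l) := fun l =>
    ((temp_dir hH (e l)).mul (hG l)).sub (temp_dir (hG l) (e l))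
  have key : ∀ k l, ∫ z, (fderiv ℝ H z (e k) * G k z - fderiv ℝ (G k) z (e k)) * D l z ∂μ =
      ∫ z, fderiv ℝ (G k) z (e l) * fderiv ℝ (G l) z (e k) ∂μ +
      ∫ z, fderiv ℝ (fun y => fderiv ℝ H y (e l)) z (e k) * G k z * G l z ∂μ := by
    intro k l
    -- first integration by parts: product `G k * D l`
    have h1 := h.ibp _ ((hG k).mul (hDt l)) k
    have h1' : ∀ z, fderiv ℝ (G k * D l) z (e k) =
        G k z * fderiv ℝ (D l) z (e k) + D l z * fderiv ℝ (G k) z (e k) := by
      intro z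
      rw [fderiv_mul (temp_diff (hG k) z) (temp_diff (hDt l) z)]
      simp
    -- second: product `G k... `
    have h2t : HasTemperateGrowth (G l * fun z => fderiv ℝ (G k) z (e l)) := by
      exact (hG l).mul (temp_dir (hG k) (e l))
    have hDl : ∀ z, fderiv ℝ (D l) z (e k) =
        fderiv ℝ (fun y => fderiv ℝ H y (e l)) z (e k) * G l z +
          fderiv ℝ H z (e l) * fderiv ℝ (G l) z (e k) -
          fderiv ℝ (fun y => fderiv ℝ (G l) y (e l)) z (e k) := by
      intro z
      have a1 := (temp_diff (temp_dir hH (e l)) z)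
      have a2 := (temp_diff (hG l) z)
      have a3 := (temp_diff (temp_dir (hG l) (e l)) z)
      rw [hD]
      have : fderiv ℝ (fun z => fderiv ℝ H z (e l) * G l z - fderiv ℝ (G l) z (e l)) z =
          fderiv ℝ (fun z => fderiv ℝ H z (e l) * G l z) z -
            fderiv ℝ (fun z => fderiv ℝ (G l) z (e l)) z := by
        exact fderiv_fun_sub (a1.mul a2) a3
      rw [this, fderiv_fun_mul a1 a2]
      simp only [sub_apply, add_apply,
        smul_apply, smul_eq_mul]
      ring
    -- second integration by parts, for `G k * ∂_k G l`, direction `e l`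
    have h3t : HasTemperateGrowth (G k * fun z => fderiv ℝ (G l) z (e k)) :=
      (hG k).mul (temp_dir (hG l) (e k))
    have h3 := h.ibp _ h3t l
    have h3' : ∀ z, fderiv ℝ (G k * fun z => fderiv ℝ (G l) z (e k)) z (e l) =
        G k z * fderiv ℝ (fun y => fderiv ℝ (G l) y (e l)) z (e k) +
          fderiv ℝ (G l) z (e k) * fderiv ℝ (G k) z (e l) := by
      intro z
      rw [fderiv_mul (temp_diff (hG k) z) (temp_diff (temp_dir (hG l) (e k)) z)]
      simp only [add_apply, smul_apply, smul_eq_mul]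
      rw [dir_comm (hG l) (e k) (e l) z]
    -- integrability
    have i1 : Integrable (fun z => G k z * fderiv ℝ (D l) z (e k)) μ :=
      h.int _ ((hG k).mul (temp_dir (hDt l) (e k)))
    have i2 : Integrable (fun z => D l z * fderiv ℝ (G k) z (e k)) μ :=
      h.int _ ((hDt l).mul (temp_dir (hG k) (e k)))
    have i3 : Integrable (fun z => G k z * fderiv ℝ (fun y => fderiv ℝ (G l) y (e l)) z (e k)) μ :=
      h.int _ ((hG k).mul (temp_dir (temp_dir (hG l) (e l)) (e k)))
    have i4 : Integrable (fun z => fderiv ℝ (G l) z (e k) * fderiv ℝ (G k) z (e l)) μ :=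
      h.int _ ((temp_dir (hG l) (e k)).mul (temp_dir (hG k) (e l)))
    have i5 : Integrable (fun z => fderiv ℝ (fun y => fderiv ℝ H y (e l)) z (e k) * G k z * G l z) μ :=
      h.int _ (((temp_dir (temp_dir hH (e l)) (e k)).mul (hG k)).mul (hG l))
    have i6 : Integrable (fun z => (G k * fun z => fderiv ℝ (G l) z (e k)) z *
        fderiv ℝ H z (e l)) μ :=
      h.int _ (((hG k).mul (temp_dir (hG l) (e k))).mul (temp_dir hH (e l)))
    have i7 : Integrable (fun z => (G k * D l) z * fderiv ℝ H z (e k)) μ :=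
      h.int _ (((hG k).mul (hDt l)).mul (temp_dir hH (e k)))
    simp only [h1', h3'] at h1 h3
    rw [integral_add i1 i2] at h1
    rw [integral_add i3 i4] at h3
    have e1 : ∫ z, (fderiv ℝ H z (e k) * G k z - fderiv ℝ (G k) z (e k)) * D l z ∂μ =
        ∫ z, (G k * D l) z * fderiv ℝ H z (e k) ∂μ - ∫ z, D l z * fderiv ℝ (G k) z (e k) ∂μ := by
      rw [← integral_sub i7 i2]
      apply integral_congr_ae
      filter_upwards with z
      simp only [Pi.mul_apply]
      ring
    rw [e1, ← h1]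
    have e2 : ∫ z, G k z * fderiv ℝ (D l) z (e k) ∂μ =
        ∫ z, fderiv ℝ (fun y => fderiv ℝ H y (e l)) z (e k) * G k z * G l z ∂μ +
        (∫ z, (G k * fun z => fderiv ℝ (G l) z (e k)) z * fderiv ℝ H z (e l) ∂μ -
        ∫ z, G k z * fderiv ℝ (fun y => fderiv ℝ (G l) y (e l)) z (e k) ∂μ) := by
      have i8 : Integrable (fun z => (G k * fun z => fderiv ℝ (G l) z (e k)) z *
          fderiv ℝ H z (e l) -
          G k z * fderiv ℝ (fun y => fderiv ℝ (G l) y (e l)) z (e k)) μ := i6.sub i3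
      rw [← integral_sub i6 i3, ← integral_add i5 i8]
      apply integral_congr_ae
      filter_upwards with z
      simp only [Pi.mul_apply, hDl]
      ring
    rw [e2, ← h3]
    have e3 : ∫ z, fderiv ℝ (G k) z (e l) * fderiv ℝ (G l) z (e k) ∂μ =
        ∫ z, fderiv ℝ (G l) z (e k) * fderiv ℝ (G k) z (e l) ∂μ := by
      apply integral_congr_ae
      filter_upwards with z
      ring
    rw [e3]
    ring
  have hI : ∀ k l, Integrable
      (fun z => (fderiv ℝ H z (e k) * G k z - fderiv ℝ (G k) z (e k)) * D l z) μ := fun k l =>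
    h.int _ ((hDt k).mul (hDt l))
  have hI2 : ∀ k l, Integrable
      (fun z => fderiv ℝ (fun y => fderiv ℝ H y (e l)) z (e k) * G k z * G l z) μ := fun k l =>
    h.int _ (((temp_dir (temp_dir hH (e l)) (e k)).mul (hG k)).mul (hG l))
  have e0 : ∀ z, (∑ k, (fderiv ℝ H z (e k) * G k z - fderiv ℝ (G k) z (e k))) ^ 2 =
      ∑ k, ∑ l, (fderiv ℝ H z (e k) * G k z - fderiv ℝ (G k) z (e k)) * D l z := by
    intro z
    rw [sq, Finset.sum_mul_sum]
  simp only [e0]
  rw [integral_finsetSum _ (fun k _ => integrable_finsetSum _ (fun l _ => hI k l)),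
    integral_finsetSum _ (fun k _ => integrable_finsetSum _ (fun l _ => hI2 k l)),
    ← Finset.sum_add_distrib]
  refine Finset.sum_congr rfl fun k _ => ?_
  rw [integral_finsetSum _ (fun l _ => hI k l), integral_finsetSum _ (fun l _ => hI2 k l),
    ← Finset.sum_add_distrib]
  exact Finset.sum_congr rfl fun l _ => key k l

end P347Q
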