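import Vale.Agent.P347Q.Gibbs

/-!
Module GaussDens.  `stdGaussian (E d)` has density `(2π)^{-d/2} exp(-|v|²/2)`.
-/

open MeasureTheory ProbabilityTheory Function
open scoped ENNReal BigOperators

namespace P347Q

theorem fderiv_sq (d : ℕ) : fderiv ℝ (fun v : E d => ‖v‖ ^ 2 / 2) = fun x => innerSL ℝ x := by
  funext x
  have h := ((hasStrictFDerivAt_norm_sq x).hasFDerivAt).mul_const (1 / 2 : ℝ)
  have h2 : HasFDerivAt (fun v : E d => ‖v‖ ^ 2 / 2) (innerSL ℝ x) x := by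
    have e1 : (fun v : E d => ‖v‖ ^ 2 / 2) = fun v : E d => ‖v‖ ^ 2 * (1 / 2) := by
      funext v
      ring
    have e2 : (innerSL ℝ x : E d →L[ℝ] ℝ) = (1 / 2 : ℝ) • (2 • innerSL ℝ x) := by
      ext y
      simp
    rw [e1, e2]
    exact h
  exact h2.fderiv

theorem fderiv_fderiv_sq (d : ℕ) (x v w : E d) :
    fderiv ℝ (fderiv ℝ (fun v : E d => ‖v‖ ^ 2 / 2)) x v w = inner ℝ v w := by
  rw [fderiv_sq]
  have : (fun x : E d => (innerSL ℝ x : E d →L[ℝ] ℝ)) = (innerSL ℝ : E d →L[ℝ] E d →L[ℝ] ℝ) := rfl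
  rw [this, ContinuousLinearMap.fderiv]
  rfl

theorem gradient_sq (d : ℕ) (x : E d) : gradient (fun v : E d => ‖v‖ ^ 2 / 2) x = x := by
  rw [gradient, fderiv_sq]
  exact (InnerProductSpace.toDual ℝ (E d)).symm_apply_apply x

theorem spot_sq (d : ℕ) : SPot (fun v : E d => ‖v‖ ^ 2 / 2) := by
  refine ⟨?_, fun x w => ?_, fun x w => ?_⟩
  · have h := (hasTemperateGrowth_norm_sq (H := E d)).mul (HasTemperateGrowth.const (1 / 2 : ℝ))
    have e1 : (fun v : E d => ‖v‖ ^ 2 / 2) =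
        (fun v : E d => ‖v‖ ^ 2) * fun _ => (1 / 2 : ℝ) := by
      funext v
      simp only [Pi.mul_apply]
      ring
    rw [e1]
    exact h
  · rw [fderiv_fderiv_sq, real_inner_self_eq_norm_sq]
  · rw [fderiv_fderiv_sq, real_inner_self_eq_norm_sq]
    nlinarith [sq_nonneg ‖w‖]

theorem stdGaussian_eq_gibbs (d : ℕ) : stdGaussian (E d) = gibbs (fun v : E d => ‖v‖ ^ 2 / 2) := by
  have hc : Continuous (fun v : E d => ‖v‖ ^ 2 / 2) := (spot_sq d).cont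
  have hl : ∀ x : E d, (0 : ℝ) + ‖x‖ ^ 2 / 4 ≤ ‖x‖ ^ 2 / 2 := by
    intro x
    have : 0 ≤ ‖x‖ ^ 2 := by positivity
    linarith
  have := gibbs_prob_of_lower hc hl
  symm
  apply Measure.ext_of_charFun
  funext t
  rw [charFun_stdGaussian, charFun_apply, integral_gibbs_smul hc hl]
  have h1 : ∀ w : ℂ, ∫ x : E d, Complex.exp (-(1 / 2 : ℂ) * (‖x‖ : ℂ) ^ 2 + w * (inner ℝ t x : ℝ)) =
      ((Real.pi : ℂ) / (1 / 2 : ℂ)) ^ ((Module.finrank ℝ (E d) : ℂ) / 2) *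
        Complex.exp (w ^ 2 * (‖t‖ : ℂ) ^ 2 / (4 * (1 / 2 : ℂ))) := by
    intro w
    exact GaussianFourier.integral_cexp_neg_mul_sq_norm_add (V := E d) (b := (1 / 2 : ℂ))
      (by norm_num) w t
  have e1 : ∫ x : E d, Real.exp (-(‖x‖ ^ 2 / 2)) • Complex.exp ((inner ℝ x t : ℝ) * Complex.I) =
      ∫ x : E d, Complex.exp (-(1 / 2 : ℂ) * (‖x‖ : ℂ) ^ 2 + Complex.I * (inner ℝ t x : ℝ)) := by
    apply integral_congr_ae
    filter_upwards with x
    rw [Complex.real_smul, Complex.ofReal_exp, ← Complex.exp_add]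
    congr 1
    rw [real_inner_comm]
    push_cast
    ring
  have e2 : ((∫ x : E d, Real.exp (-(‖x‖ ^ 2 / 2)) : ℝ) : ℂ) =
      ∫ x : E d, Complex.exp (-(1 / 2 : ℂ) * (‖x‖ : ℂ) ^ 2 + 0 * (inner ℝ t x : ℝ)) := by
    rw [← integral_complex_ofReal]
    apply integral_congr_ae
    filter_upwards with x
    rw [Complex.ofReal_exp]
    congr 1
    push_cast
    ring
  rw [Complex.real_smul, e1, h1, Complex.ofReal_inv, e2, h1]
  have hne : ((Real.pi : ℂ) / (1 / 2 : ℂ)) ^ ((Module.finrank ℝ (E d) : ℂ) / 2) ≠ 0 := by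
    rw [Complex.cpow_ne_zero_iff]
    left
    simp [Real.pi_ne_zero]
  have e3 : Complex.exp (Complex.I ^ 2 * (‖t‖ : ℂ) ^ 2 / (4 * (1 / 2 : ℂ))) =
      Complex.exp (-(‖t‖ : ℂ) ^ 2 / 2) := by
    congr 1
    rw [Complex.I_sq]
    ring
  rw [e3]
  simp only [ne_eq, OfNat.ofNat_ne_zero, not_false_eq_true, zero_pow, zero_mul, zero_div,
    Complex.exp_zero, mul_one]
  rw [← mul_assoc, inv_mul_cancel₀ hne, one_mul]

end P347Q
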