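import Vale.Agent.P347Q.Defs
import Vale.Agent.P347Q.GaussDens

/-!
Module Shift.  Calculus of `TVle` and the Gaussian shift estimate.
`TV(N(a,σ²),N(b,σ²)) ≤ ‖a-b‖/σ`: with `h = (a-b)/σ` and `L(z) = exp(<z,h> - |h|²/2)`,
`|∫ f(z+h) dγ - ∫ f dγ| = |∫ (f - 1/2) (L - 1) dγ| ≤ (1/2) (e^{|h|²} - 1)^{1/2} ≤ |h|` for `|h| ≤ 1`.
-/

open MeasureTheory ProbabilityTheory Function
open scoped ENNReal BigOperators

namespace P347Q

section TVcalc
variable {X Y : Type*} [MeasurableSpace X] [MeasurableSpace Y]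

theorem TVle.refl (μ : Measure X) : TVle μ μ 0 := by
  intro f _ _ _
  simp

theorem TVle.symm {μ ν : Measure X} {ε : ℝ} (h : TVle μ ν ε) : TVle ν μ ε := by
  intro f hf h0 h1
  rw [abs_sub_comm]
  exact h f hf h0 h1

theorem TVle.trans {μ ν ρ : Measure X} {ε δ : ℝ} (h : TVle μ ν ε) (h' : TVle ν ρ δ) :
    TVle μ ρ (ε + δ) := by
  intro f hf h0 h1
  exact (abs_sub_le _ _ _).trans (add_le_add (h f hf h0 h1) (h' f hf h0 h1))

theorem TVle.mono {μ ν : Measure X} {ε δ : ℝ} (h : TVle μ ν ε) (h' : ε ≤ δ) : TVle μ ν δ :=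
  fun f hf h0 h1 => (h f hf h0 h1).trans h'

/-- measurable `[0,1]`-valued functions are integrable -/
theorem int01 (μ : Measure X) [IsFiniteMeasure μ] {f : X → ℝ} (hf : Measurable f)
    (h0 : ∀ x, 0 ≤ f x) (h1 : ∀ x, f x ≤ 1) : Integrable f μ := by
  refine Integrable.of_bound hf.aestronglyMeasurable 1 (Filter.Eventually.of_forall fun x => ?_)
  rw [Real.norm_eq_abs, abs_of_nonneg (h0 x)]
  exact h1 x

theorem int01_mem (μ : Measure X) [IsProbabilityMeasure μ] {f : X → ℝ} (hf : Measurable f)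
    (h0 : ∀ x, 0 ≤ f x) (h1 : ∀ x, f x ≤ 1) : 0 ≤ ∫ x, f x ∂μ ∧ ∫ x, f x ∂μ ≤ 1 := by
  refine ⟨integral_nonneg h0, ?_⟩
  calc ∫ x, f x ∂μ ≤ ∫ _, (1 : ℝ) ∂μ := integral_mono (int01 μ hf h0 h1) (integrable_const _) h1
    _ = 1 := by simp

theorem TVle.one (μ ν : Measure X) [IsProbabilityMeasure μ] [IsProbabilityMeasure ν] :
    TVle μ ν 1 := by
  intro f hf h0 h1
  have a := int01_mem μ hf h0 h1
  have b := int01_mem ν hf h0 h1
  rw [abs_le]
  constructor <;> linarith

theorem TVle.map {μ ν : Measure X} {ε : ℝ} (h : TVle μ ν ε) {g : X → Y} (hg : Measurable g) :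
    TVle (μ.map g) (ν.map g) ε := by
  intro f hf h0 h1
  rw [integral_map hg.aemeasurable hf.aestronglyMeasurable,
    integral_map hg.aemeasurable hf.aestronglyMeasurable]
  exact h (fun x => f (g x)) (hf.comp hg) (fun x => h0 _) (fun x => h1 _)

theorem TVle.prod_right {μ ν : Measure X} [IsProbabilityMeasure μ] [IsProbabilityMeasure ν]
    {ε : ℝ} (h : TVle μ ν ε) (ρ : Measure Y) [IsProbabilityMeasure ρ] :
    TVle (μ.prod ρ) (ν.prod ρ) ε := by
  intro f hf h0 h1
  rw [integral_prod _ (int01 _ hf h0 h1), integral_prod _ (int01 _ hf h0 h1)]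
  have hm : Measurable (fun x => ∫ y, f (x, y) ∂ρ) :=
    (hf.stronglyMeasurable.integral_prod_right' (ν := ρ)).measurable
  have hx : ∀ x, 0 ≤ ∫ y, f (x, y) ∂ρ ∧ ∫ y, f (x, y) ∂ρ ≤ 1 := fun x =>
    int01_mem ρ (f := fun y => f (x, y)) (hf.comp measurable_prodMk_left) (fun y => h0 _)
      (fun y => h1 _)
  exact h _ hm (fun x => (hx x).1) (fun x => (hx x).2)

/-- mixtures: if the kernels `z ↦ map (g z) ρ` and `z ↦ map (g' z) ρ'` are `δ z` close, then so are
the mixtures, up to `∫ δ` -/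
theorem TVle.mix {Θ Θ' : Type*} [MeasurableSpace Θ] [MeasurableSpace Θ'] (μ : Measure X)
    [IsProbabilityMeasure μ] (ρ : Measure Θ) [IsProbabilityMeasure ρ] (ρ' : Measure Θ')
    [IsProbabilityMeasure ρ'] {g : X × Θ → Y} {g' : X × Θ' → Y} (hg : Measurable g)
    (hg' : Measurable g') {δ : X → ℝ} (hδ : Integrable δ μ)
    (h : ∀ z, TVle (ρ.map (fun θ => g (z, θ))) (ρ'.map (fun θ => g' (z, θ))) (δ z)) :
    TVle ((μ.prod ρ).map g) ((μ.prod ρ').map g') (∫ z, δ z ∂μ) := by
  intro f hf h0 h1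
  rw [integral_map hg.aemeasurable hf.aestronglyMeasurable,
    integral_map hg'.aemeasurable hf.aestronglyMeasurable,
    integral_prod (fun p => f (g p))
      (int01 (μ.prod ρ) (hf.comp hg) (fun _ => h0 _) (fun _ => h1 _)),
    integral_prod (fun p => f (g' p))
      (int01 (μ.prod ρ') (hf.comp hg') (fun _ => h0 _) (fun _ => h1 _))]
  have hm : Measurable (fun x => ∫ y, f (g (x, y)) ∂ρ) :=
    ((hf.comp hg).stronglyMeasurable.integral_prod_right' (ν := ρ)).measurable
  have hm' : Measurable (fun x => ∫ y, f (g' (x, y)) ∂ρ') :=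
    ((hf.comp hg').stronglyMeasurable.integral_prod_right' (ν := ρ')).measurable
  have hx : ∀ x, 0 ≤ ∫ y, f (g (x, y)) ∂ρ ∧ ∫ y, f (g (x, y)) ∂ρ ≤ 1 := fun x =>
    int01_mem ρ (f := fun y => f (g (x, y))) ((hf.comp hg).comp measurable_prodMk_left)
      (fun y => h0 _) (fun y => h1 _)
  have hx' : ∀ x, 0 ≤ ∫ y, f (g' (x, y)) ∂ρ' ∧ ∫ y, f (g' (x, y)) ∂ρ' ≤ 1 := fun x =>
    int01_mem ρ' (f := fun y => f (g' (x, y))) ((hf.comp hg').comp measurable_prodMk_left)
      (fun y => h0 _) (fun y => h1 _)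
  have i1 := int01 μ hm (fun x => (hx x).1) (fun x => (hx x).2)
  have i2 := int01 μ hm' (fun x => (hx' x).1) (fun x => (hx' x).2)
  have key : ∀ x, |∫ y, f (g (x, y)) ∂ρ - ∫ y, f (g' (x, y)) ∂ρ'| ≤ δ x := by
    intro x
    have hgx : Measurable (fun θ => g (x, θ)) := hg.comp measurable_prodMk_left
    have hgx' : Measurable (fun θ => g' (x, θ)) := hg'.comp measurable_prodMk_left
    have := h x f hf h0 h1
    rwa [integral_map hgx.aemeasurable hf.aestronglyMeasurable,
      integral_map hgx'.aemeasurable hf.aestronglyMeasurable] at this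
  rw [← integral_sub i1 i2]
  refine (abs_integral_le_integral_abs).trans ?_
  exact integral_mono (i1.sub i2).abs hδ key

theorem TVle.real {μ ν : Measure X} [IsProbabilityMeasure μ] [IsProbabilityMeasure ν] {ε : ℝ}
    (h : TVle μ ν ε) {B : Set X} (hB : MeasurableSet B) : |μ.real B - ν.real B| ≤ ε := by
  have := h (B.indicator fun _ => (1 : ℝ)) (measurable_const.indicator hB)
    (fun x => Set.indicator_nonneg (fun _ _ => zero_le_one) x)
    (fun x => Set.indicator_le_self' (fun _ _ => zero_le_one) x)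
  rwa [integral_indicator_const _ hB, integral_indicator_const _ hB, smul_eq_mul, smul_eq_mul,
    mul_one, mul_one] at this

end TVcalc

variable {d : ℕ}

/-- Cameron–Martin -/
theorem gauss_cm (h : E d) (f : E d → ℝ) :
    ∫ z, f (z + h) ∂(stdGaussian (E d)) =
      ∫ z, Real.exp (inner ℝ z h - ‖h‖ ^ 2 / 2) * f z ∂(stdGaussian (E d)) := by
  have hc : Continuous (fun v : E d => ‖v‖ ^ 2 / 2) := by fun_prop
  have hl : ∀ x : E d, (0 : ℝ) + ‖x‖ ^ 2 / 4 ≤ ‖x‖ ^ 2 / 2 := by
    intro x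
    have : 0 ≤ ‖x‖ ^ 2 := by positivity
    linarith
  rw [stdGaussian_eq_gibbs, integral_gibbs hc hl, integral_gibbs hc hl]
  congr 1
  rw [← integral_sub_right_eq_self (fun x : E d => Real.exp (-(‖x‖ ^ 2 / 2)) * f (x + h)) h]
  apply integral_congr_ae
  filter_upwards with x
  rw [sub_add_cancel, ← mul_assoc, ← Real.exp_add]
  congr 2
  rw [@norm_sub_sq_real]
  ring

theorem gauss_exp_int (h : E d) (c : ℝ) :
    Integrable (fun z : E d => Real.exp (inner ℝ z h - c)) (stdGaussian (E d)) := by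
  have hc : Continuous (fun v : E d => ‖v‖ ^ 2 / 2) := by fun_prop
  have hl : ∀ x : E d, (0 : ℝ) + ‖x‖ ^ 2 / 4 ≤ ‖x‖ ^ 2 / 2 := by
    intro x
    have : 0 ≤ ‖x‖ ^ 2 := by positivity
    linarith
  rw [stdGaussian_eq_gibbs]
  refine integrable_gibbs hc hl ?_
  have hc2 : Continuous (fun x : E d => ‖x‖ ^ 2 / 2 - inner ℝ x h + c) := by fun_prop
  have hl2 : ∀ x : E d, (c - ‖h‖ ^ 2) + ‖x‖ ^ 2 / 4 ≤ ‖x‖ ^ 2 / 2 - inner ℝ x h + c := by
    intro x
    have h1 : inner ℝ x h ≤ ‖x‖ * ‖h‖ := real_inner_le_norm x h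
    nlinarith [sq_nonneg (‖x‖ / 2 - ‖h‖)]
  refine (exp_neg_integrable' hc2 hl2).congr ?_
  filter_upwards with x
  rw [← Real.exp_add]
  congr 1
  ring

theorem gauss_exp_one (h : E d) :
    ∫ z : E d, Real.exp (inner ℝ z h - ‖h‖ ^ 2 / 2) ∂(stdGaussian (E d)) = 1 := by
  have := gauss_cm h (fun _ => (1 : ℝ))
  simp only [mul_one] at this
  rw [← this]
  simp

theorem gauss_exp_two (h : E d) :
    ∫ z : E d, (Real.exp (inner ℝ z h - ‖h‖ ^ 2 / 2)) ^ 2 ∂(stdGaussian (E d)) =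
      Real.exp (‖h‖ ^ 2) := by
  have := gauss_cm h (fun z => Real.exp (inner ℝ z h - ‖h‖ ^ 2 / 2))
  have e1 : ∀ z : E d, (Real.exp (inner ℝ z h - ‖h‖ ^ 2 / 2)) ^ 2 =
      Real.exp (inner ℝ z h - ‖h‖ ^ 2 / 2) * Real.exp (inner ℝ z h - ‖h‖ ^ 2 / 2) := fun z => sq _
  simp only [e1]
  rw [← this]
  have e2 : ∀ z : E d, Real.exp (inner ℝ (z + h) h - ‖h‖ ^ 2 / 2) =
      Real.exp (‖h‖ ^ 2) * Real.exp (inner ℝ z h - ‖h‖ ^ 2 / 2) := by
    intro z
    rw [← Real.exp_add, inner_add_left, real_inner_self_eq_norm_sq]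
    congr 1
    ring
  simp only [e2]
  rw [integral_const_mul, gauss_exp_one, mul_one]

theorem gauss_shift_aux (h : E d) {f : E d → ℝ} (hf : Measurable f) (h0 : ∀ x, 0 ≤ f x)
    (h1 : ∀ x, f x ≤ 1) :
    |∫ z, f (z + h) ∂(stdGaussian (E d)) - ∫ z, f z ∂(stdGaussian (E d))| ≤ ‖h‖ := by
  rcases le_or_gt 1 ‖h‖ with hh | hh
  · have a := int01_mem (stdGaussian (E d)) (f := fun z => f (z + h))
      (hf.comp (measurable_add_const h)) (fun _ => h0 _) (fun _ => h1 _)
    have b := int01_mem (stdGaussian (E d)) hf h0 h1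
    rw [abs_le]
    constructor <;> linarith
  set γ := stdGaussian (E d) with hγ
  set L : E d → ℝ := fun z => Real.exp (inner ℝ z h - ‖h‖ ^ 2 / 2) with hL
  have hLi : Integrable L γ := gauss_exp_int h _
  have hLc : Continuous L := by
    rw [hL]
    fun_prop
  have hfi : Integrable f γ := int01 γ hf h0 h1
  have hLfi : Integrable (fun z => L z * f z) γ := by
    refine hLi.mono ?_ (Filter.Eventually.of_forall fun z => ?_)
    · exact (hLc.measurable.mul hf).aestronglyMeasurable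
    · rw [norm_mul]
      have : ‖f z‖ ≤ 1 := by
        rw [Real.norm_eq_abs, abs_of_nonneg (h0 z)]
        exact h1 z
      nlinarith [norm_nonneg (L z)]
  have hL2i : Integrable (fun z => (L z) ^ 2) γ := by
    have := gauss_exp_int ((2 : ℝ) • h) (‖h‖ ^ 2)
    refine this.congr (Filter.Eventually.of_forall fun z => ?_)
    simp only [hL]
    rw [← Real.exp_nat_mul, inner_smul_right]
    congr 1
    push_cast
    ring
  have hdi : Integrable (fun z => L z - 1) γ := hLi.sub (integrable_const _)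
  have e1 : ∫ z, f (z + h) ∂γ - ∫ z, f z ∂γ = ∫ z, (f z - 1 / 2) * (L z - 1) ∂γ := by
    rw [gauss_cm h f]
    have e2 : ∀ z, (f z - 1 / 2) * (L z - 1) = L z * f z - f z - (1 / 2) * (L z - 1) := by
      intro z
      ring
    simp only [e2]
    have hA : Integrable (fun z => L z * f z - f z) γ := hLfi.sub hfi
    have hB : Integrable (fun z => (1 / 2 : ℝ) * (L z - 1)) γ := hdi.const_mul _
    rw [integral_sub hA hB, integral_sub hLfi hfi, integral_const_mul,
      integral_sub hLi (integrable_const _), gauss_exp_one]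
    simp [hL, hγ]
  have hd2 : Integrable (fun z => (L z - 1) ^ 2) γ := by
    have e3 : ∀ z, (L z - 1) ^ 2 = (L z) ^ 2 - 2 * L z + 1 := by
      intro z
      ring
    simp only [e3]
    exact (hL2i.sub (hLi.const_mul 2)).add (integrable_const _)
  have i2 : ∫ z, (L z - 1) ^ 2 ∂γ = Real.exp (‖h‖ ^ 2) - 1 := by
    have e3 : ∀ z, (L z - 1) ^ 2 = (L z) ^ 2 - 2 * L z + 1 := by
      intro z
      ring
    simp only [e3]
    have hB : Integrable (fun z => 2 * L z) γ := hLi.const_mul _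
    have hA : Integrable (fun z => (L z) ^ 2 - 2 * L z) γ := hL2i.sub hB
    rw [integral_add hA (integrable_const _),
      integral_sub hL2i hB, integral_const_mul, gauss_exp_one, gauss_exp_two]
    simp
    ring
  -- pointwise `|f - 1/2| |L - 1| ≤ (t/4) (L-1)^2 + 1/(4t)` and optimise; or Cauchy–Schwarz
  have hle : |∫ z, (f z - 1 / 2) * (L z - 1) ∂γ| ≤ ∫ z, (1 / 2) * |L z - 1| ∂γ := by
    refine (abs_integral_le_integral_abs).trans ?_
    refine integral_mono_of_nonneg (Filter.Eventually.of_forall fun z => abs_nonneg _)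
      (hdi.abs.const_mul _) (Filter.Eventually.of_forall fun z => ?_)
    simp only [abs_mul]
    refine mul_le_mul_of_nonneg_right ?_ (abs_nonneg _)
    rw [abs_le]
    constructor <;> linarith [h0 z, h1 z]
  have hcs : (∫ z, |L z - 1| ∂γ) ^ 2 ≤ ∫ z, (L z - 1) ^ 2 ∂γ := by
    -- variance is nonnegative
    set m := ∫ z, |L z - 1| ∂γ with hm
    have hnn : 0 ≤ ∫ z, (|L z - 1| - m) ^ 2 ∂γ := integral_nonneg fun z => sq_nonneg _
    have e4 : ∀ z, (|L z - 1| - m) ^ 2 = (L z - 1) ^ 2 - 2 * m * |L z - 1| + m ^ 2 := by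
      intro z
      rw [sub_sq, sq_abs]
      ring
    simp only [e4] at hnn
    have hB : Integrable (fun z => 2 * m * |L z - 1|) γ := hdi.abs.const_mul _
    have hA : Integrable (fun z => (L z - 1) ^ 2 - 2 * m * |L z - 1|) γ := hd2.sub hB
    rw [integral_add hA (integrable_const _),
      integral_sub hd2 hB, integral_const_mul, ← hm] at hnn
    simp at hnn
    nlinarith
  rw [i2] at hcs
  have hexp : Real.exp (‖h‖ ^ 2) - 1 ≤ 4 * ‖h‖ ^ 2 := by
    have hq0 : 0 ≤ ‖h‖ ^ 2 := sq_nonneg _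
    have hq : ‖h‖ ^ 2 ≤ 1 := by nlinarith [norm_nonneg h]
    have := Real.abs_exp_sub_one_le (x := ‖h‖ ^ 2) (by rw [abs_of_nonneg hq0]; exact hq)
    rw [abs_of_nonneg hq0] at this
    have h5 := le_abs_self (Real.exp (‖h‖ ^ 2) - 1)
    linarith
  have hmn : 0 ≤ ∫ z, |L z - 1| ∂γ := integral_nonneg fun z => abs_nonneg _
  have hfin : ∫ z, |L z - 1| ∂γ ≤ 2 * ‖h‖ := by
    apply le_of_sq_le_sq _ (by positivity)
    nlinarith
  rw [e1]
  refine hle.trans ?_
  rw [integral_const_mul]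
  linarith

theorem gauss_shift (a b : E d) {σ : ℝ} (hσ : 0 < σ) :
    TVle ((stdGaussian (E d)).map (fun z => a + σ • z))
      ((stdGaussian (E d)).map (fun z => b + σ • z)) (‖a - b‖ / σ) := by
  intro f hf h0 h1
  have ma : Measurable (fun z : E d => a + σ • z) := by fun_prop
  have mb : Measurable (fun z : E d => b + σ • z) := by fun_prop
  rw [integral_map ma.aemeasurable hf.aestronglyMeasurable,
    integral_map mb.aemeasurable hf.aestronglyMeasurable]
  have := gauss_shift_aux (σ⁻¹ • (a - b)) (f := fun z => f (b + σ • z)) (hf.comp mb)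
    (fun _ => h0 _) (fun _ => h1 _)
  rw [norm_smul, Real.norm_eq_abs, abs_of_pos (inv_pos.2 hσ)] at this
  rw [div_eq_inv_mul]
  refine le_trans (le_of_eq ?_) this
  congr 3
  funext z
  rw [smul_add, smul_smul, mul_inv_cancel₀ hσ.ne', one_smul]
  congr 1
  abel

/-- two blocks -/
theorem gauss_shift2 (u w : E d × E d) {σ τ : ℝ} (hσ : 0 < σ) (hτ : 0 < τ) :
    TVle (((stdGaussian (E d)).prod (stdGaussian (E d))).map
        (fun p => (u.1 + σ • p.1, u.2 + τ • p.2)))
      (((stdGaussian (E d)).prod (stdGaussian (E d))).map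
        (fun p => (w.1 + σ • p.1, w.2 + τ • p.2))) (‖u.1 - w.1‖ / σ + ‖u.2 - w.2‖ / τ) := by
  set γ := stdGaussian (E d) with hγ
  have mp : ∀ (a : E d) (s : ℝ), Measurable (fun z : E d => a + s • z) := by
    intro a s
    fun_prop
  have key : ∀ v : E d × E d, (γ.prod γ).map (fun p => (v.1 + σ • p.1, v.2 + τ • p.2)) =
      (γ.map (fun z => v.1 + σ • z)).prod (γ.map (fun z => v.2 + τ • z)) := by
    intro v
    rw [Measure.map_prod_map _ _ (mp v.1 σ) (mp v.2 τ)]
    rfl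
  have p1 : ∀ (a : E d) (s : ℝ), IsProbabilityMeasure (γ.map (fun z => a + s • z)) := fun a s =>
    Measure.isProbabilityMeasure_map (mp a s).aemeasurable
  have := p1 u.1 σ
  have := p1 w.1 σ
  have := p1 u.2 τ
  have := p1 w.2 τ
  rw [key, key]
  have s1 : TVle ((γ.map (fun z => u.1 + σ • z)).prod (γ.map (fun z => u.2 + τ • z)))
      ((γ.map (fun z => w.1 + σ • z)).prod (γ.map (fun z => u.2 + τ • z))) (‖u.1 - w.1‖ / σ) :=
    (gauss_shift u.1 w.1 hσ).prod_right _
  have s2 : TVle ((γ.map (fun z => w.1 + σ • z)).prod (γ.map (fun z => u.2 + τ • z)))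
      ((γ.map (fun z => w.1 + σ • z)).prod (γ.map (fun z => w.2 + τ • z))) (‖u.2 - w.2‖ / τ) := by
    have := ((gauss_shift u.2 w.2 hτ).prod_right (γ.map (fun z => w.1 + σ • z))).map
      (measurable_swap)
    rwa [Measure.prod_swap, Measure.prod_swap] at this
  exact s1.trans s2

/-- random shifts: `a, b` random (functions of an independent noise) -/
theorem gauss_shift_mix {Ω : Type*} [MeasurableSpace Ω] (μ : Measure Ω) [IsProbabilityMeasure μ]
    {a b : Ω → E d} (ha : Measurable a) (hb : Measurable b) {σ : ℝ} (hσ : 0 < σ)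
    (hint : Integrable (fun ω => ‖a ω - b ω‖) μ) :
    TVle ((μ.prod (stdGaussian (E d))).map (fun p => a p.1 + σ • p.2))
      ((μ.prod (stdGaussian (E d))).map (fun p => b p.1 + σ • p.2))
      ((∫ ω, ‖a ω - b ω‖ ∂μ) / σ) := by
  have ma : Measurable (fun p : Ω × E d => a p.1 + σ • p.2) := by fun_prop
  have mb : Measurable (fun p : Ω × E d => b p.1 + σ • p.2) := by fun_prop
  have := TVle.mix μ (stdGaussian (E d)) (stdGaussian (E d)) ma mb (hint.div_const σ)
    (fun ω => gauss_shift (a ω) (b ω) hσ)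
  rwa [integral_div] at this

end P347Q
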