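import Vale.Agent.P347Q.MGF
import Vale.Agent.P347Q.Shift

/-!
Module Absorb (ABS).  A centered Lipschitz function `F(ξ)` of a Gaussian vector added to an independent
standard Gaussian: `TV(F(ξ) + ζ, ζ) ≤ 8 L² √n`.
The law of `F(ξ)+ζ` has density `h(ζ) = E_ξ exp(⟨F ξ, ζ⟩ - |F ξ|²/2)` with respect to `stdGaussian`
(Gaussian shift), `∫ h² = E exp⟨F ξ, F ξ'⟩ ≤ 1 + 16 L⁴ n` if `16 L⁴ n ≤ 1` (`mgf_pair`), so
`∫ |h-1| ≤ 4 L² √n`; otherwise `4 L² √n > 1` and the claim is trivial.
`absorb2` is the version for pairs.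
-/

open MeasureTheory ProbabilityTheory Function
open scoped ENNReal BigOperators

namespace P347Q

/-! ### Gaussian shift formula -/

theorem gshift_core {n : ℕ} (a : E n) {g : E n → ℝ≥0∞} (hg : Measurable g) :
    ∫⁻ z, g (a + z) ∂(stdGaussian (E n)) =
      ∫⁻ z, g z * ENNReal.ofReal (Real.exp (inner ℝ a z - ‖a‖ ^ 2 / 2)) ∂(stdGaussian (E n)) := by
  have hw : Measurable (fun x : E n => ENNReal.ofReal (Real.exp (-(‖x‖ ^ 2 / 2)))) := by fun_prop
  have h1 : Measurable (fun z : E n => g (a + z)) := hg.comp (measurable_const_add a)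
  have h2 : Measurable (fun z : E n =>
      g z * ENNReal.ofReal (Real.exp (inner ℝ a z - ‖a‖ ^ 2 / 2))) := by fun_prop
  rw [stdGaussian_eq_gibbs]
  unfold gibbs
  rw [lintegral_smul_measure, lintegral_smul_measure,
    lintegral_withDensity_eq_lintegral_mul _ hw h1, lintegral_withDensity_eq_lintegral_mul _ hw h2]
  congr 1
  have htr := lintegral_add_left_eq_self (μ := (volume : Measure (E n)))
    ((fun x : E n => ENNReal.ofReal (Real.exp (-(‖x‖ ^ 2 / 2)))) *
      fun z => g z * ENNReal.ofReal (Real.exp (inner ℝ a z - ‖a‖ ^ 2 / 2))) a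
  rw [← htr]
  congr 1
  funext z
  simp only [Pi.mul_apply]
  have e1 : ENNReal.ofReal (Real.exp (-(‖z‖ ^ 2 / 2))) =
      ENNReal.ofReal (Real.exp (-(‖a + z‖ ^ 2 / 2))) *
        ENNReal.ofReal (Real.exp (inner ℝ a (a + z) - ‖a‖ ^ 2 / 2)) := by
    rw [← ENNReal.ofReal_mul (Real.exp_pos _).le, ← Real.exp_add]
    congr 2
    rw [norm_add_sq_real, inner_add_right, real_inner_self_eq_norm_sq]
    ring
  rw [e1]
  ring

variable {ι κ : Type} [Fintype ι] [Fintype κ]

theorem gshift (a : EuclideanSpace ℝ κ) {g : EuclideanSpace ℝ κ → ℝ≥0∞} (hg : Measurable g) :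
    ∫⁻ z, g (a + z) ∂(stdGaussian (EuclideanSpace ℝ κ)) =
      ∫⁻ z, g z * ENNReal.ofReal (Real.exp (inner ℝ a z - ‖a‖ ^ 2 / 2))
        ∂(stdGaussian (EuclideanSpace ℝ κ)) := by
  set e : E (Fintype.card κ) ≃ₗᵢ[ℝ] EuclideanSpace ℝ κ :=
    (LinearIsometryEquiv.piLpCongrLeft 2 ℝ ℝ (Fintype.equivFin κ)).symm with he
  have hem : Measurable e := e.continuous.measurable
  have hmap : (stdGaussian (E (Fintype.card κ))).map e = stdGaussian (EuclideanSpace ℝ κ) :=
    stdGaussian_map e
  have key := gshift_core (e.symm a) (g := fun z => g (e z)) (hg.comp hem)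
  rw [← hmap, lintegral_map (by fun_prop) hem, lintegral_map (by fun_prop) hem]
  simp only [map_add, e.apply_symm_apply] at key
  rw [key]
  congr 1
  funext z
  rw [e.symm.norm_map, ← e.inner_map_map, e.apply_symm_apply]

/-! ### Mixtures with densities -/

/-- A mixture of the densities `k(ω, ·)` with respect to `ν`, with second moment `≤ 1 + δ²`. -/
theorem mix_density {Ω Z : Type*} [MeasurableSpace Ω] [MeasurableSpace Z] (P : Measure Ω)
    [IsProbabilityMeasure P] (ν : Measure Z) [IsProbabilityMeasure ν] {k : Ω → Z → ℝ≥0∞}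
    (hk : Measurable (uncurry k)) (h1 : ∀ om, ∫⁻ z, k om z ∂ν = 1) {δ : ℝ} (hδ : 0 ≤ δ)
    (h2 : ∫⁻ om, ∫⁻ om', ∫⁻ z, k om z * k om' z ∂ν ∂P ∂P ≤ ENNReal.ofReal (1 + δ ^ 2))
    {g : Z → ℝ} (hg : Measurable g) (g0 : ∀ z, 0 ≤ g z) (g1 : ∀ z, g z ≤ 1) :
    |(∫⁻ om, ∫⁻ z, ENNReal.ofReal (g z) * k om z ∂ν ∂P).toReal - ∫ z, g z ∂ν| ≤ δ := by
  have hk' : Measurable (uncurry fun z om => k om z) := hk.comp measurable_swap
  set h : Z → ℝ≥0∞ := fun z => ∫⁻ om, k om z ∂P with hh
  have hhm : Measurable h := hk'.lintegral_prod_right'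
  have hh1 : ∫⁻ z, h z ∂ν = 1 := by
    rw [hh, lintegral_lintegral_swap hk'.aemeasurable]
    simp [h1]
  have hh2 : ∫⁻ z, h z ^ 2 ∂ν ≤ ENNReal.ofReal (1 + δ ^ 2) := by
    refine le_of_eq_of_le ?_ h2
    have e1 : ∀ z, h z ^ 2 = ∫⁻ om, ∫⁻ om', k om z * k om' z ∂P ∂P := by
      intro z
      have m1 : Measurable fun om => k om z := hk.comp (measurable_id.prodMk measurable_const)
      simp_rw [lintegral_const_mul _ m1]
      rw [lintegral_mul_const _ m1, sq]
    simp_rw [e1]
    have m3 : Measurable (fun q : (Z × Ω) × Ω => k q.1.2 q.1.1 * k q.2 q.1.1) := by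
      have a1 : Measurable (fun q : (Z × Ω) × Ω => k q.1.2 q.1.1) :=
        hk.comp ((measurable_fst.snd).prodMk (measurable_fst.fst))
      have a2 : Measurable (fun q : (Z × Ω) × Ω => k q.2 q.1.1) :=
        hk.comp ((measurable_snd).prodMk (measurable_fst.fst))
      exact a1.mul a2
    rw [lintegral_lintegral_swap m3.lintegral_prod_right'.aemeasurable]
    congr 1
    funext om
    have m4 : Measurable (uncurry fun (z : Z) (om' : Ω) => k om z * k om' z) := by
      have a1 : Measurable (fun q : Z × Ω => k om q.1) :=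
        hk.comp (measurable_const.prodMk measurable_fst)
      have a2 : Measurable (fun q : Z × Ω => k q.2 q.1) :=
        hk.comp (measurable_snd.prodMk measurable_fst)
      exact a1.mul a2
    rw [lintegral_lintegral_swap m4.aemeasurable]
  have hfin : ∀ᵐ z ∂ν, h z < ∞ := ae_lt_top hhm (by rw [hh1]; exact ENNReal.one_ne_top)
  set u : Z → ℝ := fun z => (h z).toReal with hu
  have hum : Measurable u := hhm.ennreal_toReal
  have hue : ∀ᵐ z ∂ν, ENNReal.ofReal (u z) = h z := by
    filter_upwards [hfin] with z hz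
    exact ENNReal.ofReal_toReal hz.ne
  have hu0 : ∀ z, 0 ≤ u z := fun z => ENNReal.toReal_nonneg
  have iu : Integrable u ν := ⟨hum.aestronglyMeasurable, by
    rw [hasFiniteIntegral_iff_ofReal (Filter.Eventually.of_forall hu0), lintegral_congr_ae hue, hh1]
    exact ENNReal.one_lt_top⟩
  have iu1 : ∫ z, u z ∂ν = 1 := by
    rw [integral_eq_lintegral_of_nonneg_ae (Filter.Eventually.of_forall hu0)
      hum.aestronglyMeasurable, lintegral_congr_ae hue, hh1, ENNReal.toReal_one]
  have hue2 : ∀ᵐ z ∂ν, ENNReal.ofReal (u z ^ 2) = h z ^ 2 := by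
    filter_upwards [hue] with z hz
    rw [ENNReal.ofReal_pow (hu0 z), hz]
  have iu2 : Integrable (fun z => u z ^ 2) ν := ⟨(hum.pow_const 2).aestronglyMeasurable, by
    rw [hasFiniteIntegral_iff_ofReal (Filter.Eventually.of_forall fun z => sq_nonneg _),
      lintegral_congr_ae hue2]
    exact hh2.trans_lt ENNReal.ofReal_lt_top⟩
  have iu2' : ∫ z, u z ^ 2 ∂ν ≤ 1 + δ ^ 2 := by
    rw [integral_eq_lintegral_of_nonneg_ae (Filter.Eventually.of_forall fun z => sq_nonneg _)
      (hum.pow_const 2).aestronglyMeasurable, lintegral_congr_ae hue2]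
    exact ENNReal.toReal_le_of_le_ofReal (by positivity) hh2
  have hlhs : (∫⁻ om, ∫⁻ z, ENNReal.ofReal (g z) * k om z ∂ν ∂P).toReal = ∫ z, g z * u z ∂ν := by
    have m5 : Measurable (uncurry fun (om : Ω) (z : Z) => ENNReal.ofReal (g z) * k om z) :=
      ((hg.comp measurable_snd).ennreal_ofReal).mul hk
    rw [lintegral_lintegral_swap m5.aemeasurable,
      integral_eq_lintegral_of_nonneg_ae
        (Filter.Eventually.of_forall fun z => mul_nonneg (g0 z) (hu0 z))
        (hg.mul hum).aestronglyMeasurable]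
    congr 1
    apply lintegral_congr_ae
    filter_upwards [hue] with z hz
    have mz : Measurable fun om => k om z := hk.comp (measurable_id.prodMk measurable_const)
    rw [ENNReal.ofReal_mul (g0 z), hz, lintegral_const_mul _ mz]
  have igu : Integrable (fun z => g z * u z) ν := by
    refine iu.mono' (hg.mul hum).aestronglyMeasurable (Filter.Eventually.of_forall fun z => ?_)
    rw [Real.norm_eq_abs, abs_of_nonneg (mul_nonneg (g0 z) (hu0 z))]
    exact mul_le_of_le_one_left (hu0 z) (g1 z)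
  have ig : Integrable g ν := by
    refine (integrable_const (1 : ℝ)).mono' hg.aestronglyMeasurable
      (Filter.Eventually.of_forall fun z => ?_)
    rw [Real.norm_eq_abs, abs_of_nonneg (g0 z)]
    exact g1 z
  rw [hlhs, ← integral_sub igu ig]
  -- Cauchy-Schwarz in the form `x ≤ (x² / s + s) / 2`
  have isq : Integrable (fun z => (u z - 1) ^ 2) ν := by
    have : (fun z => (u z - 1) ^ 2) = fun z => u z ^ 2 - 2 * u z + 1 := by funext z; ring
    rw [this]
    exact (iu2.sub (iu.const_mul 2)).add (integrable_const _)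
  have vsq : ∫ z, (u z - 1) ^ 2 ∂ν ≤ δ ^ 2 := by
    have e : (fun z => (u z - 1) ^ 2) = fun z => u z ^ 2 - 2 * u z + 1 := by funext z; ring
    have i3 : Integrable (fun z => u z ^ 2 - 2 * u z) ν := iu2.sub (iu.const_mul 2)
    have i4 : Integrable (fun z => 2 * u z) ν := iu.const_mul 2
    rw [e, integral_add i3 (integrable_const _), integral_sub iu2 i4, integral_const_mul, iu1]
    simp only [integral_const, probReal_univ, smul_eq_mul, mul_one]
    linarith
  have hb : ∀ s : ℝ, 0 < s → |∫ z, (g z * u z - g z) ∂ν| ≤ δ ^ 2 / (2 * s) + s / 2 := by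
    intro s hs
    calc |∫ z, (g z * u z - g z) ∂ν| ≤ ∫ z, |g z * u z - g z| ∂ν := abs_integral_le_integral_abs
      _ ≤ ∫ z, ((u z - 1) ^ 2 / (2 * s) + s / 2) ∂ν := by
          refine integral_mono (igu.sub ig).abs ((isq.div_const _).add (integrable_const _))
            fun z => ?_
          simp only
          have e1 : |g z * u z - g z| ≤ |u z - 1| := by
            rw [show g z * u z - g z = g z * (u z - 1) by ring, abs_mul, abs_of_nonneg (g0 z)]
            exact mul_le_of_le_one_left (abs_nonneg _) (g1 z)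
          refine e1.trans ?_
          rw [div_add_div _ _ (by positivity) (by norm_num), le_div_iff₀ (by positivity)]
          nlinarith [sq_nonneg (|u z - 1| - s), sq_abs (u z - 1)]
      _ = (∫ z, (u z - 1) ^ 2 ∂ν) / (2 * s) + s / 2 := by
          rw [integral_add (isq.div_const _) (integrable_const _), integral_div]
          simp
      _ ≤ δ ^ 2 / (2 * s) + s / 2 := by gcongr
  rcases hδ.eq_or_lt with h | h
  · rw [← h]
    refine le_of_forall_pos_le_add fun s hs => ?_
    have := hb s hs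
    rw [← h] at this
    norm_num at this
    linarith
  · have := hb δ h
    have e : δ ^ 2 / (2 * δ) + δ / 2 = δ := by field_simp; ring
    linarith

/-- the Gaussian kernel -/
noncomputable def gk (a z : EuclideanSpace ℝ κ) : ℝ≥0∞ :=
  ENNReal.ofReal (Real.exp (inner ℝ a z - ‖a‖ ^ 2 / 2))

theorem measurable_gk {α : Type*} [MeasurableSpace α] {f g : α → EuclideanSpace ℝ κ}
    (hf : Measurable f) (hg : Measurable g) : Measurable (fun a => gk (f a) (g a)) := by
  unfold gk
  have h1 : Measurable (fun a => (inner ℝ (f a) (g a) : ℝ)) := hf.inner hg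
  fun_prop

theorem lintegral_gk (a : EuclideanSpace ℝ κ) :
    ∫⁻ z, gk a z ∂(stdGaussian (EuclideanSpace ℝ κ)) = 1 := by
  have h := gshift a (g := fun _ => 1) measurable_const
  simp only [one_mul, lintegral_const, measure_univ] at h
  exact h.symm

theorem lintegral_gk_mul (a b : EuclideanSpace ℝ κ) :
    ∫⁻ z, gk a z * gk b z ∂(stdGaussian (EuclideanSpace ℝ κ)) =
      ENNReal.ofReal (Real.exp (inner ℝ a b)) := by
  have e : ∀ z, gk a z * gk b z = ENNReal.ofReal (Real.exp (-(‖a‖ ^ 2 / 2) - ‖b‖ ^ 2 / 2)) *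
      ENNReal.ofReal (Real.exp (inner ℝ (a + b) z)) := by
    intro z
    unfold gk
    rw [← ENNReal.ofReal_mul (Real.exp_pos _).le, ← ENNReal.ofReal_mul (Real.exp_pos _).le,
      ← Real.exp_add, ← Real.exp_add, inner_add_left]
    congr 2
    ring
  simp_rw [e]
  rw [lintegral_const_mul _ (by fun_prop), lintegral_exp_inner,
    ← ENNReal.ofReal_mul (Real.exp_pos _).le, ← Real.exp_add, norm_add_sq_real]
  congr 2
  ring

theorem mgf_pair_num {F : EuclideanSpace ℝ ι → EuclideanSpace ℝ κ} (hc : Continuous F)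
    {L : ℝ} (hL0 : 0 ≤ L) (hL : ∀ x y, ‖F x - F y‖ ≤ L * ‖x - y‖)
    (h0 : ∫ x, F x ∂(stdGaussian (EuclideanSpace ℝ ι)) = 0)
    (hn : 16 * L ^ 4 * Fintype.card κ ≤ 1) :
    ∫⁻ y, ∫⁻ x, ENNReal.ofReal (Real.exp (inner ℝ (F x) (F y)))
      ∂(stdGaussian (EuclideanSpace ℝ ι)) ∂(stdGaussian (EuclideanSpace ℝ ι)) ≤
      ENNReal.ofReal (1 + 16 * L ^ 4 * Fintype.card κ) := by
  rcases Nat.eq_zero_or_pos (Fintype.card κ) with h | h
  · have hκ : IsEmpty κ := Fintype.card_eq_zero_iff.1 h
    have h1 : ∀ x y : EuclideanSpace ℝ κ, inner ℝ x y = (0 : ℝ) := fun x y => by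
      rw [Subsingleton.elim x 0, inner_zero_left]
    simp [h1]
  · have h1 : (1 : ℝ) ≤ Fintype.card κ := by exact_mod_cast h
    have h2 : 0 ≤ L ^ 4 := by positivity
    have h3 : 16 * L ^ 4 ≤ 1 := by nlinarith
    refine (mgf_pair_aux hc hL0 hL h0 (by linarith)).trans (ENNReal.ofReal_le_ofReal ?_)
    have hu0 : 0 ≤ 4 * L ^ 4 * Fintype.card κ := by positivity
    have hu : 4 * L ^ 4 * Fintype.card κ ≤ 1 / 4 := by linarith
    have h5 := Real.exp_bound_div_one_sub_of_interval hu0 (by linarith)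
    refine h5.trans ?_
    rw [div_le_iff₀ (by linarith)]
    nlinarith

theorem integral_test {X : Type*} [MeasurableSpace X] (μ : Measure X) {f : X → ℝ}
    (hf : Measurable f) (f0 : ∀ x, 0 ≤ f x) :
    ∫ x, f x ∂μ = (∫⁻ x, ENNReal.ofReal (f x) ∂μ).toReal :=
  integral_eq_lintegral_of_nonneg_ae (Filter.Eventually.of_forall f0) hf.aestronglyMeasurable

theorem abs_sub_test_le_one {X Y : Type*} [MeasurableSpace X] [MeasurableSpace Y]
    (μ : Measure X) [IsProbabilityMeasure μ] (ν : Measure Y) [IsProbabilityMeasure ν]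
    {f : X → ℝ} {g : Y → ℝ} (hf : Measurable f) (hg : Measurable g) (f0 : ∀ x, 0 ≤ f x)
    (f1 : ∀ x, f x ≤ 1) (g0 : ∀ x, 0 ≤ g x) (g1 : ∀ x, g x ≤ 1) :
    |∫ x, f x ∂μ - ∫ x, g x ∂ν| ≤ 1 := by
  have i1 : Integrable f μ := (integrable_const (1 : ℝ)).mono' hf.aestronglyMeasurable
    (Filter.Eventually.of_forall fun z => by rw [Real.norm_eq_abs, abs_of_nonneg (f0 z)]; exact f1 z)
  have i2 : Integrable g ν := (integrable_const (1 : ℝ)).mono' hg.aestronglyMeasurable
    (Filter.Eventually.of_forall fun z => by rw [Real.norm_eq_abs, abs_of_nonneg (g0 z)]; exact g1 z)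
  have h1 : ∫ x, f x ∂μ ≤ 1 := by
    have := integral_mono i1 (integrable_const 1) f1
    simpa using this
  have h2 : ∫ x, g x ∂ν ≤ 1 := by
    have := integral_mono i2 (integrable_const 1) g1
    simpa using this
  have h3 : 0 ≤ ∫ x, f x ∂μ := integral_nonneg f0
  have h4 : 0 ≤ ∫ x, g x ∂ν := integral_nonneg g0
  rw [abs_le]
  constructor <;> linarith

/-- Lipschitz version -/
theorem absorb_lip {F : EuclideanSpace ℝ ι → EuclideanSpace ℝ κ} (hc : Continuous F)
    {L : ℝ} (hL0 : 0 ≤ L) (hL : ∀ x y, ‖F x - F y‖ ≤ L * ‖x - y‖)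
    (h0 : ∫ x, F x ∂(stdGaussian (EuclideanSpace ℝ ι)) = 0) :
    TVle (((stdGaussian (EuclideanSpace ℝ ι)).prod (stdGaussian (EuclideanSpace ℝ κ))).map
        (fun p => F p.1 + p.2)) (stdGaussian (EuclideanSpace ℝ κ))
      (8 * L ^ 2 * √(Fintype.card κ)) := by
  intro g hg g0 g1
  have hm : Measurable (fun p : EuclideanSpace ℝ ι × EuclideanSpace ℝ κ => F p.1 + p.2) := by
    have : Continuous (fun p : EuclideanSpace ℝ ι × EuclideanSpace ℝ κ => F p.1 + p.2) := by
      fun_prop
    exact this.measurable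
  rcases le_or_gt (16 * L ^ 4 * Fintype.card κ) 1 with hn | hn
  · have hδ : (4 * L ^ 2 * √(Fintype.card κ)) ^ 2 = 16 * L ^ 4 * Fintype.card κ := by
      rw [mul_pow, Real.sq_sqrt (Nat.cast_nonneg _)]; ring
    have hk : Measurable (fun p : EuclideanSpace ℝ ι × EuclideanSpace ℝ κ => gk (F p.1) p.2) :=
      measurable_gk (hc.measurable.comp measurable_fst) measurable_snd
    have key := mix_density (stdGaussian (EuclideanSpace ℝ ι)) (stdGaussian (EuclideanSpace ℝ κ))
      (k := fun x z => gk (F x) z) hk (fun x => lintegral_gk (F x)) (δ := 4 * L ^ 2 * √(Fintype.card κ)) (by positivity)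
      (by
        simp_rw [lintegral_gk_mul]
        rw [hδ]
        have := mgf_pair_num hc hL0 hL h0 hn
        simp_rw [real_inner_comm] at this ⊢
        exact this) hg g0 g1
    have e : ∫ x, g x ∂(((stdGaussian (EuclideanSpace ℝ ι)).prod
        (stdGaussian (EuclideanSpace ℝ κ))).map (fun p => F p.1 + p.2)) =
        (∫⁻ x, ∫⁻ z, ENNReal.ofReal (g z) * gk (F x) z ∂(stdGaussian (EuclideanSpace ℝ κ))
          ∂(stdGaussian (EuclideanSpace ℝ ι))).toReal := by
      have hgm : Measurable (fun p : EuclideanSpace ℝ ι × EuclideanSpace ℝ κ =>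
        ENNReal.ofReal (g (F p.1 + p.2))) := hg.ennreal_ofReal.comp hm
      rw [integral_test _ hg g0, lintegral_map hg.ennreal_ofReal hm,
        lintegral_prod _ hgm.aemeasurable]
      congr 2
      funext x
      exact gshift (F x) (g := fun z => ENNReal.ofReal (g z)) hg.ennreal_ofReal
    rw [e]
    refine key.trans ?_
    have : 0 ≤ L ^ 2 * √(Fintype.card κ) := by positivity
    linarith
  · have : IsProbabilityMeasure (((stdGaussian (EuclideanSpace ℝ ι)).prod
        (stdGaussian (EuclideanSpace ℝ κ))).map (fun p => F p.1 + p.2)) :=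
      Measure.isProbabilityMeasure_map hm.aemeasurable
    refine (abs_sub_test_le_one _ _ hg hg g0 g1 g0 g1).trans ?_
    have h1 : (1 : ℝ) < (4 * L ^ 2 * √(Fintype.card κ)) ^ 2 := by
      rw [mul_pow, Real.sq_sqrt (Nat.cast_nonneg _)]
      nlinarith
    have h2 : 0 ≤ L ^ 2 * √(Fintype.card κ) := by positivity
    nlinarith

theorem absorb (F : EuclideanSpace ℝ ι → EuclideanSpace ℝ κ) (hF : ContDiff ℝ 1 F)
    {L : ℝ} (hL0 : 0 ≤ L) (hL : ∀ x, ‖fderiv ℝ F x‖ ≤ L)
    (h0 : ∫ x, F x ∂(stdGaussian (EuclideanSpace ℝ ι)) = 0) :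
    TVle (((stdGaussian (EuclideanSpace ℝ ι)).prod (stdGaussian (EuclideanSpace ℝ κ))).map
        (fun p => F p.1 + p.2)) (stdGaussian (EuclideanSpace ℝ κ))
      (8 * L ^ 2 * √(Fintype.card κ)) :=
  absorb_lip hF.continuous hL0 (lip_of_fderiv hF hL) h0

/-- Lipschitz version for pairs -/
theorem absorb2_lip {d : ℕ} {F₁ F₂ : EuclideanSpace ℝ ι → E d}
    (h1 : Continuous F₁) (h2 : Continuous F₂) {L : ℝ} (hL0 : 0 ≤ L)
    (h1L : ∀ x y, ‖F₁ x - F₁ y‖ ≤ L * ‖x - y‖) (h2L : ∀ x y, ‖F₂ x - F₂ y‖ ≤ L * ‖x - y‖)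
    (h10 : ∫ x, F₁ x ∂(stdGaussian (EuclideanSpace ℝ ι)) = 0)
    (h20 : ∫ x, F₂ x ∂(stdGaussian (EuclideanSpace ℝ ι)) = 0) :
    TVle (((stdGaussian (EuclideanSpace ℝ ι)).prod
          ((stdGaussian (E d)).prod (stdGaussian (E d)))).map
        (fun p => (F₁ p.1 + p.2.1, F₂ p.1 + p.2.2)))
      ((stdGaussian (E d)).prod (stdGaussian (E d))) (32 * L ^ 2 * √d) := by
  intro g hg g0 g1
  have hm : Measurable (fun p : EuclideanSpace ℝ ι × (E d × E d) =>
      (F₁ p.1 + p.2.1, F₂ p.1 + p.2.2)) := by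
    have : Continuous (fun p : EuclideanSpace ℝ ι × (E d × E d) =>
      (F₁ p.1 + p.2.1, F₂ p.1 + p.2.2)) := by fun_prop
    exact this.measurable
  -- the pair as one vector
  set F : EuclideanSpace ℝ ι → EuclideanSpace ℝ (Fin d ⊕ Fin d) :=
    fun x => WithLp.toLp 2 (Sum.elim (F₁ x) (F₂ x)) with hF
  have hin : ∀ x y, inner ℝ (F x) (F y) = inner ℝ (F₁ x) (F₁ y) + inner ℝ (F₂ x) (F₂ y) := by
    intro x y
    simp only [hF, PiLp.inner_apply, Fintype.sum_sum_type, Sum.elim_inl, Sum.elim_inr]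
  have hsub : ∀ x y, ‖F x - F y‖ ^ 2 = ‖F₁ x - F₁ y‖ ^ 2 + ‖F₂ x - F₂ y‖ ^ 2 := by
    intro x y
    simp only [EuclideanSpace.norm_sq_eq, Fintype.sum_sum_type, hF]
    rfl
  have hL : ∀ x y, ‖F x - F y‖ ≤ (√2 * L) * ‖x - y‖ := by
    intro x y
    apply le_of_sq_le_sq _ (by positivity)
    rw [hsub, mul_pow, mul_pow, Real.sq_sqrt (by norm_num : (0 : ℝ) ≤ 2)]
    have a1 := pow_le_pow_left₀ (norm_nonneg _) (h1L x y) 2
    have a2 := pow_le_pow_left₀ (norm_nonneg _) (h2L x y) 2
    rw [mul_pow] at a1 a2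
    linarith
  have hc : Continuous F := by
    have : LipschitzWith (√2 * L).toNNReal F := LipschitzWith.of_dist_le_mul fun x y => by
      rw [dist_eq_norm, dist_eq_norm, Real.coe_toNNReal _ (by positivity)]
      exact hL x y
    exact this.continuous
  have hFint := integrable_of_lip hc hL
  have h0 : ∫ x, F x ∂(stdGaussian (EuclideanSpace ℝ ι)) = 0 := by
    ext i
    have e1 : (∫ x, F x ∂(stdGaussian (EuclideanSpace ℝ ι))) i =
        ∫ x, F x i ∂(stdGaussian (EuclideanSpace ℝ ι)) :=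
      ((EuclideanSpace.proj (𝕜 := ℝ) i).integral_comp_comm hFint).symm
    rw [e1]
    have p1 := integrable_of_lip h1 h1L
    have p2 := integrable_of_lip h2 h2L
    rcases i with i | i
    · have e2 : (∫ x, F₁ x ∂(stdGaussian (EuclideanSpace ℝ ι))) i =
          ∫ x, F₁ x i ∂(stdGaussian (EuclideanSpace ℝ ι)) :=
        ((EuclideanSpace.proj (𝕜 := ℝ) i).integral_comp_comm p1).symm
      simp only [hF, Sum.elim_inl]
      rw [← e2, h10]
      rfl
    · have e2 : (∫ x, F₂ x ∂(stdGaussian (EuclideanSpace ℝ ι))) i =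
          ∫ x, F₂ x i ∂(stdGaussian (EuclideanSpace ℝ ι)) :=
        ((EuclideanSpace.proj (𝕜 := ℝ) i).integral_comp_comm p2).symm
      simp only [hF, Sum.elim_inr]
      rw [← e2, h20]
      rfl
  have hcard : (Fintype.card (Fin d ⊕ Fin d) : ℝ) = 2 * d := by
    simp only [Fintype.card_sum, Fintype.card_fin]; push_cast; ring
  have hs4 : (√2 * L) ^ 4 = 4 * L ^ 4 := by
    rw [mul_pow, show (√2 : ℝ) ^ 4 = (√2 ^ 2) ^ 2 by ring, Real.sq_sqrt (by norm_num)]
    norm_num
  rcases le_or_gt (128 * L ^ 4 * d) 1 with hn | hn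
  · have hδ : (12 * L ^ 2 * √d) ^ 2 = 144 * L ^ 4 * d := by
      rw [mul_pow, Real.sq_sqrt (Nat.cast_nonneg _)]; ring
    have hk : Measurable (fun p : EuclideanSpace ℝ ι × (E d × E d) =>
        gk (F₁ p.1) p.2.1 * gk (F₂ p.1) p.2.2) :=
      (measurable_gk (h1.measurable.comp measurable_fst) (measurable_fst.comp measurable_snd)).mul
        (measurable_gk (h2.measurable.comp measurable_fst) (measurable_snd.comp measurable_snd))
    have key := mix_density (stdGaussian (EuclideanSpace ℝ ι))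
      ((stdGaussian (E d)).prod (stdGaussian (E d)))
      (k := fun x z => gk (F₁ x) z.1 * gk (F₂ x) z.2) hk
      (fun x => by
        have m1 : Measurable (gk (F₁ x)) := measurable_gk measurable_const measurable_id
        have m2 : Measurable (gk (F₂ x)) := measurable_gk measurable_const measurable_id
        rw [lintegral_prod_mul m1.aemeasurable m2.aemeasurable, lintegral_gk, lintegral_gk,
          one_mul]) (δ := 12 * L ^ 2 * √d) (by positivity)
      (by
        have e : ∀ x y, ∫⁻ z : E d × E d, gk (F₁ x) z.1 * gk (F₂ x) z.2 *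
            (gk (F₁ y) z.1 * gk (F₂ y) z.2) ∂((stdGaussian (E d)).prod (stdGaussian (E d))) =
            ENNReal.ofReal (Real.exp (inner ℝ (F y) (F x))) := by
          intro x y
          have m1 : Measurable (fun z => gk (F₁ x) z * gk (F₁ y) z) :=
            (measurable_gk measurable_const measurable_id).mul
              (measurable_gk measurable_const measurable_id)
          have m2 : Measurable (fun z => gk (F₂ x) z * gk (F₂ y) z) :=
            (measurable_gk measurable_const measurable_id).mul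
              (measurable_gk measurable_const measurable_id)
          calc _ = ∫⁻ z : E d × E d, (gk (F₁ x) z.1 * gk (F₁ y) z.1) *
              (gk (F₂ x) z.2 * gk (F₂ y) z.2) ∂((stdGaussian (E d)).prod (stdGaussian (E d))) := by
                congr 1; funext z; ring
            _ = _ := by
                rw [lintegral_prod_mul m1.aemeasurable m2.aemeasurable, lintegral_gk_mul,
                  lintegral_gk_mul, ← ENNReal.ofReal_mul (Real.exp_pos _).le, ← Real.exp_add,
                  real_inner_comm (F x) (F y), hin]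
        simp_rw [e]
        have h3 := mgf_pair_num hc (by positivity) hL h0 (by
          rw [hs4, hcard]; linarith)
        refine h3.trans (ENNReal.ofReal_le_ofReal ?_)
        rw [hs4, hcard, hδ]
        have : 0 ≤ L ^ 4 * d := by positivity
        linarith) hg g0 g1
    have e : ∫ x, g x ∂(((stdGaussian (EuclideanSpace ℝ ι)).prod
          ((stdGaussian (E d)).prod (stdGaussian (E d)))).map
        (fun p => (F₁ p.1 + p.2.1, F₂ p.1 + p.2.2))) =
        (∫⁻ x, ∫⁻ z, ENNReal.ofReal (g z) * (gk (F₁ x) z.1 * gk (F₂ x) z.2)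
          ∂((stdGaussian (E d)).prod (stdGaussian (E d)))
          ∂(stdGaussian (EuclideanSpace ℝ ι))).toReal := by
      have hgm : Measurable (fun p : EuclideanSpace ℝ ι × (E d × E d) =>
        ENNReal.ofReal (g (F₁ p.1 + p.2.1, F₂ p.1 + p.2.2))) := hg.ennreal_ofReal.comp hm
      rw [integral_test _ hg g0, lintegral_map hg.ennreal_ofReal hm,
        lintegral_prod _ hgm.aemeasurable]
      congr 2
      funext x
      have q1 : Measurable (fun z : E d × E d => ENNReal.ofReal (g (F₁ x + z.1, F₂ x + z.2))) := by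
        fun_prop
      have q2 : Measurable (fun z : E d × E d =>
          ENNReal.ofReal (g z) * (gk (F₁ x) z.1 * gk (F₂ x) z.2)) := by
        have m1 : Measurable (gk (F₁ x)) := measurable_gk measurable_const measurable_id
        have m2 : Measurable (gk (F₂ x)) := measurable_gk measurable_const measurable_id
        fun_prop
      rw [lintegral_prod _ q1.aemeasurable, lintegral_prod _ q2.aemeasurable]
      have s1 : ∀ z₁, ∫⁻ z₂, ENNReal.ofReal (g (F₁ x + z₁, F₂ x + z₂)) ∂(stdGaussian (E d)) =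
          ∫⁻ z₂, ENNReal.ofReal (g (F₁ x + z₁, z₂)) * gk (F₂ x) z₂ ∂(stdGaussian (E d)) :=
        fun z₁ => gshift (F₂ x) (g := fun z => ENNReal.ofReal (g (F₁ x + z₁, z))) (by fun_prop)
      simp only
      simp_rw [s1]
      have m2 : Measurable (gk (F₂ x)) := measurable_gk measurable_const measurable_id
      have q3 : Measurable (fun z₁ => ∫⁻ z₂, ENNReal.ofReal (g (z₁, z₂)) * gk (F₂ x) z₂
          ∂(stdGaussian (E d))) := by
        have : Measurable (uncurry fun (z₁ z₂ : E d) =>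
          ENNReal.ofReal (g (z₁, z₂)) * gk (F₂ x) z₂) := by
          have a1 : Measurable (fun p : E d × E d => ENNReal.ofReal (g (p.1, p.2))) := by fun_prop
          exact a1.mul (m2.comp measurable_snd)
        exact this.lintegral_prod_right'
      have s2 := gshift (F₁ x) (g := fun z₁ => ∫⁻ z₂, ENNReal.ofReal (g (z₁, z₂)) * gk (F₂ x) z₂
          ∂(stdGaussian (E d))) q3
      simp only at s2
      rw [s2]
      congr 1
      funext z₁
      rw [← lintegral_mul_const _ (by fun_prop)]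
      congr 1
      funext z₂
      unfold gk
      ring
    rw [e]
    refine key.trans ?_
    have : 0 ≤ L ^ 2 * √d := by positivity
    linarith
  · have : IsProbabilityMeasure (((stdGaussian (EuclideanSpace ℝ ι)).prod
          ((stdGaussian (E d)).prod (stdGaussian (E d)))).map
        (fun p => (F₁ p.1 + p.2.1, F₂ p.1 + p.2.2))) :=
      Measure.isProbabilityMeasure_map hm.aemeasurable
    refine (abs_sub_test_le_one _ _ hg hg g0 g1 g0 g1).trans ?_
    have h3 : (1 : ℝ) < (32 * L ^ 2 * √d) ^ 2 := by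
      rw [mul_pow, Real.sq_sqrt (Nat.cast_nonneg _)]
      nlinarith
    have h2 : 0 ≤ L ^ 2 * √d := by positivity
    nlinarith

theorem absorb2 {d : ℕ} (F₁ F₂ : EuclideanSpace ℝ ι → E d)
    (h1 : ContDiff ℝ 1 F₁) (h2 : ContDiff ℝ 1 F₂) {L : ℝ} (hL0 : 0 ≤ L)
    (h1L : ∀ x, ‖fderiv ℝ F₁ x‖ ≤ L) (h2L : ∀ x, ‖fderiv ℝ F₂ x‖ ≤ L)
    (h10 : ∫ x, F₁ x ∂(stdGaussian (EuclideanSpace ℝ ι)) = 0)
    (h20 : ∫ x, F₂ x ∂(stdGaussian (EuclideanSpace ℝ ι)) = 0) :
    TVle (((stdGaussian (EuclideanSpace ℝ ι)).prod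
          ((stdGaussian (E d)).prod (stdGaussian (E d)))).map
        (fun p => (F₁ p.1 + p.2.1, F₂ p.1 + p.2.2)))
      ((stdGaussian (E d)).prod (stdGaussian (E d))) (32 * L ^ 2 * √d) :=
  absorb2_lip h1.continuous h2.continuous hL0 (lip_of_fderiv h1 h1L) (lip_of_fderiv h2 h2L)
    h10 h20

end P347Q
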