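import Vale.Agent.P347Q.Defs

/-!
Auxiliary facts: potentials of class `C²` with Hessian between `1` and `2` (Taylor bounds, Lipschitz
gradient), Gaussian moments.
-/

open MeasureTheory ProbabilityTheory Function
open scoped ENNReal BigOperators ContDiff Topology

namespace P347Q

namespace PotAux

variable {d : ℕ} {V : E d → ℝ}

/-- Cauchy-Schwarz for symmetric bilinear forms between `0` and `2` -/
theorem bil_le {X : Type*} [NormedAddCommGroup X] [NormedSpace ℝ X] (A : X →L[ℝ] X →L[ℝ] ℝ)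
    (hs : ∀ u w, A u w = A w u) (hl : ∀ w, 0 ≤ A w w) (hu : ∀ w, A w w ≤ 2 * ‖w‖ ^ 2) (u w : X) :
    |A u w| ≤ 2 * ‖u‖ * ‖w‖ := by
  have h1 : ∀ t : ℝ, 0 ≤ A w w * (t * t) + (2 * A u w) * t + A u u := by
    intro t
    have h2 := hl (u + t • w)
    have h3 : A (u + t • w) (u + t • w) = A w w * (t * t) + (2 * A u w) * t + A u u := by
      simp only [map_add, map_smul, add_apply, smul_apply, smul_eq_mul]
      rw [hs w u]
      ring
    linarith
  have h4 := discrim_le_zero h1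
  unfold discrim at h4
  have h5 : (A u w) ^ 2 ≤ (2 * ‖u‖ * ‖w‖) ^ 2 := by
    have h6 : A w w * A u u ≤ (2 * ‖w‖ ^ 2) * (2 * ‖u‖ ^ 2) :=
      mul_le_mul (hu w) (hu u) (hl u) (by positivity)
    nlinarith
  exact abs_le_of_sq_le_sq h5 (by positivity)

theorem norm_hess_le (hV : ContDiff ℝ 2 V)
    (hl : ∀ x w : E d, ‖w‖ ^ 2 ≤ fderiv ℝ (fderiv ℝ V) x w w)
    (hu : ∀ x w : E d, fderiv ℝ (fderiv ℝ V) x w w ≤ 2 * ‖w‖ ^ 2) (x : E d) :
    ‖fderiv ℝ (fderiv ℝ V) x‖ ≤ 2 := by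
  have hs : ∀ u w : E d, fderiv ℝ (fderiv ℝ V) x u w = fderiv ℝ (fderiv ℝ V) x w u := by
    intro u w
    have := (hV.contDiffAt (x := x)).isSymmSndFDerivAt
      (by rw [minSmoothness_of_isRCLikeNormedField])
    exact this u w
  refine ContinuousLinearMap.opNorm_le_bound _ (by norm_num) fun u => ?_
  refine ContinuousLinearMap.opNorm_le_bound _ (by positivity) fun w => ?_
  rw [Real.norm_eq_abs]
  exact bil_le _ hs (fun w => le_trans (sq_nonneg _) (hl x w)) (hu x) u w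

theorem fderiv_diff (hV : ContDiff ℝ 2 V) : Differentiable ℝ (fderiv ℝ V) :=
  (hV.fderiv_right (m := 1) (by norm_num)).differentiable (by norm_num)

theorem fderiv_lip (hV : ContDiff ℝ 2 V)
    (hl : ∀ x w : E d, ‖w‖ ^ 2 ≤ fderiv ℝ (fderiv ℝ V) x w w)
    (hu : ∀ x w : E d, fderiv ℝ (fderiv ℝ V) x w w ≤ 2 * ‖w‖ ^ 2) (x y : E d) :
    ‖fderiv ℝ V x - fderiv ℝ V y‖ ≤ 2 * ‖x - y‖ :=
  convex_univ.norm_image_sub_le_of_norm_fderiv_le (fun z _ => fderiv_diff hV z)
    (fun z _ => norm_hess_le hV hl hu z) (Set.mem_univ y) (Set.mem_univ x)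

/-- second order Taylor bounds in one variable -/
theorem taylor_one {φ φ' φ'' : ℝ → ℝ} (h1 : ∀ t, HasDerivAt φ (φ' t) t)
    (h2 : ∀ t, HasDerivAt φ' (φ'' t) t) {a : ℝ} (ha : ∀ t, a ≤ φ'' t) :
    a / 2 ≤ φ 1 - φ 0 - φ' 0 := by
  have hm : Monotone fun t => φ' t - a * t := by
    refine monotone_of_deriv_nonneg
      (fun t => ((h2 t).sub ((hasDerivAt_id t).const_mul a)).differentiableAt) fun t => ?_
    have := ((h2 t).sub ((hasDerivAt_id t).const_mul a)).deriv
    have h3 : deriv (fun t => φ' t - a * t) t = φ'' t - a * 1 := this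
    rw [h3]; linarith [ha t]
  have hd : ∀ t, HasDerivAt (fun t => φ t - φ' 0 * t - a / 2 * t ^ 2)
      (φ' t - φ' 0 * 1 - a / 2 * (2 * t)) t := by
    intro t
    have h3 := ((h1 t).fun_sub ((hasDerivAt_id t).const_mul (φ' 0))).fun_sub
      ((hasDerivAt_pow 2 t).const_mul (a / 2))
    simpa using h3
  have hm2 : MonotoneOn (fun t => φ t - φ' 0 * t - a / 2 * t ^ 2) (Set.Ici 0) := by
    refine monotoneOn_of_deriv_nonneg (convex_Ici 0)
      (fun t _ => (hd t).continuousAt.continuousWithinAt)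
      (fun t _ => (hd t).differentiableAt.differentiableWithinAt) fun t ht => ?_
    rw [(hd t).deriv]
    rw [interior_Ici, Set.mem_Ioi] at ht
    have := hm ht.le
    simp only [mul_zero, sub_zero] at this
    linarith
  have := hm2 (Set.mem_Ici.2 le_rfl) (Set.mem_Ici.2 zero_le_one) zero_le_one
  simp only [mul_zero, mul_one, one_pow] at this
  norm_num at this
  linarith

theorem taylor_aux (hV : ContDiff ℝ 2 V) (x w : E d) :
    (∀ t : ℝ, HasDerivAt (fun s : ℝ => V (x + s • w)) (fderiv ℝ V (x + t • w) w) t) ∧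
    (∀ t : ℝ, HasDerivAt (fun s : ℝ => fderiv ℝ V (x + s • w) w)
      (fderiv ℝ (fderiv ℝ V) (x + t • w) w w) t) := by
  have hline : ∀ t : ℝ, HasDerivAt (fun s : ℝ => x + s • w) w t := by
    intro t
    simpa using ((hasDerivAt_id t).smul_const w).const_add x
  constructor
  · intro t
    have hV1 : HasFDerivAt V (fderiv ℝ V (x + t • w)) (x + t • w) :=
      (hV.differentiable (by norm_num) _).hasFDerivAt
    exact hV1.comp_hasDerivAt t (hline t)
  · intro t
    have hV1 : HasFDerivAt (fderiv ℝ V) (fderiv ℝ (fderiv ℝ V) (x + t • w)) (x + t • w) :=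
      (fderiv_diff hV _).hasFDerivAt
    have h2 := hV1.comp_hasDerivAt t (hline t)
    have h3 := h2.clm_apply (hasDerivAt_const t w)
    simpa using h3

theorem taylor_lower (hV : ContDiff ℝ 2 V)
    (hl : ∀ x w : E d, ‖w‖ ^ 2 ≤ fderiv ℝ (fderiv ℝ V) x w w) (x w : E d) :
    V x + fderiv ℝ V x w + ‖w‖ ^ 2 / 2 ≤ V (x + w) := by
  obtain ⟨h1, h2⟩ := taylor_aux hV x w
  have := taylor_one h1 h2 (a := ‖w‖ ^ 2) (fun t => hl _ w)
  simp only [one_smul, zero_smul, add_zero] at this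
  linarith

theorem taylor_upper (hV : ContDiff ℝ 2 V)
    (hu : ∀ x w : E d, fderiv ℝ (fderiv ℝ V) x w w ≤ 2 * ‖w‖ ^ 2) (x w : E d) :
    V (x + w) ≤ V x + fderiv ℝ V x w + ‖w‖ ^ 2 := by
  obtain ⟨h1, h2⟩ := taylor_aux hV x w
  have := taylor_one (fun t => (h1 t).neg) (fun t => (h2 t).neg) (a := -(2 * ‖w‖ ^ 2))
    (fun t => neg_le_neg (hu _ w))
  simp only [one_smul, zero_smul, add_zero, Pi.neg_apply] at this
  linarith

theorem grad_sub (x y : E d) : ‖gradient V x - gradient V y‖ = ‖fderiv ℝ V x - fderiv ℝ V y‖ := by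
  unfold gradient
  rw [← map_sub, LinearIsometryEquiv.norm_map]

theorem norm_grad (x : E d) : ‖gradient V x‖ = ‖fderiv ℝ V x‖ := by
  unfold gradient
  rw [LinearIsometryEquiv.norm_map]

theorem fderiv_eq_inner (x w : E d) : fderiv ℝ V x w = inner ℝ (gradient V x) w := by
  unfold gradient
  rw [InnerProductSpace.toDual_symm_apply]

end PotAux

/-! Gaussian moments -/

theorem gauss_int_pow (d k : ℕ) : Integrable (fun z : E d => ‖z‖ ^ k) (stdGaussian (E d)) := by
  have h := IsGaussian.memLp_id (stdGaussian (E d)) (k : ℝ≥0∞) (by simp)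
  rcases Nat.eq_zero_or_pos k with rfl | hk
  · simp
  · exact h.integrable_norm_pow (by omega)

theorem gauss_int_pow' (d k : ℕ) :
    Integrable (fun z : E d => (1 + ‖z‖) ^ k) (stdGaussian (E d)) := by
  refine Integrable.mono' (((integrable_const (1 : ℝ)).add (gauss_int_pow d k)).const_mul
    (2 ^ (k - 1))) (by fun_prop) (Filter.Eventually.of_forall fun z => ?_)
  rw [Real.norm_of_nonneg (by positivity)]
  have := add_pow_le (zero_le_one (α := ℝ)) (norm_nonneg z) k
  simpa using this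

theorem gauss_int_poly {d : ℕ} {F : Type*} [NormedAddCommGroup F] (h : E d → F)
    (hc : AEStronglyMeasurable h (stdGaussian (E d))) (k : ℕ) (C : ℝ)
    (hb : ∀ z, ‖h z‖ ≤ C * (1 + ‖z‖) ^ k) : Integrable h (stdGaussian (E d)) :=
  Integrable.mono' ((gauss_int_pow' d k).const_mul C) hc (Filter.Eventually.of_forall hb)

theorem gauss_mean (d : ℕ) : ∫ z, z ∂(stdGaussian (E d)) = 0 := integral_id_stdGaussian

theorem gauss_coord_sq {d : ℕ} (i : Fin d) : ∫ z : E d, (z i) ^ 2 ∂(stdGaussian (E d)) = 1 := by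
  have h1 := variance_dual_stdGaussian (E := E d) (EuclideanSpace.proj i : E d →L[ℝ] ℝ)
  have h2 : ∫ z : E d, (EuclideanSpace.proj i : E d →L[ℝ] ℝ) z ∂(stdGaussian (E d)) = 0 :=
    integral_strongDual_stdGaussian _
  rw [variance_of_integral_eq_zero (by fun_prop) h2] at h1
  have h3 : ‖(EuclideanSpace.proj i : E d →L[ℝ] ℝ)‖ = 1 := by
    have h4 : (EuclideanSpace.proj i : E d →L[ℝ] ℝ) =
        innerSL ℝ (EuclideanSpace.single i (1 : ℝ)) := by
      ext z
      rw [innerSL_apply_apply, EuclideanSpace.inner_single_left]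
      simp
    rw [h4, innerSL_apply_norm]
    simp
  rw [h3] at h1
  simpa using h1

theorem gauss_norm_sq (d : ℕ) : ∫ z : E d, ‖z‖ ^ 2 ∂(stdGaussian (E d)) = d := by
  have h1 : ∀ z : E d, ‖z‖ ^ 2 = ∑ i, (z i) ^ 2 := fun z => by
    rw [EuclideanSpace.norm_sq_eq]; simp
  simp only [h1]
  rw [integral_finsetSum]
  · simp [gauss_coord_sq]
  · intro i _
    refine Integrable.mono' (gauss_int_pow d 2) (by fun_prop) (Filter.Eventually.of_forall fun z => ?_)
    rw [Real.norm_of_nonneg (sq_nonneg _), h1]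
    exact Finset.single_le_sum (f := fun j => (z j) ^ 2) (fun j _ => sq_nonneg _) (Finset.mem_univ i)

theorem gauss_norm (d : ℕ) : ∫ z : E d, ‖z‖ ∂(stdGaussian (E d)) ≤ √d := by
  apply Real.le_sqrt_of_sq_le
  have h1 : Integrable (fun z : E d => ‖z‖) (stdGaussian (E d)) := by
    simpa using gauss_int_pow d 1
  set m := ∫ z : E d, ‖z‖ ∂(stdGaussian (E d)) with hm
  have h2 : 0 ≤ ∫ z : E d, (‖z‖ - m) ^ 2 ∂(stdGaussian (E d)) :=
    integral_nonneg fun z => sq_nonneg _
  have h3 : ∫ z : E d, (‖z‖ - m) ^ 2 ∂(stdGaussian (E d)) = d - m ^ 2 := by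
    have h4 : ∀ z : E d, (‖z‖ - m) ^ 2 = ‖z‖ ^ 2 - 2 * m * ‖z‖ + m ^ 2 := fun z => by ring
    simp only [h4]
    have h5 : Integrable (fun z : E d => ‖z‖ ^ 2 - 2 * m * ‖z‖) (stdGaussian (E d)) :=
      (gauss_int_pow d 2).sub (h1.const_mul (2 * m))
    rw [integral_add h5 (integrable_const _), integral_sub (gauss_int_pow d 2) (h1.const_mul _),
      integral_const_mul, gauss_norm_sq, ← hm]
    simp
    ring
  linarith

end P347Q
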