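import Vale.Agent.P347Q.Defs
import Vale.Agent.P347Q.PotAux

/-!
Module Contraction (C).  Synchronous coupling.
Continuous time heuristics: `y' = p, p' = -Hy - 2p` gives `Q' ≤ -Q` for `Q = |y|² + |y+p|²`.
Discrete: with `u = z - z'`, `G k x - G k y` satisfies `‖2(x-y) - (G k x - G k y)‖ ≤ ‖x-y‖`
(so it is `3`-Lipschitz), all corrections are `O(η²)(|u.1|+|u.2|)`.
-/

open MeasureTheory ProbabilityTheory Function
open scoped ENNReal BigOperators

namespace P347Q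

variable {d : ℕ}

/-- the quadratic form of the contraction -/
noncomputable def Qf (z : E d × E d) : ℝ := ‖z.1‖ ^ 2 + ‖z.1 + z.2‖ ^ 2

/-- fields `G` with `1 ≤ DG ≤ 3` in a weak sense -/
def Mono (G : E d → E d) : Prop := ∀ x y, ‖(2 : ℝ) • (x - y) - (G x - G y)‖ ≤ ‖x - y‖

/-- the gradient of a potential, shifted by any vector, is `Mono` -/
theorem pot_mono {V : E d → ℝ} (hV : Pot d V) (c : E d) :
    Mono (fun y => gradient V (y + c)) := by
  intro x y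
  have hs : ∀ x u w : E d, fderiv ℝ (fderiv ℝ V) x u w = fderiv ℝ (fderiv ℝ V) x w u := by
    intro x u w
    have := (hV.smooth.contDiffAt (x := x)).isSymmSndFDerivAt
      (by rw [minSmoothness_of_isRCLikeNormedField])
    exact this u w
  obtain ⟨I, hI⟩ : ∃ I : E d →L[ℝ] E d →L[ℝ] ℝ, ∀ x w, I x w = inner ℝ x w :=
    ⟨innerSL ℝ, fun x w => rfl⟩
  set F : E d → (E d →L[ℝ] ℝ) := fun x => (2 : ℝ) • I x - fderiv ℝ V x with hF
  have hFd : ∀ x, HasFDerivAt F ((2 : ℝ) • I - fderiv ℝ (fderiv ℝ V) x) x := by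
    intro x
    have h1 : HasFDerivAt (fun x : E d => (2 : ℝ) • I x) ((2 : ℝ) • I) x :=
      (I.hasFDerivAt).const_smul (2 : ℝ)
    exact h1.sub (PotAux.fderiv_diff hV.smooth x).hasFDerivAt
  have hb : ∀ x, ‖(2 : ℝ) • I - fderiv ℝ (fderiv ℝ V) x‖ ≤ 1 := by
    intro x
    refine ContinuousLinearMap.opNorm_le_bound _ (by norm_num) fun u => ?_
    refine ContinuousLinearMap.opNorm_le_bound _ (by positivity) fun w => ?_
    rw [Real.norm_eq_abs]
    have h4 : ∀ w : E d, (I w) w = ‖w‖ ^ 2 := by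
      intro w
      rw [hI]
      exact real_inner_self_eq_norm_sq w
    have h2 := PotAux.bil_le ((2 : ℝ) • ((2 : ℝ) • I - fderiv ℝ (fderiv ℝ V) x)) (by
        intro u w
        simp only [smul_apply, sub_apply, smul_eq_mul]
        rw [hs x u w]
        have : (I u) w = (I w) u := by
          rw [hI, hI]
          exact real_inner_comm _ _
        rw [this]) (by
        intro w
        simp only [smul_apply, sub_apply, smul_eq_mul]
        have h3 := hV.upper x w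
        rw [h4]
        linarith) (by
        intro w
        simp only [smul_apply, sub_apply, smul_eq_mul]
        have h3 := hV.lower x w
        rw [h4]
        linarith) u w
    rw [smul_apply, smul_apply, smul_eq_mul, abs_mul,
      abs_two] at h2
    linarith
  have h5 : ‖F (x + c) - F (y + c)‖ ≤ 1 * ‖(x + c) - (y + c)‖ :=
    convex_univ.norm_image_sub_le_of_norm_hasFDerivWithin_le
      (fun z _ => (hFd z).hasFDerivWithinAt) (fun z _ => hb z) (Set.mem_univ _) (Set.mem_univ _)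
  have h6 : ‖(2 : ℝ) • (x - y) - (gradient V (x + c) - gradient V (y + c))‖ =
      ‖F (x + c) - F (y + c)‖ := by
    rw [← LinearIsometryEquiv.norm_map (InnerProductSpace.toDual ℝ (E d))]
    congr 1
    ext w
    have e1 : (InnerProductSpace.toDual ℝ (E d)
        ((2 : ℝ) • (x - y) - (gradient V (x + c) - gradient V (y + c)))) w =
        inner ℝ ((2 : ℝ) • (x - y) - (gradient V (x + c) - gradient V (y + c))) w := by
      rw [InnerProductSpace.toDual_apply_apply]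
    rw [e1]
    simp only [hF, sub_apply, smul_apply, smul_eq_mul,
      hI, PotAux.fderiv_eq_inner, inner_sub_left, inner_add_left,
      real_inner_smul_left]
    ring
  show ‖(2 : ℝ) • (x - y) - (gradient V (x + c) - gradient V (y + c))‖ ≤ ‖x - y‖
  rw [h6]
  simpa using h5

/-- a weighted sum of vectors of norm at most `B` with total weight at most one -/
theorem wsum_le {ι : Type*} [Fintype ι] (w : ι → ℝ) (hw : ∀ i, 0 ≤ w i) (hs : ∑ i, w i ≤ 1)
    (v : ι → E d) {B : ℝ} (hB : 0 ≤ B) (hv : ∀ i, ‖v i‖ ≤ B) : ‖∑ i, w i • v i‖ ≤ B := by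
  calc ‖∑ i, w i • v i‖ ≤ ∑ i, ‖w i • v i‖ := norm_sum_le _ _
    _ ≤ ∑ i, w i * B := by
        refine Finset.sum_le_sum fun i _ => ?_
        rw [norm_smul, Real.norm_of_nonneg (hw i)]
        exact mul_le_mul_of_nonneg_left (hv i) (hw i)
    _ = (∑ i, w i) * B := by rw [Finset.sum_mul]
    _ ≤ 1 * B := mul_le_mul_of_nonneg_right hs hB
    _ = B := one_mul B

theorem Rule.sum_w {m N : ℕ} (R : Rule m N) (hm : 1 ≤ m) : ∑ j, R.w j = 1 := by
  have h := R.w_exact 0 (by omega)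
  simpa using h

theorem Rule.sum_w1 {m N : ℕ} (R : Rule m N) (hm : 1 ≤ m) : ∑ j, R.w j * (1 - R.t j) ≤ 1 := by
  refine (Finset.sum_le_sum fun j _ => ?_).trans (R.sum_w hm).le
  have h1 := R.w_nonneg j
  have h2 := (R.t_mem j).1
  nlinarith

theorem Rule.w1_nonneg {m N : ℕ} (R : Rule m N) (j : Fin N) : 0 ≤ R.w j * (1 - R.t j) :=
  mul_nonneg (R.w_nonneg j) (by linarith [(R.t_mem j).2])

theorem Mono.lip {G : E d → E d} (hG : Mono G) (x y : E d) : ‖G x - G y‖ ≤ 3 * ‖x - y‖ := by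
  have h := hG x y
  have h1 : G x - G y = (2 : ℝ) • (x - y) - ((2 : ℝ) • (x - y) - (G x - G y)) := by abel
  rw [h1]
  calc _ ≤ ‖(2 : ℝ) • (x - y)‖ + ‖(2 : ℝ) • (x - y) - (G x - G y)‖ := norm_sub_le _ _
    _ ≤ 2 * ‖x - y‖ + ‖x - y‖ := by
        rw [norm_smul, Real.norm_of_nonneg (by norm_num : (0 : ℝ) ≤ 2)]
        linarith
    _ = _ := by ring

/-- differences of predicted positions -/
theorem pos_diff {m N : ℕ} (R : Rule m N) (hm : 1 ≤ m) {G : Idx N → E d → E d}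
    (hG : ∀ k, Mono (G k)) {η : ℝ} (h0 : 0 < η) (h1 : η ≤ 1) (z z' : E d × E d) (i : Fin N) :
    ‖pos R η G z i - pos R η G z' i - (z.1 - z'.1)‖ ≤ 4 * η * (‖z.1 - z'.1‖ + ‖z.2 - z'.2‖) := by
  set S := ‖z.1 - z'.1‖ + ‖z.2 - z'.2‖ with hS
  have hS0 : 0 ≤ S := by positivity
  have ht := R.t_mem i
  have hsum : ‖∑ j, (R.w j * (1 - R.t j)) • (G (Sum.inl (i, j)) (z.1 + (η * R.t i * R.t j) • z.2) -
      G (Sum.inl (i, j)) (z'.1 + (η * R.t i * R.t j) • z'.2))‖ ≤ 3 * S := by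
    refine wsum_le _ (R.w1_nonneg) (R.sum_w1 hm) _ (by positivity) fun j => ?_
    refine ((hG _).lip _ _).trans ?_
    have h2 : z.1 + (η * R.t i * R.t j) • z.2 - (z'.1 + (η * R.t i * R.t j) • z'.2) =
        (z.1 - z'.1) + (η * R.t i * R.t j) • (z.2 - z'.2) := by
      rw [smul_sub]; abel
    rw [h2]
    have h3 : ‖(z.1 - z'.1) + (η * R.t i * R.t j) • (z.2 - z'.2)‖ ≤ S := by
      refine (norm_add_le _ _).trans ?_
      rw [norm_smul]
      have ht' := R.t_mem j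
      have h4 : ‖η * R.t i * R.t j‖ ≤ 1 := by
        rw [Real.norm_of_nonneg (mul_nonneg (mul_nonneg h0.le ht.1) ht'.1)]
        have h5 : η * R.t i ≤ 1 := mul_le_one₀ h1 ht.1 ht.2
        exact mul_le_one₀ h5 ht'.1 ht'.2
      have h6 : ‖η * R.t i * R.t j‖ * ‖z.2 - z'.2‖ ≤ 1 * ‖z.2 - z'.2‖ :=
        mul_le_mul_of_nonneg_right h4 (norm_nonneg _)
      rw [hS]
      linarith
    linarith
  have hdec : pos R η G z i - pos R η G z' i - (z.1 - z'.1) = (η * R.t i) • (z.2 - z'.2) -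
      (η * R.t i) ^ 2 • ∑ j, (R.w j * (1 - R.t j)) •
        (G (Sum.inl (i, j)) (z.1 + (η * R.t i * R.t j) • z.2) -
      G (Sum.inl (i, j)) (z'.1 + (η * R.t i * R.t j) • z'.2)) := by
    unfold pos
    simp only [smul_sub, Finset.sum_sub_distrib]
    abel
  rw [hdec]
  refine (norm_sub_le _ _).trans ?_
  rw [norm_smul, norm_smul]
  have hηt : 0 ≤ η * R.t i := mul_nonneg h0.le ht.1
  have hηt1 : η * R.t i ≤ η := by
    have := mul_le_mul_of_nonneg_left ht.2 h0.le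
    linarith
  rw [Real.norm_of_nonneg hηt, Real.norm_of_nonneg (by positivity)]
  have e1 : η * R.t i * ‖z.2 - z'.2‖ ≤ η * S := by
    refine mul_le_mul hηt1 ?_ (norm_nonneg _) h0.le
    rw [hS]; linarith [norm_nonneg (z.1 - z'.1)]
  have e2 : (η * R.t i) ^ 2 ≤ η := by nlinarith
  have e3 := mul_le_mul e2 hsum (norm_nonneg _) h0.le
  linarith

/-- the correction to the position -/
theorem step_fst {m N : ℕ} (R : Rule m N) (hm : 1 ≤ m) {G : Idx N → E d → E d}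
    (hG : ∀ k, Mono (G k)) {η : ℝ} (h0 : 0 < η) (h1 : η ≤ 1) (z z' : E d × E d) :
    ‖(Step R η G z).1 - (Step R η G z').1 - ((z.1 - z'.1) + η • (z.2 - z'.2))‖ ≤
      15 * η ^ 2 * (‖z.1 - z'.1‖ + ‖z.2 - z'.2‖) ∧
    ‖∑ i, R.w i • (G (Sum.inr i) (pos R η G z i) - G (Sum.inr i) (pos R η G z' i))‖ ≤
      15 * (‖z.1 - z'.1‖ + ‖z.2 - z'.2‖) ∧
    ‖(2 : ℝ) • (z.1 - z'.1) -
      ∑ i, R.w i • (G (Sum.inr i) (pos R η G z i) - G (Sum.inr i) (pos R η G z' i))‖ ≤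
      ‖z.1 - z'.1‖ + 12 * η * (‖z.1 - z'.1‖ + ‖z.2 - z'.2‖) := by
  have hp : ∀ i, ‖pos R η G z i - pos R η G z' i - (z.1 - z'.1)‖ ≤
      4 * η * (‖z.1 - z'.1‖ + ‖z.2 - z'.2‖) := pos_diff R hm hG h0 h1 z z'
  set S := ‖z.1 - z'.1‖ + ‖z.2 - z'.2‖ with hS
  have hS0 : 0 ≤ S := by positivity
  have hS1 : ‖z.1 - z'.1‖ ≤ S := by rw [hS]; linarith [norm_nonneg (z.2 - z'.2)]
  have hp1 : ∀ i, ‖pos R η G z i - pos R η G z' i‖ ≤ ‖z.1 - z'.1‖ + 4 * η * S := by
    intro i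
    have h2 : pos R η G z i - pos R η G z' i =
        (z.1 - z'.1) + (pos R η G z i - pos R η G z' i - (z.1 - z'.1)) := by abel
    rw [h2]
    exact (norm_add_le _ _).trans (by linarith [hp i])
  have hηS : η * S ≤ S := mul_le_of_le_one_left hS0 h1
  have hG1 : ∀ i, ‖G (Sum.inr i) (pos R η G z i) - G (Sum.inr i) (pos R η G z' i)‖ ≤ 15 * S := by
    intro i
    refine ((hG _).lip _ _).trans ?_
    linarith [hp1 i]
  refine ⟨?_, ?_, ?_⟩
  · have hdec : (Step R η G z).1 - (Step R η G z').1 - ((z.1 - z'.1) + η • (z.2 - z'.2)) =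
        -(η ^ 2 • ∑ i, (R.w i * (1 - R.t i)) •
          (G (Sum.inr i) (pos R η G z i) - G (Sum.inr i) (pos R η G z' i))) := by
      unfold Step
      simp only [smul_sub, Finset.sum_sub_distrib]
      abel
    rw [hdec, norm_neg, norm_smul, Real.norm_of_nonneg (by positivity)]
    have h2 : ‖∑ i, (R.w i * (1 - R.t i)) •
          (G (Sum.inr i) (pos R η G z i) - G (Sum.inr i) (pos R η G z' i))‖ ≤ 15 * S :=
      wsum_le _ (R.w1_nonneg) (R.sum_w1 hm) _ (by positivity) hG1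
    have h3 := mul_le_mul_of_nonneg_left h2 (sq_nonneg η)
    linarith
  · exact wsum_le _ R.w_nonneg (R.sum_w hm).le _ (by positivity) hG1
  · have hdec : (2 : ℝ) • (z.1 - z'.1) -
        ∑ i, R.w i • (G (Sum.inr i) (pos R η G z i) - G (Sum.inr i) (pos R η G z' i)) =
        ∑ i, R.w i • ((2 : ℝ) • (z.1 - z'.1) -
          (G (Sum.inr i) (pos R η G z i) - G (Sum.inr i) (pos R η G z' i))) := by
      simp only [smul_sub (R.w _), Finset.sum_sub_distrib]
      rw [← Finset.sum_smul, R.sum_w hm, one_smul]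
    rw [hdec]
    refine wsum_le _ R.w_nonneg (R.sum_w hm).le _ (by positivity) fun i => ?_
    have h2 := hG (Sum.inr i) (pos R η G z i) (pos R η G z' i)
    have h3 : (2 : ℝ) • (z.1 - z'.1) -
          (G (Sum.inr i) (pos R η G z i) - G (Sum.inr i) (pos R η G z' i)) =
        ((2 : ℝ) • (pos R η G z i - pos R η G z' i) -
          (G (Sum.inr i) (pos R η G z i) - G (Sum.inr i) (pos R η G z' i))) -
        (2 : ℝ) • (pos R η G z i - pos R η G z' i - (z.1 - z'.1)) := by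
      simp only [smul_sub]; abel
    rw [h3]
    refine (norm_sub_le _ _).trans ?_
    rw [norm_smul (2 : ℝ), Real.norm_of_nonneg (by norm_num : (0 : ℝ) ≤ 2)]
    linarith [hp i, hp1 i]

/-- the sum of the norms is controlled by `Qf` -/
theorem sum_norm_le (z : E d × E d) : ‖z.1‖ + ‖z.2‖ ≤ 3 * √(Qf z) := by
  have h0 : 0 ≤ Qf z := by unfold Qf; positivity
  have h1 : ‖z.1‖ ≤ √(Qf z) := by
    apply Real.le_sqrt_of_sq_le
    unfold Qf
    nlinarith [sq_nonneg ‖z.1 + z.2‖]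
  have h2 : ‖z.1 + z.2‖ ≤ √(Qf z) := by
    apply Real.le_sqrt_of_sq_le
    unfold Qf
    nlinarith [sq_nonneg ‖z.1‖]
  have h3 : ‖z.2‖ ≤ ‖z.1 + z.2‖ + ‖z.1‖ := by
    have : z.2 = (z.1 + z.2) - z.1 := by abel
    calc ‖z.2‖ = ‖(z.1 + z.2) - z.1‖ := by rw [← this]
      _ ≤ _ := norm_sub_le _ _
  linarith

/-- position after the deterministic part is Lipschitz (for the last step) -/
theorem step_lip {m N : ℕ} (R : Rule m N) (hm : 1 ≤ m) :
    ∃ C η0 : ℝ, 0 < C ∧ 0 < η0 ∧ ∀ (d : ℕ) (G : Idx N → E d → E d), (∀ k, Mono (G k)) →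
      ∀ η : ℝ, 0 < η → η ≤ η0 → ∀ z z' : E d × E d,
        ‖(Step R η G z).1 - (Step R η G z').1‖ ≤ C * √(Qf (z - z')) := by
  refine ⟨48, 1, by norm_num, one_pos, fun d G hG η h0 h1 z z' => ?_⟩
  have h2 := (step_fst R hm hG h0 h1 z z').1
  have h3 := sum_norm_le (z - z')
  simp only [Prod.fst_sub, Prod.snd_sub] at h3
  have h4 : (Step R η G z).1 - (Step R η G z').1 =
      ((Step R η G z).1 - (Step R η G z').1 - ((z.1 - z'.1) + η • (z.2 - z'.2))) +
      ((z.1 - z'.1) + η • (z.2 - z'.2)) := by abel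
  rw [h4]
  have h5 : ‖(z.1 - z'.1) + η • (z.2 - z'.2)‖ ≤ ‖z.1 - z'.1‖ + ‖z.2 - z'.2‖ := by
    refine (norm_add_le _ _).trans ?_
    rw [norm_smul, Real.norm_of_nonneg h0.le]
    have := mul_le_of_le_one_left (norm_nonneg (z.2 - z'.2)) h1
    linarith
  have h6 : 15 * η ^ 2 * (‖z.1 - z'.1‖ + ‖z.2 - z'.2‖) ≤
      15 * (‖z.1 - z'.1‖ + ‖z.2 - z'.2‖) := by
    have h7 : η ^ 2 ≤ 1 := by nlinarith
    have h8 : 0 ≤ ‖z.1 - z'.1‖ + ‖z.2 - z'.2‖ := by positivity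
    nlinarith
  refine (norm_add_le _ _).trans ?_
  linarith

/-- the main part of the contraction -/
theorem real_contract1 {a b s η ρ A B c : ℝ} (ha : 0 ≤ a) (hb : 0 ≤ b) (hs : 0 ≤ s)
    (hab : a ^ 2 + b ^ 2 = s ^ 2) (hη : 0 < η) (hη1 : η ≤ 1 / 2000) (hρ0 : 0 ≤ ρ)
    (hρ : ρ ≤ a + 36 * η * s)
    (hA : A ^ 2 = (1 - η) ^ 2 * a ^ 2 + 2 * η * (1 - η) * c + η ^ 2 * b ^ 2)
    (hB : B ^ 2 ≤ (1 - η) ^ 2 * b ^ 2 + η ^ 2 * (ρ + a) ^ 2 + 2 * η * (1 - η) * (b * ρ - c)) :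
    A ^ 2 + B ^ 2 ≤ (1 - η) * s ^ 2 + 82 * η ^ 2 * s ^ 2 := by
  have has : a ≤ s := abs_le_of_sq_le_sq' (by nlinarith) hs |>.2
  have hbs : b ≤ s := abs_le_of_sq_le_sq' (by nlinarith) hs |>.2
  have hab2 : 2 * (a * b) ≤ s ^ 2 := by nlinarith [sq_nonneg (a - b)]
  have hηs : 36 * η * s ≤ s := by
    have : 36 * η ≤ 1 := by linarith
    nlinarith
  have hρs : ρ ≤ 2 * s := by linarith
  have hρa : (ρ + a) ^ 2 ≤ 9 * s ^ 2 := by
    have h1 : ρ + a ≤ 3 * s := by linarith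
    have h2 := pow_le_pow_left₀ (by linarith) h1 2
    linarith
  have hη2 : 0 ≤ η ^ 2 := sq_nonneg η
  have hbρ : b * ρ ≤ a * b + 36 * η * s ^ 2 := by
    have h1 : b * ρ ≤ b * (a + 36 * η * s) := mul_le_mul_of_nonneg_left hρ hb
    have h2 : b * (36 * η * s) ≤ s * (36 * η * s) := mul_le_mul_of_nonneg_right hbs (by positivity)
    linarith
  have h1η0 : 0 ≤ 1 - η := by linarith
  have h1η : 0 ≤ 2 * η * (1 - η) := by positivity
  have h1η' : 2 * η * (1 - η) ≤ 2 * η := by nlinarith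
  have h3 : 2 * η * (1 - η) * (b * ρ) ≤ 2 * η * (1 - η) * (a * b + 36 * η * s ^ 2) :=
    mul_le_mul_of_nonneg_left hbρ h1η
  have h4 : η * (1 - η) * (2 * (a * b)) ≤ η * (1 - η) * s ^ 2 :=
    mul_le_mul_of_nonneg_left hab2 (by positivity)
  have h5 : 2 * η * (1 - η) * (36 * η * s ^ 2) ≤ 2 * η * (36 * η * s ^ 2) :=
    mul_le_mul_of_nonneg_right h1η' (by positivity)
  have h6 : η ^ 2 * (ρ + a) ^ 2 ≤ η ^ 2 * (9 * s ^ 2) := mul_le_mul_of_nonneg_left hρa hη2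
  have h7 : η ^ 2 * b ^ 2 ≤ η ^ 2 * s ^ 2 :=
    mul_le_mul_of_nonneg_left (pow_le_pow_left₀ hb hbs 2) hη2
  have h8 : (1 - η) ^ 2 * a ^ 2 + (1 - η) ^ 2 * b ^ 2 = (1 - η) ^ 2 * s ^ 2 := by
    rw [← mul_add, hab]
  linarith

/-- the real inequality behind the contraction -/
theorem real_contract {s η A B e₁ e₂ : ℝ} (hs : 0 ≤ s) (hη : 0 < η) (hη1 : η ≤ 1 / 2000)
    (_hA0 : 0 ≤ A) (_hB0 : 0 ≤ B)
    (hsum : A ^ 2 + B ^ 2 ≤ (1 - η) * s ^ 2 + 82 * η ^ 2 * s ^ 2)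
    (he1 : 0 ≤ e₁) (he1' : e₁ ≤ 45 * η ^ 2 * s) (he2 : 0 ≤ e₂) (he2' : e₂ ≤ 135 * η ^ 2 * s) :
    (A + e₁) ^ 2 + (B + e₂) ^ 2 ≤ (1 - η / 2) * s ^ 2 := by
  have hs2 : 0 ≤ s ^ 2 := sq_nonneg s
  have hη3 : η ^ 2 ≤ η * (1 / 2000) := by nlinarith
  have k7 : η ^ 2 * s ^ 2 ≤ η * (1 / 2000) * s ^ 2 := mul_le_mul_of_nonneg_right hη3 hs2
  have k8 : 0 ≤ η * s ^ 2 := by positivity
  have hA2 : A ≤ s := by
    refine abs_le_of_sq_le_sq' ?_ hs |>.2
    nlinarith [sq_nonneg B]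
  have hB2 : B ≤ s := by
    refine abs_le_of_sq_le_sq' ?_ hs |>.2
    nlinarith [sq_nonneg A]
  have k1 : A * e₁ ≤ s * (45 * η ^ 2 * s) := mul_le_mul hA2 he1' he1 hs
  have k2 : B * e₂ ≤ s * (135 * η ^ 2 * s) := mul_le_mul hB2 he2' he2 hs
  have k3 : e₁ ≤ s := by
    have : 45 * η ^ 2 ≤ 1 := by linarith
    have := mul_le_mul_of_nonneg_right this hs
    linarith
  have k4 : e₂ ≤ s := by
    have : 135 * η ^ 2 ≤ 1 := by linarith
    have := mul_le_mul_of_nonneg_right this hs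
    linarith
  have k5 : e₁ * e₁ ≤ (45 * η ^ 2 * s) * s := mul_le_mul he1' k3 he1 (by positivity)
  have k6 : e₂ * e₂ ≤ (135 * η ^ 2 * s) * s := mul_le_mul he2' k4 he2 (by positivity)
  have e : (A + e₁) ^ 2 + (B + e₂) ^ 2 =
    A ^ 2 + B ^ 2 + 2 * (A * e₁) + 2 * (B * e₂) + e₁ * e₁ + e₂ * e₂ := by ring
  rw [e]
  have k9 : (1 - η) * s ^ 2 + 82 * η ^ 2 * s ^ 2 + 2 * (s * (45 * η ^ 2 * s)) +
      2 * (s * (135 * η ^ 2 * s)) + (45 * η ^ 2 * s) * s + (135 * η ^ 2 * s) * s =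
      s ^ 2 - η * s ^ 2 + 622 * (η ^ 2 * s ^ 2) := by ring
  have k10 : (1 - η / 2) * s ^ 2 = s ^ 2 - η * s ^ 2 / 2 := by ring
  rw [k10]
  linarith

theorem step_contract {m N : ℕ} (R : Rule m N) (hm : 1 ≤ m) :
    ∃ η0 : ℝ, 0 < η0 ∧ ∀ (d : ℕ) (G : Idx N → E d → E d), (∀ k, Mono (G k)) →
      ∀ η : ℝ, 0 < η → η ≤ η0 → ∀ (z z' : E d × E d) (ζ : E d × E d),
        Qf (inj η (Step R η G z) ζ - inj η (Step R η G z') ζ) ≤ (1 - η / 2) * Qf (z - z') := by
  refine ⟨1 / 2000, by norm_num, fun d G hG η h0 hη z z' ζ => ?_⟩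
  have h1 : η ≤ 1 := by linarith
  obtain ⟨p1, p2, p3⟩ := step_fst R hm hG h0 h1 z z'
  have p4 := sum_norm_le (z - z')
  have hQ0 : 0 ≤ Qf (z - z') := by unfold Qf; positivity
  simp only [Prod.fst_sub, Prod.snd_sub] at p4
  set y := z.1 - z'.1 with hy
  set u := z.2 - z'.2 with hu
  set g := ∑ i, R.w i • (G (Sum.inr i) (pos R η G z i) - G (Sum.inr i) (pos R η G z' i)) with hg
  set S := ‖y‖ + ‖u‖ with hS
  set q := (Step R η G z).1 - (Step R η G z').1 - (y + η • u) with hq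
  set s := √(Qf (z - z')) with hs
  have hs2 : s ^ 2 = Qf (z - z') := Real.sq_sqrt hQ0
  have hQ : Qf (z - z') = ‖y‖ ^ 2 + ‖y + u‖ ^ 2 := by
    unfold Qf
    simp only [Prod.fst_sub, Prod.snd_sub]
    rw [← hy, ← hu]
  -- the new difference
  have hv : (Step R η G z).2 - (Step R η G z').2 = u - η • g := by
    rw [hg, hu]
    unfold Step
    simp only [smul_sub, Finset.sum_sub_distrib]
    abel
  have hx' : (inj η (Step R η G z) ζ - inj η (Step R η G z') ζ).1 = (y + η • u) + q := by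
    rw [hq]
    unfold inj
    simp only [Prod.fst_sub]
    abel
  have hv' : (inj η (Step R η G z) ζ - inj η (Step R η G z') ζ).2 =
      (1 - 2 * η) • (u - η • g) := by
    rw [← hv]
    unfold inj
    simp only [Prod.snd_sub, smul_sub]
    abel
  set w := y + u with hw
  set r := (2 : ℝ) • y - g with hr
  have hA : (y + η • u) = (1 - η) • y + η • w := by
    rw [hw, sub_smul, smul_add, one_smul]; abel
  have hB : (y + η • u) + q + (1 - 2 * η) • (u - η • g) =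
      ((1 - η) • w + η • (r - y)) + (q + (2 * η ^ 2) • g) := by
    rw [hw, hr]
    module
  unfold Qf at *
  rw [hx', hv', hB, hA]
  rw [hQ] at hs2 ⊢
  rw [← hs2]
  have hρ : ‖r‖ ≤ ‖y‖ + 36 * η * s := by
    refine p3.trans ?_
    have := mul_le_mul_of_nonneg_left p4 (by positivity : 0 ≤ 12 * η)
    linarith
  have key1 := real_contract1 (a := ‖y‖) (b := ‖w‖) (s := s) (η := η) (ρ := ‖r‖)
    (A := ‖(1 - η) • y + η • w‖) (B := ‖(1 - η) • w + η • (r - y)‖)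
    (c := inner ℝ y w) (norm_nonneg _) (norm_nonneg _)
    (Real.sqrt_nonneg _) hs2.symm h0 hη (norm_nonneg _) hρ
    (by
      rw [norm_add_sq_real, norm_smul, norm_smul, real_inner_smul_left, real_inner_smul_right,
        mul_pow, mul_pow, Real.norm_eq_abs, Real.norm_eq_abs, sq_abs, sq_abs]
      ring)
    (by
      rw [norm_add_sq_real, norm_smul, norm_smul, real_inner_smul_left, real_inner_smul_right,
        mul_pow, mul_pow, Real.norm_eq_abs, Real.norm_eq_abs, sq_abs, sq_abs, inner_sub_right]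
      have h2 : ‖r - y‖ ^ 2 ≤ (‖r‖ + ‖y‖) ^ 2 :=
        pow_le_pow_left₀ (norm_nonneg _) (norm_sub_le _ _) 2
      have h3 : inner ℝ w r ≤ ‖w‖ * ‖r‖ := real_inner_le_norm _ _
      have h4 : inner ℝ w y = inner ℝ y w := real_inner_comm _ _
      rw [h4]
      have h5 : 0 ≤ 2 * η * (1 - η) := by nlinarith
      have h6 := mul_le_mul_of_nonneg_left h3 h5
      have h7 := mul_le_mul_of_nonneg_left h2 (sq_nonneg η)
      linarith)
  have key := real_contract (s := s) (η := η)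
    (A := ‖(1 - η) • y + η • w‖) (B := ‖(1 - η) • w + η • (r - y)‖) (e₁ := ‖q‖)
    (e₂ := ‖q + (2 * η ^ 2) • g‖) (Real.sqrt_nonneg _) h0 hη (norm_nonneg _) (norm_nonneg _)
    key1 (norm_nonneg _)
    (by
      refine p1.trans ?_
      have := mul_le_mul_of_nonneg_left p4 (by positivity : 0 ≤ 15 * η ^ 2)
      linarith)
    (norm_nonneg _)
    (by
      refine (norm_add_le _ _).trans ?_
      rw [norm_smul, Real.norm_of_nonneg (by positivity)]
      have k1 := mul_le_mul_of_nonneg_left p4 (by positivity : 0 ≤ 15 * η ^ 2)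
      have k2 := mul_le_mul_of_nonneg_left p2 (by positivity : 0 ≤ 2 * η ^ 2)
      have k3 := mul_le_mul_of_nonneg_left p4 (by positivity : 0 ≤ 30 * η ^ 2)
      linarith)
  refine le_trans ?_ key
  have m1 := pow_le_pow_left₀ (norm_nonneg _) (norm_add_le ((1 - η) • y + η • w) q) 2
  have m2 := pow_le_pow_left₀ (norm_nonneg _)
    (norm_add_le ((1 - η) • w + η • (r - y)) (q + (2 * η ^ 2) • g)) 2
  linarith

end P347Q
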