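import Vale.Agent.P347Q.Moments
import Vale.Agent.P347Q.Shift

/-!
Module HeatTV.  `TV(π_U * N(0,s), π_U) ≤ C s √d`.
Proof: for `ψ` smooth with compact support, `Φ(t) = E ψ(x + t z)`,
`Φ'(t) = E <∇ψ(x+tz), z> = t E (Δψ)(x+tz) = t E ψ(x+tz) (|∇U|² - ΔU)(x)` (three integrations by
parts on phase space), so `|Φ'(t)| ≤ t ‖ψ‖_∞ √(8d)` by `bochner`.
Then pass from smooth `ψ` to `[0,1]`-valued measurable functions (density in `L¹(μ+ν)`).
-/

open MeasureTheory ProbabilityTheory Function
open scoped ENNReal BigOperators ContDiff Topology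

namespace P347Q

variable {d : ℕ}

/-- testing against smooth compactly supported functions is enough -/
theorem TVle.of_smooth {μ ν : Measure (E d)} [IsProbabilityMeasure μ] [IsProbabilityMeasure ν]
    {ε : ℝ} (h : ∀ (ψ : E d → ℝ) (M : ℝ), ContDiff ℝ ∞ ψ → HasCompactSupport ψ →
      (∀ x, |ψ x| ≤ M) → |∫ x, ψ x ∂μ - ∫ x, ψ x ∂ν| ≤ M * ε) : TVle μ ν ε := by
  intro f hf h0 h1
  have hε : 0 ≤ ε := by
    have := h (fun _ => 0) 1 contDiff_const HasCompactSupport.zero (by simp)
    simpa using this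
  have key : ∀ δ : ℝ, 0 < δ → |∫ x, f x ∂μ - ∫ x, f x ∂ν| ≤ (1 + δ) * ε + 3 * δ := by
    intro δ hδ
    have hfi : Integrable f (μ + ν) := int01 _ hf h0 h1
    obtain ⟨g, hg1, hg2, hg3, hg4⟩ := hfi.exists_hasCompactSupport_integral_sub_le hδ
    set c : ℝ → ℝ := fun y => max 0 (min y 1) with hc
    have hc0 : c 0 = 0 := by simp [hc]
    have hcc : Continuous c := by fun_prop
    set g' : E d → ℝ := fun x => c (g x) with hg'
    have hg'c : Continuous g' := hcc.comp hg3
    have hg's : HasCompactSupport g' := hg1.comp_left hc0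
    have hg'0 : ∀ x, 0 ≤ g' x := fun x => le_max_left _ _
    have hg'1 : ∀ x, g' x ≤ 1 := fun x => max_le zero_le_one (min_le_right _ _)
    have hclip : ∀ x, |f x - g' x| ≤ ‖f x - g x‖ := by
      intro x
      rw [Real.norm_eq_abs]
      have a0 := h0 x
      have a1 := h1 x
      simp only [hg', hc]
      rcases le_total (g x) 0 with hx | hx
      · rw [min_eq_left (hx.trans zero_le_one), max_eq_left hx, abs_of_nonneg (by linarith),
          abs_of_nonneg (by linarith)]
        linarith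
      · rcases le_total (g x) 1 with hx1 | hx1
        · rw [min_eq_left hx1, max_eq_right hx]
        · rw [min_eq_right hx1, max_eq_right zero_le_one, abs_of_nonpos (by linarith),
            abs_of_nonpos (by linarith)]
          linarith
    obtain ⟨ψ, hψ1, hψ2, hψ3⟩ := hg'c.exists_contDiff_approx ⊤ (ε := fun _ => δ)
      continuous_const (fun _ => hδ)
    have hψs : HasCompactSupport ψ := hg's.mono hψ3
    have hψM : ∀ x, |ψ x| ≤ 1 + δ := by
      intro x
      have a := hψ2 x
      rw [Real.dist_eq] at a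
      have b := abs_lt.1 a
      rw [abs_le]
      constructor <;> linarith [hg'0 x, hg'1 x, b.1, b.2]
    have h3 := h ψ (1 + δ) hψ1 hψs hψM
    have iψμ : Integrable ψ μ := hψ1.continuous.integrable_of_hasCompactSupport hψs
    have iψν : Integrable ψ ν := hψ1.continuous.integrable_of_hasCompactSupport hψs
    have igμ : Integrable g' μ := hg'c.integrable_of_hasCompactSupport hg's
    have igν : Integrable g' ν := hg'c.integrable_of_hasCompactSupport hg's
    have ifμ : Integrable f μ := int01 _ hf h0 h1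
    have ifν : Integrable f ν := int01 _ hf h0 h1
    have e1 : |∫ x, (f x - g' x) ∂μ| + |∫ x, (f x - g' x) ∂ν| ≤ δ := by
      have b1 : |∫ x, (f x - g' x) ∂μ| ≤ ∫ x, ‖f x - g x‖ ∂μ := by
        refine (abs_integral_le_integral_abs).trans ?_
        exact integral_mono (ifμ.sub igμ).abs ((ifμ.sub (hg4.left_of_add_measure)).norm) hclip
      have b2 : |∫ x, (f x - g' x) ∂ν| ≤ ∫ x, ‖f x - g x‖ ∂ν := by
        refine (abs_integral_le_integral_abs).trans ?_
        exact integral_mono (ifν.sub igν).abs ((ifν.sub (hg4.right_of_add_measure)).norm) hclip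
      have b3 : ∫ x, ‖f x - g x‖ ∂(μ + ν) = ∫ x, ‖f x - g x‖ ∂μ + ∫ x, ‖f x - g x‖ ∂ν :=
        integral_add_measure ((ifμ.sub (hg4.left_of_add_measure)).norm)
          ((ifν.sub (hg4.right_of_add_measure)).norm)
      linarith
    have small : ∀ (ρ : Measure (E d)) [IsProbabilityMeasure ρ],
        |∫ x, (g' x - ψ x) ∂ρ| ≤ δ := by
      intro ρ _
      have := norm_integral_le_of_norm_le_const (μ := ρ) (f := fun x => g' x - ψ x) (C := δ)
        (Filter.Eventually.of_forall fun x => by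
          have a := hψ2 x
          rw [dist_comm, Real.dist_eq] at a
          exact a.le)
      simpa using this
    have e2 := small μ
    have e3 := small ν
    have d1 : ∫ x, f x ∂μ = ∫ x, (f x - g' x) ∂μ + ∫ x, (g' x - ψ x) ∂μ + ∫ x, ψ x ∂μ := by
      rw [integral_sub ifμ igμ, integral_sub igμ iψμ]
      ring
    have d2 : ∫ x, f x ∂ν = ∫ x, (f x - g' x) ∂ν + ∫ x, (g' x - ψ x) ∂ν + ∫ x, ψ x ∂ν := by
      rw [integral_sub ifν igν, integral_sub igν iψν]
      ring
    rw [d1, d2]
    have t1 := abs_le.1 h3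
    have t2 := abs_le.1 e2
    have t3 := abs_le.1 e3
    have t4 := le_abs_self (∫ x, (f x - g' x) ∂μ)
    have t5 := neg_abs_le (∫ x, (f x - g' x) ∂μ)
    have t6 := le_abs_self (∫ x, (f x - g' x) ∂ν)
    have t7 := neg_abs_le (∫ x, (f x - g' x) ∂ν)
    rw [abs_le]
    constructor <;> linarith [t1.1, t1.2, t2.1, t2.2, t3.1, t3.2]
  refine le_of_forall_pos_le_add fun η hη => ?_
  have hp : 0 < ε + 3 := by linarith
  have := key (η / (ε + 3)) (by positivity)
  have e : (1 + η / (ε + 3)) * ε + 3 * (η / (ε + 3)) = ε + η := by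
    field_simp
    ring
  linarith

theorem fderiv_line {f : E d → ℝ} (hf : Differentiable ℝ f) (t : ℝ) (p w : E d × E d) :
    fderiv ℝ (fun p : E d × E d => f (p.1 + t • p.2)) p w =
      fderiv ℝ f (p.1 + t • p.2) (w.1 + t • w.2) := by
  have h1 : HasFDerivAt (fun p : E d × E d => p.1 + t • p.2)
      (ContinuousLinearMap.fst ℝ (E d) (E d) + t • ContinuousLinearMap.snd ℝ (E d) (E d)) p :=
    hasFDerivAt_fst.add (hasFDerivAt_snd.const_smul t)
  have h2 := (hf (p.1 + t • p.2)).hasFDerivAt.comp p h1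
  have h3 : fderiv ℝ (fun p : E d × E d => f (p.1 + t • p.2)) p = _ := h2.fderiv
  rw [h3]
  simp

theorem temp_line {f : E d → ℝ} (hf : HasTemperateGrowth f) (t : ℝ) :
    HasTemperateGrowth (fun p : E d × E d => f (p.1 + t • p.2)) :=
  hf.comp (ContinuousLinearMap.fst ℝ (E d) (E d) +
    t • ContinuousLinearMap.snd ℝ (E d) (E d)).hasTemperateGrowth

theorem heat_ibp {U : E d → ℝ} (hU : SPot U) {ψ : E d → ℝ} (hψ : HasTemperateGrowth ψ) (t : ℝ) :
    ∫ p, fderiv ℝ ψ (p.1 + t • p.2) p.2 ∂(phase U) =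
      t * ∫ p, ψ (p.1 + t • p.2) * (‖gradient U p.1‖ ^ 2 - lap U p.1) ∂(phase U) := by
  have hI := phase_ibpm hU 1
  -- the components
  have key : ∀ k : Fin d, ∫ p, fderiv ℝ ψ (p.1 + t • p.2) (bas d k) * p.2 k ∂(phase U) =
      t * ∫ p, ψ (p.1 + t • p.2) * ((fderiv ℝ U p.1 (bas d k)) ^ 2 -
        fderiv ℝ (fun y => fderiv ℝ U y (bas d k)) p.1 (bas d k)) ∂(phase U) := by
    intro k
    have hk := temp_dir hψ (bas d k)
    have hUk := temp_dir hU.temp (bas d k)
    have h1 := hI.ibp _ (temp_line hk t) (Sum.inr k)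
    have h2 := hI.ibp _ (temp_line hk t) (Sum.inl k)
    have h3 := hI.ibp _ ((temp_line hψ t).mul (temp_fst hUk)) (Sum.inl k)
    simp only [fderiv_line (temp_diff hk), fderiv_ham hU, dirs, one_smul, smul_zero, add_zero,
      zero_add, map_zero, inner_zero_right, map_smul, smul_eq_mul, inner_bas] at h1 h2
    have h4 : ∀ p, fderiv ℝ ((fun p : E d × E d => ψ (p.1 + t • p.2)) *
        fun p : E d × E d => fderiv ℝ U p.1 (bas d k)) p (dirs d 1 (Sum.inl k)) =
        ψ (p.1 + t • p.2) * fderiv ℝ (fun y => fderiv ℝ U y (bas d k)) p.1 (bas d k) +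
        fderiv ℝ ψ (p.1 + t • p.2) (bas d k) * fderiv ℝ U p.1 (bas d k) := by
      intro p
      have a1 := temp_diff (temp_line hψ t) p
      have a2 := temp_diff (temp_fst hUk) p
      rw [fderiv_mul a1 a2]
      have a3 : fderiv ℝ (fun p : E d × E d => fderiv ℝ U p.1 (bas d k)) p (dirs d 1 (Sum.inl k)) =
          fderiv ℝ (fun y => fderiv ℝ U y (bas d k)) p.1 (bas d k) := by
        have b1 : HasFDerivAt (fun p : E d × E d => fderiv ℝ U p.1 (bas d k))
            ((fderiv ℝ (fun y => fderiv ℝ U y (bas d k)) p.1).comp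
              (ContinuousLinearMap.fst ℝ (E d) (E d))) p :=
          (temp_diff hUk p.1).hasFDerivAt.comp p hasFDerivAt_fst
        rw [b1.fderiv]
        simp [dirs]
      have a4 := fderiv_line (temp_diff hψ) t p (dirs d 1 (Sum.inl k))
      simp only [add_apply, smul_apply, smul_eq_mul, a3, a4]
      simp only [dirs, one_smul, smul_zero, add_zero]
      ring
    simp only [h4, Pi.mul_apply] at h3
    have h5 : ∀ p : E d × E d, fderiv ℝ (ham U) p (dirs d 1 (Sum.inl k)) =
        fderiv ℝ U p.1 (bas d k) := by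
      intro p
      rw [fderiv_ham hU]
      simp [dirs]
    simp only [h5] at h3
    have i1 : Integrable (fun p : E d × E d => ψ (p.1 + t • p.2) *
        fderiv ℝ (fun y => fderiv ℝ U y (bas d k)) p.1 (bas d k)) (phase U) :=
      hI.int _ ((temp_line hψ t).mul (temp_fst (temp_dir hUk (bas d k))))
    have i2 : Integrable (fun p : E d × E d => fderiv ℝ ψ (p.1 + t • p.2) (bas d k) *
        fderiv ℝ U p.1 (bas d k)) (phase U) :=
      hI.int _ ((temp_line hk t).mul (temp_fst hUk))
    have i3 : Integrable (fun p : E d × E d => ψ (p.1 + t • p.2) * fderiv ℝ U p.1 (bas d k) *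
        fderiv ℝ U p.1 (bas d k)) (phase U) :=
      hI.int _ (((temp_line hψ t).mul (temp_fst hUk)).mul (temp_fst hUk))
    rw [integral_add i1 i2] at h3
    rw [integral_const_mul] at h1
    rw [← h1, h2]
    congr 1
    have h6 : ∫ p, fderiv ℝ ψ (p.1 + t • p.2) (bas d k) * fderiv ℝ U p.1 (bas d k) ∂(phase U) =
        ∫ p, ψ (p.1 + t • p.2) * fderiv ℝ U p.1 (bas d k) * fderiv ℝ U p.1 (bas d k) ∂(phase U) -
        ∫ p, ψ (p.1 + t • p.2) *
          fderiv ℝ (fun y => fderiv ℝ U y (bas d k)) p.1 (bas d k) ∂(phase U) := by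
      linarith
    rw [h6, ← integral_sub i3 i1]
    apply integral_congr_ae
    filter_upwards with p
    ring
  -- sum over the components
  have e1 : ∀ p : E d × E d, fderiv ℝ ψ (p.1 + t • p.2) p.2 =
      ∑ k, fderiv ℝ ψ (p.1 + t • p.2) (bas d k) * p.2 k := by
    intro p
    have hsum : p.2 = ∑ k, p.2 k • bas d k := by
      ext j
      simp [bas, Pi.single_apply]
    have h2 : fderiv ℝ ψ (p.1 + t • p.2) p.2 =
        fderiv ℝ ψ (p.1 + t • p.2) (∑ k, p.2 k • bas d k) := by
      rw [← hsum]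
    rw [h2, map_sum]
    refine Finset.sum_congr rfl fun k _ => ?_
    rw [map_smul, smul_eq_mul, mul_comm]
  have e2 : ∀ p : E d × E d, ψ (p.1 + t • p.2) * (‖gradient U p.1‖ ^ 2 - lap U p.1) =
      ∑ k, ψ (p.1 + t • p.2) * ((fderiv ℝ U p.1 (bas d k)) ^ 2 -
        fderiv ℝ (fun y => fderiv ℝ U y (bas d k)) p.1 (bas d k)) := by
    intro p
    rw [norm_gradient_sq, lap, ← Finset.sum_sub_distrib, Finset.mul_sum]
  simp only [e1, e2]
  rw [integral_finsetSum, integral_finsetSum, Finset.mul_sum]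
  · exact Finset.sum_congr rfl fun k _ => key k
  · intro k _
    exact hI.int _ ((temp_line hψ t).mul (((temp_fst (temp_dir hU.temp (bas d k))).pow 2).sub
      (temp_fst (temp_dir (temp_dir hU.temp (bas d k)) (bas d k)))))
  · intro k _
    exact hI.int _ ((temp_line (temp_dir hψ (bas d k)) t).mul (temp_snd (temp_coord k)))

theorem int_abs_le {X : Type*} [MeasurableSpace X] (μ : Measure X) [IsProbabilityMeasure μ]
    {h : X → ℝ} (h1 : Integrable h μ) (h2 : Integrable (fun x => h x ^ 2) μ) {C : ℝ}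
    (hC : ∫ x, h x ^ 2 ∂μ ≤ C) : ∫ x, |h x| ∂μ ≤ √C := by
  set m := ∫ x, |h x| ∂μ with hm
  have e : ∫ x, (|h x| - m) ^ 2 ∂μ = ∫ x, h x ^ 2 ∂μ - m ^ 2 := by
    have : ∀ x, (|h x| - m) ^ 2 = h x ^ 2 - (2 * m) * |h x| + m ^ 2 := by
      intro x
      have := sq_abs (h x)
      nlinarith
    simp only [this]
    have i3 : Integrable (fun x => (2 * m) * |h x|) μ := h1.abs.const_mul _
    have i4 : Integrable (fun x => h x ^ 2 - (2 * m) * |h x|) μ := h2.sub i3
    rw [integral_add i4 (integrable_const _), integral_sub h2 i3, integral_const_mul, ← hm]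
    simp
    ring
  have p : 0 ≤ ∫ x, (|h x| - m) ^ 2 ∂μ := integral_nonneg fun x => sq_nonneg _
  exact Real.le_sqrt_of_sq_le (by linarith)

theorem heat_smooth {U : E d → ℝ} (hU : SPot U) {ψ : E d → ℝ} {M : ℝ} (hψ : ContDiff ℝ ∞ ψ)
    (hc : HasCompactSupport ψ) (hM : ∀ x, |ψ x| ≤ M) {t : ℝ} (ht : 0 ≤ t) :
    |∫ p, ψ (p.1 + t • p.2) ∂(phase U) - ∫ p, ψ p.1 ∂(phase U)| ≤ M * √(8 * d) / 2 * t ^ 2 := by
  have hI := phase_ibpm hU 1
  have := phase_prob hU
  have hM0 : 0 ≤ M := (abs_nonneg _).trans (hM 0)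
  have hψt : HasTemperateGrowth ψ := hc.hasTemperateGrowth hψ
  have hdc : Continuous (fderiv ℝ ψ) := hψ.continuous_fderiv (by simp)
  obtain ⟨C, hC⟩ := (hc.fderiv ℝ).exists_bound_of_continuous hdc
  have hint2 : Integrable (fun p : E d × E d => C * ‖p.2‖) (phase U) := by
    have i0 := hI.int _ (temp_snd (hasTemperateGrowth_norm_sq (H := E d)))
    have i1 : Integrable (fun p : E d × E d => 1 + ‖p.2‖ ^ 2) (phase U) :=
      (integrable_const _).add i0
    refine Integrable.const_mul (i1.mono' (by fun_prop) ?_) C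
    filter_upwards with p
    rw [norm_norm]
    nlinarith [norm_nonneg p.2, sq_nonneg (‖p.2‖ - 1)]
  set Φ : ℝ → ℝ := fun t => ∫ p, ψ (p.1 + t • p.2) ∂(phase U) with hΦ
  have hder : ∀ t : ℝ, HasDerivAt Φ (∫ p, fderiv ℝ ψ (p.1 + t • p.2) p.2 ∂(phase U)) t := by
    intro t
    refine (hasDerivAt_integral_of_dominated_loc_of_deriv_le (s := Set.univ) Filter.univ_mem
      (F := fun (t : ℝ) (p : E d × E d) => ψ (p.1 + t • p.2))
      (F' := fun (t : ℝ) (p : E d × E d) => fderiv ℝ ψ (p.1 + t • p.2) p.2)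
      (bound := fun p : E d × E d => C * ‖p.2‖)
      ?_ ?_ ?_ ?_ hint2 ?_).2
    · refine Filter.Eventually.of_forall fun s => ?_
      exact (hψ.continuous.comp (by fun_prop)).aestronglyMeasurable
    · exact hI.int _ (temp_line hψt t)
    · have : Continuous fun p : E d × E d => fderiv ℝ ψ (p.1 + t • p.2) p.2 := by
        have h1 : Continuous fun p : E d × E d => fderiv ℝ ψ (p.1 + t • p.2) :=
          hdc.comp (by fun_prop)
        exact h1.clm_apply continuous_snd
      exact this.aestronglyMeasurable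
    · refine Filter.Eventually.of_forall fun p s _ => ?_
      refine (ContinuousLinearMap.le_opNorm _ _).trans ?_
      gcongr
      exact hC _
    · refine Filter.Eventually.of_forall fun p s _ => ?_
      have h1 : HasDerivAt (fun s : ℝ => p.1 + s • p.2) p.2 s := by
        have := ((hasDerivAt_id s).smul_const p.2).const_add p.1
        simpa using this
      exact (temp_diff hψt (p.1 + s • p.2)).hasFDerivAt.comp_hasDerivAt s h1
  set K := M * √(8 * d) with hK
  have hbd : ∀ t : ℝ, 0 ≤ t → |∫ p, fderiv ℝ ψ (p.1 + t • p.2) p.2 ∂(phase U)| ≤ K * t := by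
    intro t ht
    rw [heat_ibp hU hψt t, abs_mul, abs_of_nonneg ht]
    have hg : HasTemperateGrowth (fun p : E d × E d => ‖gradient U p.1‖ ^ 2 - lap U p.1) :=
      (temp_fst (temp_gradient_sq hU.temp)).sub (temp_fst (temp_lap hU.temp))
    have i1 := hI.int _ hg
    have i2 := hI.int _ (hg.pow 2)
    have b1 : |∫ p, ψ (p.1 + t • p.2) * (‖gradient U p.1‖ ^ 2 - lap U p.1) ∂(phase U)| ≤
        ∫ p, M * |‖gradient U p.1‖ ^ 2 - lap U p.1| ∂(phase U) := by
      refine (abs_integral_le_integral_abs).trans ?_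
      refine integral_mono (hI.int _ ((temp_line hψt t).mul hg)).abs (i1.abs.const_mul M) ?_
      intro p
      simp only [abs_mul]
      gcongr
      exact hM _
    have b2 : ∫ p, |‖gradient U p.1‖ ^ 2 - lap U p.1| ∂(phase U) ≤ √(8 * d) := by
      refine int_abs_le (phase U) i1 i2 ?_
      have e1 : ∫ p : E d × E d, (‖gradient U p.1‖ ^ 2 - lap U p.1) ^ 2 ∂(phase U) =
          ∫ x, (‖gradient U x‖ ^ 2 - lap U x) ^ 2 ∂(gibbs U) := by
        have := hU.prob
        unfold phase
        rw [integral_fun_fst (fun x => (‖gradient U x‖ ^ 2 - lap U x) ^ 2)]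
        simp
      rw [e1]
      have := bochner hU
      simpa only [sub_sq_comm] using this
    rw [integral_const_mul] at b1
    calc t * |∫ p, ψ (p.1 + t • p.2) * (‖gradient U p.1‖ ^ 2 - lap U p.1) ∂(phase U)|
        ≤ t * (M * √(8 * d)) := by
          gcongr
          exact b1.trans (by gcongr)
      _ = K * t := by rw [hK]; ring
  have hΦ0 : Φ 0 = ∫ p, ψ p.1 ∂(phase U) := by simp [hΦ]
  have hsq : ∀ t : ℝ, HasDerivAt (fun t : ℝ => K / 2 * t ^ 2) (K * t) t := by
    intro t
    have := (hasDerivAt_pow 2 t).const_mul (K / 2)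
    have e : K / 2 * (((2 : ℕ) : ℝ) * t ^ (2 - 1)) = K * t := by
      simp
      ring
    rwa [e] at this
  have up : AntitoneOn (fun t => Φ t - K / 2 * t ^ 2) (Set.Ici 0) := by
    refine antitoneOn_of_deriv_nonpos (convex_Ici 0)
      (fun t _ => ((hder t).fun_sub (hsq t)).continuousAt.continuousWithinAt)
      (fun t _ => ((hder t).fun_sub (hsq t)).differentiableAt.differentiableWithinAt) ?_
    intro t ht
    rw [interior_Ici] at ht
    rw [((hder t).fun_sub (hsq t)).deriv]
    have := (abs_le.1 (hbd t (le_of_lt ht))).2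
    linarith
  have lo : MonotoneOn (fun t => Φ t + K / 2 * t ^ 2) (Set.Ici 0) := by
    refine monotoneOn_of_deriv_nonneg (convex_Ici 0)
      (fun t _ => ((hder t).fun_add (hsq t)).continuousAt.continuousWithinAt)
      (fun t _ => ((hder t).fun_add (hsq t)).differentiableAt.differentiableWithinAt) ?_
    intro t ht
    rw [interior_Ici] at ht
    rw [((hder t).fun_add (hsq t)).deriv]
    have := (abs_le.1 (hbd t (le_of_lt ht))).1
    linarith
  have u1 := up (Set.self_mem_Ici) (Set.mem_Ici.2 ht) ht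
  have l1 := lo (Set.self_mem_Ici) (Set.mem_Ici.2 ht) ht
  simp only at u1 l1
  rw [hΦ0] at u1 l1
  rw [abs_le]
  constructor <;> linarith

theorem heat_tv {d : ℕ} {U : E d → ℝ} (hU : SPot U) {s : ℝ} (hs : 0 ≤ s) :
    TVle (((gibbs U).prod (stdGaussian (E d))).map (fun p => p.1 + √s • p.2)) (gibbs U)
      (2 * s * √d) := by
  have := hU.prob
  have hm : Measurable (fun p : E d × E d => p.1 + √s • p.2) := by fun_prop
  have : IsProbabilityMeasure
      (((gibbs U).prod (stdGaussian (E d))).map (fun p => p.1 + √s • p.2)) :=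
    Measure.isProbabilityMeasure_map hm.aemeasurable
  refine TVle.of_smooth ?_
  intro ψ M hψ hc hM
  have hM0 : 0 ≤ M := (abs_nonneg _).trans (hM 0)
  have h1 := heat_smooth hU hψ hc hM (Real.sqrt_nonneg s)
  rw [integral_map hm.aemeasurable hψ.continuous.aestronglyMeasurable]
  have e1 : ∫ x, ψ x ∂(gibbs U) = ∫ p, ψ p.1 ∂(phase U) := by
    unfold phase
    rw [integral_fun_fst]
    simp
  rw [e1]
  refine h1.trans ?_
  rw [Real.sq_sqrt hs]
  have e2 : √(8 * (d : ℝ)) ≤ 4 * √d := by
    rw [show (4 : ℝ) * √d = √(16 * d) by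
      rw [Real.sqrt_mul (by norm_num)]
      congr 1
      rw [show (16 : ℝ) = 4 ^ 2 by norm_num, Real.sqrt_sq (by norm_num)]]
    apply Real.sqrt_le_sqrt
    have : (0 : ℝ) ≤ d := by positivity
    linarith
  calc M * √(8 * (d : ℝ)) / 2 * s ≤ M * (4 * √d) / 2 * s := by gcongr
    _ = M * (2 * s * √d) := by ring

end P347Q
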