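import Vale.Agent.P347Q.Gibbs

/-!
Hessian bounds, gradient in coordinates, Lipschitz gradient.
-/

open MeasureTheory ProbabilityTheory Function
open scoped ENNReal BigOperators ContDiff

namespace P347Q

variable {d : ℕ}

section tt
variable {Z : Type*} [NormedAddCommGroup Z] [NormedSpace ℝ Z]

theorem tmul {f g : Z → ℝ} (hf : HasTemperateGrowth f) (hg : HasTemperateGrowth g) :
    HasTemperateGrowth (fun z => f z * g z) := hf.mul hg

theorem tpow {f : Z → ℝ} (hf : HasTemperateGrowth f) (n : ℕ) :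
    HasTemperateGrowth (fun z => f z ^ n) := hf.pow n

theorem tadd {f g : Z → ℝ} (hf : HasTemperateGrowth f) (hg : HasTemperateGrowth g) :
    HasTemperateGrowth (fun z => f z + g z) := hf.add hg

theorem tsub {f g : Z → ℝ} (hf : HasTemperateGrowth f) (hg : HasTemperateGrowth g) :
    HasTemperateGrowth (fun z => f z - g z) := hf.sub hg

theorem tconst_mul {f : Z → ℝ} (c : ℝ) (hf : HasTemperateGrowth f) :
    HasTemperateGrowth (fun z => c * f z) := tmul (HasTemperateGrowth.const c) hf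

theorem tsum {ι : Type*} {s : Finset ι} {f : ι → Z → ℝ} (hf : ∀ i ∈ s, HasTemperateGrowth (f i)) :
    HasTemperateGrowth (fun z => ∑ i ∈ s, f i z) := HasTemperateGrowth.sum hf

end tt

theorem hess_symm {U : E d → ℝ} (hU : ContDiff ℝ 2 U) (x v w : E d) :
    fderiv ℝ (fderiv ℝ U) x v w = fderiv ℝ (fderiv ℝ U) x w v := by
  have := (hU.contDiffAt (x := x)).isSymmSndFDerivAt
    (by rw [minSmoothness_of_isRCLikeNormedField])
  exact this v w

theorem hess_abs_le {U : E d → ℝ} (hU : ContDiff ℝ 2 U)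
    (hl : ∀ x w : E d, 0 ≤ fderiv ℝ (fderiv ℝ U) x w w)
    (hu : ∀ x w : E d, fderiv ℝ (fderiv ℝ U) x w w ≤ 2 * ‖w‖ ^ 2) (x v w : E d) :
    |fderiv ℝ (fderiv ℝ U) x v w| ≤ 2 * ‖v‖ * ‖w‖ := by
  by_cases hv : v = 0
  · simp [hv]
  by_cases hw : w = 0
  · simp [hw]
  have hv' : 0 < ‖v‖ := norm_pos_iff.2 hv
  have hw' : 0 < ‖w‖ := norm_pos_iff.2 hw
  set B := fderiv ℝ (fderiv ℝ U) x with hB
  have hpol : 4 * (‖v‖ * ‖w‖ * B v w) = B (‖w‖ • v + ‖v‖ • w) (‖w‖ • v + ‖v‖ • w) -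
      B (‖w‖ • v - ‖v‖ • w) (‖w‖ • v - ‖v‖ • w) := by
    have hs : B w v = B v w := hess_symm hU x w v
    simp only [map_add, map_sub, map_smul, add_apply, sub_apply, smul_apply, smul_eq_mul, hs]
    ring
  have hn1 : ‖‖w‖ • v + ‖v‖ • w‖ ≤ 2 * (‖v‖ * ‖w‖) := by
    refine (norm_add_le _ _).trans ?_
    rw [norm_smul, norm_smul, norm_norm, norm_norm]
    linarith [mul_comm ‖w‖ ‖v‖]
  have hn2 : ‖‖w‖ • v - ‖v‖ • w‖ ≤ 2 * (‖v‖ * ‖w‖) := by
    refine (norm_sub_le _ _).trans ?_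
    rw [norm_smul, norm_smul, norm_norm, norm_norm]
    linarith [mul_comm ‖w‖ ‖v‖]
  have h1 := hu x (‖w‖ • v + ‖v‖ • w)
  have h2 := hu x (‖w‖ • v - ‖v‖ • w)
  have h3 := hl x (‖w‖ • v + ‖v‖ • w)
  have h4 := hl x (‖w‖ • v - ‖v‖ • w)
  have q1 : ‖‖w‖ • v + ‖v‖ • w‖ ^ 2 ≤ (2 * (‖v‖ * ‖w‖)) ^ 2 := by gcongr
  have q2 : ‖‖w‖ • v - ‖v‖ • w‖ ^ 2 ≤ (2 * (‖v‖ * ‖w‖)) ^ 2 := by gcongr
  have hr : 0 < ‖v‖ * ‖w‖ := by positivity
  rw [abs_le]
  constructor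
  · have : -(8 * (‖v‖ * ‖w‖) ^ 2) ≤ 4 * (‖v‖ * ‖w‖ * B v w) := by
      rw [hpol]
      nlinarith
    by_contra hcon
    push Not at hcon
    nlinarith
  · have : 4 * (‖v‖ * ‖w‖ * B v w) ≤ 8 * (‖v‖ * ‖w‖) ^ 2 := by
      rw [hpol]
      nlinarith
    by_contra hcon
    push Not at hcon
    nlinarith

theorem hess_norm_le {U : E d → ℝ} (hU : ContDiff ℝ 2 U)
    (hl : ∀ x w : E d, 0 ≤ fderiv ℝ (fderiv ℝ U) x w w)
    (hu : ∀ x w : E d, fderiv ℝ (fderiv ℝ U) x w w ≤ 2 * ‖w‖ ^ 2) (x : E d) :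
    ‖fderiv ℝ (fderiv ℝ U) x‖ ≤ 2 := by
  refine ContinuousLinearMap.opNorm_le_bound _ (by norm_num) fun v => ?_
  refine ContinuousLinearMap.opNorm_le_bound _ (by positivity) fun w => ?_
  rw [Real.norm_eq_abs]
  exact hess_abs_le hU hl hu x v w

theorem norm_gradient_sub (U : E d → ℝ) (x y : E d) :
    ‖gradient U x - gradient U y‖ = ‖fderiv ℝ U x - fderiv ℝ U y‖ := by
  rw [gradient, gradient, ← map_sub, LinearIsometryEquiv.norm_map]

theorem norm_gradient (U : E d → ℝ) (x : E d) : ‖gradient U x‖ = ‖fderiv ℝ U x‖ := by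
  rw [gradient, LinearIsometryEquiv.norm_map]

theorem inner_gradient (U : E d → ℝ) (x w : E d) : inner ℝ (gradient U x) w = fderiv ℝ U x w := by
  rw [gradient, InnerProductSpace.toDual_symm_apply]

theorem grad_lip {U : E d → ℝ} (hU : ContDiff ℝ 2 U)
    (hl : ∀ x w : E d, 0 ≤ fderiv ℝ (fderiv ℝ U) x w w)
    (hu : ∀ x w : E d, fderiv ℝ (fderiv ℝ U) x w w ≤ 2 * ‖w‖ ^ 2) (x y : E d) :
    ‖gradient U x - gradient U y‖ ≤ 2 * ‖x - y‖ := by
  rw [norm_gradient_sub]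
  have hd : Differentiable ℝ (fderiv ℝ U) :=
    (hU.fderiv_right (m := 1) (by norm_num)).differentiable (by norm_num)
  exact Convex.norm_image_sub_le_of_norm_fderiv_le (𝕜 := ℝ) (fun z _ => hd z)
    (fun z _ => hess_norm_le hU hl hu z) convex_univ (Set.mem_univ _) (Set.mem_univ _)

theorem SPot.hess_nonneg {U : E d → ℝ} (hU : SPot U) (x w : E d) :
    0 ≤ fderiv ℝ (fderiv ℝ U) x w w := (sq_nonneg _).trans (hU.lower x w)

theorem Pot.hess_nonneg {V : E d → ℝ} (hV : Pot d V) (x w : E d) :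
    0 ≤ fderiv ℝ (fderiv ℝ V) x w w := (sq_nonneg _).trans (hV.lower x w)

theorem SPot.hess_abs {U : E d → ℝ} (hU : SPot U) (x v w : E d) :
    |fderiv ℝ (fderiv ℝ U) x v w| ≤ 2 * ‖v‖ * ‖w‖ :=
  hess_abs_le hU.contDiff hU.hess_nonneg hU.upper x v w

theorem SPot.grad_lip {U : E d → ℝ} (hU : SPot U) (x y : E d) :
    ‖gradient U x - gradient U y‖ ≤ 2 * ‖x - y‖ :=
  P347Q.grad_lip hU.contDiff hU.hess_nonneg hU.upper x y

theorem Pot.grad_lip {V : E d → ℝ} (hV : Pot d V) (x y : E d) :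
    ‖gradient V x - gradient V y‖ ≤ 2 * ‖x - y‖ :=
  P347Q.grad_lip hV.smooth hV.hess_nonneg hV.upper x y

@[simp] theorem norm_bas (i : Fin d) : ‖bas d i‖ = 1 := by
  simp [bas]

theorem inner_bas (x : E d) (i : Fin d) : inner ℝ x (bas d i) = x i := by
  simp [bas, EuclideanSpace.inner_single_right]

theorem gradient_apply (U : E d → ℝ) (x : E d) (i : Fin d) :
    gradient U x i = fderiv ℝ U x (bas d i) := by
  rw [← inner_gradient, inner_bas]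

theorem norm_sq_coord (x : E d) : ‖x‖ ^ 2 = ∑ i, x i ^ 2 := by
  rw [EuclideanSpace.norm_sq_eq]
  simp

theorem norm_gradient_sq (U : E d → ℝ) (x : E d) :
    ‖gradient U x‖ ^ 2 = ∑ i, (fderiv ℝ U x (bas d i)) ^ 2 := by
  rw [norm_sq_coord]
  simp [gradient_apply]

theorem sum_bas (x : E d) : ∑ i, x i • bas d i = x := by
  have := (EuclideanSpace.basisFun (Fin d) ℝ).sum_repr x
  simpa [bas] using this

/-- `Σ_j Hess(v, e_j)² ≤ 4 |v|²` -/
theorem hess_row_le {U : E d → ℝ} (hU : ContDiff ℝ 2 U)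
    (hl : ∀ x w : E d, 0 ≤ fderiv ℝ (fderiv ℝ U) x w w)
    (hu : ∀ x w : E d, fderiv ℝ (fderiv ℝ U) x w w ≤ 2 * ‖w‖ ^ 2) (x v : E d) :
    ∑ j, (fderiv ℝ (fderiv ℝ U) x v (bas d j)) ^ 2 ≤ 4 * ‖v‖ ^ 2 := by
  set u : E d := WithLp.toLp 2 (fun j => fderiv ℝ (fderiv ℝ U) x v (bas d j)) with hu'
  have h1 : ‖u‖ ^ 2 = ∑ j, (fderiv ℝ (fderiv ℝ U) x v (bas d j)) ^ 2 := by
    rw [norm_sq_coord]
  have h2 : fderiv ℝ (fderiv ℝ U) x v u = ‖u‖ ^ 2 := by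
    rw [h1]
    conv_lhs => rw [← sum_bas u]
    rw [map_sum]
    refine Finset.sum_congr rfl fun j _ => ?_
    rw [map_smul, smul_eq_mul, sq]
  have h3 := hess_abs_le hU hl hu x v u
  rw [h2, abs_of_nonneg (by positivity)] at h3
  rw [← h1]
  by_cases hu0 : ‖u‖ = 0
  · rw [hu0]
    nlinarith [sq_nonneg ‖v‖]
  · have hpos : 0 < ‖u‖ := lt_of_le_of_ne (norm_nonneg _) (Ne.symm hu0)
    have h4 : ‖u‖ ≤ 2 * ‖v‖ := by
      by_contra hcon
      push Not at hcon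
      nlinarith
    nlinarith [norm_nonneg v]

end P347Q
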