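import Vale.Agent.P347Q.Gibbs
import Vale.Agent.P347Q.AbsIBP
import Vale.Agent.P347Q.GaussDens
import Vale.Agent.P347Q.Hess

/-!
Module Moments.  `IBPm` for `gibbs U` (directions = standard basis), for the phase space measure
with rescaled position directions, second moments and the Bochner bound.
-/

open MeasureTheory ProbabilityTheory Function
open scoped ENNReal BigOperators

namespace P347Q

variable {d : ℕ}

/-- Laplacian -/
noncomputable def lap (U : E d → ℝ) (x : E d) : ℝ :=
  ∑ i, fderiv ℝ (fun y => fderiv ℝ U y (bas d i)) x (bas d i)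

theorem gibbs_ibpm {U : E d → ℝ} (hU : SPot U) : IBPm (gibbs U) (bas d) U :=
  ⟨hU.prob, hU.temp, fun _ hf => gibbs_integrable hU hf, fun _ hf _ => gibbs_ibp hU hf _⟩

/-- Hessian trace bounds: `d ≤ ΔU ≤ 2d`, and `|Hess U|_HS² ≤ 4 d` -/
theorem lap_bounds {U : E d → ℝ} (hU : SPot U) (x : E d) :
    (d : ℝ) ≤ lap U x ∧ lap U x ≤ 2 * d ∧
    ∑ i, ∑ j, (fderiv ℝ (fun y => fderiv ℝ U y (bas d i)) x (bas d j)) ^ 2 ≤ 4 * d := by
  refine ⟨?_, ?_, ?_⟩
  · have : ∑ _i : Fin d, (1 : ℝ) ≤ lap U x := by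
      refine Finset.sum_le_sum fun i _ => ?_
      rw [fderiv_dir hU.temp]
      have := hU.lower x (bas d i)
      simpa using this
    simpa using this
  · have : lap U x ≤ ∑ _i : Fin d, (2 : ℝ) := by
      refine Finset.sum_le_sum fun i _ => ?_
      rw [fderiv_dir hU.temp]
      have := hU.upper x (bas d i)
      simpa using this
    simpa [mul_comm] using this
  · have : ∑ i, ∑ j, (fderiv ℝ (fun y => fderiv ℝ U y (bas d i)) x (bas d j)) ^ 2 ≤
        ∑ _i : Fin d, (4 : ℝ) := by
      refine Finset.sum_le_sum fun i _ => ?_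
      have h := hess_row_le hU.contDiff hU.hess_nonneg hU.upper x (bas d i)
      rw [norm_bas] at h
      calc ∑ j, (fderiv ℝ (fun y => fderiv ℝ U y (bas d i)) x (bas d j)) ^ 2 =
          ∑ j, (fderiv ℝ (fderiv ℝ U) x (bas d i) (bas d j)) ^ 2 := by
            refine Finset.sum_congr rfl fun j _ => ?_
            rw [fderiv_dir hU.temp, hess_symm hU.contDiff]
        _ ≤ _ := by simpa using h
    simpa [mul_comm] using this

theorem temp_lap {U : E d → ℝ} (hU : HasTemperateGrowth U) : HasTemperateGrowth (lap U) := by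
  unfold lap
  exact HasTemperateGrowth.sum (fun i _ => temp_dir (temp_dir hU _) _)

theorem temp_gradient_sq {U : E d → ℝ} (hU : HasTemperateGrowth U) :
    HasTemperateGrowth (fun x => ‖gradient U x‖ ^ 2) := by
  simp only [norm_gradient_sq]
  refine HasTemperateGrowth.sum (fun i _ => ?_)
  exact (temp_dir hU _).pow 2

theorem gibbs_grad_sq_eq {U : E d → ℝ} (hU : SPot U) :
    ∫ x, ‖gradient U x‖ ^ 2 ∂(gibbs U) = ∫ x, lap U x ∂(gibbs U) := by
  simp only [norm_gradient_sq, lap]
  rw [integral_finsetSum _ (fun i _ => gibbs_integrable hU (tpow (temp_dir hU.temp (bas d i)) 2)),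
    integral_finsetSum _ (fun i _ =>
      gibbs_integrable hU (temp_dir (temp_dir hU.temp (bas d i)) (bas d i)))]
  refine Finset.sum_congr rfl fun i _ => ?_
  rw [gibbs_ibp hU (temp_dir hU.temp (bas d i))]
  simp only [sq]

/-- `E |∇U|² = E ΔU ≤ 2d` -/
theorem gibbs_grad_sq {U : E d → ℝ} (hU : SPot U) :
    ∫ x, ‖gradient U x‖ ^ 2 ∂(gibbs U) ≤ 2 * d := by
  have := hU.prob
  rw [gibbs_grad_sq_eq hU]
  calc ∫ x, lap U x ∂(gibbs U) ≤ ∫ _x, (2 * d : ℝ) ∂(gibbs U) :=
        integral_mono (gibbs_integrable hU (temp_lap hU.temp)) (integrable_const _)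
          (fun x => (lap_bounds hU x).2.1)
    _ = 2 * d := by simp

theorem temp_coord (i : Fin d) : HasTemperateGrowth (fun x : E d => x i) := by
  exact (EuclideanSpace.proj i : E d →L[ℝ] ℝ).hasTemperateGrowth

/-- `E |x|² ≤ 2d + |∇U(0)|²`: from `|x|² + <∇U(0),x> ≤ <∇U(x), x>` and `E <∇U,x> = d` -/
theorem gibbs_norm_sq {U : E d → ℝ} (hU : SPot U) :
    ∫ x, ‖x‖ ^ 2 ∂(gibbs U) ≤ 2 * d + ‖gradient U 0‖ ^ 2 := by
  have := hU.prob
  have hcoord : ∀ i : Fin d, ∀ x : E d, fderiv ℝ (fun x : E d => x i) x (bas d i) = 1 := by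
    intro i x
    have h : (fun x : E d => x i) = (EuclideanSpace.proj i : E d →L[ℝ] ℝ) := rfl
    rw [h, ContinuousLinearMap.fderiv]
    simp [bas]
  have h1 : ∫ x, ∑ i, x i * fderiv ℝ U x (bas d i) ∂(gibbs U) = d := by
    rw [integral_finsetSum _ (fun i _ =>
      gibbs_integrable hU (tmul (temp_coord i) (temp_dir hU.temp (bas d i))))]
    have : ∀ i : Fin d, ∫ x, x i * fderiv ℝ U x (bas d i) ∂(gibbs U) = 1 := by
      intro i
      rw [← gibbs_ibp hU (temp_coord i) (bas d i)]
      simp [hcoord]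
    simp [this]
  have h2 : ∀ x : E d, ∑ i, x i * fderiv ℝ U x (bas d i) = fderiv ℝ U x x := by
    intro x
    conv_rhs => rw [← sum_bas x, map_sum]
    refine Finset.sum_congr rfl fun i _ => ?_
    rw [map_smul, smul_eq_mul, sum_bas]
  have h3 : ∀ x : E d, ‖x‖ ^ 2 / 2 - ‖gradient U 0‖ ^ 2 / 2 ≤ fderiv ℝ U x x := by
    intro x
    have a1 := second_order_lower hU.contDiff 0 x (‖x‖ ^ 2) (fun t _ => hU.lower _ _)
    have a2 := second_order_lower hU.contDiff x (-x) (‖x‖ ^ 2) (fun t _ => by
      have := hU.lower (x + t • -x) (-x)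
      rwa [norm_neg] at this)
    rw [zero_add] at a1
    rw [add_neg_cancel, map_neg] at a2
    have a3 : -(‖gradient U 0‖ * ‖x‖) ≤ fderiv ℝ U 0 x := by
      have := (fderiv ℝ U 0).le_opNorm x
      rw [Real.norm_eq_abs, ← norm_gradient] at this
      exact (abs_le.1 this).1
    nlinarith [sq_nonneg (‖gradient U 0‖ - ‖x‖)]
  have hint : Integrable (fun x : E d => ‖x‖ ^ 2) (gibbs U) :=
    gibbs_integrable hU (hasTemperateGrowth_norm_sq (E d))
  have h4 : ∫ x, (‖x‖ ^ 2 / 2 - ‖gradient U 0‖ ^ 2 / 2) ∂(gibbs U) ≤ (d : ℝ) := by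
    rw [← h1]
    refine integral_mono ((hint.div_const 2).sub (integrable_const _))
      (integrable_finsetSum _ (fun i _ =>
        gibbs_integrable hU (tmul (temp_coord i) (temp_dir hU.temp (bas d i))))) ?_
    intro x
    simp only
    rw [h2]
    exact h3 x
  rw [integral_sub (hint.div_const 2) (integrable_const _), integral_div] at h4
  simp at h4
  linarith

/-- Bochner: `E (ΔU - |∇U|²)² = E |Hess U|² + E <Hess U ∇U, ∇U> ≤ 8 d` -/
theorem bochner {U : E d → ℝ} (hU : SPot U) :
    ∫ x, (lap U x - ‖gradient U x‖ ^ 2) ^ 2 ∂(gibbs U) ≤ 8 * d := by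
  have := hU.prob
  have h := ibp_sq (gibbs_ibpm hU) (fun k x => fderiv ℝ U x (bas d k))
    (fun k => temp_dir hU.temp (bas d k))
  have e1 : ∀ x, (lap U x - ‖gradient U x‖ ^ 2) ^ 2 =
      (∑ k, (fderiv ℝ U x (bas d k) * fderiv ℝ U x (bas d k) -
        fderiv ℝ (fun x => fderiv ℝ U x (bas d k)) x (bas d k))) ^ 2 := by
    intro x
    rw [Finset.sum_sub_distrib, norm_gradient_sq, lap]
    simp only [sq]
    ring
  simp only [e1]
  rw [h]
  have t1 : ∑ k, ∑ l, ∫ z, fderiv ℝ (fun x => fderiv ℝ U x (bas d k)) z (bas d l) *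
      fderiv ℝ (fun x => fderiv ℝ U x (bas d l)) z (bas d k) ∂(gibbs U) ≤ 4 * d := by
    have hi : ∀ k l : Fin d, Integrable (fun z =>
        fderiv ℝ (fun x => fderiv ℝ U x (bas d k)) z (bas d l) *
        fderiv ℝ (fun x => fderiv ℝ U x (bas d l)) z (bas d k)) (gibbs U) := fun k l =>
      gibbs_integrable hU ((temp_dir (temp_dir hU.temp _) _).mul (temp_dir (temp_dir hU.temp _) _))
    have : ∑ k, ∑ l, ∫ z, fderiv ℝ (fun x => fderiv ℝ U x (bas d k)) z (bas d l) *
      fderiv ℝ (fun x => fderiv ℝ U x (bas d l)) z (bas d k) ∂(gibbs U) =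
      ∫ z, ∑ k, ∑ l, fderiv ℝ (fun x => fderiv ℝ U x (bas d k)) z (bas d l) *
      fderiv ℝ (fun x => fderiv ℝ U x (bas d l)) z (bas d k) ∂(gibbs U) := by
      rw [integral_finsetSum _ (fun k _ => integrable_finsetSum _ (fun l _ => hi k l))]
      refine Finset.sum_congr rfl fun k _ => ?_
      rw [integral_finsetSum _ (fun l _ => hi k l)]
    rw [this]
    calc _ ≤ ∫ _z, (4 * d : ℝ) ∂(gibbs U) := by
          refine integral_mono
            (integrable_finsetSum _ (fun k _ => integrable_finsetSum _ (fun l _ => hi k l)))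
            (integrable_const _) ?_
          intro z
          refine le_trans (le_of_eq ?_) (lap_bounds hU z).2.2
          refine Finset.sum_congr rfl fun k _ => Finset.sum_congr rfl fun l _ => ?_
          rw [dir_comm hU.temp (bas d l) (bas d k), sq]
      _ = 4 * d := by simp
  have t2 : ∫ z, ∑ k, ∑ l, fderiv ℝ (fun y => fderiv ℝ U y (bas d l)) z (bas d k) *
      fderiv ℝ U z (bas d k) * fderiv ℝ U z (bas d l) ∂(gibbs U) ≤ 4 * (d : ℝ) := by
    have hpt : ∀ z, ∑ k, ∑ l, fderiv ℝ (fun y => fderiv ℝ U y (bas d l)) z (bas d k) *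
        fderiv ℝ U z (bas d k) * fderiv ℝ U z (bas d l) ≤ 2 * ‖gradient U z‖ ^ 2 := by
      intro z
      refine le_trans (le_of_eq ?_) (hU.upper z (gradient U z))
      conv_rhs => rw [← sum_bas (gradient U z)]
      simp only [map_sum, map_smul, sum_apply, smul_apply, smul_eq_mul,
        gradient_apply]
      rw [Finset.sum_comm]
      refine Finset.sum_congr rfl fun l _ => ?_
      rw [Finset.mul_sum]
      refine Finset.sum_congr rfl fun k _ => ?_
      rw [fderiv_dir hU.temp]
      ring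
    calc _ ≤ ∫ z, 2 * ‖gradient U z‖ ^ 2 ∂(gibbs U) := by
          refine integral_mono ?_ ((gibbs_integrable hU (temp_gradient_sq hU.temp)).const_mul 2) hpt
          exact integrable_finsetSum _ (fun k _ => integrable_finsetSum _ (fun l _ =>
            gibbs_integrable hU (((temp_dir (temp_dir hU.temp _) _).mul (temp_dir hU.temp _)).mul
              (temp_dir hU.temp _))))
      _ ≤ 2 * (2 * (d : ℝ)) := by
          rw [integral_const_mul]
          have := gibbs_grad_sq hU
          linarith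
      _ = 4 * (d : ℝ) := by ring
  linarith

theorem phase_prob {U : E d → ℝ} (hU : SPot U) : IsProbabilityMeasure (phase U) := by
  have := hU.prob
  unfold phase
  infer_instance

/-- directions `ε e_i` in the position and `e_i` in the velocity -/
noncomputable def dirs (d : ℕ) (ε : ℝ) : Fin d ⊕ Fin d → E d × E d
  | Sum.inl i => (ε • bas d i, 0)
  | Sum.inr i => (0, bas d i)

/-- the Hamiltonian -/
noncomputable def ham (U : E d → ℝ) (z : E d × E d) : ℝ := U z.1 + ‖z.2‖ ^ 2 / 2

theorem temp_fst {f : E d → ℝ} (hf : HasTemperateGrowth f) :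
    HasTemperateGrowth (fun z : E d × E d => f z.1) :=
  hf.comp (ContinuousLinearMap.fst ℝ (E d) (E d)).hasTemperateGrowth

theorem temp_snd {f : E d → ℝ} (hf : HasTemperateGrowth f) :
    HasTemperateGrowth (fun z : E d × E d => f z.2) :=
  hf.comp (ContinuousLinearMap.snd ℝ (E d) (E d)).hasTemperateGrowth

theorem temp_ham {U : E d → ℝ} (hU : SPot U) : HasTemperateGrowth (ham U) := by
  exact (temp_fst hU.temp).add (temp_snd (spot_sq d).temp)

theorem temp_slice1 {f : E d × E d → ℝ} (hf : HasTemperateGrowth f) (v : E d) :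
    HasTemperateGrowth (fun x => f (x, v)) := by
  have h : HasTemperateGrowth (fun x : E d => (x, v)) := by
    have := (ContinuousLinearMap.inl ℝ (E d) (E d)).hasTemperateGrowth.add
      (HasTemperateGrowth.const (E := E d) ((0 : E d), v))
    have e : (fun x : E d => (x, v)) =
        ((ContinuousLinearMap.inl ℝ (E d) (E d)) : E d → E d × E d) + fun _ => ((0 : E d), v) := by
      funext x
      simp
    rw [e]
    exact this
  exact hf.comp h

theorem temp_slice2 {f : E d × E d → ℝ} (hf : HasTemperateGrowth f) (x : E d) :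
    HasTemperateGrowth (fun v => f (x, v)) := by
  have h : HasTemperateGrowth (fun v : E d => (x, v)) := by
    have := (ContinuousLinearMap.inr ℝ (E d) (E d)).hasTemperateGrowth.add
      (HasTemperateGrowth.const (E := E d) (x, (0 : E d)))
    have e : (fun v : E d => (x, v)) =
        ((ContinuousLinearMap.inr ℝ (E d) (E d)) : E d → E d × E d) + fun _ => (x, (0 : E d)) := by
      funext v
      simp
    rw [e]
    exact this
  exact hf.comp h

theorem fderiv_slice1 {f : E d × E d → ℝ} (hf : Differentiable ℝ f) (x v w : E d) :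
    fderiv ℝ (fun x => f (x, v)) x w = fderiv ℝ f (x, v) (w, 0) := by
  have h1 : HasFDerivAt (fun x : E d => (x, v))
      ((ContinuousLinearMap.id ℝ (E d)).prod (0 : E d →L[ℝ] E d)) x :=
    (hasFDerivAt_id x).prodMk (hasFDerivAt_const v x)
  have h2 := (hf (x, v)).hasFDerivAt.comp x h1
  have h3 : fderiv ℝ (fun x => f (x, v)) x = (fderiv ℝ f (x, v)).comp
    ((ContinuousLinearMap.id ℝ (E d)).prod (0 : E d →L[ℝ] E d)) := h2.fderiv
  rw [h3]
  simp

theorem fderiv_slice2 {f : E d × E d → ℝ} (hf : Differentiable ℝ f) (x v w : E d) :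
    fderiv ℝ (fun v => f (x, v)) v w = fderiv ℝ f (x, v) (0, w) := by
  have h1 : HasFDerivAt (fun v : E d => (x, v))
      ((0 : E d →L[ℝ] E d).prod (ContinuousLinearMap.id ℝ (E d))) v :=
    (hasFDerivAt_const x v).prodMk (hasFDerivAt_id v)
  have h2 := (hf (x, v)).hasFDerivAt.comp v h1
  have h3 : fderiv ℝ (fun v => f (x, v)) v = (fderiv ℝ f (x, v)).comp
    ((0 : E d →L[ℝ] E d).prod (ContinuousLinearMap.id ℝ (E d))) := h2.fderiv
  rw [h3]
  simp

theorem phase_integrable {U : E d → ℝ} (hU : SPot U) {f : E d × E d → ℝ}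
    (hf : HasTemperateGrowth f) : Integrable f (phase U) := by
  obtain ⟨k, C, h⟩ := hf.2 0
  have h' : ∀ z, |f z| ≤ C * (1 + ‖z‖) ^ k := by
    intro z
    have := h z
    rwa [norm_iteratedFDeriv_zero, Real.norm_eq_abs] at this
  have hC : 0 ≤ C := by
    have := (abs_nonneg _).trans (h' 0)
    simpa using this
  obtain ⟨c, hc⟩ := hU.lower_bound
  obtain ⟨c', hc'⟩ := (spot_sq d).lower_bound
  have i1 : Integrable (fun x : E d => (1 + ‖x‖) ^ k) (gibbs U) :=
    integrable_gibbs_poly hU.cont hc (by fun_prop) (k := k) (C := 1) (fun x => by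
      rw [abs_of_nonneg (by positivity), one_mul])
  have i2 : Integrable (fun x : E d => (1 + ‖x‖) ^ k) (stdGaussian (E d)) := by
    rw [stdGaussian_eq_gibbs]
    exact integrable_gibbs_poly (spot_sq d).cont hc' (by fun_prop) (k := k) (C := 1) (fun x => by
      rw [abs_of_nonneg (by positivity), one_mul])
  have := hU.prob
  have i3 := (i1.mul_prod i2).const_mul C
  refine i3.mono' hf.1.continuous.aestronglyMeasurable ?_
  filter_upwards with z
  rw [Real.norm_eq_abs]
  refine (h' z).trans ?_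
  gcongr
  rw [← mul_pow]
  gcongr
  have hz : ‖z‖ ≤ ‖z.1‖ + ‖z.2‖ := by
    rw [Prod.norm_def]
    exact max_le (by linarith [norm_nonneg z.2]) (by linarith [norm_nonneg z.1])
  nlinarith [norm_nonneg z.1, norm_nonneg z.2, mul_nonneg (norm_nonneg z.1) (norm_nonneg z.2)]

theorem fderiv_ham {U : E d → ℝ} (hU : SPot U) (z w : E d × E d) :
    fderiv ℝ (ham U) z w = fderiv ℝ U z.1 w.1 + inner ℝ z.2 w.2 := by
  have h1 : HasFDerivAt (fun z : E d × E d => U z.1)
      ((fderiv ℝ U z.1).comp (ContinuousLinearMap.fst ℝ (E d) (E d))) z :=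
    ((temp_diff hU.temp) z.1).hasFDerivAt.comp z hasFDerivAt_fst
  have h2 : HasFDerivAt (fun z : E d × E d => ‖z.2‖ ^ 2 / 2)
      ((fderiv ℝ (fun v : E d => ‖v‖ ^ 2 / 2) z.2).comp
        (ContinuousLinearMap.snd ℝ (E d) (E d))) z :=
    ((temp_diff (spot_sq d).temp) z.2).hasFDerivAt.comp z hasFDerivAt_snd
  have h3 : fderiv ℝ (ham U) z = _ := (h1.add h2).fderiv
  rw [h3, fderiv_sq]
  simp

/-- integration by parts on phase space (Fubini, `gibbs_ibp` for `U` and for `|v|²/2`) -/
theorem phase_ibpm {U : E d → ℝ} (hU : SPot U) (ε : ℝ) : IBPm (phase U) (dirs d ε) (ham U) := by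
  have := hU.prob
  refine ⟨phase_prob hU, temp_ham hU, fun f hf => phase_integrable hU hf, fun f hf k => ?_⟩
  have i1 := phase_integrable hU (temp_dir hf (dirs d ε k))
  have i2 := phase_integrable hU (tmul hf (temp_dir (temp_ham hU) (dirs d ε k)))
  cases k with
  | inl i =>
    simp only [dirs] at i1 i2 ⊢
    unfold phase at i1 i2 ⊢
    rw [integral_prod_symm _ i1, integral_prod_symm _ i2]
    apply integral_congr_ae
    filter_upwards with v
    have h1 := gibbs_ibp hU (temp_slice1 hf v) (ε • bas d i)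
    simp only [fderiv_slice1 (temp_diff hf)] at h1
    rw [h1]
    apply integral_congr_ae
    filter_upwards with x
    rw [fderiv_ham hU]
    simp
  | inr i =>
    simp only [dirs] at i1 i2 ⊢
    unfold phase at i1 i2 ⊢
    rw [integral_prod _ i1, integral_prod _ i2]
    apply integral_congr_ae
    filter_upwards with x
    have h1 := gibbs_ibp (spot_sq d) (temp_slice2 hf x) (bas d i)
    rw [← stdGaussian_eq_gibbs] at h1
    simp only [fderiv_slice2 (temp_diff hf)] at h1
    rw [h1]
    apply integral_congr_ae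
    filter_upwards with v
    rw [fderiv_ham hU, fderiv_sq]
    simp

end P347Q
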