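import Vale.Agent.P347Q.SmoothReg
import Vale.Agent.P347Q.Moments
import Vale.Agent.P347Q.PotAux

/-!
Module Smooth (DER).  The smoothed potential `U = smooth ε V` of a potential `V` of class `Pot`.

`smooth_grad`, `smooth_hess`: differentiate under the integral (`∇V` is `2`-Lipschitz, the Hessian is
continuous and bounded).  `smooth_spot`: `SmoothReg.smooth_temp` (`0 ≤ V ≤ |x|²`) and `smooth_hess`.
`smooth_hs`: `smooth ε V = (smooth δ)^[n] V` with `δ² = ε²/n` (semigroup); the innermost `smooth δ V` has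
Hessian in `[1,2]`, so `hs 1 (∂_w smooth δ V) ≤ 4|w|²` everywhere; apply `hs_smooth` `n-1` times.
`smooth_heat`: `d/du E V(x+√u z) = E ⟨∇V(x+√u z), z⟩/(2√u) = ½ E ΔV(x+√u z)`.
-/

open MeasureTheory ProbabilityTheory Function
open scoped ENNReal BigOperators ContDiff Topology

namespace P347Q

variable {d : ℕ} {V : E d → ℝ} {ε : ℝ}

theorem Pot.fderiv_zero (hV : Pot d V) : fderiv ℝ V 0 = 0 := by
  have h := PotAux.norm_grad (V := V) (0 : E d)
  rw [hV.grad_zero, norm_zero] at h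
  exact norm_eq_zero.1 h.symm

theorem Pot.lip (hV : Pot d V) (x y : E d) : ‖gradient V x - gradient V y‖ ≤ 2 * ‖x - y‖ := by
  rw [PotAux.grad_sub]
  exact PotAux.fderiv_lip hV.smooth hV.lower hV.upper x y

theorem Pot.fderiv_le (hV : Pot d V) (x : E d) : ‖fderiv ℝ V x‖ ≤ 2 * ‖x‖ := by
  have := PotAux.fderiv_lip hV.smooth hV.lower hV.upper x 0
  rwa [hV.fderiv_zero, sub_zero, sub_zero] at this

theorem Pot.abs_le (hV : Pot d V) (x : E d) : |V x| ≤ ‖x‖ ^ 2 := by
  have h1 := PotAux.taylor_lower hV.smooth hV.lower 0 x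
  have h2 := PotAux.taylor_upper hV.smooth hV.upper 0 x
  rw [hV.zero, hV.fderiv_zero, zero_add] at h1 h2
  simp only [zero_apply, zero_add] at h1 h2
  rw [_root_.abs_le]
  constructor
  · nlinarith [sq_nonneg ‖x‖]
  · exact h2

theorem Pot.polyB (hV : Pot d V) : PolyB V :=
  ⟨hV.smooth.continuous, 2, 1, fun x => (hV.abs_le x).trans (by nlinarith [norm_nonneg x])⟩

namespace SmAux

theorem growth (x z : E d) (ε : ℝ) :
    1 + ‖x + ε • z‖ ≤ (1 + ‖x‖ + |ε|) * (1 + ‖z‖) := by
  have h1 : ‖x + ε • z‖ ≤ ‖x‖ + |ε| * ‖z‖ := by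
    refine (norm_add_le _ _).trans ?_
    rw [norm_smul, Real.norm_eq_abs]
  nlinarith [norm_nonneg x, norm_nonneg z, abs_nonneg ε, mul_nonneg (norm_nonneg x) (norm_nonneg z)]

theorem growth_pow (x z : E d) (ε : ℝ) (k : ℕ) :
    (1 + ‖x + ε • z‖) ^ k ≤ (1 + ‖x‖ + |ε|) ^ k * (1 + ‖z‖) ^ k := by
  rw [← mul_pow]
  exact pow_le_pow_left₀ (by positivity) (growth x z ε) k

variable {G : Type*} [NormedAddCommGroup G] [NormedSpace ℝ G]

theorem int_shift {g : E d → G} (hg : Continuous g) {k : ℕ} {C : ℝ}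
    (hb : ∀ y, ‖g y‖ ≤ C * (1 + ‖y‖) ^ k) (x : E d) (ε : ℝ) :
    Integrable (fun z => g (x + ε • z)) (stdGaussian (E d)) := by
  have hC : 0 ≤ C := by
    have h := (norm_nonneg _).trans (hb 0)
    simpa using h
  refine gauss_int_poly _ (by
    exact (hg.comp (by fun_prop : Continuous fun z : E d => x + ε • z)).aestronglyMeasurable) k
    (C * (1 + ‖x‖ + |ε|) ^ k) fun z => ?_
  refine (hb _).trans ?_
  rw [mul_assoc]
  exact mul_le_mul_of_nonneg_left (growth_pow x z ε k) hC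

theorem hasFDerivAt_shift [CompleteSpace G] {g : E d → G} (hg : ContDiff ℝ 1 g) {k : ℕ} {C : ℝ}
    (hb : ∀ y, ‖g y‖ ≤ C * (1 + ‖y‖) ^ k) {k' : ℕ} {C' : ℝ}
    (hb' : ∀ y, ‖fderiv ℝ g y‖ ≤ C' * (1 + ‖y‖) ^ k') (x : E d) (ε : ℝ) :
    HasFDerivAt (fun x => ∫ z, g (x + ε • z) ∂(stdGaussian (E d)))
      (∫ z, fderiv ℝ g (x + ε • z) ∂(stdGaussian (E d))) x := by
  have hC' : 0 ≤ C' := by
    have h := (norm_nonneg _).trans (hb' 0)
    simpa using h
  refine hasFDerivAt_integral_of_dominated_of_fderiv_le (s := Metric.ball x 1)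
    (F' := fun x z => fderiv ℝ g (x + ε • z))
    (bound := fun z => C' * ((2 + ‖x‖ + |ε|) ^ k' * (1 + ‖z‖) ^ k')) (Metric.ball_mem_nhds x one_pos)
    (Filter.Eventually.of_forall fun y =>
      (hg.continuous.comp (by fun_prop : Continuous fun z : E d => y + ε • z)).aestronglyMeasurable)
    (int_shift hg.continuous hb x ε)
    (((hg.continuous_fderiv (by norm_num)).comp
      (by fun_prop : Continuous fun z : E d => x + ε • z)).aestronglyMeasurable) ?_ ?_ ?_
  · refine Filter.Eventually.of_forall fun z y hy => ?_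
    refine (hb' _).trans (mul_le_mul_of_nonneg_left ((growth_pow y z ε k').trans ?_) hC')
    refine mul_le_mul_of_nonneg_right (pow_le_pow_left₀ (by positivity) ?_ k') (by positivity)
    have h1 : ‖y‖ ≤ ‖x‖ + 1 := by
      have h2 : dist y x < 1 := hy
      rw [dist_eq_norm] at h2
      have h3 : ‖y‖ ≤ ‖x‖ + ‖y - x‖ := by
        have := norm_add_le x (y - x)
        simpa using this
      linarith
    linarith
  · exact ((gauss_int_pow' d k').const_mul _).const_mul _
  · refine Filter.Eventually.of_forall fun z y _ => ?_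
    have h1 : HasFDerivAt g (fderiv ℝ g (y + ε • z)) (y + ε • z) :=
      (hg.differentiable (by norm_num) _).hasFDerivAt
    have h2 : HasFDerivAt (fun y : E d => y + ε • z) (ContinuousLinearMap.id ℝ (E d)) y :=
      (hasFDerivAt_id y).add_const _
    have h3 := h1.comp y h2
    rwa [ContinuousLinearMap.comp_id] at h3

theorem int_fderiv_apply {g : E d → G} (hg : ContDiff ℝ 1 g) {k' : ℕ} {C' : ℝ}
    (hb' : ∀ y, ‖fderiv ℝ g y‖ ≤ C' * (1 + ‖y‖) ^ k') (x : E d) (ε : ℝ) (w : E d) :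
    Integrable (fun z => fderiv ℝ g (x + ε • z) w) (stdGaussian (E d)) ∧
    (∫ z, fderiv ℝ g (x + ε • z) ∂(stdGaussian (E d))) w =
      ∫ z, fderiv ℝ g (x + ε • z) w ∂(stdGaussian (E d)) := by
  have h : Integrable (fun z => fderiv ℝ g (x + ε • z)) (stdGaussian (E d)) :=
    int_shift (hg.continuous_fderiv (by norm_num)) hb' x ε
  exact ⟨h.apply_continuousLinearMap w, ContinuousLinearMap.integral_apply h w⟩

end SmAux

open SmAux

theorem Pot.fderiv_poly (hV : Pot d V) (y : E d) : ‖fderiv ℝ V y‖ ≤ 2 * (1 + ‖y‖) ^ 1 := by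
  have := hV.fderiv_le y
  nlinarith [norm_nonneg y]

theorem Pot.hess_poly (hV : Pot d V) (y : E d) :
    ‖fderiv ℝ (fderiv ℝ V) y‖ ≤ 2 * (1 + ‖y‖) ^ 0 := by
  simpa using PotAux.norm_hess_le hV.smooth hV.lower hV.upper y

theorem Pot.abs_poly (hV : Pot d V) (y : E d) : ‖V y‖ ≤ 1 * (1 + ‖y‖) ^ 2 := by
  rw [Real.norm_eq_abs]
  have := hV.abs_le y
  nlinarith [norm_nonneg y]

theorem Pot.cont_fderiv (hV : Pot d V) : Continuous (fderiv ℝ V) :=
  hV.smooth.continuous_fderiv (by norm_num)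

theorem Pot.contDiff_fderiv (hV : Pot d V) : ContDiff ℝ 1 (fderiv ℝ V) :=
  hV.smooth.fderiv_right (m := 1) (by norm_num)

theorem SmAux.sm_hasFDerivAt (hV : Pot d V) (ε : ℝ) (x : E d) :
    HasFDerivAt (smooth ε V) (∫ z, fderiv ℝ V (x + ε • z) ∂(stdGaussian (E d))) x :=
  hasFDerivAt_shift (hV.smooth.of_le (by norm_num)) hV.abs_poly hV.fderiv_poly x ε

theorem SmAux.sm_fderiv_eq (hV : Pot d V) (ε : ℝ) :
    fderiv ℝ (smooth ε V) = fun x => ∫ z, fderiv ℝ V (x + ε • z) ∂(stdGaussian (E d)) := by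
  funext x
  exact (sm_hasFDerivAt hV ε x).fderiv

theorem SmAux.sm_hasFDerivAt2 (hV : Pot d V) (ε : ℝ) (x : E d) :
    HasFDerivAt (fderiv ℝ (smooth ε V))
      (∫ z, fderiv ℝ (fderiv ℝ V) (x + ε • z) ∂(stdGaussian (E d))) x := by
  rw [sm_fderiv_eq hV ε]
  exact hasFDerivAt_shift hV.contDiff_fderiv hV.fderiv_poly hV.hess_poly x ε

theorem SmAux.int_fderiv (hV : Pot d V) (ε : ℝ) (x : E d) :
    Integrable (fun z => fderiv ℝ V (x + ε • z)) (stdGaussian (E d)) :=
  int_shift hV.cont_fderiv hV.fderiv_poly x ε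

theorem SmAux.int_V (hV : Pot d V) (ε : ℝ) (x : E d) :
    Integrable (fun z => V (x + ε • z)) (stdGaussian (E d)) :=
  int_shift hV.smooth.continuous hV.abs_poly x ε

theorem SmAux.cont_grad (hV : Pot d V) : Continuous (gradient V) := by
  unfold gradient
  exact (InnerProductSpace.toDual ℝ (E d)).symm.continuous.comp hV.cont_fderiv

theorem SmAux.int_grad (hV : Pot d V) (ε : ℝ) (x : E d) :
    Integrable (fun z => gradient V (x + ε • z)) (stdGaussian (E d)) :=
  int_shift (cont_grad hV) (fun y => by rw [PotAux.norm_grad]; exact hV.fderiv_poly y) x ε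

theorem smooth_grad (hV : Pot d V) (ε : ℝ) (x : E d) :
    gradient (smooth ε V) x = ∫ z, gradient V (x + ε • z) ∂(stdGaussian (E d)) := by
  refine ext_inner_right ℝ fun w => ?_
  rw [← PotAux.fderiv_eq_inner, sm_fderiv_eq hV, real_inner_comm,
    ← integral_inner (int_grad hV ε x) w, ContinuousLinearMap.integral_apply (int_fderiv hV ε x)]
  refine integral_congr_ae (Filter.Eventually.of_forall fun z => ?_)
  simp only
  rw [PotAux.fderiv_eq_inner, real_inner_comm]

theorem smooth_hess (hV : Pot d V) (ε : ℝ) (x w w' : E d) :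
    fderiv ℝ (fderiv ℝ (smooth ε V)) x w w' =
      ∫ z, fderiv ℝ (fderiv ℝ V) (x + ε • z) w w' ∂(stdGaussian (E d)) := by
  obtain ⟨h1, h2⟩ := int_fderiv_apply hV.contDiff_fderiv hV.hess_poly x ε w
  rw [(sm_hasFDerivAt2 hV ε x).fderiv, h2, ContinuousLinearMap.integral_apply h1]

theorem SmAux.int_hess_apply (hV : Pot d V) (ε : ℝ) (x w w' : E d) :
    Integrable (fun z => fderiv ℝ (fderiv ℝ V) (x + ε • z) w w') (stdGaussian (E d)) :=
  (int_fderiv_apply hV.contDiff_fderiv hV.hess_poly x ε w).1.apply_continuousLinearMap w'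

theorem smooth_spot (hV : Pot d V) (hε : 0 < ε) : SPot (smooth ε V) := by
  refine ⟨smooth_temp hV.polyB hε, fun x w => ?_, fun x w => ?_⟩
  · rw [smooth_hess hV]
    have h := integral_mono (μ := stdGaussian (E d)) (integrable_const (‖w‖ ^ 2))
      (int_hess_apply hV ε x w w) (fun z => hV.lower _ w)
    simpa using h
  · rw [smooth_hess hV]
    have h := integral_mono (μ := stdGaussian (E d)) (int_hess_apply hV ε x w w)
      (integrable_const (2 * ‖w‖ ^ 2)) (fun z => hV.upper _ w)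
    simpa using h

theorem SmAux.int_lin (L : E d →L[ℝ] ℝ) (ε : ℝ) :
    Integrable (fun z : E d => L (ε • z)) (stdGaussian (E d)) ∧
    ∫ z, L (ε • z) ∂(stdGaussian (E d)) = 0 := by
  have h1 : Integrable (fun z : E d => ε • z) (stdGaussian (E d)) :=
    IsGaussian.integrable_id.smul ε
  refine ⟨L.integrable_comp h1, ?_⟩
  rw [L.integral_comp_comm h1, integral_smul, gauss_mean, smul_zero, map_zero]

theorem smooth_sub (hV : Pot d V) (ε : ℝ) (x : E d) :
    0 ≤ smooth ε V x - V x ∧ smooth ε V x - V x ≤ ε ^ 2 * d := by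
  have hn : ∀ z : E d, ‖ε • z‖ ^ 2 = ε ^ 2 * ‖z‖ ^ 2 := fun z => by
    rw [norm_smul, mul_pow, Real.norm_eq_abs, sq_abs]
  obtain ⟨hi, h0⟩ := int_lin (fderiv ℝ V x) ε
  have hq : Integrable (fun z : E d => ‖ε • z‖ ^ 2) (stdGaussian (E d)) := by
    simp only [hn]; exact (gauss_int_pow d 2).const_mul _
  have hq' : ∫ z : E d, ‖ε • z‖ ^ 2 ∂(stdGaussian (E d)) = ε ^ 2 * d := by
    simp only [hn]; rw [integral_const_mul, gauss_norm_sq]
  constructor
  · have h1 : ∫ z, (V x + fderiv ℝ V x (ε • z)) ∂(stdGaussian (E d)) ≤ smooth ε V x :=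
      integral_mono ((integrable_const _).add hi) (int_V hV ε x) fun z => by
        have := PotAux.taylor_lower hV.smooth hV.lower x (ε • z)
        have h2 := sq_nonneg ‖ε • z‖
        simp only
        linarith
    rw [integral_add (integrable_const _) hi, h0] at h1
    simp at h1
    linarith
  · have h1 : smooth ε V x ≤ ∫ z, ((V x + fderiv ℝ V x (ε • z)) + ‖ε • z‖ ^ 2)
        ∂(stdGaussian (E d)) :=
      integral_mono (int_V hV ε x) (((integrable_const _).add hi).add hq) fun z => by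
        have := PotAux.taylor_upper hV.smooth hV.upper x (ε • z)
        simp only
        linarith
    have h2 : ∫ z, ((V x + fderiv ℝ V x (ε • z)) + ‖ε • z‖ ^ 2) ∂(stdGaussian (E d)) =
        V x + ε ^ 2 * d := by
      rw [integral_add (f := fun z => V x + fderiv ℝ V x (ε • z)) ((integrable_const _).add hi) hq,
        integral_add (integrable_const _) hi, h0, hq']
      simp
    rw [h2] at h1
    linarith

/-- derivative in the width -/
theorem SmAux.sm_hasDerivAt_width (hV : Pot d V) (x : E d) (s : ℝ) :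
    HasDerivAt (fun r => smooth r V x) (∫ z, fderiv ℝ V (x + s • z) z ∂(stdGaussian (E d))) s := by
  refine (hasDerivAt_integral_of_dominated_loc_of_deriv_le (s := Metric.ball s 1)
    (F := fun r z => V (x + r • z)) (F' := fun r z => fderiv ℝ V (x + r • z) z)
    (bound := fun z => 2 * ((2 + ‖x‖ + |s|) * (1 + ‖z‖) ^ 2)) (Metric.ball_mem_nhds s one_pos)
    (Filter.Eventually.of_forall fun r =>
      (hV.smooth.continuous.comp (by fun_prop : Continuous fun z : E d => x + r • z)).aestronglyMeasurable)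
    (int_V hV s x) ?_ ?_ ?_ ?_).2
  · have h1 : Continuous fun z : E d => fderiv ℝ V (x + s • z) z :=
      (hV.cont_fderiv.comp (by fun_prop : Continuous fun z : E d => x + s • z)).clm_apply continuous_id
    exact h1.aestronglyMeasurable
  · refine Filter.Eventually.of_forall fun z r hr => ?_
    have h1 : ‖fderiv ℝ V (x + r • z) z‖ ≤ 2 * ‖x + r • z‖ * ‖z‖ :=
      (ContinuousLinearMap.le_opNorm _ _).trans
        (mul_le_mul_of_nonneg_right (hV.fderiv_le _) (norm_nonneg _))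
    have h2 := growth x z r
    have h3 : |r| ≤ |s| + 1 := by
      have h4 : dist r s < 1 := hr
      rw [Real.dist_eq] at h4
      have := abs_add_le (r - s) s
      rw [sub_add_cancel] at this
      linarith
    have h4 : ‖x + r • z‖ ≤ (2 + ‖x‖ + |s|) * (1 + ‖z‖) := by
      nlinarith [norm_nonneg z, norm_nonneg x]
    have h5 : ‖x + r • z‖ * ‖z‖ ≤ (2 + ‖x‖ + |s|) * (1 + ‖z‖) * (1 + ‖z‖) :=
      mul_le_mul h4 (by linarith [norm_nonneg z]) (norm_nonneg _) (by positivity)
    nlinarith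
  · exact ((gauss_int_pow' d 2).const_mul _).const_mul _
  · refine Filter.Eventually.of_forall fun z r _ => ?_
    have h1 : HasFDerivAt V (fderiv ℝ V (x + r • z)) (x + r • z) :=
      (hV.smooth.differentiable (by norm_num) _).hasFDerivAt
    have h2 : HasDerivAt (fun r : ℝ => x + r • z) z r := by
      simpa using ((hasDerivAt_id r).smul_const z).const_add x
    exact h1.comp_hasDerivAt r h2

theorem Pot.polyB_dir (hV : Pot d V) (w : E d) : PolyB (fun y => fderiv ℝ V y w) := by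
  refine ⟨hV.cont_fderiv.clm_apply continuous_const, 1, 2 * ‖w‖, fun x => ?_⟩
  have h1 := ((fderiv ℝ V x).le_opNorm w).trans
    (mul_le_mul_of_nonneg_right (hV.fderiv_poly x) (norm_nonneg w))
  rw [Real.norm_eq_abs] at h1
  calc _ ≤ _ := h1
    _ = _ := by ring

theorem SmAux.sm_dir (hV : Pot d V) (s : ℝ) (w : E d) :
    (fun y => fderiv ℝ (smooth s V) y w) = smooth s (fun y => fderiv ℝ V y w) := by
  funext y
  rw [sm_fderiv_eq hV s]
  simp only [smooth]
  rw [ContinuousLinearMap.integral_apply (int_fderiv hV s y)]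

theorem SmAux.apply_eq_sum (L : E d →L[ℝ] ℝ) (z : E d) :
    L z = ∑ i, inner ℝ z (bas d i) * L (bas d i) := by
  have h2 : z = ∑ i, (inner ℝ z (bas d i) : ℝ) • bas d i := by
    have h3 := (EuclideanSpace.basisFun (Fin d) ℝ).sum_repr z
    conv_lhs => rw [← h3]
    refine Finset.sum_congr rfl fun i _ => ?_
    simp only [EuclideanSpace.basisFun_repr, EuclideanSpace.basisFun_apply, bas]
    congr 1
    rw [EuclideanSpace.inner_single_right]
    simp
  conv_lhs => rw [h2]
  rw [map_sum]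
  refine Finset.sum_congr rfl fun i _ => ?_
  rw [map_smul, smul_eq_mul]

theorem SmAux.sm_lap (hV : Pot d V) {s : ℝ} (hs : 0 < s) (x : E d) :
    lap (smooth s V) x = s⁻¹ * ∫ z, fderiv ℝ V (x + s • z) z ∂(stdGaussian (E d)) := by
  unfold lap
  have h1 : ∀ i : Fin d, fderiv ℝ (fun y => fderiv ℝ (smooth s V) y (bas d i)) x (bas d i) =
      s⁻¹ * ∫ z, inner ℝ z (bas d i) * fderiv ℝ V (x + s • z) (bas d i) ∂(stdGaussian (E d)) := by
    intro i
    rw [sm_dir hV s (bas d i), smooth_fderiv_gauss (hV.polyB_dir _) hs x (bas d i)]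
  simp only [h1]
  rw [← Finset.mul_sum]
  congr 1
  have hint : ∀ i : Fin d, Integrable (fun z : E d => inner ℝ z (bas d i) *
      fderiv ℝ V (x + s • z) (bas d i)) (stdGaussian (E d)) := by
    intro i
    refine gauss_int_poly _ ?_ 2 (2 * (1 + ‖x‖ + |s|)) fun z => ?_
    · have h2 : Continuous fun z : E d => inner ℝ z (bas d i) * fderiv ℝ V (x + s • z) (bas d i) :=
        (by fun_prop : Continuous fun z : E d => (inner ℝ z (bas d i) : ℝ)).mul
          ((hV.cont_fderiv.comp (by fun_prop : Continuous fun z : E d => x + s • z)).clm_apply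
            continuous_const)
      exact h2.aestronglyMeasurable
    · have hb : ‖bas d i‖ = 1 := by simp [bas]
      have h3 : ‖(inner ℝ z (bas d i) : ℝ)‖ ≤ ‖z‖ := by
        have := norm_inner_le_norm (𝕜 := ℝ) z (bas d i)
        rwa [hb, mul_one] at this
      have h4 : ‖fderiv ℝ V (x + s • z) (bas d i)‖ ≤ 2 * ‖x + s • z‖ := by
        have := ((fderiv ℝ V (x + s • z)).le_opNorm (bas d i)).trans
          (mul_le_mul_of_nonneg_right (hV.fderiv_le _) (norm_nonneg _))
        rwa [hb, mul_one] at this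
      have h5 := growth x z s
      rw [norm_mul]
      have h6 : ‖x + s • z‖ ≤ (1 + ‖x‖ + |s|) * (1 + ‖z‖) := by linarith
      have h7 := mul_le_mul h3 h4 (norm_nonneg _) (norm_nonneg _)
      have h8 : ‖z‖ * ‖x + s • z‖ ≤ (1 + ‖z‖) * ((1 + ‖x‖ + |s|) * (1 + ‖z‖)) :=
        mul_le_mul (by linarith) h6 (norm_nonneg _) (by positivity)
      nlinarith
  rw [← integral_finsetSum _ (fun i _ => hint i)]
  exact integral_congr_ae (Filter.Eventually.of_forall fun z => (apply_eq_sum _ z).symm)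

theorem smooth_heat (hV : Pot d V) {u : ℝ} (hu : 0 < u) (x : E d) :
    HasDerivAt (fun r => smooth (√r) V x) (1 / 2 * lap (smooth (√u) V) x) u := by
  have h1 := (sm_hasDerivAt_width hV x (√u)).comp u (Real.hasDerivAt_sqrt hu.ne')
  have hs : 0 < √u := Real.sqrt_pos.2 hu
  refine h1.congr_deriv ?_
  rw [sm_lap hV hs]
  field_simp

theorem SmAux.spot_hess_row {U : E d → ℝ} (hU : SPot U) (w x : E d) :
    hs (bas d) 1 (fun y => fderiv ℝ U y w) x ≤ 4 * ‖w‖ ^ 2 := by
  have hC : ContDiff ℝ 2 U := hU.contDiff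
  have h1 : hs (bas d) 1 (fun y => fderiv ℝ U y w) x =
      ∑ i, (fderiv ℝ (fderiv ℝ U) x w (bas d i)) ^ 2 := by
    simp only [hs]
    refine Finset.sum_congr rfl fun i _ => ?_
    rw [fderiv_dir hU.temp]
    have := (hC.contDiffAt (x := x)).isSymmSndFDerivAt
      (by rw [minSmoothness_of_isRCLikeNormedField])
    rw [this (bas d i) w]
  have h2 := (EuclideanSpace.basisFun (Fin d) ℝ).norm_dual (fderiv ℝ (fderiv ℝ U) x w)
  simp only [EuclideanSpace.basisFun_apply] at h2
  rw [h1]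
  unfold bas
  rw [← h2]
  have h3 : ‖fderiv ℝ (fderiv ℝ U) x w‖ ≤ 2 * ‖w‖ :=
    ((fderiv ℝ (fderiv ℝ U) x).le_opNorm w).trans
      (mul_le_mul_of_nonneg_right (PotAux.norm_hess_le hC hU.lower hU.upper x) (norm_nonneg _))
  calc _ ≤ (2 * ‖w‖) ^ 2 := pow_le_pow_left₀ (norm_nonneg _) h3 2
    _ = _ := by ring

theorem SmAux.sm_hs_aux (hV : Pot d V) {δ : ℝ} (hδ : 0 < δ) (n : ℕ) (w x : E d) :
    hs (bas d) (n + 1) (fun y => fderiv ℝ (smooth (√(n + 1) * δ) V) y w) x ≤
      4 * ‖w‖ ^ 2 * ((δ ^ 2)⁻¹) ^ n := by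
  induction n generalizing x with
  | zero =>
    have h1 := spot_hess_row (smooth_spot hV hδ) w x
    simpa using h1
  | succ n ih =>
    have hn : 0 < √((n : ℝ) + 1) * δ := by positivity
    have h1 : smooth (√(((n + 1 : ℕ) : ℝ) + 1) * δ) V = smooth δ (smooth (√((n : ℝ) + 1) * δ) V) := by
      rw [smooth_semigroup hV.polyB]
      congr 1
      rw [mul_pow, Real.sq_sqrt (by positivity)]
      have h2 : δ ^ 2 + ((n : ℝ) + 1) * δ ^ 2 = (((n + 1 : ℕ) : ℝ) + 1) * δ ^ 2 := by
        push_cast; ring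
      rw [h2, Real.sqrt_mul (by positivity), Real.sqrt_sq hδ.le]
    have ht : HasTemperateGrowth (smooth (√((n : ℝ) + 1) * δ) V) := smooth_temp hV.polyB hn
    have h2 : (fun y => fderiv ℝ (smooth (√(((n + 1 : ℕ) : ℝ) + 1) * δ) V) y w) =
        smooth δ (fun y => fderiv ℝ (smooth (√((n : ℝ) + 1) * δ) V) y w) := by
      funext y
      rw [h1, smooth_fderiv_comm ht]
    rw [h2]
    refine (hs_smooth (temp_dir ht w) hδ (n + 1) x).trans ?_
    have h3 : smooth δ (hs (bas d) (n + 1)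
        (fun y => fderiv ℝ (smooth (√((n : ℝ) + 1) * δ) V) y w)) x ≤
        4 * ‖w‖ ^ 2 * ((δ ^ 2)⁻¹) ^ n := by
      show ∫ z, hs (bas d) (n + 1)
        (fun y => fderiv ℝ (smooth (√((n : ℝ) + 1) * δ) V) y w) (x + δ • z) ∂(stdGaussian (E d)) ≤ _
      by_cases hi : Integrable (fun z => hs (bas d) (n + 1)
          (fun y => fderiv ℝ (smooth (√((n : ℝ) + 1) * δ) V) y w) (x + δ • z)) (stdGaussian (E d))
      · have h4 := integral_mono hi (integrable_const (4 * ‖w‖ ^ 2 * ((δ ^ 2)⁻¹) ^ n))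
          (fun z => ih (x + δ • z))
        simpa using h4
      · rw [integral_undef hi]
        positivity
    calc _ ≤ (δ ^ 2)⁻¹ * (4 * ‖w‖ ^ 2 * ((δ ^ 2)⁻¹) ^ n) :=
          mul_le_mul_of_nonneg_left h3 (by positivity)
      _ = _ := by ring

theorem smooth_hs (hV : Pot d V) (hε : 0 < ε) {n : ℕ} (hn : 1 ≤ n) (w x : E d) :
    hs (bas d) n (fun y => fderiv ℝ (smooth ε V) y w) x ≤
      4 * (n : ℝ) ^ n * (ε ^ (2 * (n - 1)))⁻¹ * ‖w‖ ^ 2 := by
  obtain ⟨k, rfl⟩ : ∃ k, n = k + 1 := ⟨n - 1, by omega⟩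
  have hk : (0 : ℝ) < (k : ℝ) + 1 := by positivity
  have hδ : 0 < ε / √((k : ℝ) + 1) := by positivity
  have h1 := sm_hs_aux hV hδ k w x
  have h2 : √((k : ℝ) + 1) * (ε / √((k : ℝ) + 1)) = ε := by
    field_simp
  rw [h2] at h1
  refine h1.trans ?_
  have h3 : ((ε / √((k : ℝ) + 1)) ^ 2)⁻¹ = ((k : ℝ) + 1) * (ε ^ 2)⁻¹ := by
    rw [div_pow, Real.sq_sqrt hk.le]
    field_simp
  rw [h3, mul_pow, inv_pow, ← pow_mul]
  have h4 : ((k + 1 : ℕ) : ℝ) = (k : ℝ) + 1 := by push_cast; ring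
  rw [h4, Nat.add_sub_cancel]
  have h5 : ((k : ℝ) + 1) ^ k ≤ ((k : ℝ) + 1) ^ (k + 1) :=
    pow_le_pow_right₀ (by linarith [(Nat.cast_nonneg k : (0 : ℝ) ≤ k)]) (by omega)
  have h6 : 0 ≤ (ε ^ (2 * k))⁻¹ := by positivity
  have h7 : 0 ≤ ‖w‖ ^ 2 := by positivity
  calc 4 * ‖w‖ ^ 2 * (((k : ℝ) + 1) ^ k * (ε ^ (2 * k))⁻¹)
      = (4 * (ε ^ (2 * k))⁻¹ * ‖w‖ ^ 2) * ((k : ℝ) + 1) ^ k := by ring
    _ ≤ (4 * (ε ^ (2 * k))⁻¹ * ‖w‖ ^ 2) * ((k : ℝ) + 1) ^ (k + 1) :=
        mul_le_mul_of_nonneg_left h5 (by positivity)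
    _ = _ := by ring

theorem smooth_grad_zero (hV : Pot d V) (hε : 0 ≤ ε) :
    ‖gradient (smooth ε V) 0‖ ≤ 2 * ε * √d := by
  rw [smooth_grad hV]
  refine (norm_integral_le_integral_norm _).trans ?_
  have h1 : ∀ z : E d, ‖gradient V (0 + ε • z)‖ ≤ 2 * ε * ‖z‖ := by
    intro z
    rw [PotAux.norm_grad]
    refine (hV.fderiv_le _).trans (le_of_eq ?_)
    rw [zero_add, norm_smul, Real.norm_of_nonneg hε]
    ring
  have hn : Integrable (fun z : E d => ‖z‖) (stdGaussian (E d)) := by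
    simpa using gauss_int_pow d 1
  refine (integral_mono (int_grad hV ε 0).norm (hn.const_mul (2 * ε)) h1).trans ?_
  rw [integral_const_mul]
  exact mul_le_mul_of_nonneg_left (gauss_norm d) (by positivity)

/-- variance of the stochastic force -/
theorem smooth_grad_var (hV : Pot d V) (ε : ℝ) (x : E d) :
    Integrable (fun z => ‖gradient V (x + ε • z) - gradient (smooth ε V) x‖ ^ 2)
      (stdGaussian (E d)) ∧
    ∫ z, ‖gradient V (x + ε • z) - gradient (smooth ε V) x‖ ^ 2 ∂(stdGaussian (E d))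
      ≤ 4 * ε ^ 2 * d := by
  set m := gradient (smooth ε V) x with hm
  set c := gradient V x with hc
  have hint : Integrable (fun z => gradient V (x + ε • z)) (stdGaussian (E d)) := int_grad hV ε x
  have hmean : ∫ z, gradient V (x + ε • z) ∂(stdGaussian (E d)) = m := (smooth_grad hV ε x).symm
  have hsq : ∀ v : E d, Integrable (fun z => ‖gradient V (x + ε • z) - v‖ ^ 2)
      (stdGaussian (E d)) := by
    intro v
    refine gauss_int_poly _ ?_ 2 ((2 * (1 + ‖x‖ + |ε|) + ‖v‖) ^ 2) fun z => ?_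
    · have : Continuous fun z : E d => ‖gradient V (x + ε • z) - v‖ ^ 2 :=
        (((cont_grad hV).comp (by fun_prop : Continuous fun z : E d => x + ε • z)).sub
          continuous_const).norm.pow 2
      exact this.aestronglyMeasurable
    · rw [Real.norm_of_nonneg (by positivity), ← mul_pow]
      refine pow_le_pow_left₀ (norm_nonneg _) ?_ 2
      refine (norm_sub_le _ _).trans ?_
      rw [PotAux.norm_grad]
      have h1 := hV.fderiv_le (x + ε • z)
      have h2 := growth x z ε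
      nlinarith [norm_nonneg v, norm_nonneg z, mul_nonneg (norm_nonneg v) (norm_nonneg z)]
  refine ⟨hsq m, ?_⟩
  have h1 : ∀ z : E d, ‖gradient V (x + ε • z) - c‖ ^ 2 =
      ‖gradient V (x + ε • z) - m‖ ^ 2 + (2 * inner ℝ (m - c) (gradient V (x + ε • z) - m) +
        ‖m - c‖ ^ 2) := by
    intro z
    have h2 : gradient V (x + ε • z) - c = (gradient V (x + ε • z) - m) + (m - c) := by abel
    rw [h2, norm_add_sq_real, real_inner_comm]
    ring
  have hi2 : Integrable (fun z => gradient V (x + ε • z) - m) (stdGaussian (E d)) :=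
    hint.sub (integrable_const m)
  have hz : ∫ z, inner ℝ (m - c) (gradient V (x + ε • z) - m) ∂(stdGaussian (E d)) = 0 := by
    rw [integral_inner hi2, integral_sub hint (integrable_const m), hmean]
    simp
  have hi3 : Integrable (fun z => (inner ℝ (m - c) (gradient V (x + ε • z) - m) : ℝ))
      (stdGaussian (E d)) := hi2.const_inner (m - c)
  have h2 : ∫ z, ‖gradient V (x + ε • z) - c‖ ^ 2 ∂(stdGaussian (E d)) =
      ∫ z, ‖gradient V (x + ε • z) - m‖ ^ 2 ∂(stdGaussian (E d)) + ‖m - c‖ ^ 2 := by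
    simp only [h1]
    have h6 : Integrable (fun z => 2 * inner ℝ (m - c) (gradient V (x + ε • z) - m) +
        ‖m - c‖ ^ 2) (stdGaussian (E d)) := (hi3.const_mul 2).add (integrable_const _)
    rw [integral_add (hsq m) h6, integral_add (hi3.const_mul 2) (integrable_const _),
      integral_const_mul, hz]
    simp
  have h3 : ∫ z, ‖gradient V (x + ε • z) - c‖ ^ 2 ∂(stdGaussian (E d)) ≤ 4 * ε ^ 2 * d := by
    have h4 : ∀ z : E d, ‖gradient V (x + ε • z) - c‖ ^ 2 ≤ 4 * ε ^ 2 * ‖z‖ ^ 2 := by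
      intro z
      have h5 := hV.lip (x + ε • z) x
      rw [add_sub_cancel_left, norm_smul, Real.norm_eq_abs] at h5
      calc _ ≤ (2 * (|ε| * ‖z‖)) ^ 2 := pow_le_pow_left₀ (norm_nonneg _) h5 2
        _ = _ := by rw [mul_pow, mul_pow, sq_abs]; ring
    refine (integral_mono (hsq c) ((gauss_int_pow d 2).const_mul (4 * ε ^ 2)) h4).trans ?_
    rw [integral_const_mul, gauss_norm_sq]
  have h4 : 0 ≤ ‖m - c‖ ^ 2 := by positivity
  linarith

end P347Q
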