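import Vale.Agent.P347Q.Tame
import Vale.Agent.P347Q.Smooth

/-!
Module LiouBound.  The `m`-th time derivative of the force along the stationary Hamiltonian flow of
`U = smooth ε V` has second moment `≤ C_m d ε^{-2m}`.

Apply `tame` with `Z = E d × E d`, `κ = Fin d ⊕ Fin d`, `e = dirs d ε`, `H = ham U`, `μ = phase U`
(`phase_ibpm`), `J (inr i) (inl i) = 1`, `J (inl i) (inr i) = -1`, `0` otherwise: then
`Xop e J H f = ε * Liou U f`, so `(Xop ..)^[m] = ε^m (Liou U)^[m]`.
`hs (dirs d ε) n (Σ w_k ∂_k H)`: the function is `ε ∂_a U (x) + ⟨b, v⟩`,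
`a = Σ w (inl i) e_i`, `b = Σ w (inr i) e_i`; position part `≤ ε^{2n+2} 4 n^n ε^{-2(n-1)} |a|²`, velocity
part `|b|²` (`n = 1`) or `0`; so `B n = 4 n^n + 1` for `ε ≤ 1`.
For `f = ∂_i U ∘ fst`: `hs (dirs d ε) n f = ε^{2n} hs (bas d) n (∂_i U) ≤ 4 n^n` for `n ≥ 1`, and
`∫ (∂_iU)² = ∫ ∂_ii U ≤ 2` for `n = 0`.  Sum over `i`.
-/

open MeasureTheory ProbabilityTheory Function
open scoped ENNReal BigOperators

namespace P347Q

/-- the vector of the `m`-th time derivatives of the gradient along the flow -/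
noncomputable def force {d : ℕ} (U : E d → ℝ) (m : ℕ) (z : E d × E d) : E d :=
  WithLp.toLp 2 (fun i => (Liou U)^[m] (fun z' => fderiv ℝ U z'.1 (bas d i)) z)

namespace LB

variable {d : ℕ}

theorem grad_coord (U : E d → ℝ) (x : E d) (i : Fin d) :
    gradient U x i = fderiv ℝ U x (bas d i) := by
  have h1 : inner ℝ (gradient U x) (bas d i) = fderiv ℝ U x (bas d i) := by
    rw [gradient, InnerProductSpace.toDual_symm_apply]
  rw [← h1, bas, EuclideanSpace.inner_single_right]
  simp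

theorem sum_bas (v : E d) : ∑ i, v i • bas d i = v := by
  ext j
  simp only [bas, WithLp.ofLp_sum, WithLp.ofLp_smul, Finset.sum_apply, Pi.smul_apply,
    PiLp.ofLp_single, smul_eq_mul]
  rw [Finset.sum_eq_single j]
  · simp
  · intro b _ hb
    simp [hb.symm]
  · simp

/-- the symplectic matrix -/
def J (d : ℕ) : Fin d ⊕ Fin d → Fin d ⊕ Fin d → ℝ
  | Sum.inl i, Sum.inr j => if i = j then -1 else 0
  | Sum.inr i, Sum.inl j => if i = j then 1 else 0
  | _, _ => 0

theorem J_anti (k l : Fin d ⊕ Fin d) : J d k l = - J d l k := by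
  rcases k with i | i <;> rcases l with j | j
  · simp [J]
  · simp only [J, eq_comm (a := j) (b := i)]
    split_ifs <;> simp
  · simp only [J, eq_comm (a := j) (b := i)]
    split_ifs <;> simp
  · simp [J]

theorem J_contr (w : Fin d ⊕ Fin d → ℝ) :
    ∑ k, (∑ l, J d k l * w l) ^ 2 ≤ ∑ k, w k ^ 2 := by
  rw [Fintype.sum_sum_type, Fintype.sum_sum_type]
  simp only [Fintype.sum_sum_type, J, zero_mul, Finset.sum_const_zero, zero_add, add_zero,
    ite_mul, Finset.sum_ite_eq, Finset.mem_univ, if_true, neg_mul, one_mul, neg_sq]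
  rw [add_comm]

theorem fderiv_ham {U : E d → ℝ} (hU : SPot U) (z w : E d × E d) :
    fderiv ℝ (ham U) z w = fderiv ℝ U z.1 w.1 + inner ℝ z.2 w.2 := by
  have h1 : HasFDerivAt (fun z : E d × E d => U z.1)
      ((fderiv ℝ U z.1).comp (ContinuousLinearMap.fst ℝ (E d) (E d))) z :=
    (temp_diff hU.temp z.1).hasFDerivAt.comp z hasFDerivAt_fst
  have h2 : HasFDerivAt (fun z : E d × E d => ‖z.2‖ ^ 2 / 2)
      ((fderiv ℝ (fun v : E d => ‖v‖ ^ 2 / 2) z.2).comp
        (ContinuousLinearMap.snd ℝ (E d) (E d))) z :=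
    HasFDerivAt.comp (f := fun z : E d × E d => z.2) (g := fun v : E d => ‖v‖ ^ 2 / 2) z
      (temp_diff (spot_sq d).temp z.2).hasFDerivAt hasFDerivAt_snd
  have h3 := (h1.add h2).fderiv
  have h4 : (fun z : E d × E d => U z.1) + (fun z : E d × E d => ‖z.2‖ ^ 2 / 2) = ham U := by
    funext z
    rfl
  rw [h4] at h3
  rw [h3, fderiv_sq]
  simp

theorem Xop_eq {U : E d → ℝ} (hU : SPot U) (ε : ℝ) (f : E d × E d → ℝ) :
    Xop (dirs d ε) (J d) (ham U) f = fun z => ε * Liou U f z := by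
  funext z
  have h1 : (z.2, -gradient U z.1) =
      ∑ i, (z.2 i • ((bas d i, 0) : E d × E d) +
        (-fderiv ℝ U z.1 (bas d i)) • ((0, bas d i) : E d × E d)) := by
    rw [Finset.sum_add_distrib]
    have a1 : ∑ i, z.2 i • ((bas d i, 0) : E d × E d) = (z.2, 0) := by
      have : ∀ i, z.2 i • ((bas d i, 0) : E d × E d) =
          ContinuousLinearMap.inl ℝ (E d) (E d) (z.2 i • bas d i) := by
        intro i
        simp
      simp only [this]
      rw [← map_sum, sum_bas]
      simp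
    have a2 : ∑ i, (-fderiv ℝ U z.1 (bas d i)) • ((0, bas d i) : E d × E d) =
        (0, -gradient U z.1) := by
      have : ∀ i, (-fderiv ℝ U z.1 (bas d i)) • ((0, bas d i) : E d × E d) =
          ContinuousLinearMap.inr ℝ (E d) (E d) ((-gradient U z.1) i • bas d i) := by
        intro i
        rw [PiLp.neg_apply, grad_coord]
        simp
      simp only [this]
      rw [← map_sum, sum_bas]
      simp
    rw [a1, a2]
    simp
  unfold Xop Liou
  rw [h1, map_sum, Finset.mul_sum]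
  rw [Fintype.sum_sum_type]
  simp only [Fintype.sum_sum_type, J, zero_mul, Finset.sum_const_zero, zero_add, add_zero,
    ite_mul, Finset.sum_ite_eq, Finset.mem_univ, if_true, neg_mul, one_mul, fderiv_ham hU, dirs]
  rw [← Finset.sum_add_distrib]
  refine Finset.sum_congr rfl fun i _ => ?_
  have b1 : ((ε • bas d i, 0) : E d × E d) = ε • ((bas d i, 0) : E d × E d) := by simp
  rw [b1, map_add, map_smul, map_smul, map_smul, map_smul]
  have b2 : inner ℝ z.2 (bas d i) = z.2 i := by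
    rw [bas, EuclideanSpace.inner_single_right]
    simp
  simp only [inner_zero_right, map_zero, smul_eq_mul, b2]
  ring

theorem ham_temp {U : E d → ℝ} (hU : SPot U) : HasTemperateGrowth (ham U) :=
  (phase_ibpm hU 1).temp

theorem liou_temp' {U : E d → ℝ} (hU : SPot U) {f : E d × E d → ℝ} (hf : HasTemperateGrowth f) :
    HasTemperateGrowth (Liou U f) := by
  have h := TameAux.Xop_temp (dirs d 1) (J d) (ham_temp hU) hf
  rw [Xop_eq hU] at h
  simpa using h

theorem fst_temp {F : E d → ℝ} (hF : HasTemperateGrowth F) :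
    HasTemperateGrowth (fun z : E d × E d => F z.1) :=
  hF.comp (ContinuousLinearMap.fst ℝ (E d) (E d)).hasTemperateGrowth

theorem iter_temp {U : E d → ℝ} (hU : SPot U) (m : ℕ) {f : E d × E d → ℝ}
    (hf : HasTemperateGrowth f) : HasTemperateGrowth ((Liou U)^[m] f) := by
  induction m with
  | zero => exact hf
  | succ m ih =>
    rw [Function.iterate_succ_apply']
    exact liou_temp' hU ih

theorem Xop_iter {U : E d → ℝ} (hU : SPot U) (ε : ℝ) (m : ℕ) {f : E d × E d → ℝ}
    (hf : HasTemperateGrowth f) :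
    (Xop (dirs d ε) (J d) (ham U))^[m] f = fun z => ε ^ m * (Liou U)^[m] f z := by
  induction m with
  | zero => simp
  | succ m ih =>
    rw [Function.iterate_succ_apply', Function.iterate_succ_apply', ih, Xop_eq hU]
    funext z
    have h : Liou U (fun z => ε ^ m * (Liou U)^[m] f z) z = ε ^ m * Liou U ((Liou U)^[m] f) z := by
      change fderiv ℝ (fun z => ε ^ m * (Liou U)^[m] f z) z (z.2, -gradient U z.1) =
        ε ^ m * fderiv ℝ ((Liou U)^[m] f) z (z.2, -gradient U z.1)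
      rw [fderiv_const_mul (temp_diff (iter_temp hU m hf) z)]
      simp
    rw [h]
    ring

theorem hs_const_mul {κ : Type*} [Fintype κ] {Z : Type*} [NormedAddCommGroup Z] [NormedSpace ℝ Z]
    (e : κ → Z) (n : ℕ) (c : ℝ) {f : Z → ℝ} (hf : HasTemperateGrowth f) (z : Z) :
    hs e n (fun z' => c * f z') z = c ^ 2 * hs e n f z := by
  induction n generalizing f with
  | zero =>
    simp only [hs]
    ring
  | succ n ih =>
    simp only [hs]
    rw [Finset.mul_sum]
    refine Finset.sum_congr rfl fun k _ => ?_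
    have h : (fun z' => fderiv ℝ (fun y => c * f y) z' (e k)) =
        fun z' => c * fderiv ℝ f z' (e k) := by
      funext z'
      rw [fderiv_const_mul (temp_diff hf z')]
      simp
    rw [h]
    exact ih (temp_dir hf _)

theorem hs_const {κ : Type*} [Fintype κ] {Z : Type*} [NormedAddCommGroup Z] [NormedSpace ℝ Z]
    (e : κ → Z) (n : ℕ) (c : ℝ) (z : Z) :
    hs e n (fun _ => c) z ≤ c ^ 2 := by
  induction n generalizing c with
  | zero => simp [hs]
  | succ n ih =>
    have h0 : hs e (n + 1) (fun _ => c) z = ∑ k : κ, hs e n (fun _ => (0 : ℝ)) z := by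
      simp [hs]
    rw [h0]
    have h1 : hs e n (fun _ => (0 : ℝ)) z ≤ 0 := by simpa using ih 0
    exact (Finset.sum_nonpos fun k _ => h1).trans (sq_nonneg c)

theorem hs_zero {κ : Type*} [Fintype κ] {Z : Type*} [NormedAddCommGroup Z] [NormedSpace ℝ Z]
    (e : κ → Z) (n : ℕ) (z : Z) : hs e n (fun _ => (0 : ℝ)) z = 0 := by
  induction n with
  | zero => simp [hs]
  | succ n ih => simp [hs, ih]

theorem fderiv_fst {F : E d → ℝ} (hF : HasTemperateGrowth F) (z w : E d × E d) :
    fderiv ℝ (fun z : E d × E d => F z.1) z w = fderiv ℝ F z.1 w.1 := by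
  have h1 : HasFDerivAt (fun z : E d × E d => F z.1)
      ((fderiv ℝ F z.1).comp (ContinuousLinearMap.fst ℝ (E d) (E d))) z :=
    (temp_diff hF z.1).hasFDerivAt.comp z hasFDerivAt_fst
  rw [h1.fderiv]
  simp

theorem hs_fst (ε : ℝ) (n : ℕ) {F : E d → ℝ} (hF : HasTemperateGrowth F) (z : E d × E d) :
    hs (dirs d ε) n (fun z : E d × E d => F z.1) z = ε ^ (2 * n) * hs (bas d) n F z.1 := by
  induction n generalizing F with
  | zero => simp [hs]
  | succ n ih =>
    simp only [hs]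
    rw [Fintype.sum_sum_type]
    have h1 : ∀ i : Fin d, (fun z' : E d × E d => fderiv ℝ (fun z : E d × E d => F z.1) z'
        (dirs d ε (Sum.inl i))) = fun z' => ε * fderiv ℝ F z'.1 (bas d i) := by
      intro i
      funext z'
      rw [fderiv_fst hF]
      simp [dirs]
    have h2 : ∀ i : Fin d, (fun z' : E d × E d => fderiv ℝ (fun z : E d × E d => F z.1) z'
        (dirs d ε (Sum.inr i))) = fun z' => (0 : ℝ) := by
      intro i
      funext z'
      rw [fderiv_fst hF]
      simp [dirs]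
    simp only [h1, h2, hs_zero, Finset.sum_const_zero, add_zero]
    rw [Finset.mul_sum]
    refine Finset.sum_congr rfl fun i _ => ?_
    rw [hs_const_mul _ _ _ (fst_temp (temp_dir hF (bas d i))), ih (temp_dir hF (bas d i))]
    ring

end LB

open LB

theorem force_zero {d : ℕ} {U : E d → ℝ} (_hU : SPot U) (z : E d × E d) :
    force U 0 z = gradient U z.1 := by
  ext i
  rw [grad_coord]
  rfl

/-- the components of `force` are temperate (cf. `liou_temp` in module `Flow`) -/
theorem force_temp {d : ℕ} {U : E d → ℝ} (hU : SPot U) (m : ℕ) (i : Fin d) :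
    HasTemperateGrowth (fun z => force U m z i) := by
  exact iter_temp hU m (fst_temp (temp_dir hU.temp (bas d i)))

namespace LB

variable {d : ℕ}

/-- the bound on the derivatives of the Hamiltonian -/
theorem hs_ham {V : E d → ℝ} {ε : ℝ} (hV : Pot d V) (hε : 0 < ε) (hε1 : ε ≤ 1) {n : ℕ}
    (hn : 1 ≤ n) (w : Fin d ⊕ Fin d → ℝ) (z : E d × E d) :
    hs (dirs d ε) n (fun z' => ∑ k, w k * fderiv ℝ (ham (smooth ε V)) z' (dirs d ε k)) z ≤
      (4 * (n : ℝ) ^ n + 1) * ∑ k, w k ^ 2 := by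
  set U := smooth ε V with hUdef
  have hU : SPot U := smooth_spot hV hε
  obtain ⟨n, rfl⟩ : ∃ k, n = k + 1 := ⟨n - 1, by omega⟩
  set a : E d := ∑ i, w (Sum.inl i) • bas d i with ha
  have hai : ∀ i, a i = w (Sum.inl i) := by
    intro i
    have := sum_bas (WithLp.toLp 2 (fun i => w (Sum.inl i)) : E d)
    simp only [] at this
    rw [ha, this]
  have hfun : (fun z' : E d × E d => ∑ k, w k * fderiv ℝ (ham U) z' (dirs d ε k)) =
      fun z' => ε * fderiv ℝ U z'.1 a + ∑ i, w (Sum.inr i) * z'.2 i := by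
    funext z'
    rw [Fintype.sum_sum_type, ha, map_sum, Finset.mul_sum]
    congr 1
    · refine Finset.sum_congr rfl fun i _ => ?_
      rw [fderiv_ham hU]
      simp only [dirs, inner_zero_right, map_smul, smul_eq_mul]
      ring
    · refine Finset.sum_congr rfl fun i _ => ?_
      rw [fderiv_ham hU]
      have b2 : inner ℝ z'.2 (bas d i) = z'.2 i := by
        rw [bas, EuclideanSpace.inner_single_right]
        simp
      simp only [dirs, map_zero, b2, zero_add]
  rw [hfun]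
  have ht : HasTemperateGrowth (fun y => fderiv ℝ U y a) := temp_dir hU.temp a
  -- first derivative
  have hd : ∀ z' v : E d × E d,
      fderiv ℝ (fun z' : E d × E d => ε * fderiv ℝ U z'.1 a + ∑ i, w (Sum.inr i) * z'.2 i) z' v =
        ε * fderiv ℝ (fun y => fderiv ℝ U y a) z'.1 v.1 + ∑ i, w (Sum.inr i) * v.2 i := by
    intro z' v
    have e1 : HasFDerivAt (fun z' : E d × E d => ε * fderiv ℝ U z'.1 a)
        (ε • (fderiv ℝ (fun z' : E d × E d => fderiv ℝ U z'.1 a) z')) z' :=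
      ((temp_diff (fst_temp ht) z').hasFDerivAt).const_mul ε
    set L : E d × E d →L[ℝ] ℝ := ∑ i, w (Sum.inr i) •
      ((EuclideanSpace.proj i : E d →L[ℝ] ℝ).comp (ContinuousLinearMap.snd ℝ (E d) (E d)))
      with hL
    have hLa : ∀ y : E d × E d, L y = ∑ i, w (Sum.inr i) * y.2 i := by
      intro y
      rw [hL]
      simp
    have e2 : HasFDerivAt (fun z' : E d × E d => ∑ i, w (Sum.inr i) * z'.2 i) L z' := by
      have := L.hasFDerivAt (x := z')
      refine this.congr_of_eventuallyEq (Filter.Eventually.of_forall fun y => ?_)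
      exact (hLa y).symm
    have e3 := (e1.fun_add e2).fderiv
    rw [e3]
    simp only [add_apply, smul_apply, smul_eq_mul, hLa]
    rw [fderiv_fst ht]
  have hsum : ∑ k, w k ^ 2 = ‖a‖ ^ 2 + ∑ i, w (Sum.inr i) ^ 2 := by
    rw [Fintype.sum_sum_type, EuclideanSpace.norm_sq_eq]
    simp only [hai, Real.norm_eq_abs, sq_abs]
  have hU1 := smooth_hs hV hε (n := n + 1) (by omega) a z.1
  rw [← hUdef] at hU1
  have key : hs (dirs d ε) (n + 1)
      (fun z' : E d × E d => ε * fderiv ℝ U z'.1 a + ∑ i, w (Sum.inr i) * z'.2 i) z ≤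
      ε ^ 2 * (ε ^ (2 * (n + 1)) * hs (bas d) (n + 1) (fun y => fderiv ℝ U y a) z.1) +
        ∑ i, w (Sum.inr i) ^ 2 := by
    rw [← hs_fst ε (n + 1) ht z, ← hs_const_mul _ _ _ (fst_temp ht)]
    simp only [hs]
    rw [Fintype.sum_sum_type, Fintype.sum_sum_type]
    have g1 : ∀ i : Fin d, (fun z' : E d × E d => fderiv ℝ (fun z' : E d × E d =>
        ε * fderiv ℝ U z'.1 a + ∑ i, w (Sum.inr i) * z'.2 i) z' (dirs d ε (Sum.inl i))) =
        fun z' => fderiv ℝ (fun z' : E d × E d => ε * fderiv ℝ U z'.1 a) z'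
          (dirs d ε (Sum.inl i)) := by
      intro i
      funext z'
      rw [hd, fderiv_const_mul (temp_diff (fst_temp ht) z')]
      simp only [smul_apply, smul_eq_mul]
      rw [fderiv_fst ht]
      simp [dirs]
    have g2 : ∀ i : Fin d, (fun z' : E d × E d => fderiv ℝ (fun z' : E d × E d =>
        ε * fderiv ℝ U z'.1 a + ∑ i, w (Sum.inr i) * z'.2 i) z' (dirs d ε (Sum.inr i))) =
        fun z' => w (Sum.inr i) := by
      intro i
      funext z'
      rw [hd]
      simp only [dirs, map_zero, mul_zero, zero_add, bas, PiLp.ofLp_single]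
      rw [Finset.sum_eq_single i]
      · simp
      · intro b _ hb
        simp [hb]
      · simp
    simp only [g1, g2]
    have g3 : ∑ i : Fin d, hs (dirs d ε) n (fun _ => w (Sum.inr i)) z ≤
        ∑ i, w (Sum.inr i) ^ 2 := Finset.sum_le_sum fun i _ => hs_const _ _ _ _
    have g4 : 0 ≤ ∑ i : Fin d, hs (dirs d ε) n (fun z' => fderiv ℝ (fun z' : E d × E d =>
        ε * fderiv ℝ U z'.1 a) z' (dirs d ε (Sum.inr i))) z :=
      Finset.sum_nonneg fun i _ => TameAux.hs_nonneg _ _ _ _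
    linarith
  refine key.trans ?_
  rw [hsum]
  have hw0 : 0 ≤ ∑ i : Fin d, w (Sum.inr i) ^ 2 := Finset.sum_nonneg fun i _ => sq_nonneg _
  have hc : (0 : ℝ) ≤ 4 * ((n + 1 : ℕ) : ℝ) ^ (n + 1) := by positivity
  have h5 : ε ^ 2 * (ε ^ (2 * (n + 1)) * hs (bas d) (n + 1) (fun y => fderiv ℝ U y a) z.1) ≤
      4 * ((n + 1 : ℕ) : ℝ) ^ (n + 1) * ‖a‖ ^ 2 := by
    calc ε ^ 2 * (ε ^ (2 * (n + 1)) * hs (bas d) (n + 1) (fun y => fderiv ℝ U y a) z.1)
        ≤ ε ^ 2 * (ε ^ (2 * (n + 1)) * (4 * ((n + 1 : ℕ) : ℝ) ^ (n + 1) *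
            (ε ^ (2 * (n + 1 - 1)))⁻¹ * ‖a‖ ^ 2)) := by
          gcongr
      _ = ε ^ 4 * (4 * ((n + 1 : ℕ) : ℝ) ^ (n + 1) * ‖a‖ ^ 2) := by
          have : ε ^ (2 * (n + 1)) = ε ^ (2 * n) * ε ^ 2 := by ring
          rw [Nat.add_sub_cancel, this]
          field_simp
      _ ≤ 1 * (4 * ((n + 1 : ℕ) : ℝ) ^ (n + 1) * ‖a‖ ^ 2) := by
          refine mul_le_mul_of_nonneg_right (pow_le_one₀ hε.le hε1) (by positivity)
      _ = _ := one_mul _
  have h6 : 0 ≤ 4 * ((n + 1 : ℕ) : ℝ) ^ (n + 1) * ∑ i : Fin d, w (Sum.inr i) ^ 2 :=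
    mul_nonneg hc hw0
  have h7 : 0 ≤ ‖a‖ ^ 2 := by positivity
  nlinarith

/-- the bounds on the force components -/
theorem hs_force {V : E d → ℝ} {ε : ℝ} (hV : Pot d V) (hε : 0 < ε) (hε1 : ε ≤ 1) {n : ℕ}
    (hn : 1 ≤ n) (i : Fin d) (z : E d × E d) :
    hs (dirs d ε) n (fun z' : E d × E d => fderiv ℝ (smooth ε V) z'.1 (bas d i)) z ≤
      4 * (n : ℝ) ^ n := by
  have hU : SPot (smooth ε V) := smooth_spot hV hε
  rw [hs_fst ε n (temp_dir hU.temp (bas d i)) z]
  have h1 := smooth_hs hV hε hn (bas d i) z.1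
  have h2 : ‖bas d i‖ = 1 := by simp [bas]
  rw [h2] at h1
  calc ε ^ (2 * n) * hs (bas d) n (fun y => fderiv ℝ (smooth ε V) y (bas d i)) z.1
      ≤ ε ^ (2 * n) * (4 * (n : ℝ) ^ n * (ε ^ (2 * (n - 1)))⁻¹ * 1 ^ 2) := by gcongr
    _ = ε ^ 2 * (4 * (n : ℝ) ^ n) := by
        obtain ⟨k, rfl⟩ : ∃ k, n = k + 1 := ⟨n - 1, by omega⟩
        have : ε ^ (2 * (k + 1)) = ε ^ (2 * k) * ε ^ 2 := by ring
        rw [Nat.add_sub_cancel, this]
        field_simp
    _ ≤ 1 * (4 * (n : ℝ) ^ n) :=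
        mul_le_mul_of_nonneg_right (pow_le_one₀ hε.le hε1) (by positivity)
    _ = _ := one_mul _

theorem force_sq {U : E d → ℝ} (hU : SPot U) (i : Fin d) :
    ∫ z : E d × E d, (fderiv ℝ U z.1 (bas d i)) ^ 2 ∂(phase U) ≤ 2 := by
  have hI := phase_ibpm hU 1
  have := hI.prob
  have ht : HasTemperateGrowth (fun z : E d × E d => fderiv ℝ U z.1 (bas d i)) :=
    fst_temp (temp_dir hU.temp _)
  have h1 := hI.ibp _ ht (Sum.inl i)
  have h2 : ∀ z : E d × E d, fderiv ℝ U z.1 (bas d i) * fderiv ℝ (ham U) z (dirs d 1 (Sum.inl i)) =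
      (fderiv ℝ U z.1 (bas d i)) ^ 2 := by
    intro z
    rw [fderiv_ham hU]
    simp only [dirs, one_smul, inner_zero_right, add_zero]
    ring
  simp only [h2] at h1
  rw [← h1]
  have h3 : ∀ z : E d × E d, fderiv ℝ (fun z : E d × E d => fderiv ℝ U z.1 (bas d i)) z
      (dirs d 1 (Sum.inl i)) ≤ 2 := by
    intro z
    rw [fderiv_fst (temp_dir hU.temp _)]
    simp only [dirs, one_smul]
    rw [fderiv_dir hU.temp]
    have := hU.upper z.1 (bas d i)
    have h4 : ‖bas d i‖ = 1 := by simp [bas]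
    rw [h4] at this
    linarith
  calc _ ≤ ∫ z : E d × E d, (2 : ℝ) ∂(phase U) := by
        refine integral_mono ?_ (integrable_const _) h3
        exact hI.int _ (temp_dir ht _)
    _ = 2 := by simp

end LB

theorem liou_bound (m : ℕ) : ∃ C : ℝ, 0 < C ∧ ∀ (d : ℕ) (V : E d → ℝ) (ε : ℝ), Pot d V →
    0 < ε → ε ≤ 1 →
    ∫ z, ‖force (smooth ε V) m z‖ ^ 2 ∂(phase (smooth ε V)) ≤ C * d * (ε ^ (2 * m))⁻¹ := by
  obtain ⟨C, hC, hT⟩ := tame m (fun n => 4 * (n : ℝ) ^ n + 1)
  set M : ℝ := 4 * ((2 * m : ℕ) : ℝ) ^ (2 * m) + 2 with hM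
  have hM0 : 0 < M := by positivity
  refine ⟨C * M, by positivity, fun d V ε hV hε hε1 => ?_⟩
  set U := smooth ε V with hUdef
  have hU : SPot U := smooth_spot hV hε
  have hI := phase_ibpm hU ε
  have := hI.prob
  have ht : ∀ i, HasTemperateGrowth (fun z : E d × E d => fderiv ℝ U z.1 (bas d i)) :=
    fun i => fst_temp (temp_dir hU.temp _)
  have h1 : ∀ i : Fin d, ∫ z, ((Xop (dirs d ε) (J d) (ham U))^[m]
      (fun z : E d × E d => fderiv ℝ U z.1 (bas d i)) z) ^ 2 ∂(phase U) ≤ C * M := by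
    intro i
    refine hT _ _ (phase U) (dirs d ε) (ham U) hI ?_ (J d) J_anti J_contr _ (ht i) M ?_
    · intro n hn w z
      exact hs_ham hV hε hε1 hn w z
    · intro n hn
      rcases Nat.eq_zero_or_pos n with rfl | hn0
      · have := force_sq hU i
        simp only [hs]
        have h4 : (0 : ℝ) ≤ 4 * ((2 * m : ℕ) : ℝ) ^ (2 * m) := by positivity
        linarith
      · have hle : ∀ z, hs (dirs d ε) n (fun z' : E d × E d => fderiv ℝ U z'.1 (bas d i)) z ≤ M := by
          intro z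
          refine (hs_force hV hε hε1 hn0 i z).trans ?_
          have h5 : (n : ℝ) ^ n ≤ ((2 * m : ℕ) : ℝ) ^ (2 * m) := by
            have h6 : (1 : ℝ) ≤ ((2 * m : ℕ) : ℝ) := by
              have : 1 ≤ 2 * m := by omega
              exact_mod_cast this
            calc (n : ℝ) ^ n ≤ ((2 * m : ℕ) : ℝ) ^ n := by
                  have : (n : ℝ) ≤ ((2 * m : ℕ) : ℝ) := by exact_mod_cast hn
                  gcongr
              _ ≤ ((2 * m : ℕ) : ℝ) ^ (2 * m) := pow_le_pow_right₀ h6 hn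
          linarith
        calc _ ≤ ∫ z : E d × E d, M ∂(phase U) :=
              integral_mono (hI.int _ (TameAux.hs_temp _ _ (ht i))) (integrable_const _) hle
          _ = M := by simp
  have h2 : ∀ z, ‖force U m z‖ ^ 2 = ∑ i, ((Liou U)^[m]
      (fun z' : E d × E d => fderiv ℝ U z'.1 (bas d i)) z) ^ 2 := by
    intro z
    rw [EuclideanSpace.norm_sq_eq]
    simp only [Real.norm_eq_abs, sq_abs]
    rfl
  simp only [h2]
  rw [integral_finsetSum _ (fun i _ => ?_)]
  · have h3 : ∀ i : Fin d, ∫ z, ((Liou U)^[m]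
        (fun z' : E d × E d => fderiv ℝ U z'.1 (bas d i)) z) ^ 2 ∂(phase U) ≤
        C * M * (ε ^ (2 * m))⁻¹ := by
      intro i
      have h4 := h1 i
      rw [Xop_iter hU ε m (ht i)] at h4
      have h5 : ∀ z, (ε ^ m * (Liou U)^[m]
          (fun z' : E d × E d => fderiv ℝ U z'.1 (bas d i)) z) ^ 2 =
          ε ^ (2 * m) * ((Liou U)^[m]
          (fun z' : E d × E d => fderiv ℝ U z'.1 (bas d i)) z) ^ 2 := by
        intro z
        ring
      simp only [h5] at h4
      rw [integral_const_mul] at h4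
      rw [← div_eq_mul_inv, le_div_iff₀ (by positivity)]
      linarith
    calc _ ≤ ∑ i : Fin d, C * M * (ε ^ (2 * m))⁻¹ := Finset.sum_le_sum fun i _ => h3 i
      _ = C * M * d * (ε ^ (2 * m))⁻¹ := by
        rw [Finset.sum_const, Finset.card_univ, Fintype.card_fin, nsmul_eq_mul]
        ring
  · exact hI.int _ ((iter_temp hU m (ht i)).pow 2)

end P347Q
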