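import Vale.Agent.P347Q.Defs

/-!
Module QuadErr.  Quadrature errors for a rule exact for degrees `< m`, for a chain `g 0, g 1, ...` of
successive derivatives on `[0,1/4]`.
Taylor (induction on `n ≥ 1`): `g 0 r = Σ_{k<n} r^k/k! g k 0 + ρ r`, `‖ρ r‖ ≤ r^{n-1} ∫_0^r ‖g n‖`; use
`n = m-1`; the polynomials `r^k`, `k < m-1`, are integrated exactly by both rules
(`Σ w_j t_j^k = 1/(k+1)`, `Σ w_j (1-t_j) t_j^k = 1/(k+1) - 1/(k+2)`).
-/

open MeasureTheory ProbabilityTheory Function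
open scoped ENNReal BigOperators

namespace P347Q

section
variable {F : Type*} [NormedAddCommGroup F] [NormedSpace ℝ F]

theorem chain_cont (g : ℕ → ℝ → F)
    (hg : ∀ k, ∀ s ∈ Set.Icc (0 : ℝ) (1 / 4),
      HasDerivWithinAt (g k) (g (k + 1) s) (Set.Icc (0 : ℝ) (1 / 4)) s) (k : ℕ) :
    ContinuousOn (g k) (Set.Icc (0 : ℝ) (1 / 4)) :=
  fun s hs => (hg k s hs).continuousWithinAt

/-- bound by the integral of the norm of the derivative -/
theorem norm_le_int [CompleteSpace F] {f f' : ℝ → F} (h0 : f 0 = 0)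
    (hf : ∀ s ∈ Set.Icc (0 : ℝ) (1 / 4), HasDerivWithinAt f (f' s) (Set.Icc (0 : ℝ) (1 / 4)) s)
    (hf' : ContinuousOn f' (Set.Icc (0 : ℝ) (1 / 4))) {r : ℝ} (hr : r ∈ Set.Icc (0 : ℝ) (1 / 4)) :
    ‖f r‖ ≤ ∫ s in (0 : ℝ)..r, ‖f' s‖ := by
  have hsub : Set.Icc 0 r ⊆ Set.Icc (0 : ℝ) (1 / 4) := Set.Icc_subset_Icc_right hr.2
  have hc : ContinuousOn f (Set.Icc 0 r) := fun s hs =>
    ((hf s (hsub hs)).continuousWithinAt).mono hsub
  have hint : IntervalIntegrable f' volume 0 r := by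
    apply ContinuousOn.intervalIntegrable
    rw [Set.uIcc_of_le hr.1]
    exact hf'.mono hsub
  have h1 : ∫ s in (0 : ℝ)..r, f' s = f r - f 0 := by
    refine intervalIntegral.integral_eq_sub_of_hasDerivAt_of_le hr.1 hc (fun x hx => ?_) hint
    have hx' : x ∈ Set.Icc (0 : ℝ) (1 / 4) := hsub ⟨hx.1.le, hx.2.le⟩
    exact (hf x hx').hasDerivAt (Icc_mem_nhds hx.1 (lt_of_lt_of_le hx.2 hr.2))
  rw [h0, sub_zero] at h1
  rw [← h1]
  exact intervalIntegral.norm_integral_le_integral_norm hr.1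

/-- the Taylor polynomial -/
noncomputable def tay (g : ℕ → ℝ → F) (k n : ℕ) (r : ℝ) : F :=
  ∑ i ∈ Finset.range n, (r ^ i / (i.factorial : ℝ)) • g (k + i) 0

theorem tay_deriv (g : ℕ → ℝ → F) (k n : ℕ) (r : ℝ) :
    HasDerivAt (tay g k (n + 1)) (tay g (k + 1) n r) r := by
  unfold tay
  have h1 : ∀ i ∈ Finset.range (n + 1),
      HasDerivAt (fun r : ℝ => (r ^ i / (i.factorial : ℝ)) • g (k + i) 0)
        (((i : ℝ) * r ^ (i - 1) / (i.factorial : ℝ)) • g (k + i) 0) r := by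
    intro i _
    exact ((hasDerivAt_pow i r).div_const _).smul_const _
  have h2 := HasDerivAt.fun_sum h1
  convert h2 using 1
  rw [Finset.sum_range_succ']
  simp only [Nat.cast_zero, zero_mul, zero_div, zero_smul, add_zero]
  refine Finset.sum_congr rfl fun i _ => ?_
  congr 1
  · rw [Nat.factorial_succ]
    push_cast
    have h3 : ((i : ℝ) + 1) ≠ 0 := by positivity
    have h4 : (i.factorial : ℝ) ≠ 0 := by positivity
    field_simp
  · congr 1
    omega

theorem tay_cont (g : ℕ → ℝ → F) (k n : ℕ) : Continuous (tay g k n) := by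
  unfold tay
  fun_prop

theorem tay_zero (g : ℕ → ℝ → F) (k n : ℕ) : tay g k (n + 1) 0 = g k 0 := by
  unfold tay
  rw [Finset.sum_range_succ']
  simp

/-- Taylor's formula with the integral of the norm of the last derivative -/
theorem taylor_err [CompleteSpace F] (g : ℕ → ℝ → F)
    (hg : ∀ k, ∀ s ∈ Set.Icc (0 : ℝ) (1 / 4),
      HasDerivWithinAt (g k) (g (k + 1) s) (Set.Icc (0 : ℝ) (1 / 4)) s) (n : ℕ) :
    ∀ k, ∀ r ∈ Set.Icc (0 : ℝ) (1 / 4),
      ‖g k r - tay g k (n + 1) r‖ ≤ r ^ n * ∫ s in (0 : ℝ)..r, ‖g (k + (n + 1)) s‖ := by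
  have hd : ∀ n k, ∀ s ∈ Set.Icc (0 : ℝ) (1 / 4),
      HasDerivWithinAt (fun r => g k r - tay g k (n + 1) r) (g (k + 1) s - tay g (k + 1) n s)
        (Set.Icc (0 : ℝ) (1 / 4)) s := by
    intro n k s hs
    exact (hg k s hs).sub (tay_deriv g k n s).hasDerivWithinAt
  have hc : ∀ n k, ContinuousOn (fun s => g k s - tay g k n s)
      (Set.Icc (0 : ℝ) (1 / 4)) := by
    intro n k
    exact (chain_cont g hg k).sub (tay_cont g k n).continuousOn
  have hz : ∀ n k, (fun r => g k r - tay g k (n + 1) r) 0 = 0 := by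
    intro n k
    simp only [tay_zero, sub_self]
  have hint : ∀ k, ∀ r ∈ Set.Icc (0 : ℝ) (1 / 4),
      IntervalIntegrable (fun s => ‖g k s‖) volume 0 r := by
    intro k r hr
    apply ContinuousOn.intervalIntegrable
    rw [Set.uIcc_of_le hr.1]
    exact (chain_cont g hg k).norm.mono (Set.Icc_subset_Icc_right hr.2)
  induction n with
  | zero =>
    intro k r hr
    have h1 := norm_le_int (hz 0 k) (hd 0 k) (hc 0 (k + 1)) hr
    simpa [tay] using h1
  | succ n ih =>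
    intro k r hr
    have h1 := norm_le_int (hz (n + 1) k) (hd (n + 1) k) (hc (n + 1) (k + 1)) hr
    refine h1.trans ?_
    have hJ : 0 ≤ ∫ s in (0 : ℝ)..r, ‖g (k + (n + 1 + 1)) s‖ :=
      intervalIntegral.integral_nonneg hr.1 fun s _ => norm_nonneg _
    have h2 : ∀ s ∈ Set.Icc 0 r, ‖g (k + 1) s - tay g (k + 1) (n + 1) s‖ ≤
        r ^ n * ∫ s in (0 : ℝ)..r, ‖g (k + (n + 1 + 1)) s‖ := by
      intro s hs
      have hs' : s ∈ Set.Icc (0 : ℝ) (1 / 4) := ⟨hs.1, hs.2.trans hr.2⟩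
      refine (ih (k + 1) s hs').trans ?_
      have e : k + 1 + (n + 1) = k + (n + 1 + 1) := by ring
      rw [e]
      refine mul_le_mul (pow_le_pow_left₀ hs.1 hs.2 n) ?_
        (intervalIntegral.integral_nonneg hs.1 fun s _ => norm_nonneg _) (pow_nonneg hr.1 n)
      exact intervalIntegral.integral_mono_interval le_rfl hs.1 hs.2
        (Filter.Eventually.of_forall fun s => norm_nonneg _) (hint _ r hr)
    calc ∫ s in (0 : ℝ)..r, ‖g (k + 1) s - tay g (k + 1) (n + 1) s‖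
        ≤ ∫ s in (0 : ℝ)..r, r ^ n * ∫ s in (0 : ℝ)..r, ‖g (k + (n + 1 + 1)) s‖ := by
          refine intervalIntegral.integral_mono_on hr.1 ?_ (by simp) h2
          apply ContinuousOn.intervalIntegrable
          rw [Set.uIcc_of_le hr.1]
          exact (hc (n + 1) (k + 1)).norm.mono (Set.Icc_subset_Icc_right hr.2)
      _ = r ^ (n + 1) * ∫ s in (0 : ℝ)..r, ‖g (k + (n + 1 + 1)) s‖ := by
          rw [intervalIntegral.integral_const, smul_eq_mul, sub_zero, pow_succ]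
          ring

/-- uniform bound of the Taylor remainder -/
theorem taylor_err' [CompleteSpace F] (g : ℕ → ℝ → F)
    (hg : ∀ k, ∀ s ∈ Set.Icc (0 : ℝ) (1 / 4),
      HasDerivWithinAt (g k) (g (k + 1) s) (Set.Icc (0 : ℝ) (1 / 4)) s) (n : ℕ) {t : ℝ}
    (ht : t ∈ Set.Icc (0 : ℝ) (1 / 4)) {r : ℝ} (hr : r ∈ Set.Icc 0 t) :
    ‖g 0 r - tay g 0 (n + 1) r‖ ≤ t ^ n * ∫ s in (0 : ℝ)..t, ‖g (n + 1) s‖ := by
  have h1 := taylor_err g hg n 0 r ⟨hr.1, hr.2.trans ht.2⟩
  rw [zero_add] at h1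
  refine h1.trans ?_
  have hint : IntervalIntegrable (fun s => ‖g (n + 1) s‖) volume 0 t := by
    apply ContinuousOn.intervalIntegrable
    rw [Set.uIcc_of_le ht.1]
    exact (chain_cont g hg (n + 1)).norm.mono (Set.Icc_subset_Icc_right ht.2)
  refine mul_le_mul (pow_le_pow_left₀ hr.1 hr.2 n) ?_
    (intervalIntegral.integral_nonneg hr.1 fun s _ => norm_nonneg _) (pow_nonneg ht.1 n)
  exact intervalIntegral.integral_mono_interval le_rfl hr.1 hr.2
    (Filter.Eventually.of_forall fun s => norm_nonneg _) hint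

theorem wsum_le' {ι : Type*} [Fintype ι] (w : ι → ℝ) (hw : ∀ i, 0 ≤ w i) (hs : ∑ i, w i ≤ 1)
    (v : ι → F) {B : ℝ} (hB : 0 ≤ B) (hv : ∀ i, ‖v i‖ ≤ B) : ‖∑ i, w i • v i‖ ≤ B := by
  calc ‖∑ i, w i • v i‖ ≤ ∑ i, ‖w i • v i‖ := norm_sum_le _ _
    _ ≤ ∑ i, w i * B := by
        refine Finset.sum_le_sum fun i _ => ?_
        rw [norm_smul, Real.norm_of_nonneg (hw i)]
        exact mul_le_mul_of_nonneg_left (hv i) (hw i)
    _ = (∑ i, w i) * B := by rw [Finset.sum_mul]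
    _ ≤ 1 * B := mul_le_mul_of_nonneg_right hs hB
    _ = B := one_mul B

end

theorem quad_err_a {F : Type*} [NormedAddCommGroup F] [NormedSpace ℝ F] [CompleteSpace F]
    {m N : ℕ} (R : Rule m N) (hm : 2 ≤ m) (g : ℕ → ℝ → F)
    (hg : ∀ k, ∀ s ∈ Set.Icc (0 : ℝ) (1 / 4),
      HasDerivWithinAt (g k) (g (k + 1) s) (Set.Icc (0 : ℝ) (1 / 4)) s)
    {t : ℝ} (ht : t ∈ Set.Icc (0 : ℝ) (1 / 4)) :
    ‖(∫ s in (0 : ℝ)..t, g 0 s) - t • ∑ j, R.w j • g 0 (t * R.t j)‖ ≤
      2 * t ^ (m - 1) * ∫ s in (0 : ℝ)..t, ‖g (m - 1) s‖ := by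
  obtain ⟨n, rfl⟩ : ∃ n, m = n + 2 := ⟨m - 2, by omega⟩
  have e1 : n + 2 - 1 = n + 1 := by omega
  rw [e1]
  set J := ∫ s in (0 : ℝ)..t, ‖g (n + 1) s‖ with hJ
  have hJ0 : 0 ≤ J := intervalIntegral.integral_nonneg ht.1 fun s _ => norm_nonneg _
  set ρ : ℝ → F := fun r => g 0 r - tay g 0 (n + 1) r with hρ
  have hb : ∀ r ∈ Set.Icc 0 t, ‖ρ r‖ ≤ t ^ n * J := fun r hr => taylor_err' g hg n ht hr
  have hB : 0 ≤ t ^ n * J := mul_nonneg (pow_nonneg ht.1 n) hJ0
  have hg0 : IntervalIntegrable (g 0) volume 0 t := by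
    apply ContinuousOn.intervalIntegrable
    rw [Set.uIcc_of_le ht.1]
    exact (chain_cont g hg 0).mono (Set.Icc_subset_Icc_right ht.2)
  have htay : IntervalIntegrable (tay g 0 (n + 1)) volume 0 t :=
    (tay_cont g 0 (n + 1)).intervalIntegrable _ _
  -- polynomial part
  have hpoly : (∫ s in (0 : ℝ)..t, tay g 0 (n + 1) s) =
      t • ∑ j, R.w j • tay g 0 (n + 1) (t * R.t j) := by
    unfold tay
    rw [intervalIntegral.integral_finsetSum (fun i _ => by
      apply Continuous.intervalIntegrable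
      fun_prop)]
    simp only [intervalIntegral.integral_smul_const, Finset.smul_sum]
    rw [Finset.sum_comm]
    refine Finset.sum_congr rfl fun i hi => ?_
    have hi' : i < n + 2 := by
      have := Finset.mem_range.1 hi
      omega
    have h1 := R.w_exact i hi'
    simp only [smul_smul]
    rw [← Finset.sum_smul]
    congr 1
    rw [intervalIntegral.integral_div, integral_pow]
    have h2 : ∑ j, t * (R.w j * ((t * R.t j) ^ i / (i.factorial : ℝ))) =
        t ^ (i + 1) / (i.factorial : ℝ) * ∑ j, R.w j * R.t j ^ i := by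
      rw [Finset.mul_sum]
      refine Finset.sum_congr rfl fun j _ => ?_
      rw [mul_pow, pow_succ]
      ring
    rw [h2, h1]
    simp
    ring
  have hdec : (∫ s in (0 : ℝ)..t, g 0 s) - t • ∑ j, R.w j • g 0 (t * R.t j) =
      (∫ s in (0 : ℝ)..t, ρ s) - t • ∑ j, R.w j • ρ (t * R.t j) := by
    rw [hρ]
    rw [intervalIntegral.integral_sub hg0 htay, hpoly]
    simp only [smul_sub, Finset.sum_sub_distrib]
    abel
  rw [hdec]
  refine (norm_sub_le _ _).trans ?_
  have i1 : ‖∫ s in (0 : ℝ)..t, ρ s‖ ≤ (t ^ n * J) * |t - 0| := by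
    refine intervalIntegral.norm_integral_le_of_norm_le_const fun s hs => ?_
    rw [Set.uIoc_of_le ht.1] at hs
    exact hb s ⟨hs.1.le, hs.2⟩
  have hw : ∑ j, R.w j ≤ 1 := by
    have := R.w_exact 0 (by omega)
    simp at this
    exact this.le
  have i2 : ‖t • ∑ j, R.w j • ρ (t * R.t j)‖ ≤ t * (t ^ n * J) := by
    rw [norm_smul, Real.norm_of_nonneg ht.1]
    refine mul_le_mul_of_nonneg_left ?_ ht.1
    refine wsum_le' _ R.w_nonneg hw _ hB fun j => hb _ ?_
    have := R.t_mem j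
    exact ⟨mul_nonneg ht.1 this.1, mul_le_of_le_one_right ht.1 this.2⟩
  rw [sub_zero, abs_of_nonneg ht.1] at i1
  calc _ ≤ (t ^ n * J) * t + t * (t ^ n * J) := add_le_add i1 i2
    _ = 2 * t ^ (n + 1) * J := by rw [pow_succ]; ring

theorem quad_err_b {F : Type*} [NormedAddCommGroup F] [NormedSpace ℝ F] [CompleteSpace F]
    {m N : ℕ} (R : Rule m N) (hm : 2 ≤ m) (g : ℕ → ℝ → F)
    (hg : ∀ k, ∀ s ∈ Set.Icc (0 : ℝ) (1 / 4),
      HasDerivWithinAt (g k) (g (k + 1) s) (Set.Icc (0 : ℝ) (1 / 4)) s)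
    {t : ℝ} (ht : t ∈ Set.Icc (0 : ℝ) (1 / 4)) :
    ‖(∫ s in (0 : ℝ)..t, (t - s) • g 0 s) - t ^ 2 • ∑ j, (R.w j * (1 - R.t j)) • g 0 (t * R.t j)‖ ≤
      2 * t ^ m * ∫ s in (0 : ℝ)..t, ‖g (m - 1) s‖ := by
  obtain ⟨n, rfl⟩ : ∃ n, m = n + 2 := ⟨m - 2, by omega⟩
  have e1 : n + 2 - 1 = n + 1 := by omega
  rw [e1]
  set J := ∫ s in (0 : ℝ)..t, ‖g (n + 1) s‖ with hJ
  have hJ0 : 0 ≤ J := intervalIntegral.integral_nonneg ht.1 fun s _ => norm_nonneg _
  set ρ : ℝ → F := fun r => g 0 r - tay g 0 (n + 1) r with hρ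
  have hb : ∀ r ∈ Set.Icc 0 t, ‖ρ r‖ ≤ t ^ n * J := fun r hr => taylor_err' g hg n ht hr
  have hB : 0 ≤ t ^ n * J := mul_nonneg (pow_nonneg ht.1 n) hJ0
  have hg0 : IntervalIntegrable (fun s => (t - s) • g 0 s) volume 0 t := by
    apply ContinuousOn.intervalIntegrable
    rw [Set.uIcc_of_le ht.1]
    exact (continuous_const.sub continuous_id).continuousOn.smul
      ((chain_cont g hg 0).mono (Set.Icc_subset_Icc_right ht.2))
  have htay : IntervalIntegrable (fun s => (t - s) • tay g 0 (n + 1) s) volume 0 t :=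
    ((continuous_const.sub continuous_id).smul (tay_cont g 0 (n + 1))).intervalIntegrable _ _
  -- polynomial part
  have hpoly : (∫ s in (0 : ℝ)..t, (t - s) • tay g 0 (n + 1) s) =
      t ^ 2 • ∑ j, (R.w j * (1 - R.t j)) • tay g 0 (n + 1) (t * R.t j) := by
    unfold tay
    simp only [Finset.smul_sum, smul_smul]
    rw [intervalIntegral.integral_finsetSum (fun i _ => by
      apply Continuous.intervalIntegrable
      fun_prop)]
    simp only [intervalIntegral.integral_smul_const]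
    rw [Finset.sum_comm]
    refine Finset.sum_congr rfl fun i hi => ?_
    have hi' : i + 1 < n + 2 := by
      have := Finset.mem_range.1 hi
      omega
    have h1 := R.w_exact i (by omega)
    have h1' := R.w_exact (i + 1) hi'
    rw [← Finset.sum_smul]
    congr 1
    have h2 : ∑ j, t ^ 2 * (R.w j * (1 - R.t j) * ((t * R.t j) ^ i / (i.factorial : ℝ))) =
        t ^ (i + 2) / (i.factorial : ℝ) *
          (∑ j, R.w j * R.t j ^ i - ∑ j, R.w j * R.t j ^ (i + 1)) := by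
      rw [← Finset.sum_sub_distrib, Finset.mul_sum]
      refine Finset.sum_congr rfl fun j _ => ?_
      rw [mul_pow, pow_add, pow_succ (R.t j)]
      ring
    have h3 : ∫ s in (0 : ℝ)..t, (t - s) * (s ^ i / (i.factorial : ℝ)) =
        (t * (t ^ (i + 1) / (i + 1)) - t ^ (i + 2) / (i + 2)) / (i.factorial : ℝ) := by
      have h4 : ∀ s : ℝ, (t - s) * (s ^ i / (i.factorial : ℝ)) =
          (t * s ^ i - s ^ (i + 1)) / (i.factorial : ℝ) := by
        intro s
        rw [pow_succ]; ring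
      simp only [h4]
      rw [intervalIntegral.integral_div, intervalIntegral.integral_sub
        (by apply Continuous.intervalIntegrable; fun_prop)
        (by apply Continuous.intervalIntegrable; fun_prop),
        intervalIntegral.integral_const_mul, integral_pow, integral_pow]
      simp
      ring
    rw [h2, h3, h1, h1']
    push_cast
    have q1 : ((i : ℝ) + 1) ≠ 0 := by positivity
    have q2 : ((i : ℝ) + 2) ≠ 0 := by positivity
    have q3 : ((i : ℝ) + 1 + 1) ≠ 0 := by positivity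
    field_simp
    ring
  have hdec : (∫ s in (0 : ℝ)..t, (t - s) • g 0 s) -
      t ^ 2 • ∑ j, (R.w j * (1 - R.t j)) • g 0 (t * R.t j) =
      (∫ s in (0 : ℝ)..t, (t - s) • ρ s) -
        t ^ 2 • ∑ j, (R.w j * (1 - R.t j)) • ρ (t * R.t j) := by
    have h5 : (∫ s in (0 : ℝ)..t, (t - s) • ρ s) = (∫ s in (0 : ℝ)..t, (t - s) • g 0 s) -
        ∫ s in (0 : ℝ)..t, (t - s) • tay g 0 (n + 1) s := by
      rw [← intervalIntegral.integral_sub hg0 htay]
      congr 1
      funext s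
      rw [hρ, smul_sub]
    rw [h5, hpoly, hρ]
    simp only [smul_sub, Finset.sum_sub_distrib]
    abel
  rw [hdec]
  refine (norm_sub_le _ _).trans ?_
  have i1 : ‖∫ s in (0 : ℝ)..t, (t - s) • ρ s‖ ≤ (t * (t ^ n * J)) * |t - 0| := by
    refine intervalIntegral.norm_integral_le_of_norm_le_const fun s hs => ?_
    rw [Set.uIoc_of_le ht.1] at hs
    rw [norm_smul, Real.norm_of_nonneg (by linarith [hs.2])]
    exact mul_le_mul (by linarith [hs.1]) (hb s ⟨hs.1.le, hs.2⟩) (norm_nonneg _) ht.1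
  have hw : ∑ j, R.w j * (1 - R.t j) ≤ 1 := by
    have := R.w_exact 0 (by omega)
    simp at this
    refine (Finset.sum_le_sum fun j _ => ?_).trans this.le
    exact mul_le_of_le_one_right (R.w_nonneg j) (by linarith [(R.t_mem j).1])
  have i2 : ‖t ^ 2 • ∑ j, (R.w j * (1 - R.t j)) • ρ (t * R.t j)‖ ≤ t ^ 2 * (t ^ n * J) := by
    rw [norm_smul, Real.norm_of_nonneg (sq_nonneg t)]
    refine mul_le_mul_of_nonneg_left ?_ (sq_nonneg t)
    refine wsum_le' _ (fun j => mul_nonneg (R.w_nonneg j) (by linarith [(R.t_mem j).2])) hw _ hB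
      fun j => hb _ ?_
    have := R.t_mem j
    exact ⟨mul_nonneg ht.1 this.1, mul_le_of_le_one_right ht.1 this.2⟩
  rw [sub_zero, abs_of_nonneg ht.1] at i1
  calc _ ≤ (t * (t ^ n * J)) * t + t ^ 2 * (t ^ n * J) := add_le_add i1 i2
    _ = 2 * t ^ (n + 2) * J := by rw [pow_add]; ring

end P347Q
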