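import Vale.Agent.P347Q.Flow
import Vale.Agent.P347Q.QuadErr
import Vale.Agent.P347Q.LiouBound

/-!
Module LocalErr.  One deterministic step with the smooth force `∇U` against the exact flow.

`local_pt` (pointwise).  Let `(y(r), v(r)) = Φ_r z`, `g k r = force U k (Φ_r z)` (chain of derivatives by
`flow_deriv` applied componentwise), `g 0 r = ∇U(y(r))`.
`v(η) = z.2 - ∫_0^η g 0`, `y(r) = z.1 + r z.2 - ∫_0^r (r-s) g 0 s ds`.
`‖y(r) - z.1 - r z.2‖ ≤ r ∫_0^r ‖∇U(y)‖`; hence for the predicted positions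
`‖pos i - y(η t_i)‖ ≤ 2 η^m ∫_0^η ‖g (m-1)‖ + 2 η³ ∫_0^η ‖∇U(y)‖` (`quad_err_b` at `t = η t_i`, `∇U` is
`2`-Lipschitz, `Σ w = 1`); conclude with `quad_err_a`, `quad_err_b` at `t = η`.

`local_err`: Fubini, `∫ ‖force U (m-1) (Φ_s z)‖ dphase = ∫ ‖force U (m-1) z‖ dphase ≤ (second moment)^{1/2}`
by invariance, `liou_bound` (for `m-1` and for `0`).
-/

open MeasureTheory ProbabilityTheory Function
open scoped ENNReal BigOperators

namespace P347Q

/-- Second order Taylor formula with integral remainder for a trajectory. -/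
theorem traj {F : Type*} [NormedAddCommGroup F] [NormedSpace ℝ F] [CompleteSpace F]
    {y v g : ℝ → F}
    (hy : ∀ s ∈ Set.Icc (0 : ℝ) (1 / 4), HasDerivWithinAt y (v s) (Set.Icc (0 : ℝ) (1 / 4)) s)
    (hv : ∀ s ∈ Set.Icc (0 : ℝ) (1 / 4), HasDerivWithinAt v (-g s) (Set.Icc (0 : ℝ) (1 / 4)) s)
    (hg : ContinuousOn g (Set.Icc (0 : ℝ) (1 / 4))) {t : ℝ} (ht : t ∈ Set.Icc (0 : ℝ) (1 / 4)) :
    v t = v 0 - ∫ s in (0 : ℝ)..t, g s ∧
      y t = y 0 + t • v 0 - ∫ s in (0 : ℝ)..t, (t - s) • g s := by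
  obtain ⟨ht0, ht1⟩ := ht
  have hsub : Set.Icc (0 : ℝ) t ⊆ Set.Icc (0 : ℝ) (1 / 4) := Set.Icc_subset_Icc le_rfl ht1
  have hgt : ContinuousOn g (Set.Icc 0 t) := hg.mono hsub
  have hnhds : ∀ s ∈ Set.Ioo (0 : ℝ) t, Set.Icc (0 : ℝ) (1 / 4) ∈ nhds s := fun s hs =>
    Icc_mem_nhds hs.1 (hs.2.trans_le ht1)
  have hmem : ∀ s ∈ Set.Ioo (0 : ℝ) t, s ∈ Set.Icc (0 : ℝ) (1 / 4) := fun s hs =>
    ⟨hs.1.le, (hs.2.trans_le ht1).le⟩
  have hvc : ContinuousOn v (Set.Icc 0 t) := fun s hs =>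
    ((hv s (hsub hs)).continuousWithinAt).mono hsub
  have hyc : ContinuousOn y (Set.Icc 0 t) := fun s hs =>
    ((hy s (hsub hs)).continuousWithinAt).mono hsub
  have huIcc : Set.uIcc (0 : ℝ) t = Set.Icc 0 t := Set.uIcc_of_le ht0
  constructor
  · have h1 := intervalIntegral.integral_eq_sub_of_hasDerivAt_of_le (f := v)
      (f' := fun s => -g s) ht0 hvc (fun s hs => (hv s (hmem s hs)).hasDerivAt (hnhds s hs))
      ((hgt.neg).intervalIntegrable_of_Icc ht0)
    rw [intervalIntegral.integral_neg] at h1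
    have h2 : v t = v 0 + (v t - v 0) := by abel
    rw [h2, ← h1]
    abel
  · have hder : ∀ s ∈ Set.Ioo (0 : ℝ) t,
        HasDerivAt (fun s => y s + (t - s) • v s) (-((t - s) • g s)) s := by
      intro s hs
      have a1 := (hy s (hmem s hs)).hasDerivAt (hnhds s hs)
      have a2 := (hv s (hmem s hs)).hasDerivAt (hnhds s hs)
      have a3 : HasDerivAt (fun s : ℝ => t - s) (-1) s := by
        simpa using (hasDerivAt_id s).const_sub t
      have a4 := a1.add (a3.smul a2)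
      refine a4.congr_deriv ?_
      rw [smul_neg, neg_one_smul]
      abel
    have hc : ContinuousOn (fun s => y s + (t - s) • v s) (Set.Icc 0 t) :=
      hyc.add ((continuousOn_const.sub continuousOn_id).smul hvc)
    have h1 := intervalIntegral.integral_eq_sub_of_hasDerivAt_of_le ht0 hc hder
      ((((continuousOn_const.sub continuousOn_id).smul hgt).neg).intervalIntegrable_of_Icc ht0)
    rw [intervalIntegral.integral_neg, sub_self, zero_smul, add_zero, sub_zero] at h1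
    have h2 : y t = y 0 + t • v 0 + (y t - (y 0 + t • v 0)) := by abel
    rw [h2, ← h1]
    abel

theorem traj_bound {F : Type*} [NormedAddCommGroup F] [NormedSpace ℝ F] [CompleteSpace F]
    {y v g : ℝ → F}
    (hy : ∀ s ∈ Set.Icc (0 : ℝ) (1 / 4), HasDerivWithinAt y (v s) (Set.Icc (0 : ℝ) (1 / 4)) s)
    (hv : ∀ s ∈ Set.Icc (0 : ℝ) (1 / 4), HasDerivWithinAt v (-g s) (Set.Icc (0 : ℝ) (1 / 4)) s)
    (hg : ContinuousOn g (Set.Icc (0 : ℝ) (1 / 4))) {t η : ℝ} (ht : 0 ≤ t) (htη : t ≤ η)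
    (hη : η ≤ 1 / 4) :
    ‖y t - (y 0 + t • v 0)‖ ≤ t * ∫ s in (0 : ℝ)..η, ‖g s‖ := by
  have htm : t ∈ Set.Icc (0 : ℝ) (1 / 4) := ⟨ht, htη.trans hη⟩
  have h1 := (traj hy hv hg htm).2
  have hgη : ContinuousOn g (Set.Icc 0 η) := hg.mono (Set.Icc_subset_Icc le_rfl hη)
  have hgt : ContinuousOn g (Set.Icc 0 t) := hg.mono (Set.Icc_subset_Icc le_rfl htm.2)
  have e1 : y t - (y 0 + t • v 0) = -∫ s in (0 : ℝ)..t, (t - s) • g s := by
    rw [h1]; abel
  rw [e1, norm_neg]
  have e2 : ‖∫ s in (0 : ℝ)..t, (t - s) • g s‖ ≤ ∫ s in (0 : ℝ)..t, t * ‖g s‖ := by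
    refine intervalIntegral.norm_integral_le_of_norm_le ht ?_
      ((continuousOn_const.mul hgt.norm).intervalIntegrable_of_Icc ht)
    refine Filter.Eventually.of_forall fun s hs => ?_
    rw [norm_smul, Real.norm_eq_abs, abs_of_nonneg (by linarith [hs.2])]
    exact mul_le_mul_of_nonneg_right (by linarith [hs.1]) (norm_nonneg _)
  refine e2.trans ?_
  rw [intervalIntegral.integral_const_mul]
  refine mul_le_mul_of_nonneg_left ?_ ht
  exact intervalIntegral.integral_mono_interval le_rfl ht htη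
    (Filter.Eventually.of_forall fun s => norm_nonneg _)
    (hgη.norm.intervalIntegrable_of_Icc (ht.trans htη))

/-- the chain of the time derivatives of the force along the flow -/
theorem force_chain {d : ℕ} {U : E d → ℝ} (hU : SPot U) {Φ : ℝ → E d × E d → E d × E d}
    (hΦ : IsFlow U Φ) (z : E d × E d) (k : ℕ) (s : ℝ) (hs : s ∈ Set.Icc (0 : ℝ) (1 / 4)) :
    HasDerivWithinAt (fun r => force U k (Φ r z)) (force U (k + 1) (Φ s z))
      (Set.Icc (0 : ℝ) (1 / 4)) s := by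
  rw [hasDerivWithinAt_iff_hasFDerivWithinAt, hasFDerivWithinAt_euclidean]
  intro i
  have h1 := flow_deriv hU hΦ (force_temp hU k i) z s hs
  have h2 : Liou U (fun z => force U k z i) (Φ s z) = force U (k + 1) (Φ s z) i := by
    unfold force
    simp only
    rw [Function.iterate_succ_apply']
  rw [h2] at h1
  refine (hasDerivWithinAt_iff_hasFDerivWithinAt.1 h1).congr_fderiv ?_
  ext
  simp

theorem sum_w {m N : ℕ} (R : Rule m N) (hm : 1 ≤ m) : ∑ j, R.w j = 1 := by
  have := R.w_exact 0 (by omega)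
  simpa using this

theorem norm_sum_w {m N d : ℕ} (R : Rule m N) (hm : 1 ≤ m) (f : Fin N → E d) {a : ℝ}
    (hf : ∀ j, ‖f j‖ ≤ a) : ‖∑ j, R.w j • f j‖ ≤ a := by
  calc ‖∑ j, R.w j • f j‖ ≤ ∑ j, ‖R.w j • f j‖ := norm_sum_le _ _
    _ ≤ ∑ j, R.w j * a := by
        refine Finset.sum_le_sum fun j _ => ?_
        rw [norm_smul, Real.norm_eq_abs, abs_of_nonneg (R.w_nonneg j)]
        exact mul_le_mul_of_nonneg_left (hf j) (R.w_nonneg j)
    _ = a := by rw [← Finset.sum_mul, sum_w R hm, one_mul]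

theorem norm_sum_w' {m N d : ℕ} (R : Rule m N) (hm : 1 ≤ m) (f : Fin N → E d) {a : ℝ}
    (hf : ∀ j, ‖f j‖ ≤ a) : ‖∑ j, (R.w j * (1 - R.t j)) • f j‖ ≤ a := by
  have e : ∑ j, (R.w j * (1 - R.t j)) • f j = ∑ j, R.w j • ((1 - R.t j) • f j) :=
    Finset.sum_congr rfl fun j _ => by rw [mul_smul]
  rw [e]
  refine norm_sum_w R hm _ fun j => ?_
  obtain ⟨t0, t1⟩ := R.t_mem j
  rw [norm_smul, Real.norm_eq_abs, abs_of_nonneg (by linarith)]
  calc (1 - R.t j) * ‖f j‖ ≤ 1 * a := by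
        refine mul_le_mul (by linarith) (hf j) (norm_nonneg _) zero_le_one
    _ = a := one_mul a

/-- predicted positions against the exact trajectory -/
theorem pos_err {m N : ℕ} (R : Rule m N) (hm : 2 ≤ m) {d : ℕ} {U : E d → ℝ} (hU : SPot U)
    {Φ : ℝ → E d × E d → E d × E d} (hΦ : IsFlow U Φ) {η : ℝ} (hη : 0 < η) (hη1 : η ≤ 1 / 4)
    (z : E d × E d) (i : Fin N) :
    ‖(Φ (η * R.t i) z).1 - pos R η (fun _ => gradient U) z i‖ ≤
      2 * η ^ m * (∫ s in (0 : ℝ)..η, ‖force U (m - 1) (Φ s z)‖) +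
        2 * η ^ 3 * ∫ s in (0 : ℝ)..η, ‖gradient U (Φ s z).1‖ := by
  obtain ⟨t0, t1⟩ := R.t_mem i
  set τ := η * R.t i with hτ
  have hτ0 : 0 ≤ τ := mul_nonneg hη.le t0
  have hτη : τ ≤ η := mul_le_of_le_one_right hη.le t1
  have hτm : τ ∈ Set.Icc (0 : ℝ) (1 / 4) := ⟨hτ0, hτη.trans hη1⟩
  have hy : ∀ s ∈ Set.Icc (0 : ℝ) (1 / 4),
      HasDerivWithinAt (fun r => (Φ r z).1) ((Φ s z).2) (Set.Icc (0 : ℝ) (1 / 4)) s :=
    fun s hs => (hΦ.deriv z s hs).fst
  have hv : ∀ s ∈ Set.Icc (0 : ℝ) (1 / 4),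
      HasDerivWithinAt (fun r => (Φ r z).2) (-force U 0 (Φ s z)) (Set.Icc (0 : ℝ) (1 / 4)) s := by
    intro s hs
    rw [force_zero hU]
    exact (hΦ.deriv z s hs).snd
  have hg : ∀ k, ContinuousOn (fun r => force U k (Φ r z)) (Set.Icc (0 : ℝ) (1 / 4)) :=
    fun k s hs => (force_chain hU hΦ z k s hs).continuousWithinAt
  have hI : ∀ k, 0 ≤ ∫ s in (0 : ℝ)..η, ‖force U k (Φ s z)‖ := fun k =>
    intervalIntegral.integral_nonneg hη.le fun s _ => norm_nonneg _
  have e0 : (∫ s in (0 : ℝ)..η, ‖gradient U (Φ s z).1‖) =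
      ∫ s in (0 : ℝ)..η, ‖force U 0 (Φ s z)‖ := by
    refine intervalIntegral.integral_congr fun s _ => ?_
    simp only [force_zero hU]
  rw [e0]
  have f1 := (traj hy hv (hg 0) hτm).2
  simp only [hΦ.zero] at f1
  have f2 := quad_err_b R hm (fun k r => force U k (Φ r z))
    (fun k s hs => force_chain hU hΦ z k s hs) hτm
  -- replace the positions on the straight line by the exact ones
  have f3 : ‖∑ j, (R.w j * (1 - R.t j)) • (force U 0 (Φ (τ * R.t j) z) -
      gradient U (z.1 + (τ * R.t j) • z.2))‖ ≤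
      2 * (τ * ∫ s in (0 : ℝ)..η, ‖force U 0 (Φ s z)‖) := by
    refine norm_sum_w' R (by omega) _ fun j => ?_
    · obtain ⟨s0, s1⟩ := R.t_mem j
      have hs0 : 0 ≤ τ * R.t j := mul_nonneg hτ0 s0
      have hs1 : τ * R.t j ≤ τ := mul_le_of_le_one_right hτ0 s1
      have b1 := traj_bound hy hv (hg 0) hs0 (hs1.trans hτη) hη1
      simp only [hΦ.zero] at b1
      rw [force_zero hU]
      refine (spot_lip hU _ _).trans (mul_le_mul_of_nonneg_left ?_ (by norm_num))
      exact b1.trans (mul_le_mul_of_nonneg_right hs1 (hI 0))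
  have f4 : (Φ τ z).1 - pos R η (fun _ => gradient U) z i =
      -((∫ s in (0 : ℝ)..τ, (τ - s) • force U 0 (Φ s z)) -
        τ ^ 2 • ∑ j, (R.w j * (1 - R.t j)) • force U 0 (Φ (τ * R.t j) z)) -
      τ ^ 2 • ∑ j, (R.w j * (1 - R.t j)) • (force U 0 (Φ (τ * R.t j) z) -
        gradient U (z.1 + (τ * R.t j) • z.2)) := by
    unfold pos
    rw [f1]
    simp only [smul_sub, Finset.sum_sub_distrib]
    abel
  rw [f4]
  refine (norm_sub_le _ _).trans (add_le_add ?_ ?_)
  · rw [norm_neg]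
    refine f2.trans ?_
    have g1 : τ ^ m ≤ η ^ m := pow_le_pow_left₀ hτ0 hτη m
    have g2 : (∫ s in (0 : ℝ)..τ, ‖force U (m - 1) (Φ s z)‖) ≤
        ∫ s in (0 : ℝ)..η, ‖force U (m - 1) (Φ s z)‖ :=
      intervalIntegral.integral_mono_interval le_rfl hτ0 hτη
        (Filter.Eventually.of_forall fun s => norm_nonneg _)
        (((hg (m - 1)).mono (Set.Icc_subset_Icc le_rfl hη1)).norm.intervalIntegrable_of_Icc hη.le)
    have g3 : 0 ≤ ∫ s in (0 : ℝ)..τ, ‖force U (m - 1) (Φ s z)‖ :=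
      intervalIntegral.integral_nonneg hτ0 fun s _ => norm_nonneg _
    exact mul_le_mul (mul_le_mul_of_nonneg_left g1 (by norm_num)) g2 g3
      (mul_nonneg (by norm_num) (pow_nonneg hη.le m))
  · rw [norm_smul, Real.norm_eq_abs, abs_of_nonneg (by positivity)]
    refine (mul_le_mul_of_nonneg_left f3 (by positivity)).trans ?_
    have g1 : τ ^ 3 ≤ η ^ 3 := pow_le_pow_left₀ hτ0 hτη 3
    have g2 := mul_le_mul_of_nonneg_right g1 (hI 0)
    nlinarith

theorem local_pt {m N : ℕ} (R : Rule m N) (hm : 2 ≤ m) : ∃ C : ℝ, 0 < C ∧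
    ∀ (d : ℕ) (U : E d → ℝ), SPot U → ∀ Φ, IsFlow U Φ → ∀ η : ℝ, 0 < η → η ≤ 1 / 4 →
    ∀ z : E d × E d,
      ‖(Step R η (fun _ => gradient U) z).2 - (Φ η z).2‖ ≤
        C * (η ^ (m - 1) * (∫ s in (0 : ℝ)..η, ‖force U (m - 1) (Φ s z)‖) +
          η ^ 4 * ∫ s in (0 : ℝ)..η, ‖gradient U (Φ s z).1‖) ∧
      ‖(Step R η (fun _ => gradient U) z).1 - (Φ η z).1‖ ≤
        C * η * (η ^ (m - 1) * (∫ s in (0 : ℝ)..η, ‖force U (m - 1) (Φ s z)‖) +
          η ^ 4 * ∫ s in (0 : ℝ)..η, ‖gradient U (Φ s z).1‖) := by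
  refine ⟨6, by norm_num, fun d U hU Φ hΦ η hη hη1 z => ?_⟩
  have hηm : η ∈ Set.Icc (0 : ℝ) (1 / 4) := ⟨hη.le, hη1⟩
  have hy : ∀ s ∈ Set.Icc (0 : ℝ) (1 / 4),
      HasDerivWithinAt (fun r => (Φ r z).1) ((Φ s z).2) (Set.Icc (0 : ℝ) (1 / 4)) s :=
    fun s hs => (hΦ.deriv z s hs).fst
  have hv : ∀ s ∈ Set.Icc (0 : ℝ) (1 / 4),
      HasDerivWithinAt (fun r => (Φ r z).2) (-force U 0 (Φ s z)) (Set.Icc (0 : ℝ) (1 / 4)) s := by
    intro s hs
    rw [force_zero hU]
    exact (hΦ.deriv z s hs).snd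
  have hg : ∀ k, ContinuousOn (fun r => force U k (Φ r z)) (Set.Icc (0 : ℝ) (1 / 4)) :=
    fun k s hs => (force_chain hU hΦ z k s hs).continuousWithinAt
  have hP := fun i => pos_err R hm hU hΦ hη hη1 z i
  set I1 := ∫ s in (0 : ℝ)..η, ‖force U (m - 1) (Φ s z)‖ with hI1
  set I0 := ∫ s in (0 : ℝ)..η, ‖gradient U (Φ s z).1‖ with hI0
  have I1n : 0 ≤ I1 := intervalIntegral.integral_nonneg hη.le fun s _ => norm_nonneg _
  have I0n : 0 ≤ I0 := intervalIntegral.integral_nonneg hη.le fun s _ => norm_nonneg _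
  set δ := 2 * η ^ m * I1 + 2 * η ^ 3 * I0 with hδ
  have δ0 : 0 ≤ δ := by positivity
  have hF : ∀ i, ‖force U 0 (Φ (η * R.t i) z) -
      gradient U (pos R η (fun _ => gradient U) z i)‖ ≤ 2 * δ := by
    intro i
    rw [force_zero hU]
    exact (spot_lip hU _ _).trans (mul_le_mul_of_nonneg_left (hP i) (by norm_num))
  obtain ⟨tv, ty⟩ := traj hy hv (hg 0) hηm
  simp only [hΦ.zero] at tv ty
  have qa := quad_err_a R hm (fun k r => force U k (Φ r z))
    (fun k s hs => force_chain hU hΦ z k s hs) hηm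
  have qb := quad_err_b R hm (fun k r => force U k (Φ r z))
    (fun k s hs => force_chain hU hΦ z k s hs) hηm
  have hpow : η ^ m = η * η ^ (m - 1) := by
    rw [← pow_succ']
    congr 1
    omega
  have hη2 : η ≤ 1 := by linarith
  have key : η * (2 * δ) ≤ 4 * (η ^ (m - 1) * I1 + η ^ 4 * I0) := by
    have k1 : η * η * (η ^ (m - 1) * I1) ≤ 1 * (η ^ (m - 1) * I1) := by
      refine mul_le_mul_of_nonneg_right ?_ (by positivity)
      nlinarith
    rw [hδ, hpow]
    nlinarith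
  constructor
  · have e1 : (Step R η (fun _ => gradient U) z).2 - (Φ η z).2 =
        ((∫ s in (0 : ℝ)..η, force U 0 (Φ s z)) -
          η • ∑ i, R.w i • force U 0 (Φ (η * R.t i) z)) +
        η • ∑ i, R.w i • (force U 0 (Φ (η * R.t i) z) -
          gradient U (pos R η (fun _ => gradient U) z i)) := by
      unfold Step
      rw [tv]
      simp only [smul_sub, Finset.sum_sub_distrib]
      abel
    rw [e1]
    refine (norm_add_le _ _).trans ?_
    have b1 := norm_sum_w R (by omega) _ hF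
    have b2 : ‖η • ∑ i, R.w i • (force U 0 (Φ (η * R.t i) z) -
        gradient U (pos R η (fun _ => gradient U) z i))‖ ≤ η * (2 * δ) := by
      rw [norm_smul, Real.norm_eq_abs, abs_of_pos hη]
      exact mul_le_mul_of_nonneg_left b1 hη.le
    have b3 : 0 ≤ η ^ 4 * I0 := by positivity
    nlinarith
  · have e1 : (Step R η (fun _ => gradient U) z).1 - (Φ η z).1 =
        ((∫ s in (0 : ℝ)..η, (η - s) • force U 0 (Φ s z)) -
          η ^ 2 • ∑ i, (R.w i * (1 - R.t i)) • force U 0 (Φ (η * R.t i) z)) +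
        η ^ 2 • ∑ i, (R.w i * (1 - R.t i)) • (force U 0 (Φ (η * R.t i) z) -
          gradient U (pos R η (fun _ => gradient U) z i)) := by
      unfold Step
      rw [ty]
      simp only [smul_sub, Finset.sum_sub_distrib]
      abel
    rw [e1]
    refine (norm_add_le _ _).trans ?_
    have b1 := norm_sum_w' R (by omega) _ hF
    have b2 : ‖η ^ 2 • ∑ i, (R.w i * (1 - R.t i)) • (force U 0 (Φ (η * R.t i) z) -
        gradient U (pos R η (fun _ => gradient U) z i))‖ ≤ η ^ 2 * (2 * δ) := by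
      rw [norm_smul, Real.norm_eq_abs, abs_of_pos (by positivity)]
      exact mul_le_mul_of_nonneg_left b1 (by positivity)
    have b3 : 0 ≤ η ^ 4 * I0 := by positivity
    have b4 : η ^ 2 * (2 * δ) = η * (η * (2 * δ)) := by ring
    have b5 := mul_le_mul_of_nonneg_left key hη.le
    rw [hpow] at qb
    have b6 : 0 ≤ η * (η ^ 4 * I0) := by positivity
    nlinarith

theorem grad_cont {d : ℕ} {U : E d → ℝ} (hU : SPot U) : Continuous (gradient U) := by
  have h : LipschitzWith 2 (gradient U) := by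
    refine LipschitzWith.of_dist_le_mul fun x y => ?_
    rw [dist_eq_norm, dist_eq_norm]
    exact spot_lip hU x y
  exact h.continuous

theorem force_cont {d : ℕ} {U : E d → ℝ} (hU : SPot U) (k : ℕ) : Continuous (force U k) := by
  have h : ContDiff ℝ 0 (force U k) := by
    rw [contDiff_euclidean]
    intro i
    exact (force_temp hU k i).1.of_le (by simp)
  exact h.continuous

theorem step_cont {m N d : ℕ} (R : Rule m N) {U : E d → ℝ} (hU : SPot U) (η : ℝ) :
    Continuous (Step R η (fun _ => gradient U)) := by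
  have hg := grad_cont hU
  have hp : ∀ i, Continuous fun z : E d × E d => pos R η (fun _ => gradient U) z i := by
    intro i
    have h1 : ∀ j, Continuous fun z : E d × E d =>
        (R.w j * (1 - R.t j)) • gradient U (z.1 + (η * R.t i * R.t j) • z.2) := fun j =>
      (hg.comp (continuous_fst.add (continuous_snd.const_smul (η * R.t i * R.t j)))).const_smul
        (R.w j * (1 - R.t j))
    have h2 : Continuous fun z : E d × E d =>
        ∑ j, (R.w j * (1 - R.t j)) • gradient U (z.1 + (η * R.t i * R.t j) • z.2) :=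
      continuous_finsetSum _ fun j _ => h1 j
    exact (continuous_fst.add (continuous_snd.const_smul (η * R.t i))).sub
      (h2.const_smul ((η * R.t i) ^ 2))
  have g1 : Continuous fun z : E d × E d =>
      ∑ i, (R.w i * (1 - R.t i)) • gradient U (pos R η (fun _ => gradient U) z i) :=
    continuous_finsetSum _ fun j _ => (hg.comp (hp j)).const_smul (R.w j * (1 - R.t j))
  have g2 : Continuous fun z : E d × E d =>
      ∑ i, R.w i • gradient U (pos R η (fun _ => gradient U) z i) :=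
    continuous_finsetSum _ fun j _ => (hg.comp (hp j)).const_smul (R.w j)
  exact ((continuous_fst.add (continuous_snd.const_smul η)).sub (g1.const_smul (η ^ 2))).prodMk
    (continuous_snd.sub (g2.const_smul η))

theorem flow_cont {d : ℕ} {U : E d → ℝ} {Φ : ℝ → E d × E d → E d × E d} (hΦ : IsFlow U Φ)
    {s : ℝ} (hs : s ∈ Set.Icc (0 : ℝ) (1 / 4)) : Continuous (Φ s) := by
  have h : ContinuousOn (fun z : E d × E d => (s, z)) Set.univ := by fun_prop
  have h2 := hΦ.cont.comp h (fun z _ => ⟨hs, Set.mem_univ _⟩)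
  rw [continuousOn_univ] at h2
  exact h2

/-- first absolute moment of the force -/
theorem force_l1 {d : ℕ} {U : E d → ℝ} (hU : SPot U) (k : ℕ) {K : ℝ}
    (hK : ∫ z, ‖force U k z‖ ^ 2 ∂(phase U) ≤ K) :
    Integrable (fun z => ‖force U k z‖) (phase U) ∧ ∫ z, ‖force U k z‖ ∂(phase U) ≤ √K := by
  have := phase_prob hU
  have hsq : Integrable (fun z => ‖force U k z‖ ^ 2) (phase U) := by
    have h1 : HasTemperateGrowth (fun z => ∑ i, (force U k z i) ^ 2) := by
      refine HasTemperateGrowth.sum fun i _ => ?_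
      exact (force_temp hU k i).pow 2
    have h2 := (phase_ibpm hU 1).int _ h1
    refine h2.congr (Filter.Eventually.of_forall fun z => ?_)
    simp only [EuclideanSpace.norm_sq_eq, Real.norm_eq_abs, sq_abs]
  have hm : AEStronglyMeasurable (fun z => ‖force U k z‖) (phase U) :=
    (force_cont hU k).norm.aestronglyMeasurable
  have hi : Integrable (fun z => ‖force U k z‖) (phase U) := by
    refine Integrable.mono' ((integrable_const (1 : ℝ)).add hsq) hm ?_
    refine Filter.Eventually.of_forall fun z => ?_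
    rw [Real.norm_eq_abs, abs_of_nonneg (norm_nonneg _)]
    simp only [Pi.add_apply]
    nlinarith [norm_nonneg (force U k z), sq_nonneg (‖force U k z‖ - 1)]
  refine ⟨hi, ?_⟩
  set a := ∫ z, ‖force U k z‖ ∂(phase U) with ha
  have ha0 : 0 ≤ a := integral_nonneg fun z => norm_nonneg _
  have h3 : 0 ≤ ∫ z, (‖force U k z‖ - a) ^ 2 ∂(phase U) := integral_nonneg fun z => sq_nonneg _
  have h4 : ∫ z, (‖force U k z‖ - a) ^ 2 ∂(phase U) =
      (∫ z, ‖force U k z‖ ^ 2 ∂(phase U)) - a ^ 2 := by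
    have e : ∀ z, (‖force U k z‖ - a) ^ 2 =
        ‖force U k z‖ ^ 2 - 2 * a * ‖force U k z‖ + a ^ 2 := fun z => by ring
    simp only [e]
    have hA : Integrable (fun z => ‖force U k z‖ ^ 2 - 2 * a * ‖force U k z‖) (phase U) :=
      hsq.sub (hi.const_mul _)
    rw [integral_add hA (integrable_const _),
      integral_sub hsq (hi.const_mul _), integral_const_mul, integral_const]
    simp only [probReal_univ, smul_eq_mul, one_mul]
    rw [← ha]
    ring
  rw [h4] at h3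
  refine Real.le_sqrt_of_sq_le ?_
  linarith

/-- Fubini along the flow -/
theorem flow_fubini {d : ℕ} {U : E d → ℝ} (hU : SPot U) {Φ : ℝ → E d × E d → E d × E d}
    (hΦ : IsFlow U Φ) {η : ℝ} (hη : 0 ≤ η) (hη1 : η ≤ 1 / 4) {F : E d × E d → ℝ}
    (hF : Continuous F) (hi : Integrable F (phase U)) :
    Integrable (fun z => ∫ s in (0 : ℝ)..η, F (Φ s z)) (phase U) ∧
      ∫ z, (∫ s in (0 : ℝ)..η, F (Φ s z)) ∂(phase U) = η * ∫ z, F z ∂(phase U) := by
  have := phase_prob hU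
  have hsub : Set.Ioc (0 : ℝ) η ⊆ Set.Icc (0 : ℝ) (1 / 4) := fun s hs =>
    ⟨hs.1.le, hs.2.trans hη1⟩
  have hG : AEStronglyMeasurable (fun p : ℝ × (E d × E d) => F (Φ p.1 p.2))
      ((volume.restrict (Set.Ioc 0 η)).prod (phase U)) := by
    have e : (volume.restrict (Set.Ioc 0 η)).prod (phase U) =
        ((volume : Measure ℝ).prod (phase U)).restrict (Set.Ioc 0 η ×ˢ Set.univ) := by
      rw [← Measure.prod_restrict, Measure.restrict_univ]
    rw [e]
    refine ContinuousOn.aestronglyMeasurable ?_ (measurableSet_Ioc.prod MeasurableSet.univ)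
    refine hF.comp_continuousOn (hΦ.cont.mono ?_)
    exact Set.prod_mono hsub le_rfl
  have hcomp : ∀ s ∈ Set.Ioc (0 : ℝ) η, ∀ g : E d × E d → ℝ, Continuous g →
      ∫ z, g (Φ s z) ∂(phase U) = ∫ z, g z ∂(phase U) := by
    intro s hs g hg
    have hp := hΦ.mp s (hsub hs)
    have e := integral_map (μ := phase U) hp.measurable.aemeasurable
      (f := g) hg.aestronglyMeasurable
    rw [hp.map_eq] at e
    exact e.symm
  have hint : Integrable (fun p : ℝ × (E d × E d) => F (Φ p.1 p.2))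
      ((volume.restrict (Set.Ioc 0 η)).prod (phase U)) := by
    rw [integrable_prod_iff hG]
    constructor
    · rw [ae_restrict_iff' measurableSet_Ioc]
      refine Filter.Eventually.of_forall fun s hs => ?_
      exact (hΦ.mp s (hsub hs)).integrable_comp_of_integrable hi
    · have h1 : Integrable (fun _ : ℝ => ∫ z, ‖F z‖ ∂(phase U)) (volume.restrict (Set.Ioc 0 η)) :=
        integrable_const _
      refine h1.congr ?_
      rw [Filter.EventuallyEq, ae_restrict_iff' measurableSet_Ioc]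
      refine Filter.Eventually.of_forall fun s hs => ?_
      exact (hcomp s hs (fun z => ‖F z‖) hF.norm).symm
  have e1 : ∀ z, ∫ s in (0 : ℝ)..η, F (Φ s z) = ∫ s in Set.Ioc 0 η, F (Φ s z) := fun z =>
    intervalIntegral.integral_of_le hη
  simp only [e1]
  refine ⟨hint.integral_prod_right, ?_⟩
  rw [← integral_integral_swap hint]
  have e2 : ∫ s in Set.Ioc 0 η, (∫ z, F (Φ s z) ∂(phase U)) =
      ∫ s in Set.Ioc 0 η, (∫ z, F z ∂(phase U)) := by
    refine setIntegral_congr_fun measurableSet_Ioc fun s hs => ?_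
    exact hcomp s hs F hF
  rw [e2, setIntegral_const, smul_eq_mul, Real.volume_real_Ioc_of_le hη, sub_zero]

theorem local_err {m N : ℕ} (R : Rule m N) (hm : 2 ≤ m) : ∃ C : ℝ, 0 < C ∧
    ∀ (d : ℕ) (V : E d → ℝ) (ε η : ℝ), Pot d V → 0 < ε → ε ≤ 1 → 0 < η → η ≤ 1 / 4 →
    ∀ Φ, IsFlow (smooth ε V) Φ →
      Integrable (fun z => ‖(Step R η (fun _ => gradient (smooth ε V)) z).2 - (Φ η z).2‖)
        (phase (smooth ε V)) ∧
      Integrable (fun z => ‖(Step R η (fun _ => gradient (smooth ε V)) z).1 - (Φ η z).1‖)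
        (phase (smooth ε V)) ∧
      ∫ z, ‖(Step R η (fun _ => gradient (smooth ε V)) z).2 - (Φ η z).2‖ ∂(phase (smooth ε V))
        ≤ C * √d * (η ^ 5 + ε * (η / ε) ^ m) ∧
      ∫ z, ‖(Step R η (fun _ => gradient (smooth ε V)) z).1 - (Φ η z).1‖ ∂(phase (smooth ε V))
        ≤ C * η * √d * (η ^ 5 + ε * (η / ε) ^ m) := by
  obtain ⟨C1, hC1, hpt⟩ := local_pt R hm
  obtain ⟨Ca, hCa, ha⟩ := liou_bound (m - 1)
  obtain ⟨Cb, hCb, hb⟩ := liou_bound 0
  refine ⟨C1 * (√Ca + √Cb), by positivity, fun d V ε η hV hε hε1 hη hη1 Φ hΦ => ?_⟩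
  set U := smooth ε V with hUdef
  have hU : SPot U := smooth_spot hV hε
  have := phase_prob hU
  have hηm : η ∈ Set.Icc (0 : ℝ) (1 / 4) := ⟨hη.le, hη1⟩
  have hP := hpt d U hU Φ hΦ η hη hη1
  obtain ⟨i1, l1⟩ := force_l1 hU (m - 1) (ha d V ε hV hε hε1)
  obtain ⟨i0, l0⟩ := force_l1 hU 0 (hb d V ε hV hε hε1)
  obtain ⟨j1, m1⟩ := flow_fubini hU hΦ hη.le hη1 (force_cont hU (m - 1)).norm i1
  obtain ⟨j0, m0⟩ := flow_fubini hU hΦ hη.le hη1 (force_cont hU 0).norm i0
  simp only [force_zero hU] at j0 m0 l0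
  -- the majorant
  set A : E d × E d → ℝ := fun z => ∫ s in (0 : ℝ)..η, ‖force U (m - 1) (Φ s z)‖ with hA
  set B : E d × E d → ℝ := fun z => ∫ s in (0 : ℝ)..η, ‖gradient U (Φ s z).1‖ with hB
  have hMi : Integrable (fun z => η ^ (m - 1) * A z + η ^ 4 * B z) (phase U) :=
    (j1.const_mul _).add (j0.const_mul _)
  have hMe : ∫ z, (η ^ (m - 1) * A z + η ^ 4 * B z) ∂(phase U) ≤
      (√Ca + √Cb) * √d * (η ^ 5 + ε * (η / ε) ^ m) := by
    rw [integral_add (j1.const_mul _) (j0.const_mul _), integral_const_mul, integral_const_mul,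
      m1, m0]
    have s1 : √(Ca * d * (ε ^ (2 * (m - 1)))⁻¹) = √Ca * √d * (ε ^ (m - 1))⁻¹ := by
      rw [Real.sqrt_mul (by positivity), Real.sqrt_mul hCa.le, Real.sqrt_inv, pow_mul',
        Real.sqrt_sq (by positivity)]
    have s0 : √(Cb * d * (ε ^ (2 * 0))⁻¹) = √Cb * √d := by
      rw [mul_zero, pow_zero, inv_one, mul_one, Real.sqrt_mul hCb.le]
    rw [s1] at l1
    rw [s0] at l0
    have hpow : η ^ (m - 1) * η * (ε ^ (m - 1))⁻¹ = ε * (η / ε) ^ m := by
      obtain ⟨n, rfl⟩ : ∃ n, m = n + 1 := ⟨m - 1, by omega⟩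
      simp only [Nat.add_sub_cancel, div_pow]
      field_simp
      ring
    have r1 : η ^ (m - 1) * (η * ∫ z, ‖force U (m - 1) z‖ ∂(phase U)) ≤
        √Ca * √d * (ε * (η / ε) ^ m) := by
      calc η ^ (m - 1) * (η * ∫ z, ‖force U (m - 1) z‖ ∂(phase U))
          ≤ η ^ (m - 1) * (η * (√Ca * √d * (ε ^ (m - 1))⁻¹)) := by
            refine mul_le_mul_of_nonneg_left (mul_le_mul_of_nonneg_left l1 hη.le) (by positivity)
        _ = √Ca * √d * (η ^ (m - 1) * η * (ε ^ (m - 1))⁻¹) := by ring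
        _ = _ := by rw [hpow]
    have r0 : η ^ 4 * (η * ∫ z : E d × E d, ‖gradient U z.1‖ ∂(phase U)) ≤
        √Cb * √d * η ^ 5 := by
      calc η ^ 4 * (η * ∫ z : E d × E d, ‖gradient U z.1‖ ∂(phase U))
          ≤ η ^ 4 * (η * (√Cb * √d)) := by
            refine mul_le_mul_of_nonneg_left (mul_le_mul_of_nonneg_left l0 hη.le) (by positivity)
        _ = _ := by ring
    have p1 : 0 ≤ √Cb * √d * (ε * (η / ε) ^ m) := by positivity
    have p0 : 0 ≤ √Ca * √d * η ^ 5 := by positivity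
    nlinarith
  have hM0 : ∀ z, 0 ≤ η ^ (m - 1) * A z + η ^ 4 * B z := by
    intro z
    have a1 : 0 ≤ A z := intervalIntegral.integral_nonneg hη.le fun s _ => norm_nonneg _
    have a2 : 0 ≤ B z := intervalIntegral.integral_nonneg hη.le fun s _ => norm_nonneg _
    positivity
  have c1 : Continuous fun z => ‖(Step R η (fun _ => gradient U) z).2 - (Φ η z).2‖ :=
    ((continuous_snd.comp (step_cont R hU η)).sub
      (continuous_snd.comp (flow_cont hΦ hηm))).norm
  have c2 : Continuous fun z => ‖(Step R η (fun _ => gradient U) z).1 - (Φ η z).1‖ :=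
    ((continuous_fst.comp (step_cont R hU η)).sub
      (continuous_fst.comp (flow_cont hΦ hηm))).norm
  have I2 : Integrable (fun z => ‖(Step R η (fun _ => gradient U) z).2 - (Φ η z).2‖)
      (phase U) := by
    refine Integrable.mono' (hMi.const_mul C1) c1.aestronglyMeasurable
      (Filter.Eventually.of_forall fun z => ?_)
    rw [Real.norm_eq_abs, abs_of_nonneg (norm_nonneg _)]
    exact (hP z).1
  have I1 : Integrable (fun z => ‖(Step R η (fun _ => gradient U) z).1 - (Φ η z).1‖)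
      (phase U) := by
    refine Integrable.mono' (hMi.const_mul (C1 * η)) c2.aestronglyMeasurable
      (Filter.Eventually.of_forall fun z => ?_)
    rw [Real.norm_eq_abs, abs_of_nonneg (norm_nonneg _)]
    exact (hP z).2
  refine ⟨I2, I1, ?_, ?_⟩
  · calc ∫ z, ‖(Step R η (fun _ => gradient U) z).2 - (Φ η z).2‖ ∂(phase U)
        ≤ ∫ z, C1 * (η ^ (m - 1) * A z + η ^ 4 * B z) ∂(phase U) :=
          integral_mono I2 (hMi.const_mul C1) fun z => (hP z).1
      _ = C1 * ∫ z, (η ^ (m - 1) * A z + η ^ 4 * B z) ∂(phase U) := integral_const_mul _ _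
      _ ≤ C1 * ((√Ca + √Cb) * √d * (η ^ 5 + ε * (η / ε) ^ m)) :=
          mul_le_mul_of_nonneg_left hMe hC1.le
      _ = _ := by ring
  · calc ∫ z, ‖(Step R η (fun _ => gradient U) z).1 - (Φ η z).1‖ ∂(phase U)
        ≤ ∫ z, C1 * η * (η ^ (m - 1) * A z + η ^ 4 * B z) ∂(phase U) :=
          integral_mono I1 (hMi.const_mul (C1 * η)) fun z => (hP z).2
      _ = C1 * η * ∫ z, (η ^ (m - 1) * A z + η ^ 4 * B z) ∂(phase U) := integral_const_mul _ _
      _ ≤ C1 * η * ((√Ca + √Cb) * √d * (η ^ 5 + ε * (η / ε) ^ m)) :=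
          mul_le_mul_of_nonneg_left hMe (by positivity)
      _ = _ := by ring

end P347Q
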