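import Vale.Agent.P347Q.KickNoise
import Vale.Agent.P347Q.LocalErr
import Vale.Agent.P347Q.HeatTV

/-!
Module Defect (S).  One step of the algorithm almost preserves `phase U`, `U = smooth ε V`.
(1) `kick_noise` for every `z` and `TVle.mix`;
(2) `gauss_shift2` (`σ = η√η`, `τ = b = √(1-(1-2η)²) ≥ √η`) for every `z`, `TVle.mix`, `local_err`:
    replaces `Step R η ∇U z` by `Φ_η z` (`Φ` from `exists_isFlow`);
(3) `Φ_η` preserves `phase U`; the velocity part of `inj` preserves `stdGaussian` (sum of independent
    Gaussians); the position part costs `2 η³ √d` by `heat_tv` with `s = η³`.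
-/

open MeasureTheory ProbabilityTheory Function
open scoped ENNReal BigOperators

namespace P347Q

/-- total one-step defect (to be multiplied by a constant) -/
noncomputable def defc (m : ℕ) (d : ℕ) (ε η : ℝ) : ℝ :=
  √d * (η * ε ^ 2 + η ^ 2 * √η * ε + (η ^ 5 + ε * (η / ε) ^ m) / √η + η ^ 3)

theorem defc_nonneg (m d : ℕ) {ε η : ℝ} (hε : 0 ≤ ε) (hη : 0 ≤ η) : 0 ≤ defc m d ε η := by
  unfold defc; positivity

instance noiseM_prob (N d : ℕ) : IsProbabilityMeasure (noiseM N d) := by
  unfold noiseM; infer_instance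

theorem pot_grad_cont {d : ℕ} {V : E d → ℝ} (hV : Pot d V) : Continuous (gradient V) := by
  have h : Continuous (fderiv ℝ V) := hV.smooth.continuous_fderiv (by norm_num)
  have : gradient V = fun x => (InnerProductSpace.toDual ℝ (E d)).symm (fderiv ℝ V x) := rfl
  rw [this]
  exact (InnerProductSpace.toDual ℝ (E d)).symm.continuous.comp h

theorem blk_cont {N d : ℕ} (k : Idx N) :
    Continuous (fun ξ : EuclideanSpace ℝ (Idx N × Fin d) => blk k ξ) := by
  unfold blk
  fun_prop

/-- joint continuity of a step -/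
theorem step_cont_joint {X : Type*} [TopologicalSpace X] {d m N : ℕ} (R : Rule m N) (η : ℝ)
    {G : X → Idx N → E d → E d} (hG : ∀ k, Continuous (fun p : X × E d => G p.1 k p.2))
    {z : X → E d × E d} (hz : Continuous z) :
    Continuous (fun x => Step R η (G x) (z x)) := by
  have hG' : ∀ k, ∀ f : X → E d, Continuous f → Continuous (fun x => G x k (f x)) :=
    fun k f hf => (hG k).comp (continuous_id.prodMk hf)
  have hpos : ∀ i, Continuous (fun x => pos R η (G x) (z x) i) := by
    intro i
    unfold pos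
    refine Continuous.sub (by fun_prop) (Continuous.fun_const_smul ?_ _)
    refine continuous_finsetSum _ (fun j _ => Continuous.fun_const_smul ?_ _)
    exact hG' _ _ (by fun_prop)
  unfold Step
  refine Continuous.prodMk ?_ ?_
  · refine Continuous.sub (by fun_prop) (Continuous.fun_const_smul ?_ _)
    refine continuous_finsetSum _ (fun i _ => Continuous.fun_const_smul ?_ _)
    exact hG' _ _ (hpos i)
  · refine Continuous.sub (by fun_prop) (Continuous.fun_const_smul ?_ _)
    refine continuous_finsetSum _ (fun i _ => Continuous.fun_const_smul ?_ _)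
    exact hG' _ _ (hpos i)

theorem inj_cont {X : Type*} [TopologicalSpace X] {d : ℕ} (η : ℝ) {z ζ : X → E d × E d}
    (hz : Continuous z) (hζ : Continuous ζ) : Continuous (fun x => inj η (z x) (ζ x)) := by
  unfold inj
  fun_prop

theorem kick_cont {d m N : ℕ} (R : Rule m N) {V : E d → ℝ} (hV : Pot d V) (ε η : ℝ) :
    Continuous (fun p : (E d × E d) × Noise N d => kick R V ε η p.1 p.2) := by
  unfold kick
  refine inj_cont η ?_ (by fun_prop)
  refine step_cont_joint R η (fun k => ?_) (by fun_prop)
  refine (pot_grad_cont hV).comp ?_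
  exact continuous_snd.add (((blk_cont k).comp (by fun_prop)).const_smul ε)

/-- measurability of the step -/
theorem kick_measurable {d m N : ℕ} (R : Rule m N) {V : E d → ℝ} (hV : Pot d V) (ε η : ℝ) :
    Measurable (fun p : (E d × E d) × Noise N d => kick R V ε η p.1 p.2) :=
  (kick_cont R hV ε η).measurable

theorem mp_comm {A B C D : Type*} [MeasurableSpace A] [MeasurableSpace B] [MeasurableSpace C]
    [MeasurableSpace D] (a : Measure A) (b : Measure B) (c : Measure C) (e : Measure D)
    [SFinite a] [SFinite b] [SFinite c] [SFinite e] :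
    MeasurePreserving (fun p : (A × B) × (C × D) => ((p.1.1, p.2.1), (p.1.2, p.2.2)))
      ((a.prod b).prod (c.prod e)) ((a.prod c).prod (b.prod e)) := by
  have h1 := measurePreserving_prodAssoc a b (c.prod e)
  have h2 : MeasurePreserving (MeasurableEquiv.prodAssoc.symm : B × (C × D) ≃ᵐ (B × C) × D)
      (b.prod (c.prod e)) ((b.prod c).prod e) := (measurePreserving_prodAssoc b c e).symm
  have h3 : MeasurePreserving (Prod.map Prod.swap id : (B × C) × D → (C × B) × D)
      ((b.prod c).prod e) ((c.prod b).prod e) :=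
    Measure.measurePreserving_swap.prod (MeasurePreserving.id e)
  have h4 := measurePreserving_prodAssoc c b e
  have h5 : MeasurePreserving (MeasurableEquiv.prodAssoc.symm : A × (C × (B × D)) ≃ᵐ _)
      (a.prod (c.prod (b.prod e))) ((a.prod c).prod (b.prod e)) :=
    (measurePreserving_prodAssoc a c (b.prod e)).symm
  have h6 := (h4.comp h3).comp h2
  have h7 := (MeasurePreserving.id a).prod h6
  exact (h5.comp h7).comp h1

theorem gauss_rot {d : ℕ} {a b : ℝ} (h : a ^ 2 + b ^ 2 = 1) :
    ((stdGaussian (E d)).prod (stdGaussian (E d))).map (fun p => a • p.1 + b • p.2) =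
      stdGaussian (E d) := by
  have e1 : ((stdGaussian (E d)).prod (stdGaussian (E d))).map (fun p => a • p.1 + b • p.2) =
      (((stdGaussian (E d)).map (fun x => a • x)).prod
        ((stdGaussian (E d)).map (fun x => b • x))).map (fun p => p.1 + p.2) := by
    rw [Measure.map_prod_map _ _ (by fun_prop) (by fun_prop),
      Measure.map_map (by fun_prop) (by fun_prop)]
    rfl
  have ha : IsProbabilityMeasure ((stdGaussian (E d)).map (fun x => a • x)) :=
    Measure.isProbabilityMeasure_map (by fun_prop)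
  have hb : IsProbabilityMeasure ((stdGaussian (E d)).map (fun x => b • x)) :=
    Measure.isProbabilityMeasure_map (by fun_prop)
  rw [e1]
  have : IsProbabilityMeasure ((((stdGaussian (E d)).map (fun x => a • x)).prod
        ((stdGaussian (E d)).map (fun x => b • x))).map (fun p => p.1 + p.2)) :=
    Measure.isProbabilityMeasure_map (by fun_prop)
  apply Measure.ext_of_charFun
  rw [charFun_map_add_prod_eq_mul]
  ext t
  rw [Pi.mul_apply, charFun_map_smul, charFun_map_smul, charFun_stdGaussian, charFun_stdGaussian,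
    charFun_stdGaussian, ← Complex.exp_add]
  congr 1
  rw [norm_smul, norm_smul]
  have h' : (a : ℂ) ^ 2 + (b : ℂ) ^ 2 = 1 := by exact_mod_cast h
  have ea : ((‖a‖ * ‖t‖ : ℝ) : ℂ) ^ 2 = (a : ℂ) ^ 2 * (‖t‖ : ℂ) ^ 2 := by
    rw [← Complex.ofReal_pow, mul_pow, Real.norm_eq_abs, sq_abs]; push_cast; ring
  have eb : ((‖b‖ * ‖t‖ : ℝ) : ℂ) ^ 2 = (b : ℂ) ^ 2 * (‖t‖ : ℂ) ^ 2 := by
    rw [← Complex.ofReal_pow, mul_pow, Real.norm_eq_abs, sq_abs]; push_cast; ring
  rw [ea, eb]
  linear_combination (-(‖t‖ : ℂ) ^ 2 / 2) * h'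

theorem inj_phase {d : ℕ} {U : E d → ℝ} (hU : SPot U) {η : ℝ} (hη : 0 < η) (hη1 : η ≤ 1 / 4) :
    TVle (((phase U).prod ((stdGaussian (E d)).prod (stdGaussian (E d)))).map
      (fun p => inj η p.1 p.2)) (phase U) (2 * η ^ 3 * √d) := by
  have hP : IsProbabilityMeasure (phase U) := phase_prob hU
  have hG : IsProbabilityMeasure (gibbs U) := by
    have : (phase U).map Prod.fst = gibbs U := by
      unfold phase
      exact Measure.map_fst_prod.trans (by simp)
    rw [← this]
    exact Measure.isProbabilityMeasure_map (by fun_prop)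
  set γ := stdGaussian (E d) with hγ
  set b := √(1 - (1 - 2 * η) ^ 2) with hb
  have hb0 : 0 ≤ 1 - (1 - 2 * η) ^ 2 := by nlinarith
  have hab : (1 - 2 * η) ^ 2 + b ^ 2 = 1 := by rw [hb, Real.sq_sqrt hb0]; ring
  have hs : √(η ^ 3) = η * √η := by
    rw [show η ^ 3 = η ^ 2 * η by ring, Real.sqrt_mul (by positivity), Real.sqrt_sq hη.le]
  have key : ((phase U).prod (γ.prod γ)).map (fun p => inj η p.1 p.2) =
      (((gibbs U).prod γ).map (fun p => p.1 + √(η ^ 3) • p.2)).prod γ := by
    have h1 : (fun p : (E d × E d) × (E d × E d) => inj η p.1 p.2) =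
        Prod.map (fun q : E d × E d => q.1 + √(η ^ 3) • q.2)
          (fun q : E d × E d => (1 - 2 * η) • q.1 + b • q.2) ∘
        (fun p : (E d × E d) × (E d × E d) => ((p.1.1, p.2.1), (p.1.2, p.2.2))) := by
      funext p
      simp only [inj, Function.comp, Prod.map, hs, hb]
    rw [h1, ← Measure.map_map (by fun_prop) (by fun_prop)]
    have h2 := (mp_comm (gibbs U) γ γ γ).map_eq
    unfold phase
    rw [h2, ← Measure.map_prod_map _ _ (by fun_prop) (by fun_prop), gauss_rot hab]
  rw [key]
  have hp : IsProbabilityMeasure (((gibbs U).prod γ).map (fun p => p.1 + √(η ^ 3) • p.2)) :=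
    Measure.isProbabilityMeasure_map (by fun_prop)
  exact TVle.prod_right (heat_tv hU (by positivity : (0 : ℝ) ≤ η ^ 3)) γ

theorem defect {m N : ℕ} (R : Rule m N) (hm : 2 ≤ m) : ∃ C η0 : ℝ, 0 < C ∧ 0 < η0 ∧
    ∀ (d : ℕ) (V : E d → ℝ) (ε η : ℝ), Pot d V → 0 < ε → ε ≤ 1 → 0 < η → η ≤ η0 →
      TVle (((phase (smooth ε V)).prod (noiseM N d)).map (fun p => kick R V ε η p.1 p.2))
        (phase (smooth ε V)) (C * defc m d ε η) := by
  obtain ⟨C1, η1, hC1, hη1, h1⟩ := kick_noise R (by omega : 1 ≤ m)
  obtain ⟨C2, hC2, h2⟩ := local_err R hm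
  refine ⟨C1 + 2 * C2 + 2, min η1 (1 / 4), by positivity, by positivity, ?_⟩
  intro d V ε η hV hε hε1 hη hηle
  have hη1' : η ≤ η1 := hηle.trans (min_le_left _ _)
  have hη4 : η ≤ 1 / 4 := hηle.trans (min_le_right _ _)
  set U := smooth ε V with hUdef
  have hU : SPot U := smooth_spot hV hε
  have hP : IsProbabilityMeasure (phase U) := phase_prob hU
  obtain ⟨Φ, hΦ⟩ := exists_isFlow hU
  have hmp : MeasurePreserving (Φ η) (phase U) (phase U) := hΦ.mp η ⟨hη.le, hη4⟩
  obtain ⟨hI2, hI1, hE2, hE1⟩ := h2 d V ε η hV hε hε1 hη hη4 Φ hΦ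
  set γ2 := (stdGaussian (E d)).prod (stdGaussian (E d)) with hγ2
  have hUc : Continuous (gradient U) := by
    have h : Continuous (fderiv ℝ U) :=
      (hU.temp.1.continuous_fderiv (by norm_num))
    exact (InnerProductSpace.toDual ℝ (E d)).symm.continuous.comp h
  have hstepc : Continuous (fun z : E d × E d => Step R η (fun _ => gradient U) z) :=
    step_cont_joint R η (fun k => hUc.comp continuous_snd) continuous_id
  set b := √(1 - (1 - 2 * η) ^ 2) with hb
  have hbη : √η ≤ b := Real.sqrt_le_sqrt (by nlinarith)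
  have hη0 : 0 < √η := Real.sqrt_pos.2 hη
  have hb0 : 0 < b := hη0.trans_le hbη
  -- A to B
  have hAB : TVle (((phase U).prod (noiseM N d)).map (fun p => kick R V ε η p.1 p.2))
      (((phase U).prod γ2).map (fun p => inj η (Step R η (fun _ => gradient U) p.1) p.2))
      (C1 * √d * (η * ε ^ 2 + η ^ 2 * √η * ε)) := by
    have := TVle.mix (phase U) (noiseM N d) γ2
      (g := fun p => kick R V ε η p.1 p.2)
      (g' := fun p => inj η (Step R η (fun _ => gradient U) p.1) p.2)
      (kick_measurable R hV ε η)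
      (inj_cont η (hstepc.comp continuous_fst) continuous_snd).measurable
      (δ := fun _ => C1 * √d * (η * ε ^ 2 + η ^ 2 * √η * ε)) (integrable_const _)
      (fun z => h1 d V ε η hV hε hε1 hη hη1' z)
    simpa using this
  -- B to C
  have hBC : TVle (((phase U).prod γ2).map
        (fun p => inj η (Step R η (fun _ => gradient U) p.1) p.2))
      (((phase U).prod γ2).map (fun p => inj η (Φ η p.1) p.2))
      (2 * C2 * √d * ((η ^ 5 + ε * (η / ε) ^ m) / √η)) := by
    have hint : Integrable (fun z =>
        ‖(Step R η (fun _ => gradient U) z).1 - (Φ η z).1‖ / (η * √η) +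
        ‖(Step R η (fun _ => gradient U) z).2 - (Φ η z).2‖ / √η) (phase U) :=
      (hI1.div_const _).add (hI2.div_const _)
    have := TVle.mix (phase U) γ2 γ2
      (g := fun p => inj η (Step R η (fun _ => gradient U) p.1) p.2)
      (g' := fun p => inj η (Φ η p.1) p.2)
      (inj_cont η (hstepc.comp continuous_fst) continuous_snd).measurable
      (((inj_cont (d := d) η continuous_fst continuous_snd).measurable
        (α := (E d × E d) × (E d × E d))).comp
        ((hmp.measurable.comp measurable_fst).prodMk measurable_snd))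
      hint ?_
    · refine this.mono ?_
      rw [integral_add (hI1.div_const _) (hI2.div_const _), integral_div, integral_div]
      have e1 : C2 * η * √d * (η ^ 5 + ε * (η / ε) ^ m) / (η * √η) =
          C2 * √d * ((η ^ 5 + ε * (η / ε) ^ m) / √η) := by
        field_simp
      have e2 : C2 * √d * (η ^ 5 + ε * (η / ε) ^ m) / √η =
          C2 * √d * ((η ^ 5 + ε * (η / ε) ^ m) / √η) := by
        field_simp
      have i1 := div_le_div_of_nonneg_right hE1 (by positivity : 0 ≤ η * √η)
      have i2 := div_le_div_of_nonneg_right hE2 hη0.le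
      rw [e1] at i1
      rw [e2] at i2
      linarith
    · intro z
      have hsh := gauss_shift2 (d := d)
        ((Step R η (fun _ => gradient U) z).1, (1 - 2 * η) • (Step R η (fun _ => gradient U) z).2)
        ((Φ η z).1, (1 - 2 * η) • (Φ η z).2)
        (σ := η * √η) (τ := b) (by positivity) hb0
      refine TVle.mono hsh ?_
      simp only
      refine add_le_add le_rfl ?_
      rw [← smul_sub, norm_smul, Real.norm_eq_abs, abs_of_nonneg (by linarith)]
      refine div_le_div₀ (norm_nonneg _) ?_ hη0 hbη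
      have := norm_nonneg ((Step R η (fun _ => gradient U) z).2 - (Φ η z).2)
      nlinarith
  -- C to D
  have hCD : ((phase U).prod γ2).map (fun p => inj η (Φ η p.1) p.2) =
      ((phase U).prod γ2).map (fun p => inj η p.1 p.2) := by
    have h3 : MeasurePreserving (Prod.map (Φ η) id) ((phase U).prod γ2) ((phase U).prod γ2) :=
      hmp.prod (MeasurePreserving.id γ2)
    have h4 : (fun p : (E d × E d) × (E d × E d) => inj η (Φ η p.1) p.2) =
        (fun p => inj η p.1 p.2) ∘ Prod.map (Φ η) id := rfl
    rw [h4, ← Measure.map_map (inj_cont (d := d) η continuous_fst continuous_snd).measurable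
      h3.measurable, h3.map_eq]
  have hDE := inj_phase hU hη hη4
  have hall := (hAB.trans hBC).trans (hCD ▸ hDE)
  refine hall.mono ?_
  unfold defc
  have n1 : 0 ≤ √(d : ℝ) := Real.sqrt_nonneg _
  have n2 : 0 ≤ η * ε ^ 2 + η ^ 2 * √η * ε := by positivity
  have n3 : 0 ≤ (η ^ 5 + ε * (η / ε) ^ m) / √η := by positivity
  have n4 : 0 ≤ η ^ 3 := by positivity
  have p2 := mul_nonneg n1 n2
  have p3 := mul_nonneg n1 n3
  have p4 := mul_nonneg n1 n4
  nlinarith [mul_nonneg hC1.le p3, mul_nonneg hC1.le p4, mul_nonneg hC2.le p2,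
    mul_nonneg hC2.le p4]

end P347Q
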