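import Mathlib

/-!
Shared definitions for P347 (query complexity of well-conditioned log-concave sampling),
project `gamma_* ≤ 1/4`.
-/

open MeasureTheory ProbabilityTheory Function
open scoped ENNReal BigOperators

namespace P347Q

/-- `d`-dimensional Euclidean space -/
abbrev E (d : ℕ) := EuclideanSpace ℝ (Fin d)

/-- the class of potentials of the problem -/
structure Pot (d : ℕ) (V : E d → ℝ) : Prop where
  smooth : ContDiff ℝ 2 V
  zero : V 0 = 0
  grad_zero : gradient V 0 = 0
  lower : ∀ x w : E d, ‖w‖ ^ 2 ≤ fderiv ℝ (fderiv ℝ V) x w w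
  upper : ∀ x w : E d, fderiv ℝ (fderiv ℝ V) x w w ≤ 2 * ‖w‖ ^ 2

/-- smooth potentials of temperate growth with the same curvature bounds -/
structure SPot {d : ℕ} (U : E d → ℝ) : Prop where
  temp : HasTemperateGrowth U
  lower : ∀ x w : E d, ‖w‖ ^ 2 ≤ fderiv ℝ (fderiv ℝ U) x w w
  upper : ∀ x w : E d, fderiv ℝ (fderiv ℝ U) x w w ≤ 2 * ‖w‖ ^ 2

/-- the Gibbs law with density proportional to `exp (-V)` -/
noncomputable def gibbs {X : Type*} [MeasureSpace X] (V : X → ℝ) : Measure X :=
  (∫⁻ x, ENNReal.ofReal (Real.exp (-V x)))⁻¹ •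
    (volume : Measure X).withDensity (fun x => ENNReal.ofReal (Real.exp (-V x)))

/-- Gaussian smoothing with standard deviation `ε` -/
noncomputable def smooth {d : ℕ} (ε : ℝ) (V : E d → ℝ) : E d → ℝ :=
  fun x => ∫ z, V (x + ε • z) ∂(stdGaussian (E d))

/-- the law `gibbs U ⊗ γ` on phase space -/
noncomputable def phase {d : ℕ} (U : E d → ℝ) : Measure (E d × E d) :=
  (gibbs U).prod (stdGaussian (E d))

/-- total variation distance at most `ε` (tested on measurable functions with values in `[0,1]`) -/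
def TVle {X : Type*} [MeasurableSpace X] (μ ν : Measure X) (ε : ℝ) : Prop :=
  ∀ f : X → ℝ, Measurable f → (∀ x, 0 ≤ f x) → (∀ x, f x ≤ 1) →
    |∫ x, f x ∂μ - ∫ x, f x ∂ν| ≤ ε

/-- sum of the squares of all `n`-th order directional derivatives of `f` along the family `e` -/
noncomputable def hs {κ : Type*} [Fintype κ] {Z : Type*} [NormedAddCommGroup Z] [NormedSpace ℝ Z]
    (e : κ → Z) : ℕ → (Z → ℝ) → Z → ℝ
  | 0, f => fun z => (f z) ^ 2
  | n + 1, f => fun z => ∑ k, hs e n (fun z' => fderiv ℝ f z' (e k)) z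

/-- standard basis vectors -/
noncomputable def bas (d : ℕ) (i : Fin d) : E d := EuclideanSpace.single i 1

/-- the Liouville operator of the Hamiltonian `U(x) + |v|^2/2` -/
noncomputable def Liou {d : ℕ} (U : E d → ℝ) (f : E d × E d → ℝ) : E d × E d → ℝ :=
  fun z => fderiv ℝ f z (z.2, -gradient U z.1)

/-- `Φ` is the Hamiltonian flow for times in `[0, 1/4]`, preserving `phase U` -/
structure IsFlow {d : ℕ} (U : E d → ℝ) (Φ : ℝ → E d × E d → E d × E d) : Prop where
  zero : ∀ z, Φ 0 z = z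
  deriv : ∀ z, ∀ s ∈ Set.Icc (0 : ℝ) (1 / 4),
    HasDerivWithinAt (fun r => Φ r z) ((Φ s z).2, -gradient U (Φ s z).1)
      (Set.Icc (0 : ℝ) (1 / 4)) s
  cont : ContinuousOn (fun p : ℝ × (E d × E d) => Φ p.1 p.2) (Set.Icc (0 : ℝ) (1 / 4) ×ˢ Set.univ)
  mp : ∀ s ∈ Set.Icc (0 : ℝ) (1 / 4), MeasurePreserving (Φ s) (phase U) (phase U)

/-- a quadrature rule on `[0,1]` with nonnegative weights, exact for polynomials of degree `< m` -/
structure Rule (m N : ℕ) where
  t : Fin N → ℝ
  w : Fin N → ℝ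
  t_mem : ∀ j, t j ∈ Set.Icc (0 : ℝ) 1
  w_nonneg : ∀ j, 0 ≤ w j
  w_exact : ∀ i < m, ∑ j, w j * t j ^ i = 1 / ((i : ℝ) + 1)

/-- index set of the force evaluations of one step -/
abbrev Idx (N : ℕ) := (Fin N × Fin N) ⊕ Fin N

/-- predicted position at the node `i` -/
noncomputable def pos {d m N : ℕ} (R : Rule m N) (η : ℝ) (G : Idx N → E d → E d)
    (z : E d × E d) (i : Fin N) : E d :=
  z.1 + (η * R.t i) • z.2 -
    (η * R.t i) ^ 2 • ∑ j, (R.w j * (1 - R.t j)) • G (Sum.inl (i, j)) (z.1 + (η * R.t i * R.t j) • z.2)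

/-- one numerical step of length `η` with force fields `G` -/
noncomputable def Step {d m N : ℕ} (R : Rule m N) (η : ℝ) (G : Idx N → E d → E d)
    (z : E d × E d) : E d × E d :=
  (z.1 + η • z.2 - η ^ 2 • ∑ i, (R.w i * (1 - R.t i)) • G (Sum.inr i) (pos R η G z i),
    z.2 - η • ∑ i, R.w i • G (Sum.inr i) (pos R η G z i))

/-- the Gaussian noise space of one step -/
abbrev Noise (N d : ℕ) := EuclideanSpace ℝ (Idx N × Fin d) × (E d × E d)

/-- the law of the noise of one step -/
noncomputable def noiseM (N d : ℕ) : Measure (Noise N d) :=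
  (stdGaussian (EuclideanSpace ℝ (Idx N × Fin d))).prod
    ((stdGaussian (E d)).prod (stdGaussian (E d)))

/-- block `k` of the noise used for smoothing -/
noncomputable def blk {N d : ℕ} (k : Idx N) (ξ : EuclideanSpace ℝ (Idx N × Fin d)) : E d :=
  WithLp.toLp 2 (fun i => ξ (k, i))

/-- adding the injected noises: position noise of size `η^(3/2)`, Ornstein-Uhlenbeck step in the
velocity -/
noncomputable def inj {d : ℕ} (η : ℝ) (z : E d × E d) (ζ : E d × E d) : E d × E d :=
  (z.1 + (η * √η) • ζ.1, (1 - 2 * η) • z.2 + √(1 - (1 - 2 * η) ^ 2) • ζ.2)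

/-- one step of the algorithm -/
noncomputable def kick {d m N : ℕ} (R : Rule m N) (V : E d → ℝ) (ε η : ℝ) (z : E d × E d)
    (ω : Noise N d) : E d × E d :=
  inj η (Step R η (fun k y => gradient V (y + ε • blk k ω.1)) z) ω.2

/-- `n` steps -/
noncomputable def run {d m N : ℕ} (R : Rule m N) (V : E d → ℝ) (ε η : ℝ) :
    (n : ℕ) → E d × E d → (Fin n → Noise N d) → E d × E d
  | 0, z, _ => z
  | n + 1, z, ω => kick R V ε η (run R V ε η n z (fun i => ω i.castSucc)) (ω (Fin.last n))

/-- law of the output of the algorithm: position after `n` steps from `(0,0)` -/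
noncomputable def outLaw {d m N : ℕ} (R : Rule m N) (V : E d → ℝ) (ε η : ℝ) (n : ℕ) :
    Measure (E d) :=
  (Measure.pi (fun _ : Fin n => noiseM N d)).map (fun ω => (run R V ε η n (0, 0) ω).1)

/-- a randomized adaptive first-order algorithm with `q` queries -/
structure Sampler (d q : ℕ) where
  Ω : Type
  mΩ : MeasurableSpace Ω
  P : Measure Ω
  prob : IsProbabilityMeasure P
  query : (k : ℕ) → Ω → (Fin k → ℝ × E d) → E d
  meas_query : ∀ k, Measurable (fun p : Ω × (Fin k → ℝ × E d) => query k p.1 p.2)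
  out : Ω → (Fin q → ℝ × E d) → E d
  meas_out : Measurable (fun p : Ω × (Fin q → ℝ × E d) => out p.1 p.2)

attribute [instance] Sampler.mΩ

/-- the exact first-order oracle -/
noncomputable def oracle {d : ℕ} (V : E d → ℝ) (x : E d) : ℝ × E d := (V x, gradient V x)

/-- the first `k` answers of the oracle -/
noncomputable def Sampler.answers {d q : ℕ} (S : Sampler d q) (V : E d → ℝ) (ω : S.Ω) :
    (k : ℕ) → Fin k → ℝ × E d
  | 0 => Fin.elim0
  | k + 1 => Fin.snoc (S.answers V ω k) (oracle V (S.query k ω (S.answers V ω k)))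

/-- the law of the output -/
noncomputable def Sampler.law {d q : ℕ} (S : Sampler d q) (V : E d → ℝ) : Measure (E d) :=
  S.P.map (fun ω => S.out ω (S.answers V ω q))

/-- `q` queries suffice in dimension `d` -/
def Suff (d q : ℕ) : Prop :=
  ∃ S : Sampler d q, ∀ V, Pot d V → ∀ B, MeasurableSet B →
    |(S.law V).real B - (gibbs V).real B| ≤ 1 / 10

end P347Q
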