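import Vale.Agent.P347Q.AbsIBP

/-!
Module Gibbs.  Basics on `gibbs U`.
-/

open MeasureTheory ProbabilityTheory Function
open scoped ENNReal BigOperators ContDiff

namespace P347Q

variable {d : ℕ}

/-! ### Second order Taylor bounds -/

section taylor
variable {X : Type*} [NormedAddCommGroup X] [NormedSpace ℝ X]

theorem second_order_lower {f : X → ℝ} (hf : ContDiff ℝ 2 f) (x v : X) (m : ℝ)
    (h : ∀ t ∈ Set.Icc (0 : ℝ) 1, m ≤ fderiv ℝ (fderiv ℝ f) (x + t • v) v v) :
    f x + fderiv ℝ f x v + m / 2 ≤ f (x + v) := by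
  have hd : Differentiable ℝ f := hf.differentiable (by norm_num)
  have hf1 : ContDiff ℝ 1 (fderiv ℝ f) := hf.fderiv_right (by norm_num)
  have hd1 : Differentiable ℝ (fderiv ℝ f) := hf1.differentiable (by norm_num)
  have hl : ∀ t : ℝ, HasDerivAt (fun t : ℝ => x + t • v) v t := by
    intro t
    simpa using ((hasDerivAt_id t).smul_const v).const_add x
  have h1 : ∀ t : ℝ, HasDerivAt (fun t : ℝ => f (x + t • v)) (fderiv ℝ f (x + t • v) v) t :=
    fun t => (hd (x + t • v)).hasFDerivAt.comp_hasDerivAt t (hl t)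
  have h2 : ∀ t : ℝ, HasDerivAt (fun t : ℝ => fderiv ℝ f (x + t • v) v)
      (fderiv ℝ (fderiv ℝ f) (x + t • v) v v) t := by
    intro t
    have a := (hd1 (x + t • v)).hasFDerivAt.comp_hasDerivAt t (hl t)
    have b := a.clm_apply (hasDerivAt_const t v)
    simpa using b
  -- first: lower bound for the first derivative
  have g1 : ∀ t ∈ Set.Icc (0 : ℝ) 1, fderiv ℝ f x v + m * t ≤ fderiv ℝ f (x + t • v) v := by
    have hmono : MonotoneOn (fun t : ℝ => fderiv ℝ f (x + t • v) v - m * t) (Set.Icc 0 1) := by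
      have hD : ∀ t : ℝ, HasDerivAt (fun t : ℝ => fderiv ℝ f (x + t • v) v - m * t)
          (fderiv ℝ (fderiv ℝ f) (x + t • v) v v - m) t := by
        intro t
        have := (h2 t).fun_sub ((hasDerivAt_id t).const_mul m)
        rw [mul_one] at this
        exact this
      refine monotoneOn_of_deriv_nonneg (convex_Icc 0 1)
        (fun t _ => (hD t).continuousAt.continuousWithinAt)
        (fun t _ => (hD t).differentiableAt.differentiableWithinAt) ?_
      intro t ht
      rw [(hD t).deriv]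
      have := h t (interior_subset ht)
      linarith
    intro t ht
    have := hmono (Set.left_mem_Icc.2 zero_le_one) ht ht.1
    simp only [zero_smul, add_zero, mul_zero, sub_zero] at this
    linarith
  have hmono : MonotoneOn (fun t : ℝ => f (x + t • v) - fderiv ℝ f x v * t - m * t ^ 2 / 2)
      (Set.Icc 0 1) := by
    have hD : ∀ t : ℝ, HasDerivAt
        (fun t : ℝ => f (x + t • v) - fderiv ℝ f x v * t - m * t ^ 2 / 2)
        (fderiv ℝ f (x + t • v) v - fderiv ℝ f x v - m * t) t := by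
      intro t
      have a1 := (h1 t).fun_sub ((hasDerivAt_id t).const_mul (fderiv ℝ f x v))
      have a2 := (((hasDerivAt_id t).fun_pow 2).const_mul m).div_const 2
      have a3 := a1.fun_sub a2
      have e : fderiv ℝ f (x + t • v) v - fderiv ℝ f x v - m * t =
          fderiv ℝ f (x + t • v) v - fderiv ℝ f x v * 1 - m * (((2 : ℕ) : ℝ) * (id t) ^ (2 - 1) * 1) / 2 := by
        simp only [id]
        push_cast
        ring
      rw [e]
      exact a3
    refine monotoneOn_of_deriv_nonneg (convex_Icc 0 1)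
      (fun t _ => (hD t).continuousAt.continuousWithinAt)
      (fun t _ => (hD t).differentiableAt.differentiableWithinAt) ?_
    intro t ht
    rw [(hD t).deriv]
    have := g1 t (interior_subset ht)
    linarith
  have := hmono (Set.left_mem_Icc.2 zero_le_one) (Set.right_mem_Icc.2 zero_le_one) zero_le_one
  simp only [zero_smul, add_zero, mul_zero, sub_zero, one_smul, mul_one, one_pow] at this
  norm_num at this
  linarith

theorem second_order_upper {f : X → ℝ} (hf : ContDiff ℝ 2 f) (x v : X) (m : ℝ)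
    (h : ∀ t ∈ Set.Icc (0 : ℝ) 1, fderiv ℝ (fderiv ℝ f) (x + t • v) v v ≤ m) :
    f (x + v) ≤ f x + fderiv ℝ f x v + m / 2 := by
  have e1 : fderiv ℝ (fun y => -f y) = fun y => -fderiv ℝ f y := by
    funext y
    exact fderiv_fun_neg
  have e2 : ∀ y, fderiv ℝ (fderiv ℝ (fun y => -f y)) y = -fderiv ℝ (fderiv ℝ f) y := by
    intro y
    rw [e1]
    exact fderiv_fun_neg
  have := second_order_lower (f := fun y => -f y) hf.neg x v (-m) (by
    intro t ht
    rw [e2]
    simpa using h t ht)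
  rw [e1] at this
  simp only [neg_apply] at this
  linarith

end taylor

/-! ### Gaussian type integrability -/

theorem integrable_exp_sq {b : ℝ} (hb : 0 < b) :
    Integrable (fun x : E d => Real.exp (-b * ‖x‖ ^ 2)) := by
  have h := GaussianFourier.integrable_cexp_neg_mul_sq_norm_add (V := E d) (b := (b : ℂ))
    (by simpa using hb) 0 0
  have h2 := h.norm
  refine h2.congr ?_
  filter_upwards with x
  rw [Complex.norm_exp]
  congr 1
  simp [← Complex.ofReal_pow]

theorem poly_exp_bound {b : ℝ} (hb : 0 < b) (k : ℕ) (r : ℝ) (hr : 0 ≤ r) :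
    (1 + r) ^ k * Real.exp (-b * r ^ 2) ≤
      Real.exp ((k : ℝ) ^ 2 / (2 * b)) * Real.exp (-(b / 2) * r ^ 2) := by
  have h1 : (1 + r) ^ k ≤ Real.exp (k * r) := by
    have : 1 + r ≤ Real.exp r := by
      have := Real.add_one_le_exp r
      linarith
    calc (1 + r) ^ k ≤ (Real.exp r) ^ k := by gcongr
      _ = Real.exp (k * r) := by rw [← Real.exp_nat_mul]
  calc (1 + r) ^ k * Real.exp (-b * r ^ 2) ≤ Real.exp (k * r) * Real.exp (-b * r ^ 2) := by gcongr
    _ = Real.exp (k * r + -b * r ^ 2) := by rw [Real.exp_add]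
    _ ≤ Real.exp ((k : ℝ) ^ 2 / (2 * b) + -(b / 2) * r ^ 2) := by
        apply Real.exp_le_exp.2
        have h3 : (k : ℝ) * r ≤ (k : ℝ) ^ 2 / (2 * b) + b / 2 * r ^ 2 := by
          have h4 : (k : ℝ) ^ 2 / (2 * b) + b / 2 * r ^ 2 - k * r =
              (k - b * r) ^ 2 / (2 * b) := by
            field_simp
            ring
          have h5 : 0 ≤ ((k : ℝ) - b * r) ^ 2 / (2 * b) := by positivity
          linarith
        linarith
    _ = _ := by rw [Real.exp_add]

theorem integrable_poly_exp {b : ℝ} (hb : 0 < b) (k : ℕ) :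
    Integrable (fun x : E d => (1 + ‖x‖) ^ k * Real.exp (-b * ‖x‖ ^ 2)) := by
  have h := (integrable_exp_sq (d := d) (b := b / 2) (by positivity)).const_mul
    (Real.exp ((k : ℝ) ^ 2 / (2 * b)))
  refine h.mono' (by fun_prop) ?_
  filter_upwards with x
  rw [Real.norm_of_nonneg (by positivity)]
  exact poly_exp_bound hb k _ (norm_nonneg _)

theorem exp_neg_integrable {V : E d → ℝ} (hc : Continuous V) {c : ℝ}
    (hl : ∀ x, c + ‖x‖ ^ 2 / 4 ≤ V x) {f : E d → ℝ} (hf : Continuous f) {k : ℕ} {C : ℝ}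
    (hb : ∀ x, |f x| ≤ C * (1 + ‖x‖) ^ k) :
    Integrable (fun x => Real.exp (-V x) * f x) := by
  have h := (integrable_poly_exp (d := d) (b := 1 / 4) (by norm_num) k).const_mul
    (Real.exp (-c) * C)
  refine h.mono' (by fun_prop) ?_
  filter_upwards with x
  rw [norm_mul, Real.norm_of_nonneg (Real.exp_nonneg _), Real.norm_eq_abs]
  have h1 : Real.exp (-V x) ≤ Real.exp (-c) * Real.exp (-(1 / 4) * ‖x‖ ^ 2) := by
    rw [← Real.exp_add]
    apply Real.exp_le_exp.2
    have := hl x
    linarith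
  calc Real.exp (-V x) * |f x| ≤ (Real.exp (-c) * Real.exp (-(1 / 4) * ‖x‖ ^ 2)) *
        (C * (1 + ‖x‖) ^ k) := by
        apply mul_le_mul h1 (hb x) (abs_nonneg _) (by positivity)
    _ = _ := by ring

theorem exp_neg_integrable' {V : E d → ℝ} (hc : Continuous V) {c : ℝ}
    (hl : ∀ x, c + ‖x‖ ^ 2 / 4 ≤ V x) : Integrable (fun x => Real.exp (-V x)) := by
  have := exp_neg_integrable hc hl (f := fun _ => 1) continuous_const (k := 0) (C := 1)
    (fun x => by simp)
  simpa using this

theorem lint_exp_eq {V : E d → ℝ} (hc : Continuous V) {c : ℝ}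
    (hl : ∀ x, c + ‖x‖ ^ 2 / 4 ≤ V x) :
    ∫⁻ x, ENNReal.ofReal (Real.exp (-V x)) = ENNReal.ofReal (∫ x, Real.exp (-V x)) := by
  rw [ofReal_integral_eq_lintegral_ofReal (exp_neg_integrable' hc hl)]
  filter_upwards with x
  exact Real.exp_nonneg _

theorem Z_pos {V : E d → ℝ} (hc : Continuous V) {c : ℝ}
    (hl : ∀ x, c + ‖x‖ ^ 2 / 4 ≤ V x) : 0 < ∫ x, Real.exp (-V x) := by
  rw [integral_pos_iff_support_of_nonneg (fun x => Real.exp_nonneg _) (exp_neg_integrable' hc hl)]
  have : Function.support (fun x : E d => Real.exp (-V x)) = Set.univ := by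
    ext x
    simp [Real.exp_ne_zero]
  rw [this]
  exact Measure.measure_univ_pos.2 (NeZero.ne _)

theorem gibbs_prob_of_lower {V : E d → ℝ} (hc : Continuous V) {c : ℝ}
    (hl : ∀ x, c + ‖x‖ ^ 2 / 4 ≤ V x) : IsProbabilityMeasure (gibbs V) := by
  constructor
  rw [gibbs, Measure.smul_apply, withDensity_apply _ MeasurableSet.univ, Measure.restrict_univ,
    smul_eq_mul]
  have h := lint_exp_eq hc hl
  have hZ := Z_pos hc hl
  refine ENNReal.inv_mul_cancel ?_ ?_
  · rw [h]
    simpa using hZ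
  · rw [h]
    exact ENNReal.ofReal_ne_top

/-- integrals against `gibbs V`, vector valued -/
theorem integral_gibbs_smul {F : Type*} [NormedAddCommGroup F] [NormedSpace ℝ F]
    {V : E d → ℝ} (hc : Continuous V) {c : ℝ}
    (hl : ∀ x, c + ‖x‖ ^ 2 / 4 ≤ V x) (f : E d → F) :
    ∫ x, f x ∂(gibbs V) = (∫ x, Real.exp (-V x))⁻¹ • ∫ x, Real.exp (-V x) • f x := by
  have hm : Measurable (fun x : E d => ENNReal.ofReal (Real.exp (-V x))) := by
    have := hc.measurable
    fun_prop
  rw [gibbs, integral_smul_measure, integral_withDensity_eq_integral_toReal_smul hm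
    (by filter_upwards with x; exact ENNReal.ofReal_lt_top), lint_exp_eq hc hl]
  rw [ENNReal.toReal_inv, ENNReal.toReal_ofReal (Z_pos hc hl).le]
  congr 1
  apply integral_congr_ae
  filter_upwards with x
  rw [ENNReal.toReal_ofReal (Real.exp_nonneg _)]

/-- integrals against `gibbs V` -/
theorem integral_gibbs {V : E d → ℝ} (hc : Continuous V) {c : ℝ}
    (hl : ∀ x, c + ‖x‖ ^ 2 / 4 ≤ V x) (f : E d → ℝ) :
    ∫ x, f x ∂(gibbs V) = (∫ x, Real.exp (-V x))⁻¹ * ∫ x, Real.exp (-V x) * f x := by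
  have hm : Measurable (fun x : E d => ENNReal.ofReal (Real.exp (-V x))) := by
    have := hc.measurable
    fun_prop
  rw [gibbs, integral_smul_measure, integral_withDensity_eq_integral_toReal_smul hm
    (by filter_upwards with x; exact ENNReal.ofReal_lt_top), lint_exp_eq hc hl]
  rw [ENNReal.toReal_inv, ENNReal.toReal_ofReal (Z_pos hc hl).le, smul_eq_mul]
  congr 1
  apply integral_congr_ae
  filter_upwards with x
  rw [ENNReal.toReal_ofReal (Real.exp_nonneg _), smul_eq_mul]

theorem integrable_gibbs {V : E d → ℝ} (hc : Continuous V) {c : ℝ}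
    (hl : ∀ x, c + ‖x‖ ^ 2 / 4 ≤ V x) {f : E d → ℝ}
    (hf : Integrable (fun x => Real.exp (-V x) * f x)) : Integrable f (gibbs V) := by
  have hm : Measurable (fun x : E d => ENNReal.ofReal (Real.exp (-V x))) := by
    have := hc.measurable
    fun_prop
  rw [gibbs]
  apply Integrable.smul_measure
  · rw [integrable_withDensity_iff_integrable_smul' hm
      (by filter_upwards with x; exact ENNReal.ofReal_lt_top)]
    refine hf.congr ?_
    filter_upwards with x
    rw [ENNReal.toReal_ofReal (Real.exp_nonneg _), smul_eq_mul]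
  · rw [lint_exp_eq hc hl]
    simpa using Z_pos hc hl

theorem integrable_gibbs_poly {V : E d → ℝ} (hc : Continuous V) {c : ℝ}
    (hl : ∀ x, c + ‖x‖ ^ 2 / 4 ≤ V x) {f : E d → ℝ} (hf : Continuous f) {k : ℕ} {C : ℝ}
    (hb : ∀ x, |f x| ≤ C * (1 + ‖x‖) ^ k) : Integrable f (gibbs V) :=
  integrable_gibbs hc hl (exp_neg_integrable hc hl hf hb)

theorem Pot.lower_bound {V : E d → ℝ} (hV : Pot d V) (x : E d) : ‖x‖ ^ 2 / 2 ≤ V x := by
  have h := second_order_lower hV.smooth 0 x (‖x‖ ^ 2) (fun t _ => hV.lower _ _)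
  have h0 : fderiv ℝ V 0 x = 0 := by
    have : fderiv ℝ V 0 = 0 := by
      have h1 := hV.grad_zero
      rw [gradient] at h1
      simpa using h1
    rw [this]
    simp
  rw [hV.zero, h0] at h
  simpa using h

theorem Pot.lower_bound' {V : E d → ℝ} (hV : Pot d V) (x : E d) : 0 + ‖x‖ ^ 2 / 4 ≤ V x := by
  have := hV.lower_bound x
  have h2 : 0 ≤ ‖x‖ ^ 2 := by positivity
  linarith

theorem Pot.cont {V : E d → ℝ} (hV : Pot d V) : Continuous V := hV.smooth.continuous

theorem Pot.prob {V : E d → ℝ} (hV : Pot d V) : IsProbabilityMeasure (gibbs V) :=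
  gibbs_prob_of_lower hV.cont hV.lower_bound'

theorem SPot.contDiff {U : E d → ℝ} (hU : SPot U) : ContDiff ℝ 2 U :=
  hU.temp.1.of_le ENat.LEInfty.out

theorem SPot.cont {U : E d → ℝ} (hU : SPot U) : Continuous U := hU.temp.1.continuous

theorem SPot.lower_bound {U : E d → ℝ} (hU : SPot U) : ∃ c : ℝ, ∀ x, c + ‖x‖ ^ 2 / 4 ≤ U x := by
  refine ⟨U 0 - ‖fderiv ℝ U 0‖ ^ 2, fun x => ?_⟩
  have h := second_order_lower hU.contDiff 0 x (‖x‖ ^ 2) (fun t _ => hU.lower _ _)
  rw [zero_add] at h
  have h1 : -(‖fderiv ℝ U 0‖ * ‖x‖) ≤ fderiv ℝ U 0 x := by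
    have := (fderiv ℝ U 0).le_opNorm x
    rw [Real.norm_eq_abs] at this
    exact (abs_le.1 this).1
  have h2 : ‖fderiv ℝ U 0‖ * ‖x‖ ≤ ‖fderiv ℝ U 0‖ ^ 2 + ‖x‖ ^ 2 / 4 := by
    nlinarith [sq_nonneg (‖fderiv ℝ U 0‖ - ‖x‖ / 2)]
  linarith

theorem SPot.prob {U : E d → ℝ} (hU : SPot U) : IsProbabilityMeasure (gibbs U) := by
  obtain ⟨c, hc⟩ := hU.lower_bound
  exact gibbs_prob_of_lower hU.cont hc

theorem temp_bound {f : E d → ℝ} (hf : HasTemperateGrowth f) :
    ∃ (k : ℕ) (C : ℝ), ∀ x, |f x| ≤ C * (1 + ‖x‖) ^ k := by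
  obtain ⟨k, C, h⟩ := hf.2 0
  refine ⟨k, C, fun x => ?_⟩
  have := h x
  rwa [norm_iteratedFDeriv_zero, Real.norm_eq_abs] at this

theorem gibbs_integrable {U : E d → ℝ} (hU : SPot U) {f : E d → ℝ} (hf : HasTemperateGrowth f) :
    Integrable f (gibbs U) := by
  obtain ⟨c, hc⟩ := hU.lower_bound
  obtain ⟨k, C, h⟩ := temp_bound hf
  exact integrable_gibbs_poly hU.cont hc hf.1.continuous h

theorem gibbs_ibp {U : E d → ℝ} (hU : SPot U) {f : E d → ℝ} (hf : HasTemperateGrowth f) (w : E d) :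
    ∫ x, fderiv ℝ f x w ∂(gibbs U) = ∫ x, f x * fderiv ℝ U x w ∂(gibbs U) := by
  obtain ⟨c, hc⟩ := hU.lower_bound
  rw [integral_gibbs hU.cont hc, integral_gibbs hU.cont hc]
  congr 1
  have hUd := temp_diff hU.temp
  have hg : ∀ x, fderiv ℝ (fun x => Real.exp (-U x)) x w = -(Real.exp (-U x) * fderiv ℝ U x w) := by
    intro x
    have h1 : HasFDerivAt (fun x => Real.exp (-U x)) (Real.exp (-U x) • -fderiv ℝ U x) x :=
      ((hUd x).hasFDerivAt.neg).exp
    rw [h1.fderiv]
    simp
  have i0 : Integrable (fun x => Real.exp (-U x) * f x) := by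
    obtain ⟨k, C, h⟩ := temp_bound hf
    exact exp_neg_integrable hU.cont hc hf.1.continuous h
  have i1 : Integrable (fun x => Real.exp (-U x) * fderiv ℝ f x w) := by
    obtain ⟨k, C, h⟩ := temp_bound (temp_dir hf w)
    exact exp_neg_integrable hU.cont hc (temp_dir hf w).1.continuous h
  have i2 : Integrable (fun x => Real.exp (-U x) * (f x * fderiv ℝ U x w)) := by
    have ht := hf.mul (temp_dir hU.temp w)
    obtain ⟨k, C, h⟩ := temp_bound ht
    exact exp_neg_integrable hU.cont hc ht.1.continuous h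
  have h := integral_mul_fderiv_eq_neg_fderiv_mul_of_integrable (μ := (volume : Measure (E d)))
    (f := fun x => Real.exp (-U x)) (g := f) (v := w)
    (by
      refine i2.neg.congr ?_
      filter_upwards with x
      rw [hg]
      simp only [Pi.neg_apply]
      ring) i1 i0
    (fun x _ => ((hUd x).neg).exp) (fun x _ => temp_diff hf x)
  rw [h, ← integral_neg]
  apply integral_congr_ae
  filter_upwards with x
  rw [hg]
  ring

end P347Q
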