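import Vale.Agent.P347Q.PotAux
import Vale.Agent.P347Q.AbsIBP
import Vale.Agent.P347Q.Gibbs

/-!
Module Flow, part 1: Lipschitz force, existence of the flow (Picard-Lindelöf), temperate growth of
`Liou U f`, derivative of an observable along the flow.
-/

open MeasureTheory ProbabilityTheory Function
open scoped ENNReal NNReal BigOperators

namespace P347Q

namespace Flow1

variable {d : ℕ}

theorem gradient_sub_norm (U : E d → ℝ) (x y : E d) :
    ‖gradient U x - gradient U y‖ = ‖fderiv ℝ U x - fderiv ℝ U y‖ := by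
  unfold gradient
  rw [← map_sub, LinearIsometryEquiv.norm_map]

theorem spot_lip {U : E d → ℝ} (hU : SPot U) (x y : E d) :
    ‖gradient U x - gradient U y‖ ≤ 2 * ‖x - y‖ := by
  rw [gradient_sub_norm]
  exact PotAux.fderiv_lip hU.contDiff hU.lower hU.upper x y

/-- the Hamiltonian vector field -/
noncomputable def fld (U : E d → ℝ) (z : E d × E d) : E d × E d := (z.2, -gradient U z.1)

theorem fld_lip {U : E d → ℝ} (hU : SPot U) : LipschitzWith 2 (fld U) := by
  refine LipschitzWith.of_dist_le_mul fun z w => ?_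
  rw [dist_eq_norm, dist_eq_norm, fld, fld, Prod.mk_sub_mk, Prod.norm_def, Prod.norm_def]
  simp only [NNReal.coe_ofNat, sup_le_iff, Prod.fst_sub, Prod.snd_sub]
  constructor
  · have : ‖z.2 - w.2‖ ≤ max ‖z.1 - w.1‖ ‖z.2 - w.2‖ := le_max_right _ _
    have h0 := norm_nonneg (z.2 - w.2)
    linarith
  · have h1 : ‖-gradient U z.1 - -gradient U w.1‖ ≤ 2 * ‖z.1 - w.1‖ := by
      rw [neg_sub_neg, norm_sub_rev]
      exact spot_lip hU _ _
    have : ‖z.1 - w.1‖ ≤ max ‖z.1 - w.1‖ ‖z.2 - w.2‖ := le_max_left _ _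
    linarith

theorem picard {U : E d → ℝ} (hU : SPot U) (z : E d × E d) :
    ∃ α : ℝ → E d × E d, α 0 = z ∧ ∀ s ∈ Set.Icc (0 : ℝ) (1 / 4),
      HasDerivWithinAt α (fld U (α s)) (Set.Icc (0 : ℝ) (1 / 4)) s := by
  have h0 : (0 : ℝ) ∈ Set.Icc (0 : ℝ) (1 / 4) := ⟨le_rfl, by norm_num⟩
  have hpl : IsPicardLindelof (fun _ => fld U) (tmin := 0) (tmax := 1 / 4) ⟨0, h0⟩ z
      ⟨‖fld U z‖, norm_nonneg _⟩ 0 ⟨3 * ‖fld U z‖, by positivity⟩ 2 := by
    refine IsPicardLindelof.of_time_independent ?_ (fld_lip hU).lipschitzOnWith ?_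
    · intro x hx
      have h1 := (fld_lip hU).dist_le_mul x z
      rw [dist_eq_norm] at h1
      have h2 : dist x z ≤ ‖fld U z‖ := Metric.mem_closedBall.1 hx
      have h3 : ‖fld U x‖ ≤ ‖fld U x - fld U z‖ + ‖fld U z‖ := norm_le_norm_sub_add _ _
      have h4 : ((2 : ℝ≥0) : ℝ) = 2 := rfl
      rw [h4] at h1
      show ‖fld U x‖ ≤ 3 * ‖fld U z‖
      linarith
    · show 3 * ‖fld U z‖ * max (1 / 4 - 0) (0 - 0) ≤ ‖fld U z‖ - ((0 : ℝ≥0) : ℝ)
      have h5 : max ((1 : ℝ) / 4 - 0) (0 - 0) = 1 / 4 := by norm_num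
      rw [h5]
      have := norm_nonneg (fld U z)
      simp only [NNReal.coe_zero, sub_zero]
      linarith
  obtain ⟨α, h1, h2⟩ := hpl.exists_eq_forall_mem_Icc_hasDerivWithinAt₀
  exact ⟨α, h1, h2⟩

theorem flow_exists {U : E d → ℝ} (hU : SPot U) :
    ∃ Φ : ℝ → E d × E d → E d × E d, (∀ z, Φ 0 z = z) ∧
      (∀ z, ∀ s ∈ Set.Icc (0 : ℝ) (1 / 4),
        HasDerivWithinAt (fun r => Φ r z) ((Φ s z).2, -gradient U (Φ s z).1)
          (Set.Icc (0 : ℝ) (1 / 4)) s) ∧
      ContinuousOn (fun p : ℝ × (E d × E d) => Φ p.1 p.2)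
        (Set.Icc (0 : ℝ) (1 / 4) ×ˢ Set.univ) := by
  choose α h1 h2 using picard hU
  refine ⟨fun s z => α z s, h1, h2, ?_⟩
  have hc : ∀ z, ContinuousOn (α z) (Set.Icc (0 : ℝ) (1 / 4)) := fun z =>
    HasDerivWithinAt.continuousOn (h2 z)
  have hr : ∀ z, ∀ s ∈ Set.Ico (0 : ℝ) (1 / 4),
      HasDerivWithinAt (α z) (fld U (α z s)) (Set.Ici s) s := by
    intro z s hs
    refine (h2 z s ⟨hs.1, hs.2.le⟩).mono_of_mem_nhdsWithin ?_
    rw [mem_nhdsWithin]
    exact ⟨Set.Iio (1 / 4), isOpen_Iio, hs.2, fun t ht => ⟨hs.1.trans ht.2, le_of_lt ht.1⟩⟩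
  have hlip : ∀ s ∈ Set.Icc (0 : ℝ) (1 / 4), LipschitzOnWith (Real.exp (2 * (1 / 4))).toNNReal
      (fun z => α z s) Set.univ := by
    intro s hs
    refine LipschitzOnWith.of_dist_le_mul fun z _ w _ => ?_
    have h3 := dist_le_of_trajectories_ODE (v := fun _ => fld U) (K := 2) (fun _ => fld_lip hU)
      (hc z) (hr z) (hc w) (hr w) (δ := dist z w) (by rw [h1, h1]) s hs
    refine h3.trans ?_
    rw [Real.coe_toNNReal _ (Real.exp_pos _).le, mul_comm]
    refine mul_le_mul_of_nonneg_right ?_ dist_nonneg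
    apply Real.exp_le_exp.2
    have h4 : ((2 : ℝ≥0) : ℝ) = 2 := rfl
    rw [h4]
    have := hs.2
    linarith
  exact continuousOn_prod_of_continuousOn_lipschitzOnWith' _ (Real.exp (2 * (1 / 4))).toNNReal
    (fun s hs => hlip s hs) (fun z _ => hc z)

/-- the inverse Riesz map as a real continuous linear map -/
noncomputable def riesz (d : ℕ) : (E d →L[ℝ] ℝ) →L[ℝ] E d :=
  LinearMap.mkContinuous
    { toFun := fun φ => (InnerProductSpace.toDual ℝ (E d)).symm φ
      map_add' := fun φ ψ => map_add _ φ ψ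
      map_smul' := fun c φ => by
        simp } 1
    (fun φ => by simp)

/-- temperate growth of the gradient -/
theorem gradient_temp {U : E d → ℝ} (hU : SPot U) : HasTemperateGrowth (gradient U) := by
  have h1 : HasTemperateGrowth (fderiv ℝ U) := temp_fderiv hU.temp
  have h2 := (riesz d).hasTemperateGrowth
  have h3 := h2.comp h1
  exact h3

theorem fld_temp {U : E d → ℝ} (hU : SPot U) : HasTemperateGrowth (fld U) := by
  have h1 : HasTemperateGrowth (fun z : E d × E d => gradient U z.1) :=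
    (gradient_temp hU).comp (ContinuousLinearMap.fst ℝ (E d) (E d)).hasTemperateGrowth
  have h2 : HasTemperateGrowth (fun z : E d × E d =>
      ContinuousLinearMap.inr ℝ (E d) (E d) (-gradient U z.1)) :=
    (ContinuousLinearMap.inr ℝ (E d) (E d)).hasTemperateGrowth.comp h1.neg
  have h3 : HasTemperateGrowth (fun z : E d × E d =>
      ContinuousLinearMap.inl ℝ (E d) (E d) (ContinuousLinearMap.snd ℝ (E d) (E d) z)) :=
    (ContinuousLinearMap.inl ℝ (E d) (E d)).hasTemperateGrowth.comp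
      (ContinuousLinearMap.snd ℝ (E d) (E d)).hasTemperateGrowth
  have h4 := h3.add h2
  have h5 : (fun z : E d × E d =>
      ContinuousLinearMap.inl ℝ (E d) (E d) (ContinuousLinearMap.snd ℝ (E d) (E d) z)) +
      (fun z : E d × E d => ContinuousLinearMap.inr ℝ (E d) (E d) (-gradient U z.1)) = fld U := by
    funext z
    simp [fld]
  rwa [h5] at h4

/-- `Liou U` preserves temperate functions -/
theorem liou_temp {U : E d → ℝ} (hU : SPot U) {f : E d × E d → ℝ} (hf : HasTemperateGrowth f) :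
    HasTemperateGrowth (Liou U f) := by
  have h1 : HasTemperateGrowth (fderiv ℝ f) := temp_fderiv hf
  exact (ContinuousLinearMap.id ℝ ((E d × E d) →L[ℝ] ℝ)).bilinear_hasTemperateGrowth h1
    (fld_temp hU)

/-- derivative of an observable along the flow -/
theorem flow_deriv {U : E d → ℝ} {Φ : ℝ → E d × E d → E d × E d} (hΦ : IsFlow U Φ)
    {f : E d × E d → ℝ} (hf : HasTemperateGrowth f) (z : E d × E d) (s : ℝ)
    (hs : s ∈ Set.Icc (0 : ℝ) (1 / 4)) :
    HasDerivWithinAt (fun r => f (Φ r z)) (Liou U f (Φ s z)) (Set.Icc (0 : ℝ) (1 / 4)) s := by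
  have h1 : HasFDerivAt f (fderiv ℝ f (Φ s z)) (Φ s z) := (temp_diff hf _).hasFDerivAt
  exact h1.comp_hasDerivWithinAt s (hΦ.deriv z s hs)

end Flow1

end P347Q
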