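import Vale.Agent.P347Q.FlowVol
import Vale.Agent.P347Q.Gibbs
import Vale.Agent.P347Q.GaussDens

/-!
Auxiliary file for the module Flow: the Hamiltonian flow preserves `phase U`.
-/

open MeasureTheory ProbabilityTheory Function Set
open scoped ENNReal BigOperators ContDiff NNReal

namespace P347Q

variable {d : ℕ}

/-- the Hamiltonian is conserved -/
theorem ham_const {U : E d → ℝ} (hU : SPot U) {T : ℝ} {y : ℝ → E d × E d}
    (hy : Traj (gradient U) T y) {s : ℝ} (hs : s ∈ Icc (0 : ℝ) T) :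
    U (y s).1 + ‖(y s).2‖ ^ 2 / 2 = U (y 0).1 + ‖(y 0).2‖ ^ 2 / 2 := by
  have hd : ∀ r ∈ Icc (0 : ℝ) T, HasDerivWithinAt (fun r => U (y r).1 + ‖(y r).2‖ ^ 2 / 2) 0
      (Icc (0 : ℝ) T) r := by
    intro r hr
    have h1 := hy r hr
    have hx : HasDerivWithinAt (fun r => (y r).1) (y r).2 (Icc (0 : ℝ) T) r := by
      have := ((ContinuousLinearMap.fst ℝ (E d) (E d)).hasFDerivAt
        (x := y r)).comp_hasDerivWithinAt r h1
      exact this
    have hv : HasDerivWithinAt (fun r => (y r).2) (-gradient U (y r).1) (Icc (0 : ℝ) T) r := by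
      have := ((ContinuousLinearMap.snd ℝ (E d) (E d)).hasFDerivAt
        (x := y r)).comp_hasDerivWithinAt r h1
      exact this
    have hUd : HasFDerivAt U (fderiv ℝ U (y r).1) (y r).1 :=
      (temp_diff hU.temp (y r).1).hasFDerivAt
    have h2 := hUd.comp_hasDerivWithinAt r hx
    have h3 := (hv.norm_sq).div_const 2
    have h4 := h2.add h3
    have h5 : fderiv ℝ U (y r).1 (y r).2 = inner ℝ (y r).2 (gradient U (y r).1) := by
      rw [real_inner_comm, gradient, InnerProductSpace.toDual_symm_apply]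
    have h6 : fderiv ℝ U (y r).1 (y r).2 + 2 * inner ℝ (y r).2 (-gradient U (y r).1) / 2 = 0 := by
      rw [h5, inner_neg_right]
      ring
    exact h6 ▸ h4
  have h := Convex.norm_image_sub_le_of_norm_hasDerivWithin_le (C := 0) hd
    (fun r _ => by simp) (convex_Icc _ _) (⟨le_refl _, hs.1.trans hs.2⟩ : (0 : ℝ) ∈ Icc (0 : ℝ) T) hs
  rw [zero_mul] at h
  exact sub_eq_zero.mp (norm_le_zero_iff.mp h)

/-- `phase U` as a density on phase space -/
theorem phase_eq {U : E d → ℝ} (hU : SPot U) : ∃ c : ℝ≥0∞,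
    phase U = c • ((volume : Measure (E d)).prod (volume : Measure (E d))).withDensity
      (fun z => ENNReal.ofReal (Real.exp (-(U z.1 + ‖z.2‖ ^ 2 / 2)))) := by
  have hUc : Continuous U := (temp_diff hU.temp).continuous
  have hm1 : Measurable (fun x : E d => ENNReal.ofReal (Real.exp (-U x))) := by
    have : Continuous (fun x : E d => Real.exp (-U x)) := by fun_prop
    exact this.measurable.ennreal_ofReal
  have hm2 : Measurable (fun v : E d => ENNReal.ofReal (Real.exp (-(‖v‖ ^ 2 / 2)))) := by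
    have : Continuous (fun v : E d => Real.exp (-(‖v‖ ^ 2 / 2))) := by fun_prop
    exact this.measurable.ennreal_ofReal
  refine ⟨(∫⁻ x : E d, ENNReal.ofReal (Real.exp (-U x)))⁻¹ *
    (∫⁻ v : E d, ENNReal.ofReal (Real.exp (-(‖v‖ ^ 2 / 2))))⁻¹, ?_⟩
  rw [phase, stdGaussian_eq_gibbs, gibbs, gibbs, Measure.prod_smul_left, Measure.prod_smul_right,
    prod_withDensity hm1 hm2, smul_smul]
  congr 2
  funext z
  rw [← ENNReal.ofReal_mul (Real.exp_pos _).le, ← Real.exp_add]
  congr 2
  ring

theorem mp_of_density {X : Type*} [MeasurableSpace X] {μ : Measure X} {F : X → X}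
    (hF : MeasurePreserving F μ μ) {ρ : X → ℝ≥0∞} (hρ : Measurable ρ) (hinv : ∀ z, ρ (F z) = ρ z)
    (c : ℝ≥0∞) : MeasurePreserving F (c • μ.withDensity ρ) (c • μ.withDensity ρ) := by
  refine ⟨hF.measurable, ?_⟩
  ext A hA
  rw [Measure.map_apply hF.measurable hA, Measure.smul_apply, Measure.smul_apply,
    withDensity_apply _ (hF.measurable hA), withDensity_apply _ hA]
  congr 1
  rw [← hF.setLIntegral_comp_preimage hA hρ]
  simp_rw [hinv]

theorem flow_phase_mp {U : E d → ℝ} (hU : SPot U) {Φ : ℝ → E d × E d → E d × E d}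
    (h0 : ∀ z, Φ 0 z = z) {s : ℝ} {T : ℝ} (h1 : ∀ z, Traj (gradient U) T (fun r => Φ r z))
    (hs : s ∈ Icc (0 : ℝ) T)
    (hmp : MeasurePreserving (Φ s) ((volume : Measure (E d)).prod (volume : Measure (E d)))
      ((volume : Measure (E d)).prod (volume : Measure (E d)))) :
    MeasurePreserving (Φ s) (phase U) (phase U) := by
  obtain ⟨c, hc⟩ := phase_eq hU
  rw [hc]
  have hUc : Continuous U := (temp_diff hU.temp).continuous
  refine mp_of_density hmp ?_ (fun z => ?_) c
  · have : Continuous (fun z : E d × E d => Real.exp (-(U z.1 + ‖z.2‖ ^ 2 / 2))) := by fun_prop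
    exact this.measurable.ennreal_ofReal
  · have := ham_const hU (h1 z) hs
    simp only [h0] at this
    rw [this]

end P347Q
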