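import Vale.Agent.P347Q.Gibbs
import Vale.Agent.P347Q.GaussDens
import Vale.Agent.P347Q.Flow1
import Vale.Agent.P347Q.FlowGibbs

/-!
Module Flow.  Existence of the Hamiltonian flow on `[0,1/4]` and Liouville's theorem.

`flow_exists`: the field `F(x,v) = (v, -∇U(x))` is Lipschitz with constant 2 (sup norm on the
product; `‖∇U(x)-∇U(y)‖ ≤ 2‖x-y‖`) and `‖F z‖ ≤ 2‖z‖ + ‖∇U(0)‖`.  For `z` with `‖z‖ = ρ` use
Picard-Lindelöf (`IsPicardLindelof`, `Mathlib/Analysis/ODE/PicardLindelof.lean`) on the closed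
ball of radius `R = ρ + ‖∇U(0)‖ + 1` around `z` and time `[0,1/4]`.  Joint continuity from
Gronwall (`dist_le_of_trajectories_ODE`) and continuity in time.

`flow_volume`: the symplectic Euler map `Ψ_h(x,v) = (x + h v, v - h ∇U(x + h v))` preserves the
volume (`MeasurePreserving.skew_product`, translation invariance); `Ψ_{s/n}^n z → Φ_s z` for
every `z` (Euler method), with `‖z‖ ≤ C(1 + ‖Ψ_{s/n}^n z‖)` uniformly in `n`; hence
`∫ φ(Φ_s z) dz = ∫ φ` for every continuous compactly supported `φ`, and the measure is determined.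

`flow_phase`: `ham U` is constant along the flow, `phase U = gibbs (ham U)` up to the product
structure (`GaussDens`).
-/

open MeasureTheory ProbabilityTheory Function
open scoped ENNReal BigOperators

namespace P347Q

variable {d : ℕ}

theorem spot_lip {U : E d → ℝ} (hU : SPot U) (x y : E d) :
    ‖gradient U x - gradient U y‖ ≤ 2 * ‖x - y‖ :=
  spot_lip_aux hU x y

theorem flow_exists {U : E d → ℝ} (hU : SPot U) :
    ∃ Φ : ℝ → E d × E d → E d × E d, (∀ z, Φ 0 z = z) ∧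
      (∀ z, ∀ s ∈ Set.Icc (0 : ℝ) (1 / 4),
        HasDerivWithinAt (fun r => Φ r z) ((Φ s z).2, -gradient U (Φ s z).1)
          (Set.Icc (0 : ℝ) (1 / 4)) s) ∧
      ContinuousOn (fun p : ℝ × (E d × E d) => Φ p.1 p.2)
        (Set.Icc (0 : ℝ) (1 / 4) ×ˢ Set.univ) := Flow1.flow_exists hU

theorem flow_volume {U : E d → ℝ} (hU : SPot U) {Φ : ℝ → E d × E d → E d × E d}
    (h0 : ∀ z, Φ 0 z = z)
    (h1 : ∀ z, ∀ s ∈ Set.Icc (0 : ℝ) (1 / 4),
        HasDerivWithinAt (fun r => Φ r z) ((Φ s z).2, -gradient U (Φ s z).1)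
          (Set.Icc (0 : ℝ) (1 / 4)) s)
    (h2 : ContinuousOn (fun p : ℝ × (E d × E d) => Φ p.1 p.2)
        (Set.Icc (0 : ℝ) (1 / 4) ×ˢ Set.univ)) (s : ℝ) (hs : s ∈ Set.Icc (0 : ℝ) (1 / 4)) :
    MeasurePreserving (Φ s) ((volume : Measure (E d)).prod (volume : Measure (E d)))
      ((volume : Measure (E d)).prod (volume : Measure (E d))) := by
  refine flow_volume_aux (spot_lip_aux hU) h0 (fun z => h1 z) hs ?_
  have hc : Continuous (Φ s) := by
    have := h2.comp_continuous (f := fun z : E d × E d => (s, z)) (by fun_prop)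
      (fun z => ⟨hs, Set.mem_univ z⟩)
    exact this
  exact hc.measurable

theorem flow_isFlow {U : E d → ℝ} (hU : SPot U) {Φ : ℝ → E d × E d → E d × E d}
    (h0 : ∀ z, Φ 0 z = z)
    (h1 : ∀ z, ∀ s ∈ Set.Icc (0 : ℝ) (1 / 4),
        HasDerivWithinAt (fun r => Φ r z) ((Φ s z).2, -gradient U (Φ s z).1)
          (Set.Icc (0 : ℝ) (1 / 4)) s)
    (h2 : ContinuousOn (fun p : ℝ × (E d × E d) => Φ p.1 p.2)
        (Set.Icc (0 : ℝ) (1 / 4) ×ˢ Set.univ)) : IsFlow U Φ :=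
  ⟨h0, h1, h2, fun _ hs => flow_phase_mp hU h0 (fun z => h1 z) hs
    (flow_volume hU h0 h1 h2 _ hs)⟩

theorem exists_isFlow {U : E d → ℝ} (hU : SPot U) : ∃ Φ, IsFlow U Φ := by
  obtain ⟨Φ, h0, h1, h2⟩ := flow_exists hU
  exact ⟨Φ, flow_isFlow hU h0 h1 h2⟩

/-- `Liou U` preserves temperate functions -/
theorem liou_temp {U : E d → ℝ} (hU : SPot U) {f : E d × E d → ℝ} (hf : HasTemperateGrowth f) :
    HasTemperateGrowth (Liou U f) := Flow1.liou_temp hU hf

/-- derivative of an observable along the flow -/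
theorem flow_deriv {U : E d → ℝ} (_hU : SPot U) {Φ : ℝ → E d × E d → E d × E d} (hΦ : IsFlow U Φ)
    {f : E d × E d → ℝ} (hf : HasTemperateGrowth f) (z : E d × E d) (s : ℝ)
    (hs : s ∈ Set.Icc (0 : ℝ) (1 / 4)) :
    HasDerivWithinAt (fun r => f (Φ r z)) (Liou U f (Φ s z)) (Set.Icc (0 : ℝ) (1 / 4)) s :=
  Flow1.flow_deriv hΦ hf z s hs

end P347Q
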