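import Vale.Agent.P347Q.AbsIBP

/-!
Auxiliary file for the module Flow.
`spot_lip_aux`: the gradient of an `SPot` is `2`-Lipschitz.
`flow_volume_aux`: Liouville's theorem for the field `(x,v) ↦ (v, -G x)`, `G` Lipschitz, through
the symplectic Euler scheme and reversibility.
-/

open MeasureTheory ProbabilityTheory Function Set
open scoped ENNReal BigOperators ContDiff NNReal

namespace P347Q

variable {d : ℕ}

/-- the second derivative is symmetric -/
theorem spot_symm {U : E d → ℝ} (hU : SPot U) (x u w : E d) :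
    fderiv ℝ (fderiv ℝ U) x u w = fderiv ℝ (fderiv ℝ U) x w u := by
  have := (hU.temp.1.contDiffAt (x := x)).isSymmSndFDerivAt
    (by rw [minSmoothness_of_isRCLikeNormedField]; exact ENat.LEInfty.out)
  exact this u w

theorem spot_hess_bound {U : E d → ℝ} (hU : SPot U) (x u w : E d) :
    ‖fderiv ℝ (fderiv ℝ U) x u w‖ ≤ 2 * ‖u‖ * ‖w‖ := by
  set B := fderiv ℝ (fderiv ℝ U) x with hB
  have key : ∀ a b : E d, B a b ≤ ‖a‖ ^ 2 + ‖b‖ ^ 2 := by
    intro a b
    have h1 := hU.upper x (a + b)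
    have h2 := hU.lower x (a - b)
    have h3 := spot_symm hU x b a
    rw [← hB] at h1 h2 h3
    simp only [map_add, map_sub, add_apply, sub_apply]
      at h1 h2
    have h4 : ‖a + b‖ ^ 2 = ‖a‖ ^ 2 + 2 * inner ℝ a b + ‖b‖ ^ 2 := norm_add_sq_real a b
    have h5 : ‖a - b‖ ^ 2 = ‖a‖ ^ 2 - 2 * inner ℝ a b + ‖b‖ ^ 2 := norm_sub_sq_real a b
    have h6 := real_inner_le_norm a b
    nlinarith [sq_nonneg (‖a‖ - ‖b‖), norm_nonneg (a - b), sq_nonneg (‖a - b‖)]
  have key2 : ∀ a b : E d, |B a b| ≤ ‖a‖ ^ 2 + ‖b‖ ^ 2 := by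
    intro a b
    rw [abs_le]
    refine ⟨?_, key a b⟩
    have := key (-a) b
    simp only [map_neg, neg_apply, norm_neg] at this
    linarith
  by_cases hu : u = 0
  · simp [hu]
  by_cases hw : w = 0
  · simp [hw]
  have hu' : 0 < ‖u‖ := norm_pos_iff.mpr hu
  have hw' : 0 < ‖w‖ := norm_pos_iff.mpr hw
  have := key2 (‖u‖⁻¹ • u) (‖w‖⁻¹ • w)
  rw [norm_smul, norm_smul, norm_inv, norm_norm, norm_inv, norm_norm,
    inv_mul_cancel₀ hu'.ne', inv_mul_cancel₀ hw'.ne'] at this
  simp only [map_smul, smul_apply, smul_eq_mul] at this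
  rw [abs_mul, abs_mul, abs_inv, abs_inv, abs_of_pos hu', abs_of_pos hw'] at this
  rw [Real.norm_eq_abs]
  have h7 : |B u w| = (‖w‖⁻¹ * (‖u‖⁻¹ * |B u w|)) * (‖u‖ * ‖w‖) := by
    field_simp
  rw [h7]
  nlinarith [mul_pos hu' hw']

theorem spot_lip_aux {U : E d → ℝ} (hU : SPot U) (x y : E d) :
    ‖gradient U x - gradient U y‖ ≤ 2 * ‖x - y‖ := by
  have h1 : gradient U x - gradient U y =
      (InnerProductSpace.toDual ℝ (E d)).symm (fderiv ℝ U x - fderiv ℝ U y) := by
    simp [gradient, map_sub]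
  rw [h1, LinearIsometryEquiv.norm_map]
  refine Convex.norm_image_sub_le_of_norm_fderiv_le (𝕜 := ℝ) (s := Set.univ) (f := fderiv ℝ U)
    (fun z _ => temp_diff (temp_fderiv hU.temp) z) (fun z _ => ?_) convex_univ
    (Set.mem_univ y) (Set.mem_univ x)
  exact ContinuousLinearMap.opNorm_le_bound₂ _ (by norm_num) (fun u w => spot_hess_bound hU z u w)

theorem spot_grad_cont {U : E d → ℝ} (hU : SPot U) : Continuous (gradient U) := by
  have : LipschitzWith 2 (gradient U) := LipschitzWith.of_dist_le_mul (fun x y => by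
    rw [dist_eq_norm, dist_eq_norm]; exact spot_lip_aux hU x y)
  exact this.continuous

/-- one step of the symplectic Euler scheme -/
noncomputable def symE (G : E d → E d) (h : ℝ) (z : E d × E d) : E d × E d :=
  (z.1 + h • z.2, z.2 - h • G (z.1 + h • z.2))

theorem shear_mp {g : E d → E d} (hg : Measurable g) :
    MeasurePreserving (fun p : E d × E d => (p.1, p.2 + g p.1))
      ((volume : Measure (E d)).prod (volume : Measure (E d)))
      ((volume : Measure (E d)).prod (volume : Measure (E d))) := by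
  refine (MeasurePreserving.id (volume : Measure (E d))).skew_product
    (g := fun a c => c + g a) ?_ ?_
  · exact measurable_snd.add (hg.comp measurable_fst)
  · refine Filter.Eventually.of_forall fun a => ?_
    exact (measurePreserving_add_right (volume : Measure (E d)) (g a)).map_eq

theorem symE_mp {G : E d → E d} (hG : Continuous G) (h : ℝ) :
    MeasurePreserving (symE G h)
      ((volume : Measure (E d)).prod (volume : Measure (E d)))
      ((volume : Measure (E d)).prod (volume : Measure (E d))) := by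
  have h1 := shear_mp (d := d) (g := fun v => h • v) (by fun_prop)
  have h2 := shear_mp (d := d) (g := fun x => -(h • G x)) (by
    exact ((hG.const_smul h).neg).measurable)
  have hs : MeasurePreserving (Prod.swap : E d × E d → E d × E d)
      ((volume : Measure (E d)).prod (volume : Measure (E d)))
      ((volume : Measure (E d)).prod (volume : Measure (E d))) :=
    Measure.measurePreserving_swap
  have h3 := h2.comp (hs.comp (h1.comp hs))
  have h4 : symE G h = (fun p : E d × E d => (p.1, p.2 + -(h • G p.1))) ∘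
      Prod.swap ∘ (fun p : E d × E d => (p.1, p.2 + h • p.1)) ∘ Prod.swap := by
    funext z
    simp [symE, sub_eq_add_neg]
  rw [h4]
  exact h3

/-- the Hamiltonian field -/
def fld (G : E d → E d) (z : E d × E d) : E d × E d := (z.2, -G z.1)

/-- `y` is a trajectory of the field on `[0, T]` -/
def Traj (G : E d → E d) (T : ℝ) (y : ℝ → E d × E d) : Prop :=
  ∀ s ∈ Icc (0 : ℝ) T, HasDerivWithinAt y (fld G (y s)) (Icc (0 : ℝ) T) s

theorem fld_lip {G : E d → E d} (hG : ∀ x y, ‖G x - G y‖ ≤ 2 * ‖x - y‖) (a b : E d × E d) :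
    ‖fld G a - fld G b‖ ≤ 2 * ‖a - b‖ := by
  have h1 : ‖a.1 - b.1‖ ≤ ‖a - b‖ := norm_fst_le (a - b)
  have h2 : ‖a.2 - b.2‖ ≤ ‖a - b‖ := norm_snd_le (a - b)
  rw [Prod.norm_def]
  refine max_le ?_ ?_
  · show ‖a.2 - b.2‖ ≤ _
    linarith [norm_nonneg (a - b)]
  · show ‖-G a.1 - -G b.1‖ ≤ _
    have h3 : -G a.1 - -G b.1 = -(G a.1 - G b.1) := by abel
    rw [h3, norm_neg]
    exact (hG _ _).trans (by linarith)

theorem symE_stab {G : E d → E d} (hG : ∀ x y, ‖G x - G y‖ ≤ 2 * ‖x - y‖) {h : ℝ} (h0 : 0 ≤ h)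
    (h1 : h ≤ 1) (a b : E d × E d) : ‖symE G h a - symE G h b‖ ≤ (1 + 4 * h) * ‖a - b‖ := by
  have e1 : ‖a.1 - b.1‖ ≤ ‖a - b‖ := norm_fst_le (a - b)
  have e2 : ‖a.2 - b.2‖ ≤ ‖a - b‖ := norm_snd_le (a - b)
  have e3 : ‖(a.1 + h • a.2) - (b.1 + h • b.2)‖ ≤ (1 + h) * ‖a - b‖ := by
    have : (a.1 + h • a.2) - (b.1 + h • b.2) = (a.1 - b.1) + h • (a.2 - b.2) := by
      rw [smul_sub]; abel
    rw [this]
    refine (norm_add_le _ _).trans ?_
    rw [norm_smul, Real.norm_eq_abs, abs_of_nonneg h0]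
    nlinarith
  have hn := norm_nonneg (a - b)
  rw [Prod.norm_def]
  refine max_le ?_ ?_
  · show ‖(a.1 + h • a.2) - (b.1 + h • b.2)‖ ≤ _
    nlinarith
  · show ‖(a.2 - h • G (a.1 + h • a.2)) - (b.2 - h • G (b.1 + h • b.2))‖ ≤ _
    have : (a.2 - h • G (a.1 + h • a.2)) - (b.2 - h • G (b.1 + h • b.2)) =
        (a.2 - b.2) - h • (G (a.1 + h • a.2) - G (b.1 + h • b.2)) := by
      rw [smul_sub]; abel
    rw [this]
    refine (norm_sub_le _ _).trans ?_
    rw [norm_smul, Real.norm_eq_abs, abs_of_nonneg h0]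
    have e4 := hG (a.1 + h • a.2) (b.1 + h • b.2)
    have e5 : ‖G (a.1 + h • a.2) - G (b.1 + h • b.2)‖ ≤ 2 * ((1 + h) * ‖a - b‖) := by linarith
    have e6 : h * ‖G (a.1 + h • a.2) - G (b.1 + h • b.2)‖ ≤ h * (2 * ((1 + h) * ‖a - b‖)) :=
      mul_le_mul_of_nonneg_left e5 h0
    have e7 : h * (2 * ((1 + h) * ‖a - b‖)) ≤ 4 * h * ‖a - b‖ := by
      have : 0 ≤ (1 - h) * (h * ‖a - b‖) := by
        apply mul_nonneg (by linarith) (mul_nonneg h0 hn)
      nlinarith
    linarith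

theorem symE_local {G : E d → E d} (hG : ∀ x y, ‖G x - G y‖ ≤ 2 * ‖x - y‖) {T : ℝ}
    {y : ℝ → E d × E d} (hy : Traj G T y) {M : ℝ} (hM : ∀ s ∈ Icc (0 : ℝ) T, ‖fld G (y s)‖ ≤ M)
    {s h : ℝ} (hs : 0 ≤ s) (h0 : 0 ≤ h) (hT : s + h ≤ T) :
    ‖y (s + h) - symE G h (y s)‖ ≤ 4 * M * h ^ 2 := by
  have hsT : s ∈ Icc (0 : ℝ) T := ⟨hs, by linarith⟩
  have hM0 : 0 ≤ M := (norm_nonneg _).trans (hM s hsT)
  have hsub : Icc s (s + h) ⊆ Icc (0 : ℝ) T := Icc_subset_Icc hs hT
  have hd : ∀ r ∈ Icc s (s + h), HasDerivWithinAt y (fld G (y r)) (Icc s (s + h)) r :=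
    fun r hr => (hy r (hsub hr)).mono hsub
  have hms : s ∈ Icc s (s + h) := ⟨le_refl _, by linarith⟩
  have hme : s + h ∈ Icc s (s + h) := ⟨by linarith, le_refl _⟩
  -- the trajectory moves by at most `M h`
  have hmove : ∀ r ∈ Icc s (s + h), ‖y r - y s‖ ≤ M * h := by
    intro r hr
    have h1 := Convex.norm_image_sub_le_of_norm_hasDerivWithin_le hd
      (fun x hx => hM x (hsub hx)) (convex_Icc _ _) hms hr
    refine h1.trans (mul_le_mul_of_nonneg_left ?_ hM0)
    rw [Real.norm_eq_abs, abs_of_nonneg (by linarith [hr.1])]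
    linarith [hr.2]
  -- Euler step
  have h2 : ‖(y (s + h) - (s + h) • fld G (y s)) - (y s - s • fld G (y s))‖ ≤
      (2 * (M * h)) * ‖(s + h) - s‖ := by
    refine Convex.norm_image_sub_le_of_norm_hasDerivWithin_le
      (f := fun r => y r - r • fld G (y s)) (f' := fun r => fld G (y r) - fld G (y s))
      (s := Icc s (s + h)) (fun r hr => ?_) (fun r hr => ?_) (convex_Icc _ _) hms hme
    · have h3 : HasDerivWithinAt (fun r : ℝ => r • fld G (y s)) ((1 : ℝ) • fld G (y s))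
          (Icc s (s + h)) r := (hasDerivWithinAt_id r _).smul_const _
      rw [one_smul] at h3
      exact (hd r hr).sub h3
    · exact (fld_lip hG _ _).trans (mul_le_mul_of_nonneg_left (hmove r hr) (by norm_num))
  have h3 : ‖y (s + h) - y s - h • fld G (y s)‖ ≤ 2 * M * h ^ 2 := by
    have e : (y (s + h) - (s + h) • fld G (y s)) - (y s - s • fld G (y s)) =
        y (s + h) - y s - h • fld G (y s) := by
      rw [add_smul]; abel
    rw [e] at h2
    refine h2.trans (le_of_eq ?_)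
    rw [add_sub_cancel_left, Real.norm_eq_abs, abs_of_nonneg h0]
    ring
  have h4 : ‖y s + h • fld G (y s) - symE G h (y s)‖ ≤ 2 * M * h ^ 2 := by
    have e : y s + h • fld G (y s) - symE G h (y s) =
        (0, h • (G ((y s).1 + h • (y s).2) - G (y s).1)) := by
      refine Prod.ext ?_ ?_
      · simp [fld, symE]
      · simp only [fld, symE, Prod.snd_add, Prod.snd_sub, Prod.smul_snd, smul_sub, smul_neg]
        abel
    rw [e, Prod.norm_def]
    have hv : ‖(y s).2‖ ≤ M := (norm_fst_le (fld G (y s))).trans (hM s hsT)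
    refine max_le ?_ ?_
    · simp only [norm_zero]
      positivity
    · show ‖h • (G ((y s).1 + h • (y s).2) - G (y s).1)‖ ≤ _
      rw [norm_smul, Real.norm_eq_abs, abs_of_nonneg h0]
      have := hG ((y s).1 + h • (y s).2) (y s).1
      rw [add_sub_cancel_left, norm_smul, Real.norm_eq_abs, abs_of_nonneg h0] at this
      calc h * ‖G ((y s).1 + h • (y s).2) - G (y s).1‖ ≤ h * (2 * (h * ‖(y s).2‖)) :=
            mul_le_mul_of_nonneg_left this h0
        _ ≤ h * (2 * (h * M)) := by gcongr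
        _ = 2 * M * h ^ 2 := by ring
  calc ‖y (s + h) - symE G h (y s)‖
      = ‖(y (s + h) - y s - h • fld G (y s)) + (y s + h • fld G (y s) - symE G h (y s))‖ := by
        congr 1; abel
    _ ≤ _ := norm_add_le _ _
    _ ≤ 2 * M * h ^ 2 + 2 * M * h ^ 2 := add_le_add h3 h4
    _ = 4 * M * h ^ 2 := by ring

theorem symE_global {G : E d → E d} (hG : ∀ x y, ‖G x - G y‖ ≤ 2 * ‖x - y‖) {T : ℝ}
    {y : ℝ → E d × E d} (hy : Traj G T y) {M : ℝ} (hM0 : 0 ≤ M)
    (hM : ∀ s ∈ Icc (0 : ℝ) T, ‖fld G (y s)‖ ≤ M)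
    {h : ℝ} (h0 : 0 ≤ h) (h1 : h ≤ 1) (k : ℕ) (hT : k * h ≤ T) :
    ‖y (k * h) - (symE G h)^[k] (y 0)‖ ≤ k * (4 * M * h ^ 2) * (1 + 4 * h) ^ k := by
  induction k with
  | zero => simp
  | succ k ih =>
    have hk : (k : ℝ) * h ≤ T := by
      push_cast at hT
      nlinarith
    have ih' := ih hk
    have e1 := symE_local hG hy hM (s := k * h) (h := h) (by positivity) h0
      (by push_cast at hT; linarith)
    have e2 : ‖symE G h (y (k * h)) - symE G h ((symE G h)^[k] (y 0))‖ ≤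
        (1 + 4 * h) * (k * (4 * M * h ^ 2) * (1 + 4 * h) ^ k) :=
      (symE_stab hG h0 h1 _ _).trans (mul_le_mul_of_nonneg_left ih' (by linarith))
    rw [iterate_succ_apply']
    have e3 : ((k + 1 : ℕ) : ℝ) * h = k * h + h := by push_cast; ring
    rw [e3]
    have e4 : (1 : ℝ) ≤ (1 + 4 * h) ^ (k + 1) := one_le_pow₀ (by linarith)
    calc ‖y (k * h + h) - symE G h ((symE G h)^[k] (y 0))‖
        ≤ ‖y (k * h + h) - symE G h (y (k * h))‖ +
          ‖symE G h (y (k * h)) - symE G h ((symE G h)^[k] (y 0))‖ := norm_sub_le_norm_sub_add_norm_sub _ _ _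
      _ ≤ 4 * M * h ^ 2 * 1 + (1 + 4 * h) * (k * (4 * M * h ^ 2) * (1 + 4 * h) ^ k) := by
        rw [mul_one]; exact add_le_add e1 e2
      _ ≤ 4 * M * h ^ 2 * (1 + 4 * h) ^ (k + 1) +
          (1 + 4 * h) * (k * (4 * M * h ^ 2) * (1 + 4 * h) ^ k) := by gcongr
      _ = ((k + 1 : ℕ) : ℝ) * (4 * M * h ^ 2) * (1 + 4 * h) ^ (k + 1) := by
        push_cast; ring

theorem Traj.continuousOn {G : E d → E d} {T : ℝ} {y : ℝ → E d × E d} (hy : Traj G T y) :
    ContinuousOn y (Icc (0 : ℝ) T) := fun s hs => (hy s hs).continuousWithinAt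

theorem Traj.ici {G : E d → E d} {T : ℝ} {y : ℝ → E d × E d} (hy : Traj G T y) {s : ℝ}
    (hs : s ∈ Ico (0 : ℝ) T) : HasDerivWithinAt y (fld G (y s)) (Ici s) s :=
  (hy s ⟨hs.1, hs.2.le⟩).mono_of_mem_nhdsWithin (Icc_mem_nhdsGE_of_mem hs)

theorem Traj.mono {G : E d → E d} {T T' : ℝ} {y : ℝ → E d × E d} (hy : Traj G T y)
    (h : T' ≤ T) : Traj G T' y := fun s hs =>
  (hy s ⟨hs.1, hs.2.trans h⟩).mono (Icc_subset_Icc_right h)

theorem traj_dist {G : E d → E d} (hG : ∀ x y, ‖G x - G y‖ ≤ 2 * ‖x - y‖) {T : ℝ}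
    {y w : ℝ → E d × E d} (hy : Traj G T y) (hw : Traj G T w) (t : ℝ) (ht : t ∈ Icc (0 : ℝ) T) :
    dist (y t) (w t) ≤ dist (y 0) (w 0) * Real.exp (2 * t) := by
  have h := dist_le_of_trajectories_ODE (v := fun _ => fld G) (K := 2) (f := y) (g := w)
    (a := 0) (b := T) (δ := dist (y 0) (w 0))
    (fun _ => LipschitzWith.of_dist_le_mul (fun a b => by
      rw [dist_eq_norm, dist_eq_norm]; exact fld_lip hG a b))
    hy.continuousOn (fun s hs => hy.ici hs) hw.continuousOn (fun s hs => hw.ici hs) le_rfl t ht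
  simpa using h

theorem traj_unique {G : E d → E d} (hG : ∀ x y, ‖G x - G y‖ ≤ 2 * ‖x - y‖) {T : ℝ}
    {y w : ℝ → E d × E d} (hy : Traj G T y) (hw : Traj G T w) (h0 : y 0 = w 0)
    (t : ℝ) (ht : t ∈ Icc (0 : ℝ) T) : y t = w t := by
  have := traj_dist hG hy hw t ht
  rw [h0, dist_self, zero_mul, dist_le_zero] at this
  exact this

theorem symE_tendsto {G : E d → E d} (hG : ∀ x y, ‖G x - G y‖ ≤ 2 * ‖x - y‖) {T : ℝ}
    {y : ℝ → E d × E d} (hy : Traj G T y) {s : ℝ} (hs : s ∈ Icc (0 : ℝ) T) :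
    Filter.Tendsto (fun n : ℕ => (symE G (s / n))^[n] (y 0)) Filter.atTop (nhds (y s)) := by
  have hGc : Continuous G := by
    have : LipschitzWith 2 G := LipschitzWith.of_dist_le_mul (fun x y => by
      rw [dist_eq_norm, dist_eq_norm]; exact hG x y)
    exact this.continuous
  have hfc : ContinuousOn (fun r => fld G (y r)) (Icc (0 : ℝ) T) := by
    have : Continuous (fld G) := by
      unfold fld; fun_prop
    exact this.comp_continuousOn hy.continuousOn
  obtain ⟨M, hM⟩ := isCompact_Icc.exists_bound_of_continuousOn hfc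
  have hM0 : 0 ≤ M := (norm_nonneg _).trans (hM s hs)
  rw [tendsto_iff_dist_tendsto_zero]
  have hbound : ∀ᶠ n : ℕ in Filter.atTop,
      dist ((symE G (s / n))^[n] (y 0)) (y s) ≤ (4 * M * s ^ 2 * Real.exp (4 * s)) / n := by
    filter_upwards [Filter.eventually_ge_atTop (max 1 ⌈s⌉₊)] with n hn
    have hn1 : 1 ≤ n := (le_max_left _ _).trans hn
    have hn2 : s ≤ n := (Nat.le_ceil s).trans (by exact_mod_cast (le_max_right _ _).trans hn)
    have hnpos : (0 : ℝ) < n := by exact_mod_cast hn1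
    have e1 : (n : ℝ) * (s / n) = s := by field_simp
    have e2 := symE_global hG hy hM0 hM (h := s / n) (div_nonneg hs.1 hnpos.le)
      ((div_le_one hnpos).mpr hn2) n (by rw [e1]; exact hs.2)
    rw [e1] at e2
    rw [dist_comm, dist_eq_norm]
    refine e2.trans ?_
    have e3 : (1 + 4 * (s / n)) ^ n ≤ Real.exp (4 * s) := by
      have h1 : 1 + 4 * (s / n) ≤ Real.exp (4 * (s / n)) := by
        rw [add_comm]; exact Real.add_one_le_exp _
      have h2 : (Real.exp (4 * (s / n))) ^ n = Real.exp (4 * s) := by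
        rw [← Real.exp_nat_mul]
        congr 1
        field_simp
      rw [← h2]
      exact pow_le_pow_left₀ (by have := div_nonneg hs.1 hnpos.le; linarith) h1 n
    calc (n : ℝ) * (4 * M * (s / n) ^ 2) * (1 + 4 * (s / n)) ^ n
        ≤ (n : ℝ) * (4 * M * (s / n) ^ 2) * Real.exp (4 * s) := by gcongr
      _ = (4 * M * s ^ 2 * Real.exp (4 * s)) / n := by field_simp
  refine squeeze_zero' (Filter.Eventually.of_forall fun n => dist_nonneg) hbound ?_
  exact tendsto_const_div_atTop_nhds_zero_nat _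

/-- a pointwise limit of measure preserving maps does not increase measures of preimages -/
theorem limit_preimage_le {X : Type*} [TopologicalSpace X] [MeasurableSpace X]
    [BorelSpace X] {μ : Measure X} [μ.OuterRegular]
    {Ψ : ℕ → X → X} (hΨ : ∀ n, MeasurePreserving (Ψ n) μ μ) {F : X → X}
    (hlim : ∀ z, Filter.Tendsto (fun n => Ψ n z) Filter.atTop (nhds (F z))) (A : Set X) :
    μ (F ⁻¹' A) ≤ μ A := by
  have hopen : ∀ O : Set X, IsOpen O → μ (F ⁻¹' O) ≤ μ O := by
    intro O hO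
    have h1 : F ⁻¹' O ⊆ ⋃ N : ℕ, ⋂ n ≥ N, (Ψ n) ⁻¹' O := by
      intro z hz
      have := (hlim z).eventually (hO.mem_nhds hz)
      obtain ⟨N, hN⟩ := Filter.eventually_atTop.mp this
      exact mem_iUnion.mpr ⟨N, mem_iInter₂.mpr fun n hn => hN n hn⟩
    have hmono : Monotone (fun N : ℕ => ⋂ n ≥ N, (Ψ n) ⁻¹' O) := by
      intro N N' hNN'
      exact biInter_subset_biInter_left fun n (hn : n ≥ N') => le_trans hNN' hn
    refine (measure_mono h1).trans ?_
    rw [hmono.measure_iUnion]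
    refine iSup_le fun N => ?_
    calc μ (⋂ n ≥ N, (Ψ n) ⁻¹' O) ≤ μ ((Ψ N) ⁻¹' O) :=
          measure_mono (biInter_subset_of_mem (le_refl N))
      _ = μ O := (hΨ N).measure_preimage hO.measurableSet.nullMeasurableSet
  rw [A.measure_eq_iInf_isOpen μ]
  refine le_iInf₂ fun O hAO => le_iInf fun hO => ?_
  exact (measure_mono (preimage_mono hAO)).trans (hopen O hO)

/-- velocity reversal -/
def rev (z : E d × E d) : E d × E d := (z.1, -z.2)

theorem rev_rev (z : E d × E d) : rev (rev z) = z := by simp [rev]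

theorem rev_mp : MeasurePreserving (rev : E d × E d → E d × E d)
      ((volume : Measure (E d)).prod (volume : Measure (E d)))
      ((volume : Measure (E d)).prod (volume : Measure (E d))) :=
  (MeasurePreserving.id _).prod (Measure.measurePreserving_neg (volume : Measure (E d)))

theorem flow_reverse {G : E d → E d} (hG : ∀ x y, ‖G x - G y‖ ≤ 2 * ‖x - y‖) {T : ℝ}
    {Φ : ℝ → E d × E d → E d × E d} (h0 : ∀ z, Φ 0 z = z)
    (h1 : ∀ z, Traj G T (fun r => Φ r z)) {s : ℝ} (hs : s ∈ Icc (0 : ℝ) T) (z : E d × E d) :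
    Φ s (rev (Φ s z)) = rev z := by
  have hy1 : Traj G s (fun r => rev (Φ (s - r) z)) := by
    intro r hr
    have hmem : s - r ∈ Icc (0 : ℝ) s := ⟨by linarith [hr.2], by linarith [hr.1]⟩
    have hd := ((h1 z).mono hs.2) (s - r) hmem
    have hmaps : MapsTo (fun r : ℝ => s - r) (Icc (0 : ℝ) s) (Icc (0 : ℝ) s) :=
      fun r hr => ⟨by linarith [hr.2], by linarith [hr.1]⟩
    have hin : HasDerivWithinAt (fun r : ℝ => s - r) (-1) (Icc (0 : ℝ) s) r := by
      simpa using (hasDerivWithinAt_id r (Icc (0 : ℝ) s)).const_sub s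
    have hc := HasDerivWithinAt.scomp r hd hin hmaps
    let L : (E d × E d) →L[ℝ] (E d × E d) :=
      (ContinuousLinearMap.fst ℝ (E d) (E d)).prod (-(ContinuousLinearMap.snd ℝ (E d) (E d)))
    have h4 := (L.hasFDerivAt (x := Φ (s - r) z)).comp_hasDerivWithinAt r hc
    have h5 : L ((-1 : ℝ) • fld G (Φ (s - r) z)) = fld G (rev (Φ (s - r) z)) := by
      simp [L, fld, rev]
    have h6 : (⇑L ∘ ((fun r => Φ r z) ∘ fun r => s - r)) = fun r => rev (Φ (s - r) z) := by
      funext r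
      simp [L, rev]
    rw [h6] at h4
    exact h5 ▸ h4
  have hy2 : Traj G s (fun r => Φ r (rev (Φ s z))) := (h1 _).mono hs.2
  have := traj_unique hG hy2 hy1 (by simp [h0]) s ⟨hs.1, le_refl _⟩
  simpa [h0] using this

theorem flow_volume_aux {G : E d → E d} (hG : ∀ x y, ‖G x - G y‖ ≤ 2 * ‖x - y‖) {T : ℝ}
    {Φ : ℝ → E d × E d → E d × E d} (h0 : ∀ z, Φ 0 z = z)
    (h1 : ∀ z, Traj G T (fun r => Φ r z)) {s : ℝ} (hs : s ∈ Icc (0 : ℝ) T)
    (hm : Measurable (Φ s)) :
    MeasurePreserving (Φ s) ((volume : Measure (E d)).prod (volume : Measure (E d)))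
      ((volume : Measure (E d)).prod (volume : Measure (E d))) := by
  have hGc : Continuous G := by
    have : LipschitzWith 2 G := LipschitzWith.of_dist_le_mul (fun x y => by
      rw [dist_eq_norm, dist_eq_norm]; exact hG x y)
    exact this.continuous
  set μ : Measure (E d × E d) := (volume : Measure (E d)).prod (volume : Measure (E d)) with hμ
  have hle : ∀ A : Set (E d × E d), μ (Φ s ⁻¹' A) ≤ μ A := by
    intro A
    refine limit_preimage_le (μ := μ) (Ψ := fun n : ℕ => (symE G (s / n))^[n])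
      (fun n => (symE_mp hGc _).iterate n) (fun z => ?_) A
    have := symE_tendsto hG (h1 z) hs
    simpa [h0] using this
  refine ⟨hm, ?_⟩
  ext A hA
  rw [Measure.map_apply hm hA]
  refine le_antisymm (hle A) ?_
  have e1 : A = rev ⁻¹' (Φ s ⁻¹' (rev ⁻¹' (Φ s ⁻¹' A))) := by
    ext z
    simp only [mem_preimage]
    have h2 := flow_reverse hG h0 h1 hs (rev z)
    -- `Φ s (rev (Φ s (rev z))) = rev (rev z)`
    rw [h2, rev_rev]
  have hB : MeasurableSet (rev ⁻¹' (Φ s ⁻¹' A)) := rev_mp.measurable (hm hA)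
  calc μ A = μ (rev ⁻¹' (Φ s ⁻¹' (rev ⁻¹' (Φ s ⁻¹' A)))) := by rw [← e1]
    _ = μ (Φ s ⁻¹' (rev ⁻¹' (Φ s ⁻¹' A))) :=
        rev_mp.measure_preimage (hm hB).nullMeasurableSet
    _ ≤ μ (rev ⁻¹' (Φ s ⁻¹' A)) := hle _
    _ = μ (Φ s ⁻¹' A) := rev_mp.measure_preimage (hm hA).nullMeasurableSet

end P347Q
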