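import Vale.Agent.P347Q.Absorb
import Vale.Agent.P347Q.Smooth

/-!
Module KickNoise.  One step of the algorithm from a fixed point `z`: the randomness used for smoothing
the force is absorbed by the injected noise, the bias is tiny.

Let `(y ξ, v ξ) = Step R η (fun k x => ∇V (x + ε blk k ξ)) z` (`C¹` in `ξ` because `V` is `C²`),
`(ȳ, v̄) = Step R η (fun _ => ∇U) z`, `U = smooth ε V`, `a = 1-2η`, `b = √(1-a²) ≥ √η`.
* derivatives in `ξ`: `‖D pos_i‖ ≤ 2 ε η²`, `‖D v‖ ≤ 3 η ε`, `‖D y‖ ≤ 3 η² ε` (η small).  Note that for a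
  combination `Σ_j c_j ∇V(x_j + ε blk k_j ξ)` the crude triangle inequality suffices.
* `absorb2` with `F₁ = (y - E y)/(η√η)`, `F₂ = a (v - E v)/b`, `L = 3 √η ε`: TV `≤ 288 η ε² √d`.
* bias: `pos_i` depends on the blocks `inl (i,j)` only, so
  `E ∇V(pos_i + ε blk (inr i) ξ) = E ∇U(pos_i)`, `‖E ∇U(pos_i) - ∇U(pos̄_i)‖ ≤ 2 E‖pos_i - pos̄_i‖ ≤
  2 η² max_j E‖∇V(x_j + ε z) - ∇U(x_j)‖ ≤ 4 η² ε √d` (`smooth_grad_var`); so `‖E v - v̄‖ ≤ 4 η³ ε √d`,
  `‖E y - ȳ‖ ≤ 4 η⁴ ε √d`; conclude with `gauss_shift2` (`σ = η√η`, `τ = b`).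
Independence of the blocks: `stdGaussian (EuclideanSpace ℝ (Idx N × Fin d))` is the image of
`Measure.pi` over `Idx N` of `stdGaussian (E d)` (`map_pi_eq_stdGaussian`, currying); helper lemmas
`blk_law`, `blk_indep` below.
-/

open MeasureTheory ProbabilityTheory Function
open scoped ENNReal BigOperators

namespace P347Q

namespace KN

theorem map_uncurry_pi {ι κ : Type*} [Fintype ι] [Fintype κ] {X : Type*} [MeasurableSpace X]
    (μ : Measure X) [SigmaFinite μ] :
    (Measure.pi (fun _ : ι => Measure.pi (fun _ : κ => μ))).map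
      (fun (f : ι → κ → X) (p : ι × κ) => f p.1 p.2) = Measure.pi (fun _ : ι × κ => μ) := by
  refine (Measure.pi_eq fun s hs => ?_).symm
  have hm : Measurable (fun (f : ι → κ → X) (p : ι × κ) => f p.1 p.2) := by
    refine measurable_pi_lambda _ fun p => ?_
    exact (measurable_pi_apply p.2).comp (measurable_pi_apply p.1)
  rw [Measure.map_apply hm (.univ_pi hs)]
  have : (fun (f : ι → κ → X) (p : ι × κ) => f p.1 p.2) ⁻¹' (Set.univ.pi s) =
      Set.univ.pi (fun k => Set.univ.pi (fun i => s (k, i))) := by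
    ext f; simp [Set.mem_pi, Prod.forall]
  rw [this, Measure.pi_pi]
  simp_rw [Measure.pi_pi]
  rw [Fintype.prod_prod_type]

end KN

open KN

/-- the blocks are independent standard Gaussians -/
theorem blk_law (N d : ℕ) :
    (stdGaussian (EuclideanSpace ℝ (Idx N × Fin d))).map (fun ξ (k : Idx N) => blk k ξ) =
      Measure.pi (fun _ : Idx N => stdGaussian (E d)) := by
  have h1 : Measure.pi (fun _ : Idx N => stdGaussian (E d)) =
      (Measure.pi (fun _ : Idx N => Measure.pi (fun _ : Fin d => gaussianReal 0 1))).map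
        (fun x i => (WithLp.toLp 2 (x i) : E d)) := by
    rw [Measure.pi_map_pi]
    · simp_rw [map_pi_eq_stdGaussian]
    · intro i
      exact (WithLp.measurable_toLp 2 _).aemeasurable
  rw [h1, ← map_pi_eq_stdGaussian, ← map_uncurry_pi (ι := Idx N) (κ := Fin d) (gaussianReal 0 1),
    Measure.map_map, Measure.map_map]
  · rfl
  all_goals first
    | exact measurable_pi_lambda _ fun p => (measurable_pi_apply p.2).comp (measurable_pi_apply p.1)
    | exact WithLp.measurable_toLp 2 _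
    | (refine measurable_pi_lambda _ fun k => ?_
       unfold blk
       fun_prop)

namespace KN

section aux

variable {d m N : ℕ}

theorem blk_add (k : Idx N) (x y : EuclideanSpace ℝ (Idx N × Fin d)) :
    blk k (x + y) = blk k x + blk k y := by
  ext i; simp [blk]

theorem blk_sub (k : Idx N) (x y : EuclideanSpace ℝ (Idx N × Fin d)) :
    blk k (x - y) = blk k x - blk k y := by
  ext i; simp [blk]

theorem blk_smul (k : Idx N) (c : ℝ) (x : EuclideanSpace ℝ (Idx N × Fin d)) :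
    blk k (c • x) = c • blk k x := by
  ext i; simp [blk]

theorem blk_norm_le (k : Idx N) (x : EuclideanSpace ℝ (Idx N × Fin d)) : ‖blk k x‖ ≤ ‖x‖ := by
  rw [EuclideanSpace.norm_eq, EuclideanSpace.norm_eq]
  apply Real.sqrt_le_sqrt
  rw [Fintype.sum_prod_type]
  exact Finset.single_le_sum (f := fun k => ∑ i, ‖x (k, i)‖ ^ 2)
    (fun k _ => Finset.sum_nonneg fun i _ => by positivity) (Finset.mem_univ k)

/-- `blk k` as a continuous linear map -/
noncomputable def blkL (N d : ℕ) (k : Idx N) : EuclideanSpace ℝ (Idx N × Fin d) →L[ℝ] E d :=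
  LinearMap.mkContinuous
    { toFun := blk k, map_add' := blk_add k, map_smul' := blk_smul k } 1
    (fun x => by simpa using blk_norm_le k x)

theorem blkL_apply (k : Idx N) (x : EuclideanSpace ℝ (Idx N × Fin d)) :
    blkL N d k x = blk k x := rfl

theorem contDiff_blk (k : Idx N) :
    ContDiff ℝ 1 (fun ξ : EuclideanSpace ℝ (Idx N × Fin d) => blk k ξ) :=
  (blkL N d k).contDiff

theorem continuous_blk (k : Idx N) :
    Continuous (fun ξ : EuclideanSpace ℝ (Idx N × Fin d) => blk k ξ) :=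
  (blkL N d k).continuous

/-! ### quadrature averages -/

theorem rule_sum_w (R : Rule m N) (hm : 1 ≤ m) : ∑ j, R.w j = 1 := by
  have := R.w_exact 0 hm
  simpa using this

theorem rule_avg (R : Rule m N) (hm : 1 ≤ m) {a : Fin N → E d} {M : ℝ} (h : ∀ j, ‖a j‖ ≤ M) :
    ‖∑ j, R.w j • a j‖ ≤ M := by
  calc ‖∑ j, R.w j • a j‖ ≤ ∑ j, ‖R.w j • a j‖ := norm_sum_le _ _
    _ ≤ ∑ j, R.w j * M := by
        apply Finset.sum_le_sum
        intro j _
        rw [norm_smul, Real.norm_of_nonneg (R.w_nonneg j)]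
        exact mul_le_mul_of_nonneg_left (h j) (R.w_nonneg j)
    _ = M := by rw [← Finset.sum_mul, rule_sum_w R hm, one_mul]

theorem rule_avg' (R : Rule m N) (hm : 1 ≤ m) {a : Fin N → E d} {M : ℝ} (_hM : 0 ≤ M)
    (h : ∀ j, ‖a j‖ ≤ M) : ‖∑ j, (R.w j * (1 - R.t j)) • a j‖ ≤ M := by
  calc ‖∑ j, (R.w j * (1 - R.t j)) • a j‖ = ‖∑ j, R.w j • ((1 - R.t j) • a j)‖ := by
        congr 1; apply Finset.sum_congr rfl; intro j _; rw [smul_smul]
    _ ≤ M := by
        apply rule_avg R hm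
        intro j
        have h1 := (R.t_mem j).1
        have h2 := (R.t_mem j).2
        rw [norm_smul, Real.norm_of_nonneg (by linarith)]
        calc (1 - R.t j) * ‖a j‖ ≤ 1 * M := by
              apply mul_le_mul (by linarith) (h j) (norm_nonneg _) zero_le_one
          _ = M := one_mul M

/-! ### comparison of two force families -/

theorem pos_diff (R : Rule m N) (hm : 1 ≤ m) (η : ℝ) (G G' : Idx N → E d → E d) (z : E d × E d)
    (i : Fin N) {M : ℝ} (hM : 0 ≤ M)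
    (h : ∀ j, ‖G (Sum.inl (i, j)) (z.1 + (η * R.t i * R.t j) • z.2) -
      G' (Sum.inl (i, j)) (z.1 + (η * R.t i * R.t j) • z.2)‖ ≤ M) :
    ‖pos R η G z i - pos R η G' z i‖ ≤ η ^ 2 * M := by
  have h1 : pos R η G z i - pos R η G' z i = -((η * R.t i) ^ 2 • ∑ j, (R.w j * (1 - R.t j)) •
      (G (Sum.inl (i, j)) (z.1 + (η * R.t i * R.t j) • z.2) -
        G' (Sum.inl (i, j)) (z.1 + (η * R.t i * R.t j) • z.2))) := by
    simp only [pos, smul_sub, Finset.sum_sub_distrib]
    abel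
  rw [h1, norm_neg, norm_smul, Real.norm_of_nonneg (by positivity)]
  have h2 := R.t_mem i
  apply mul_le_mul _ (rule_avg' R hm hM h) (norm_nonneg _) (by positivity)
  rw [mul_pow]
  have : R.t i ^ 2 ≤ 1 := by nlinarith [h2.1, h2.2]
  nlinarith [sq_nonneg η]

theorem step1_diff (R : Rule m N) (hm : 1 ≤ m) (η : ℝ) (G G' : Idx N → E d → E d) (z : E d × E d)
    {M : ℝ} (hM : 0 ≤ M)
    (h : ∀ i, ‖G (Sum.inr i) (pos R η G z i) - G' (Sum.inr i) (pos R η G' z i)‖ ≤ M) :
    ‖(Step R η G z).1 - (Step R η G' z).1‖ ≤ η ^ 2 * M := by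
  have h1 : (Step R η G z).1 - (Step R η G' z).1 = -(η ^ 2 • ∑ i, (R.w i * (1 - R.t i)) •
      (G (Sum.inr i) (pos R η G z i) - G' (Sum.inr i) (pos R η G' z i))) := by
    simp only [Step, smul_sub, Finset.sum_sub_distrib]
    abel
  rw [h1, norm_neg, norm_smul, Real.norm_of_nonneg (by positivity)]
  exact mul_le_mul_of_nonneg_left (rule_avg' R hm hM h) (by positivity)

theorem step2_diff (R : Rule m N) (hm : 1 ≤ m) {η : ℝ} (hη : 0 ≤ η) (G G' : Idx N → E d → E d)
    (z : E d × E d) {M : ℝ}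
    (h : ∀ i, ‖G (Sum.inr i) (pos R η G z i) - G' (Sum.inr i) (pos R η G' z i)‖ ≤ M) :
    ‖(Step R η G z).2 - (Step R η G' z).2‖ ≤ η * M := by
  have h1 : (Step R η G z).2 - (Step R η G' z).2 = -(η • ∑ i, R.w i •
      (G (Sum.inr i) (pos R η G z i) - G' (Sum.inr i) (pos R η G' z i))) := by
    simp only [Step, smul_sub, Finset.sum_sub_distrib]
    abel
  rw [h1, norm_neg, norm_smul, Real.norm_of_nonneg hη]
  exact mul_le_mul_of_nonneg_left (rule_avg R hm h) hη

/-! ### the noisy force family -/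

/-- the noisy force family -/
noncomputable def nG (g : E d → E d) (ε : ℝ) (ξ : EuclideanSpace ℝ (Idx N × Fin d)) :
    Idx N → E d → E d := fun k y => g (y + ε • blk k ξ)

/-- the force at the `i`-th node -/
noncomputable def nD (R : Rule m N) (g : E d → E d) (ε η : ℝ) (z : E d × E d) (i : Fin N)
    (ξ : EuclideanSpace ℝ (Idx N × Fin d)) : E d :=
  g (pos R η (nG g ε ξ) z i + ε • blk (Sum.inr i) ξ)

theorem lip_integrable {ι : Type*} [Fintype ι] {F : Type*} [NormedAddCommGroup F]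
    {f : EuclideanSpace ℝ ι → F} [SecondCountableTopology F]
    (hf : Continuous f) {K : ℝ} (hK : ∀ x y, ‖f x - f y‖ ≤ K * ‖x - y‖) :
    Integrable f (stdGaussian (EuclideanSpace ℝ ι)) := by
  have h1 : Integrable (fun x : EuclideanSpace ℝ ι => ‖f 0‖ + K * ‖x‖)
      (stdGaussian (EuclideanSpace ℝ ι)) := by
    apply (integrable_const _).add
    exact (IsGaussian.integrable_id (μ := stdGaussian (EuclideanSpace ℝ ι))).norm.const_mul K
  refine h1.mono' hf.aestronglyMeasurable (Filter.Eventually.of_forall fun x => ?_)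
  have h2 := hK x 0
  rw [sub_zero] at h2
  have h3 : ‖f x‖ ≤ ‖f x - f 0‖ + ‖f 0‖ := by
    simpa using norm_add_le (f x - f 0) (f 0)
  linarith

theorem int_smul {X F : Type*} [MeasurableSpace X] [NormedAddCommGroup F] [NormedSpace ℝ F]
    {μ : Measure X} {f : X → F} (c : ℝ) (h : Integrable f μ) :
    Integrable (fun x => c • f x) μ := h.smul c

variable {g gU : E d → E d} {ε η : ℝ}

theorem nG_lip (hgl : ∀ x y, ‖g x - g y‖ ≤ 2 * ‖x - y‖) (hε : 0 ≤ ε)
    (ξ ξ' : EuclideanSpace ℝ (Idx N × Fin d)) (k : Idx N) (x y : E d) :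
    ‖nG g ε ξ k x - nG g ε ξ' k y‖ ≤ 2 * (‖x - y‖ + ε * ‖ξ - ξ'‖) := by
  unfold nG
  refine (hgl _ _).trans ?_
  apply mul_le_mul_of_nonneg_left _ (by norm_num)
  have h1 : x + ε • blk k ξ - (y + ε • blk k ξ') = (x - y) + ε • blk k (ξ - ξ') := by
    rw [blk_sub, smul_sub]; abel
  rw [h1]
  refine (norm_add_le _ _).trans ?_
  rw [norm_smul, Real.norm_of_nonneg hε]
  have := blk_norm_le k (ξ - ξ')
  have := mul_le_mul_of_nonneg_left this hε
  linarith

theorem npos_lip (R : Rule m N) (hm : 1 ≤ m) (hgl : ∀ x y, ‖g x - g y‖ ≤ 2 * ‖x - y‖)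
    (hε : 0 ≤ ε) (z : E d × E d) (i : Fin N) (ξ ξ' : EuclideanSpace ℝ (Idx N × Fin d)) :
    ‖pos R η (nG g ε ξ) z i - pos R η (nG g ε ξ') z i‖ ≤ η ^ 2 * (2 * (ε * ‖ξ - ξ'‖)) := by
  apply pos_diff R hm η _ _ z i (by positivity)
  intro j
  refine (nG_lip hgl hε ξ ξ' _ _ _).trans ?_
  simp

theorem nD_lip (R : Rule m N) (hm : 1 ≤ m) (hgl : ∀ x y, ‖g x - g y‖ ≤ 2 * ‖x - y‖)
    (hε : 0 ≤ ε) (hη : 0 ≤ η) (hη1 : η ≤ 1 / 2) (z : E d × E d) (i : Fin N)
    (ξ ξ' : EuclideanSpace ℝ (Idx N × Fin d)) :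
    ‖nD R g ε η z i ξ - nD R g ε η z i ξ'‖ ≤ 3 * ε * ‖ξ - ξ'‖ := by
  have h1 := nG_lip (N := N) hgl hε ξ ξ' (Sum.inr i) (pos R η (nG g ε ξ) z i)
    (pos R η (nG g ε ξ') z i)
  have h2 := npos_lip (η := η) R hm hgl hε z i ξ ξ'
  unfold nD
  unfold nG at h1
  unfold nG
  unfold nG at h2
  refine h1.trans ?_
  have h3 : η ^ 2 ≤ 1 / 4 := by nlinarith
  have h4 : 0 ≤ ε * ‖ξ - ξ'‖ := by positivity
  nlinarith [mul_le_mul_of_nonneg_right h3 h4]

theorem contDiff_npos (R : Rule m N) (hg : ContDiff ℝ 1 g) (ε η : ℝ) (z : E d × E d) (i : Fin N) :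
    ContDiff ℝ 1 (fun ξ : EuclideanSpace ℝ (Idx N × Fin d) => pos R η (nG g ε ξ) z i) := by
  unfold pos nG
  apply contDiff_const.sub
  apply ContDiff.const_smul
  apply ContDiff.sum
  intro j _
  apply ContDiff.const_smul
  apply hg.comp
  exact contDiff_const.add ((contDiff_blk _).const_smul ε)

theorem contDiff_nD (R : Rule m N) (hg : ContDiff ℝ 1 g) (ε η : ℝ) (z : E d × E d) (i : Fin N) :
    ContDiff ℝ 1 (fun ξ : EuclideanSpace ℝ (Idx N × Fin d) => nD R g ε η z i ξ) := by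
  unfold nD
  apply hg.comp
  exact (contDiff_npos R hg ε η z i).add ((contDiff_blk _).const_smul ε)

theorem nstep1_eq (R : Rule m N) (g : E d → E d) (ε η : ℝ) (z : E d × E d)
    (ξ : EuclideanSpace ℝ (Idx N × Fin d)) :
    (Step R η (nG g ε ξ) z).1 =
      z.1 + η • z.2 - η ^ 2 • ∑ i, (R.w i * (1 - R.t i)) • nD R g ε η z i ξ := rfl

theorem nstep2_eq (R : Rule m N) (g : E d → E d) (ε η : ℝ) (z : E d × E d)
    (ξ : EuclideanSpace ℝ (Idx N × Fin d)) :
    (Step R η (nG g ε ξ) z).2 = z.2 - η • ∑ i, R.w i • nD R g ε η z i ξ := rfl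

theorem contDiff_nstep1 (R : Rule m N) (hg : ContDiff ℝ 1 g) (ε η : ℝ) (z : E d × E d) :
    ContDiff ℝ 1 (fun ξ : EuclideanSpace ℝ (Idx N × Fin d) => (Step R η (nG g ε ξ) z).1) := by
  simp_rw [nstep1_eq]
  apply contDiff_const.sub
  apply ContDiff.const_smul
  apply ContDiff.sum
  intro j _
  apply ContDiff.const_smul
  exact contDiff_nD R hg ε η z j

theorem contDiff_nstep2 (R : Rule m N) (hg : ContDiff ℝ 1 g) (ε η : ℝ) (z : E d × E d) :
    ContDiff ℝ 1 (fun ξ : EuclideanSpace ℝ (Idx N × Fin d) => (Step R η (nG g ε ξ) z).2) := by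
  simp_rw [nstep2_eq]
  apply contDiff_const.sub
  apply ContDiff.const_smul
  apply ContDiff.sum
  intro j _
  apply ContDiff.const_smul
  exact contDiff_nD R hg ε η z j

theorem nstep1_lip (R : Rule m N) (hm : 1 ≤ m) (hgl : ∀ x y, ‖g x - g y‖ ≤ 2 * ‖x - y‖)
    (hε : 0 ≤ ε) (hη : 0 ≤ η) (hη1 : η ≤ 1 / 2) (z : E d × E d)
    (ξ ξ' : EuclideanSpace ℝ (Idx N × Fin d)) :
    ‖(Step R η (nG g ε ξ) z).1 - (Step R η (nG g ε ξ') z).1‖ ≤ η ^ 2 * (3 * ε * ‖ξ - ξ'‖) := by
  apply step1_diff R hm η _ _ z (by positivity)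
  intro i
  exact nD_lip R hm hgl hε hη hη1 z i ξ ξ'

theorem nstep2_lip (R : Rule m N) (hm : 1 ≤ m) (hgl : ∀ x y, ‖g x - g y‖ ≤ 2 * ‖x - y‖)
    (hε : 0 ≤ ε) (hη : 0 ≤ η) (hη1 : η ≤ 1 / 2) (z : E d × E d)
    (ξ ξ' : EuclideanSpace ℝ (Idx N × Fin d)) :
    ‖(Step R η (nG g ε ξ) z).2 - (Step R η (nG g ε ξ') z).2‖ ≤ η * (3 * ε * ‖ξ - ξ'‖) := by
  apply step2_diff R hm hη _ _ z
  intro i
  exact nD_lip R hm hgl hε hη hη1 z i ξ ξ'

/-! ### independence of the blocks -/

theorem blk_mp (N d : ℕ) : MeasurePreserving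
    (fun (ξ : EuclideanSpace ℝ (Idx N × Fin d)) (k : Idx N) => blk k ξ)
    (stdGaussian (EuclideanSpace ℝ (Idx N × Fin d)))
    (Measure.pi (fun _ : Idx N => stdGaussian (E d))) :=
  ⟨measurable_pi_lambda _ fun k => (continuous_blk k).measurable, blk_law N d⟩

theorem blk_marg (N d : ℕ) (k : Idx N) : MeasurePreserving
    (fun ξ : EuclideanSpace ℝ (Idx N × Fin d) => blk k ξ)
    (stdGaussian (EuclideanSpace ℝ (Idx N × Fin d))) (stdGaussian (E d)) :=
  (measurePreserving_eval (fun _ : Idx N => stdGaussian (E d)) k).comp (blk_mp N d)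

/-- splitting of the blocks -/
noncomputable def blkT (N d : ℕ) (ξ : EuclideanSpace ℝ (Idx N × Fin d)) :
    (Fin N × Fin N → E d) × (Fin N → E d) :=
  ((fun q : Fin N × Fin N => blk (Sum.inl q) ξ), (fun i : Fin N => blk (Sum.inr i) ξ))

theorem blk_split (N d : ℕ) : MeasurePreserving (blkT N d)
    (stdGaussian (EuclideanSpace ℝ (Idx N × Fin d)))
    ((Measure.pi (fun _ : Fin N × Fin N => stdGaussian (E d))).prod
      (Measure.pi (fun _ : Fin N => stdGaussian (E d)))) :=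
  (measurePreserving_sumPiEquivProdPi (fun _ : Idx N => stdGaussian (E d))).comp (blk_mp N d)

/-- the predicted position as a function of the blocks -/
noncomputable def posU (R : Rule m N) (g : E d → E d) (ε η : ℝ) (z : E d × E d) (i : Fin N)
    (u : Fin N × Fin N → E d) : E d :=
  pos R η (fun k y => g (y + ε • Sum.elim u (fun _ => 0) k)) z i

theorem pos_eq_posU (R : Rule m N) (g : E d → E d) (ε η : ℝ) (z : E d × E d) (i : Fin N)
    (ξ : EuclideanSpace ℝ (Idx N × Fin d)) :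
    pos R η (nG g ε ξ) z i = posU R g ε η z i (blkT N d ξ).1 := rfl

theorem continuous_posU (R : Rule m N) (hg : Continuous g) (ε η : ℝ) (z : E d × E d)
    (i : Fin N) : Continuous (posU R g ε η z i) := by
  unfold posU pos
  simp only [Sum.elim_inl]
  fun_prop

theorem g_integrable (hg : Continuous g) (hgl : ∀ x y, ‖g x - g y‖ ≤ 2 * ‖x - y‖) (hε : 0 ≤ ε)
    (x : E d) : Integrable (fun z => g (x + ε • z)) (stdGaussian (E d)) := by
  apply lip_integrable (K := 2 * ε)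
  · fun_prop
  · intro a b
    refine (hgl _ _).trans (le_of_eq ?_)
    have : x + ε • a - (x + ε • b) = ε • (a - b) := by rw [smul_sub]; abel
    rw [this, norm_smul, Real.norm_of_nonneg hε]; ring

theorem gU_lip (hg : Continuous g) (hgl : ∀ x y, ‖g x - g y‖ ≤ 2 * ‖x - y‖) (hε : 0 ≤ ε)
    (hgU : ∀ x, gU x = ∫ z, g (x + ε • z) ∂(stdGaussian (E d))) (x y : E d) :
    ‖gU x - gU y‖ ≤ 2 * ‖x - y‖ := by
  rw [hgU, hgU, ← integral_sub (g_integrable hg hgl hε x) (g_integrable hg hgl hε y)]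
  refine (norm_integral_le_of_norm_le_const (C := 2 * ‖x - y‖)
    (Filter.Eventually.of_forall fun z => ?_)).trans ?_
  · refine (hgl _ _).trans (le_of_eq ?_)
    congr 2
    abel
  · simp

theorem gU_continuous (hg : Continuous g) (hgl : ∀ x y, ‖g x - g y‖ ≤ 2 * ‖x - y‖) (hε : 0 ≤ ε)
    (hgU : ∀ x, gU x = ∫ z, g (x + ε • z) ∂(stdGaussian (E d))) : Continuous gU := by
  have : LipschitzWith 2 gU := by
    apply LipschitzWith.of_dist_le_mul
    intro x y
    rw [dist_eq_norm, dist_eq_norm]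
    simpa using gU_lip hg hgl hε hgU x y
  exact this.continuous

theorem nD_integrable (R : Rule m N) (hm : 1 ≤ m) (hg : ContDiff ℝ 1 g)
    (hgl : ∀ x y, ‖g x - g y‖ ≤ 2 * ‖x - y‖)
    (hε : 0 ≤ ε) (hη : 0 ≤ η) (hη1 : η ≤ 1 / 2) (z : E d × E d) (i : Fin N) :
    Integrable (fun ξ => nD R g ε η z i ξ) (stdGaussian (EuclideanSpace ℝ (Idx N × Fin d))) :=
  lip_integrable (contDiff_nD R hg ε η z i).continuous
    (fun ξ ξ' => nD_lip R hm hgl hε hη hη1 z i ξ ξ')

theorem nD_mean (R : Rule m N) (hm : 1 ≤ m) (hg : ContDiff ℝ 1 g)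
    (hgl : ∀ x y, ‖g x - g y‖ ≤ 2 * ‖x - y‖)
    (hε : 0 ≤ ε) (hη : 0 ≤ η) (hη1 : η ≤ 1 / 2)
    (hgU : ∀ x, gU x = ∫ z, g (x + ε • z) ∂(stdGaussian (E d))) (z : E d × E d) (i : Fin N) :
    ∫ ξ, nD R g ε η z i ξ ∂(stdGaussian (EuclideanSpace ℝ (Idx N × Fin d))) =
      ∫ ξ, gU (pos R η (nG g ε ξ) z i) ∂(stdGaussian (EuclideanSpace ℝ (Idx N × Fin d))) := by
  have hgc := hg.continuous
  have hpc := continuous_posU R hgc ε η z i
  have hUc := gU_continuous hgc hgl hε hgU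
  have hΨ : Continuous (fun p : (Fin N × Fin N → E d) × (Fin N → E d) =>
      g (posU R g ε η z i p.1 + ε • p.2 i)) := by fun_prop
  have hint : Integrable (fun p : (Fin N × Fin N → E d) × (Fin N → E d) =>
      g (posU R g ε η z i p.1 + ε • p.2 i))
      ((Measure.pi (fun _ : Fin N × Fin N => stdGaussian (E d))).prod
      (Measure.pi (fun _ : Fin N => stdGaussian (E d)))) := by
    rw [← (blk_split N d).integrable_comp hΨ.aestronglyMeasurable]
    exact nD_integrable R hm hg hgl hε hη hη1 z i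
  calc ∫ ξ, nD R g ε η z i ξ ∂(stdGaussian (EuclideanSpace ℝ (Idx N × Fin d)))
      = ∫ ξ, (fun p : (Fin N × Fin N → E d) × (Fin N → E d) =>
        g (posU R g ε η z i p.1 + ε • p.2 i)) (blkT N d ξ)
          ∂(stdGaussian (EuclideanSpace ℝ (Idx N × Fin d))) := rfl
    _ = ∫ p, g (posU R g ε η z i p.1 + ε • p.2 i)
          ∂((Measure.pi (fun _ : Fin N × Fin N => stdGaussian (E d))).prod
            (Measure.pi (fun _ : Fin N => stdGaussian (E d)))) := by
        rw [← (blk_split N d).map_eq, integral_map (blk_split N d).measurable.aemeasurable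
          hΨ.aestronglyMeasurable]
    _ = ∫ u, ∫ v, g (posU R g ε η z i u + ε • v i)
          ∂(Measure.pi (fun _ : Fin N => stdGaussian (E d)))
          ∂(Measure.pi (fun _ : Fin N × Fin N => stdGaussian (E d))) := integral_prod _ hint
    _ = ∫ u, gU (posU R g ε η z i u)
          ∂(Measure.pi (fun _ : Fin N × Fin N => stdGaussian (E d))) := by
        congr 1
        funext u
        have h := integral_map (μ := Measure.pi (fun _ : Fin N => stdGaussian (E d)))
          (φ := Function.eval i) (measurable_pi_apply i).aemeasurable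
          (f := fun w => g (posU R g ε η z i u + ε • w))
          (Continuous.aestronglyMeasurable (by fun_prop))
        rw [(measurePreserving_eval (fun _ : Fin N => stdGaussian (E d)) i).map_eq] at h
        rw [hgU, h]
    _ = ∫ ξ, gU (pos R η (nG g ε ξ) z i)
          ∂(stdGaussian (EuclideanSpace ℝ (Idx N × Fin d))) := by
        have hfst : MeasurePreserving (fun ξ => (blkT N d ξ).1)
            (stdGaussian (EuclideanSpace ℝ (Idx N × Fin d)))
            (Measure.pi (fun _ : Fin N × Fin N => stdGaussian (E d))) :=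
          measurePreserving_fst.comp (blk_split N d)
        rw [← hfst.map_eq, integral_map hfst.measurable.aemeasurable]
        · rfl
        · exact Continuous.aestronglyMeasurable (by fun_prop)

theorem rule_avg_sum (R : Rule m N) (a : Fin N → E d) :
    ‖∑ j, (R.w j * (1 - R.t j)) • a j‖ ≤ ∑ j, R.w j * ‖a j‖ := by
  refine (norm_sum_le _ _).trans ?_
  apply Finset.sum_le_sum
  intro j _
  have h1 := (R.t_mem j).1
  have h2 := (R.t_mem j).2
  have h3 := R.w_nonneg j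
  rw [norm_smul, Real.norm_of_nonneg (mul_nonneg h3 (by linarith))]
  apply mul_le_mul_of_nonneg_right _ (norm_nonneg _)
  nlinarith

theorem pos_diff_sum (R : Rule m N) (η : ℝ) (G G' : Idx N → E d → E d) (z : E d × E d)
    (i : Fin N) :
    ‖pos R η G z i - pos R η G' z i‖ ≤ η ^ 2 * ∑ j, R.w j *
      ‖G (Sum.inl (i, j)) (z.1 + (η * R.t i * R.t j) • z.2) -
      G' (Sum.inl (i, j)) (z.1 + (η * R.t i * R.t j) • z.2)‖ := by
  have h1 : pos R η G z i - pos R η G' z i = -((η * R.t i) ^ 2 • ∑ j, (R.w j * (1 - R.t j)) •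
      (G (Sum.inl (i, j)) (z.1 + (η * R.t i * R.t j) • z.2) -
        G' (Sum.inl (i, j)) (z.1 + (η * R.t i * R.t j) • z.2))) := by
    simp only [pos, smul_sub, Finset.sum_sub_distrib]
    abel
  rw [h1, norm_neg, norm_smul, Real.norm_of_nonneg (by positivity)]
  have h2 := R.t_mem i
  apply mul_le_mul _ (rule_avg_sum R _) (norm_nonneg _) (by positivity)
  rw [mul_pow]
  have : R.t i ^ 2 ≤ 1 := by nlinarith [h2.1, h2.2]
  nlinarith [sq_nonneg η]

theorem npos_bias (R : Rule m N) (hm : 1 ≤ m) (hg : ContDiff ℝ 1 g)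
    (hgl : ∀ x y, ‖g x - g y‖ ≤ 2 * ‖x - y‖) (hε : 0 ≤ ε)
    {M : ℝ} (hM : ∀ x, ∫ w, ‖g (x + ε • w) - gU x‖ ∂(stdGaussian (E d)) ≤ M)
    (z : E d × E d) (i : Fin N) :
    ∫ ξ, ‖pos R η (nG g ε ξ) z i - pos R η (fun _ => gU) z i‖
      ∂(stdGaussian (EuclideanSpace ℝ (Idx N × Fin d))) ≤ η ^ 2 * M := by
  have hgc := hg.continuous
  have hI : ∀ j : Fin N, Integrable (fun ξ : EuclideanSpace ℝ (Idx N × Fin d) =>
      ‖nG g ε ξ (Sum.inl (i, j)) (z.1 + (η * R.t i * R.t j) • z.2) -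
        gU (z.1 + (η * R.t i * R.t j) • z.2)‖)
      (stdGaussian (EuclideanSpace ℝ (Idx N × Fin d))) := by
    intro j
    apply Integrable.norm
    apply Integrable.sub _ (integrable_const _)
    apply lip_integrable (K := 2 * ε)
    · unfold nG
      have := continuous_blk (N := N) (d := d) (Sum.inl (i, j))
      fun_prop
    · intro a b
      refine (nG_lip hgl hε a b _ _ _).trans (le_of_eq ?_)
      simp; ring
  have hE : ∀ j : Fin N, ∫ ξ, ‖nG g ε ξ (Sum.inl (i, j)) (z.1 + (η * R.t i * R.t j) • z.2) -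
        gU (z.1 + (η * R.t i * R.t j) • z.2)‖
      ∂(stdGaussian (EuclideanSpace ℝ (Idx N × Fin d))) ≤ M := by
    intro j
    refine le_trans (le_of_eq ?_) (hM (z.1 + (η * R.t i * R.t j) • z.2))
    rw [← (blk_marg N d (Sum.inl (i, j))).map_eq, integral_map]
    · rfl
    · exact (blk_marg N d (Sum.inl (i, j))).measurable.aemeasurable
    · exact Continuous.aestronglyMeasurable (by fun_prop)
  calc ∫ ξ, ‖pos R η (nG g ε ξ) z i - pos R η (fun _ => gU) z i‖
      ∂(stdGaussian (EuclideanSpace ℝ (Idx N × Fin d)))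
      ≤ ∫ ξ, η ^ 2 * ∑ j, R.w j *
        ‖nG g ε ξ (Sum.inl (i, j)) (z.1 + (η * R.t i * R.t j) • z.2) -
        gU (z.1 + (η * R.t i * R.t j) • z.2)‖
        ∂(stdGaussian (EuclideanSpace ℝ (Idx N × Fin d))) := by
        apply integral_mono_of_nonneg
        · exact Filter.Eventually.of_forall fun ξ => norm_nonneg _
        · apply Integrable.const_mul
          apply integrable_finsetSum
          intro j _
          exact (hI j).const_mul _
        · exact Filter.Eventually.of_forall fun ξ => pos_diff_sum R η _ _ z i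
    _ = η ^ 2 * ∑ j, R.w j * ∫ ξ,
        ‖nG g ε ξ (Sum.inl (i, j)) (z.1 + (η * R.t i * R.t j) • z.2) -
        gU (z.1 + (η * R.t i * R.t j) • z.2)‖
        ∂(stdGaussian (EuclideanSpace ℝ (Idx N × Fin d))) := by
        rw [integral_const_mul, integral_finsetSum]
        · simp_rw [integral_const_mul]
        · intro j _
          exact (hI j).const_mul _
    _ ≤ η ^ 2 * ∑ j, R.w j * M := by
        apply mul_le_mul_of_nonneg_left _ (sq_nonneg η)
        apply Finset.sum_le_sum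
        intro j _
        exact mul_le_mul_of_nonneg_left (hE j) (R.w_nonneg j)
    _ = η ^ 2 * M := by rw [← Finset.sum_mul, rule_sum_w R hm, one_mul]

theorem nD_bias (R : Rule m N) (hm : 1 ≤ m) (hg : ContDiff ℝ 1 g)
    (hgl : ∀ x y, ‖g x - g y‖ ≤ 2 * ‖x - y‖)
    (hε : 0 ≤ ε) (hη : 0 ≤ η) (hη1 : η ≤ 1 / 2)
    (hgU : ∀ x, gU x = ∫ z, g (x + ε • z) ∂(stdGaussian (E d)))
    {M : ℝ} (hM : ∀ x, ∫ w, ‖g (x + ε • w) - gU x‖ ∂(stdGaussian (E d)) ≤ M)
    (z : E d × E d) (i : Fin N) :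
    ‖∫ ξ, nD R g ε η z i ξ ∂(stdGaussian (EuclideanSpace ℝ (Idx N × Fin d))) -
      gU (pos R η (fun _ => gU) z i)‖ ≤ 2 * (η ^ 2 * M) := by
  have hgc := hg.continuous
  have hUc := gU_continuous hgc hgl hε hgU
  have hUl := gU_lip hgc hgl hε hgU
  have hposI : Integrable (fun ξ => pos R η (nG g ε ξ) z i)
      (stdGaussian (EuclideanSpace ℝ (Idx N × Fin d))) :=
    lip_integrable (K := η ^ 2 * (2 * ε)) (contDiff_npos R hg ε η z i).continuous
      (fun ξ ξ' => (npos_lip R hm hgl hε z i ξ ξ').trans (le_of_eq (by ring)))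
  have hI : Integrable (fun ξ => gU (pos R η (nG g ε ξ) z i))
      (stdGaussian (EuclideanSpace ℝ (Idx N × Fin d))) := by
    refine lip_integrable (K := 2 * (η ^ 2 * (2 * ε)))
      (hUc.comp (contDiff_npos R hg ε η z i).continuous) ?_
    intro ξ ξ'
    refine (hUl _ _).trans ?_
    have := npos_lip (η := η) R hm hgl hε z i ξ ξ'
    linarith
  rw [nD_mean R hm hg hgl hε hη hη1 hgU z i]
  have h1 : ∫ ξ, gU (pos R η (nG g ε ξ) z i)
        ∂(stdGaussian (EuclideanSpace ℝ (Idx N × Fin d))) - gU (pos R η (fun _ => gU) z i) =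
      ∫ ξ, (gU (pos R η (nG g ε ξ) z i) - gU (pos R η (fun _ => gU) z i))
        ∂(stdGaussian (EuclideanSpace ℝ (Idx N × Fin d))) := by
    rw [integral_sub hI (integrable_const _)]
    simp
  rw [h1]
  calc ‖∫ ξ, (gU (pos R η (nG g ε ξ) z i) - gU (pos R η (fun _ => gU) z i))
        ∂(stdGaussian (EuclideanSpace ℝ (Idx N × Fin d)))‖
      ≤ ∫ ξ, 2 * ‖pos R η (nG g ε ξ) z i - pos R η (fun _ => gU) z i‖
        ∂(stdGaussian (EuclideanSpace ℝ (Idx N × Fin d))) := by
        apply norm_integral_le_of_norm_le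
        · apply Integrable.const_mul
          exact (hposI.sub (integrable_const _)).norm
        · exact Filter.Eventually.of_forall fun ξ => hUl _ _
    _ = 2 * ∫ ξ, ‖pos R η (nG g ε ξ) z i - pos R η (fun _ => gU) z i‖
        ∂(stdGaussian (EuclideanSpace ℝ (Idx N × Fin d))) := by rw [integral_const_mul]
    _ ≤ 2 * (η ^ 2 * M) := by
        apply mul_le_mul_of_nonneg_left (npos_bias R hm hg hgl hε hM z i) (by norm_num)

theorem nstep1_bias (R : Rule m N) (hm : 1 ≤ m) (hg : ContDiff ℝ 1 g)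
    (hgl : ∀ x y, ‖g x - g y‖ ≤ 2 * ‖x - y‖)
    (hε : 0 ≤ ε) (hη : 0 ≤ η) (hη1 : η ≤ 1 / 2)
    (hgU : ∀ x, gU x = ∫ z, g (x + ε • z) ∂(stdGaussian (E d)))
    {M : ℝ} (hM0 : 0 ≤ M) (hM : ∀ x, ∫ w, ‖g (x + ε • w) - gU x‖ ∂(stdGaussian (E d)) ≤ M)
    (z : E d × E d) :
    ‖∫ ξ, (Step R η (nG g ε ξ) z).1 ∂(stdGaussian (EuclideanSpace ℝ (Idx N × Fin d))) -
      (Step R η (fun _ => gU) z).1‖ ≤ η ^ 2 * (2 * (η ^ 2 * M)) := by
  have hI := fun i => nD_integrable R hm hg hgl hε hη hη1 z i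
  have h0 : ∫ ξ, (Step R η (nG g ε ξ) z).1 ∂(stdGaussian (EuclideanSpace ℝ (Idx N × Fin d))) =
      z.1 + η • z.2 - η ^ 2 • ∑ i, (R.w i * (1 - R.t i)) •
        ∫ ξ, nD R g ε η z i ξ ∂(stdGaussian (EuclideanSpace ℝ (Idx N × Fin d))) := by
    simp_rw [nstep1_eq]
    rw [integral_sub (integrable_const _), integral_smul, integral_finsetSum]
    · simp_rw [integral_smul]
      simp
    · intro i _
      exact int_smul _ (hI i)
    · exact int_smul _ (integrable_finsetSum _ fun i _ => int_smul _ (hI i))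
  have h1 : ∫ ξ, (Step R η (nG g ε ξ) z).1 ∂(stdGaussian (EuclideanSpace ℝ (Idx N × Fin d))) -
      (Step R η (fun _ => gU) z).1 = -(η ^ 2 • ∑ i, (R.w i * (1 - R.t i)) •
      (∫ ξ, nD R g ε η z i ξ ∂(stdGaussian (EuclideanSpace ℝ (Idx N × Fin d))) -
        gU (pos R η (fun _ => gU) z i))) := by
    rw [h0]
    simp only [Step, smul_sub, Finset.sum_sub_distrib]
    abel
  rw [h1, norm_neg, norm_smul, Real.norm_of_nonneg (by positivity)]
  exact mul_le_mul_of_nonneg_left (rule_avg' R hm (by positivity)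
    (fun i => nD_bias R hm hg hgl hε hη hη1 hgU hM z i)) (by positivity)

theorem nstep2_bias (R : Rule m N) (hm : 1 ≤ m) (hg : ContDiff ℝ 1 g)
    (hgl : ∀ x y, ‖g x - g y‖ ≤ 2 * ‖x - y‖)
    (hε : 0 ≤ ε) (hη : 0 ≤ η) (hη1 : η ≤ 1 / 2)
    (hgU : ∀ x, gU x = ∫ z, g (x + ε • z) ∂(stdGaussian (E d)))
    {M : ℝ} (hM : ∀ x, ∫ w, ‖g (x + ε • w) - gU x‖ ∂(stdGaussian (E d)) ≤ M)
    (z : E d × E d) :
    ‖∫ ξ, (Step R η (nG g ε ξ) z).2 ∂(stdGaussian (EuclideanSpace ℝ (Idx N × Fin d))) -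
      (Step R η (fun _ => gU) z).2‖ ≤ η * (2 * (η ^ 2 * M)) := by
  have hI := fun i => nD_integrable R hm hg hgl hε hη hη1 z i
  have h0 : ∫ ξ, (Step R η (nG g ε ξ) z).2 ∂(stdGaussian (EuclideanSpace ℝ (Idx N × Fin d))) =
      z.2 - η • ∑ i, R.w i •
        ∫ ξ, nD R g ε η z i ξ ∂(stdGaussian (EuclideanSpace ℝ (Idx N × Fin d))) := by
    simp_rw [nstep2_eq]
    rw [integral_sub (integrable_const _), integral_smul, integral_finsetSum]
    · simp_rw [integral_smul]
      simp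
    · intro i _
      exact int_smul _ (hI i)
    · exact int_smul _ (integrable_finsetSum _ fun i _ => int_smul _ (hI i))
  have h1 : ∫ ξ, (Step R η (nG g ε ξ) z).2 ∂(stdGaussian (EuclideanSpace ℝ (Idx N × Fin d))) -
      (Step R η (fun _ => gU) z).2 = -(η • ∑ i, R.w i •
      (∫ ξ, nD R g ε η z i ξ ∂(stdGaussian (EuclideanSpace ℝ (Idx N × Fin d))) -
        gU (pos R η (fun _ => gU) z i))) := by
    rw [h0]
    simp only [Step, smul_sub, Finset.sum_sub_distrib]
    abel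
  rw [h1, norm_neg, norm_smul, Real.norm_of_nonneg hη]
  exact mul_le_mul_of_nonneg_left (rule_avg R hm
    (fun i => nD_bias R hm hg hgl hε hη hη1 hgU hM z i)) hη

theorem l1_le_of_l2 {X : Type*} [MeasurableSpace X] (μ : Measure X) [IsProbabilityMeasure μ]
    {f : X → ℝ} {B : ℝ} (hB : 0 ≤ B) (hf : Integrable f μ)
    (hf2 : Integrable (fun x => f x ^ 2) μ) (h : ∫ x, f x ^ 2 ∂μ ≤ B ^ 2) :
    ∫ x, f x ∂μ ≤ B := by
  set c := ∫ x, f x ∂μ with hc
  have h1 : 0 ≤ ∫ x, (f x - c) ^ 2 ∂μ := integral_nonneg fun x => sq_nonneg _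
  have h2 : ∫ x, (f x - c) ^ 2 ∂μ = ∫ x, f x ^ 2 ∂μ - c ^ 2 := by
    have h3 : ∀ x, (f x - c) ^ 2 = f x ^ 2 - (2 * c * f x - c ^ 2) := by intro x; ring
    simp_rw [h3]
    have h4 : Integrable (fun x => 2 * c * f x) μ := hf.const_mul _
    have h5 : Integrable (fun _ : X => c ^ 2) μ := integrable_const _
    have h6 : Integrable (fun x => 2 * c * f x - c ^ 2) μ := h4.sub h5
    rw [integral_sub hf2 h6, integral_sub h4 h5, integral_const_mul, ← hc]
    simp
    ring
  by_contra hcon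
  push Not at hcon
  nlinarith

theorem pot_grad_contDiff {V : E d → ℝ} (hV : Pot d V) : ContDiff ℝ 1 (gradient V) := by
  have h1 : ContDiff ℝ 1 (fderiv ℝ V) := hV.smooth.fderiv_right (by norm_num)
  exact ((InnerProductSpace.toDual ℝ (E d)).symm.contDiff).comp h1

theorem norm_fderiv_le_lip {X F : Type*} [NormedAddCommGroup X] [NormedSpace ℝ X]
    [NormedAddCommGroup F] [NormedSpace ℝ F] {f : X → F} {L : ℝ} (hL : 0 ≤ L)
    (h : ∀ x y, ‖f x - f y‖ ≤ L * ‖x - y‖) (x : X) : ‖fderiv ℝ f x‖ ≤ L :=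
  norm_fderiv_le_of_lip' ℝ hL (Filter.Eventually.of_forall fun y => h y x)

theorem kick_noise_aux (R : Rule m N) (hm : 1 ≤ m) {V : E d → ℝ} {ε η : ℝ} (hV : Pot d V)
    (hε : 0 < ε) (hη : 0 < η) (hη1 : η ≤ 1 / 2) (z : E d × E d) :
    TVle ((noiseM N d).map (kick R V ε η z))
      (((stdGaussian (E d)).prod (stdGaussian (E d))).map
        (fun ζ => inj η (Step R η (fun _ => gradient (smooth ε V)) z) ζ))
      (288 * √d * (η * ε ^ 2 + η ^ 2 * √η * ε)) := by
  set g := gradient V with hgdef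
  set gU := gradient (smooth ε V) with hgUdef
  have hg : ContDiff ℝ 1 g := pot_grad_contDiff hV
  have hgl : ∀ x y, ‖g x - g y‖ ≤ 2 * ‖x - y‖ := hV.lip
  have hgU : ∀ x, gU x = ∫ w, g (x + ε • w) ∂(stdGaussian (E d)) := smooth_grad hV ε
  have hsη : 0 < √η := Real.sqrt_pos.2 hη
  have hss : √η * √η = η := Real.mul_self_sqrt hη.le
  have hM0 : 0 ≤ 2 * ε * √d := by positivity
  have hM : ∀ x, ∫ w, ‖g (x + ε • w) - gU x‖ ∂(stdGaussian (E d)) ≤ 2 * ε * √d := by
    intro x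
    obtain ⟨h1, h2⟩ := smooth_grad_var hV ε x
    apply l1_le_of_l2 _ hM0 _ h1
    · refine h2.trans (le_of_eq ?_)
      rw [mul_pow, Real.sq_sqrt (Nat.cast_nonneg d)]
      ring
    · exact ((g_integrable hg.continuous hgl hε.le x).sub (integrable_const _)).norm
  set σ := η * √η with hσdef
  have hσ : 0 < σ := by positivity
  set a := 1 - 2 * η with hadef
  have ha0 : 0 ≤ a := by rw [hadef]; linarith
  have ha1 : a ≤ 1 := by rw [hadef]; linarith
  set b := √(1 - a ^ 2) with hbdef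
  have hbη : √η ≤ b := by
    apply Real.sqrt_le_sqrt
    rw [hadef]
    nlinarith
  have hb : 0 < b := lt_of_lt_of_le hsη hbη
  set Y := fun ξ : EuclideanSpace ℝ (Idx N × Fin d) => (Step R η (nG g ε ξ) z).1 with hYdef
  set W := fun ξ : EuclideanSpace ℝ (Idx N × Fin d) => (Step R η (nG g ε ξ) z).2 with hWdef
  have hYc : ContDiff ℝ 1 Y := contDiff_nstep1 R hg ε η z
  have hWc : ContDiff ℝ 1 W := contDiff_nstep2 R hg ε η z
  have hYl : ∀ ξ ξ', ‖Y ξ - Y ξ'‖ ≤ η ^ 2 * (3 * ε * ‖ξ - ξ'‖) := fun ξ ξ' =>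
    nstep1_lip R hm hgl hε.le hη.le hη1 z ξ ξ'
  have hWl : ∀ ξ ξ', ‖W ξ - W ξ'‖ ≤ η * (3 * ε * ‖ξ - ξ'‖) := fun ξ ξ' =>
    nstep2_lip R hm hgl hε.le hη.le hη1 z ξ ξ'
  have hYi : Integrable Y (stdGaussian (EuclideanSpace ℝ (Idx N × Fin d))) :=
    lip_integrable (K := η ^ 2 * (3 * ε)) hYc.continuous
      (fun ξ ξ' => (hYl ξ ξ').trans (le_of_eq (by ring)))
  have hWi : Integrable W (stdGaussian (EuclideanSpace ℝ (Idx N × Fin d))) :=
    lip_integrable (K := η * (3 * ε)) hWc.continuous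
      (fun ξ ξ' => (hWl ξ ξ').trans (le_of_eq (by ring)))
  set EY := ∫ ξ, Y ξ ∂(stdGaussian (EuclideanSpace ℝ (Idx N × Fin d))) with hEY
  set EW := ∫ ξ, W ξ ∂(stdGaussian (EuclideanSpace ℝ (Idx N × Fin d))) with hEW
  have hbY : ‖EY - (Step R η (fun _ => gU) z).1‖ ≤ η ^ 2 * (2 * (η ^ 2 * (2 * ε * √d))) :=
    nstep1_bias R hm hg hgl hε.le hη.le hη1 hgU hM0 hM z
  have hbW : ‖EW - (Step R η (fun _ => gU) z).2‖ ≤ η * (2 * (η ^ 2 * (2 * ε * √d))) :=
    nstep2_bias R hm hg hgl hε.le hη.le hη1 hgU hM z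
  -- absorption
  have h1 := absorb2 (fun ξ => σ⁻¹ • (Y ξ - EY)) (fun ξ => (b⁻¹ * a) • (W ξ - EW))
    ((hYc.sub contDiff_const).const_smul _) ((hWc.sub contDiff_const).const_smul _)
    (L := 3 * √η * ε) (by positivity)
    (by
      refine norm_fderiv_le_lip (by positivity) fun x y => ?_
      rw [← smul_sub, norm_smul, Real.norm_of_nonneg (by positivity)]
      have e1 : Y x - EY - (Y y - EY) = Y x - Y y := by abel
      rw [e1]
      refine (mul_le_mul_of_nonneg_left (hYl x y) (by positivity)).trans (le_of_eq ?_)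
      rw [hσdef]
      field_simp
      linear_combination (-‖x - y‖) * hss)
    (by
      refine norm_fderiv_le_lip (by positivity) fun x y => ?_
      rw [← smul_sub, norm_smul, Real.norm_of_nonneg (by positivity)]
      have e1 : W x - EW - (W y - EW) = W x - W y := by abel
      rw [e1]
      have e2 : b⁻¹ * a ≤ (√η)⁻¹ := by
        calc b⁻¹ * a ≤ (√η)⁻¹ * 1 := by
              apply mul_le_mul _ ha1 ha0 (by positivity)
              exact inv_anti₀ hsη hbη
          _ = (√η)⁻¹ := mul_one _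
      refine (mul_le_mul e2 (hWl x y) (norm_nonneg _) (by positivity)).trans (le_of_eq ?_)
      field_simp
      linear_combination (-‖x - y‖) * hss)
    (by
      rw [integral_smul, integral_sub hYi (integrable_const _), ← hEY]
      simp)
    (by
      rw [integral_smul, integral_sub hWi (integrable_const _), ← hEW]
      simp)
  have h2 := h1.map (g := fun p : E d × E d => (EY + σ • p.1, a • EW + b • p.2)) (by fun_prop)
  have h3 := gauss_shift2 (EY, a • EW) ((Step R η (fun _ => gU) z).1,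
    a • (Step R η (fun _ => gU) z).2) hσ hb
  have h4 : (((stdGaussian (EuclideanSpace ℝ (Idx N × Fin d))).prod
          ((stdGaussian (E d)).prod (stdGaussian (E d)))).map
        (fun p => (σ⁻¹ • (Y p.1 - EY) + p.2.1, (b⁻¹ * a) • (W p.1 - EW) + p.2.2))).map
        (fun p : E d × E d => (EY + σ • p.1, a • EW + b • p.2)) =
      (noiseM N d).map (kick R V ε η z) := by
    rw [Measure.map_map (by fun_prop)]
    · unfold noiseM
      congr 1
      funext ω
      simp only [comp_apply, kick, inj]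
      have e1 : (Step R η (fun k y => gradient V (y + ε • blk k ω.1)) z) =
          (Step R η (nG g ε ω.1) z) := rfl
      rw [e1]
      refine Prod.ext ?_ ?_
      · simp only [smul_add, smul_smul]
        rw [mul_inv_cancel₀ hσ.ne', one_smul, hYdef, hσdef]
        abel
      · simp only [smul_add, smul_smul]
        rw [← mul_assoc, mul_inv_cancel₀ hb.ne', one_mul, smul_sub, hWdef, hbdef]
        abel
    · have := hYc.continuous
      have := hWc.continuous
      exact Continuous.measurable (by fun_prop)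
  rw [h4] at h2
  refine (h2.trans h3).mono ?_
  have k1 : ‖a • EW - a • (Step R η (fun _ => gU) z).2‖ ≤ η * (2 * (η ^ 2 * (2 * ε * √d))) := by
    rw [← smul_sub, norm_smul, Real.norm_of_nonneg ha0]
    calc a * ‖EW - (Step R η (fun _ => gU) z).2‖ ≤ 1 * _ :=
          mul_le_mul ha1 hbW (norm_nonneg _) zero_le_one
      _ = _ := one_mul _
  have k2 : ‖EY - (Step R η (fun _ => gU) z).1‖ / σ ≤ 4 * √d * (η ^ 2 * √η * ε) := by
    rw [div_le_iff₀ hσ]
    refine hbY.trans (le_of_eq ?_)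
    rw [hσdef]
    linear_combination (-4 * √d * η ^ 3 * ε) * hss
  have k3 : ‖a • EW - a • (Step R η (fun _ => gU) z).2‖ / b ≤ 4 * √d * (η ^ 2 * √η * ε) := by
    rw [div_le_iff₀ hb]
    refine k1.trans ?_
    calc η * (2 * (η ^ 2 * (2 * ε * √d))) = 4 * √d * (η ^ 2 * √η * ε) * √η := by
          linear_combination (-4 * √d * η ^ 2 * ε) * hss
      _ ≤ 4 * √d * (η ^ 2 * √η * ε) * b := by
          apply mul_le_mul_of_nonneg_left hbη (by positivity)
  have k4 : 32 * (3 * √η * ε) ^ 2 * √d = 288 * √d * (η * ε ^ 2) := by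
    linear_combination (288 * ε ^ 2 * √d) * hss
  rw [k4]
  have k5 : 0 ≤ √d * (η ^ 2 * √η * ε) := by positivity
  simp only
  nlinarith

end aux

end KN

theorem kick_noise {m N : ℕ} (R : Rule m N) (hm : 1 ≤ m) : ∃ C η0 : ℝ, 0 < C ∧ 0 < η0 ∧
    ∀ (d : ℕ) (V : E d → ℝ) (ε η : ℝ), Pot d V → 0 < ε → ε ≤ 1 → 0 < η → η ≤ η0 →
    ∀ z : E d × E d,
      TVle ((noiseM N d).map (kick R V ε η z))
        (((stdGaussian (E d)).prod (stdGaussian (E d))).map
          (fun ζ => inj η (Step R η (fun _ => gradient (smooth ε V)) z) ζ))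
        (C * √d * (η * ε ^ 2 + η ^ 2 * √η * ε)) :=
  ⟨288, 1 / 2, by norm_num, by norm_num, fun _ _ _ _ hV hε _ hη hη1 z =>
    kick_noise_aux R hm hV hε hη hη1 z⟩

end P347Q
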