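import Vale.Agent.P347Q.Defs
import Vale.Agent.P347Q.GaussDens
import Vale.Agent.P074.BM

/-!
Module MGF.  Gaussian concentration for Lipschitz functions, from the Prékopa–Leindler inequality:
`(∫ e^F dγ) (∫ e^{-F} dγ) ≤ e^{L²}`, hence (Jensen) `∫ e^{F - ∫F} dγ ≤ e^{L²}`.
-/

open MeasureTheory ProbabilityTheory Function
open scoped ENNReal BigOperators

namespace P347Q

/-- Prékopa–Leindler for `exp (F - |x|²/2)`, `exp (-F - |x|²/2)` -/
theorem mgf_core {n : ℕ} {F : E n → ℝ} (hm : Measurable F) {L : ℝ}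
    (hL : ∀ x y, F x - F y ≤ L * ‖x - y‖) :
    (∫⁻ x, ENNReal.ofReal (Real.exp (F x)) ∂(stdGaussian (E n))) *
      (∫⁻ x, ENNReal.ofReal (Real.exp (-F x)) ∂(stdGaussian (E n))) ≤
      ENNReal.ofReal (Real.exp (L ^ 2)) := by
  have hw : Measurable (fun x : E n => ENNReal.ofReal (Real.exp (-(‖x‖ ^ 2 / 2)))) := by fun_prop
  have h1 : Measurable (fun x : E n => ENNReal.ofReal (Real.exp (F x))) := by fun_prop
  have h2 : Measurable (fun x : E n => ENNReal.ofReal (Real.exp (-F x))) := by fun_prop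
  have hPL := Vale.Agent.P074.prekopa_leindler (d := n)
    (f := fun x => ENNReal.ofReal (Real.exp (-(‖x‖ ^ 2 / 2))) * ENNReal.ofReal (Real.exp (F x)))
    (g := fun x => ENNReal.ofReal (Real.exp (-(‖x‖ ^ 2 / 2))) * ENNReal.ofReal (Real.exp (-F x)))
    (h := fun x => ENNReal.ofReal (Real.exp (L ^ 2 / 2)) *
      ENNReal.ofReal (Real.exp (-(‖x‖ ^ 2 / 2))))
    (hw.mul h1) (hw.mul h2) (measurable_const.mul hw) (fun x y => by
      rw [← ENNReal.ofReal_mul (Real.exp_pos _).le, ← ENNReal.ofReal_mul (Real.exp_pos _).le,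
        ← ENNReal.ofReal_mul (Real.exp_pos _).le, ← ENNReal.ofReal_mul (by positivity),
        ← ENNReal.ofReal_pow (by positivity), ← Real.exp_add, ← Real.exp_add, ← Real.exp_add,
        ← Real.exp_add, ← Real.exp_nat_mul]
      apply ENNReal.ofReal_le_ofReal
      apply Real.exp_le_exp.2
      have hpar := parallelogram_law_with_norm ℝ x y
      have hmid : ‖(1 / 2 : ℝ) • (x + y)‖ ^ 2 = ‖x + y‖ ^ 2 / 4 := by
        rw [norm_smul, mul_pow]; norm_num; ring
      rw [hmid]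
      have h3 := hL x y
      push_cast
      nlinarith [sq_nonneg (‖x - y‖ / 2 - L), norm_nonneg (x - y)])
  rw [stdGaussian_eq_gibbs]
  unfold gibbs
  set Z := ∫⁻ x : E n, ENNReal.ofReal (Real.exp (-(‖x‖ ^ 2 / 2))) with hZ
  rw [lintegral_smul_measure, lintegral_smul_measure,
    lintegral_withDensity_eq_lintegral_mul _ hw h1, lintegral_withDensity_eq_lintegral_mul _ hw h2]
  simp only [Pi.mul_apply, smul_eq_mul]
  rw [lintegral_const_mul _ hw, ← hZ] at hPL
  calc _ = Z⁻¹ ^ 2 * ((∫⁻ x : E n, ENNReal.ofReal (Real.exp (-(‖x‖ ^ 2 / 2))) *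
          ENNReal.ofReal (Real.exp (F x))) * ∫⁻ x : E n, ENNReal.ofReal (Real.exp (-(‖x‖ ^ 2 / 2))) *
          ENNReal.ofReal (Real.exp (-F x))) := by ring
    _ ≤ Z⁻¹ ^ 2 * (ENNReal.ofReal (Real.exp (L ^ 2 / 2)) * Z) ^ 2 := by gcongr
    _ = (Z⁻¹ * Z) ^ 2 * ENNReal.ofReal (Real.exp (L ^ 2 / 2)) ^ 2 := by ring
    _ ≤ 1 ^ 2 * ENNReal.ofReal (Real.exp (L ^ 2 / 2)) ^ 2 := by
        gcongr; exact ENNReal.inv_mul_le_one _
    _ = ENNReal.ofReal (Real.exp (L ^ 2)) := by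
        rw [one_pow, one_mul, ← ENNReal.ofReal_pow (Real.exp_pos _).le, ← Real.exp_nat_mul]
        congr 2
        push_cast
        ring

variable {ι κ : Type} [Fintype ι] [Fintype κ]

theorem mgf_core_gen {F : EuclideanSpace ℝ ι → ℝ} (hm : Measurable F) {L : ℝ}
    (hL : ∀ x y, F x - F y ≤ L * ‖x - y‖) :
    (∫⁻ x, ENNReal.ofReal (Real.exp (F x)) ∂(stdGaussian (EuclideanSpace ℝ ι))) *
      (∫⁻ x, ENNReal.ofReal (Real.exp (-F x)) ∂(stdGaussian (EuclideanSpace ℝ ι))) ≤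
      ENNReal.ofReal (Real.exp (L ^ 2)) := by
  set e : E (Fintype.card ι) ≃ₗᵢ[ℝ] EuclideanSpace ℝ ι :=
    (LinearIsometryEquiv.piLpCongrLeft 2 ℝ ℝ (Fintype.equivFin ι)).symm with he
  have hem : Measurable e := e.continuous.measurable
  have hmap : (stdGaussian (E (Fintype.card ι))).map e = stdGaussian (EuclideanSpace ℝ ι) :=
    stdGaussian_map e
  have key := mgf_core (F := fun x => F (e x)) (hm.comp hem) (L := L) (fun x y => by
    have := hL (e x) (e y)
    rwa [← map_sub, e.norm_map] at this)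
  rw [← hmap, lintegral_map (by fun_prop) hem, lintegral_map (by fun_prop) hem]
  exact key

/-- concentration: a centered `L`-Lipschitz function -/
theorem mgf_lip {F : EuclideanSpace ℝ ι → ℝ} {L : ℝ}
    (hL : ∀ x y, |F x - F y| ≤ L * ‖x - y‖)
    (h0 : ∫ x, F x ∂(stdGaussian (EuclideanSpace ℝ ι)) = 0) :
    ∫⁻ x, ENNReal.ofReal (Real.exp (F x)) ∂(stdGaussian (EuclideanSpace ℝ ι)) ≤
      ENNReal.ofReal (Real.exp (L ^ 2)) := by
  have hc : Continuous F := by
    have hL' : ∀ x y, dist (F x) (F y) ≤ (L.toNNReal : ℝ) * dist x y := fun x y => by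
      rw [Real.dist_eq, dist_eq_norm]
      exact (hL x y).trans (mul_le_mul_of_nonneg_right (Real.le_coe_toNNReal L) (norm_nonneg _))
    exact (LipschitzWith.of_dist_le_mul hL').continuous
  have hm := hc.measurable
  have hcore := mgf_core_gen hm (L := L) fun x y => (le_abs_self _).trans (hL x y)
  set γ := stdGaussian (EuclideanSpace ℝ ι)
  have hp : Measurable fun x => ENNReal.ofReal (Real.exp (F x)) := by fun_prop
  have hq : Measurable fun x => ENNReal.ofReal (Real.exp (-F x)) := by fun_prop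
  have pos : ∀ G : EuclideanSpace ℝ ι → ℝ, Measurable G →
      ∫⁻ x, ENNReal.ofReal (Real.exp (G x)) ∂γ ≠ 0 := by
    intro G hG h
    rw [lintegral_eq_zero_iff (by fun_prop)] at h
    obtain ⟨x, hx⟩ := h.exists
    have : (0 : ℝ) < Real.exp (G x) := Real.exp_pos _
    simp only [Pi.zero_apply, ENNReal.ofReal_eq_zero] at hx
    linarith
  have hne : ENNReal.ofReal (Real.exp (L ^ 2)) ≠ ∞ := ENNReal.ofReal_ne_top
  have fin1 : ∫⁻ x, ENNReal.ofReal (Real.exp (F x)) ∂γ ≠ ∞ := by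
    intro h
    rw [h, ENNReal.top_mul (pos (fun x => -F x) hm.neg)] at hcore
    exact hne (top_le_iff.1 hcore)
  have fin2 : ∫⁻ x, ENNReal.ofReal (Real.exp (-F x)) ∂γ ≠ ∞ := by
    intro h
    rw [h, ENNReal.mul_top (pos _ hm)] at hcore
    exact hne (top_le_iff.1 hcore)
  have i1 : Integrable (fun x => Real.exp (F x)) γ :=
    ⟨by fun_prop, by
      rw [hasFiniteIntegral_iff_ofReal (Filter.Eventually.of_forall fun x => (Real.exp_pos _).le)]
      exact lt_top_iff_ne_top.2 fin1⟩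
  have i2 : Integrable (fun x => Real.exp (-F x)) γ :=
    ⟨by fun_prop, by
      rw [hasFiniteIntegral_iff_ofReal (Filter.Eventually.of_forall fun x => (Real.exp_pos _).le)]
      exact lt_top_iff_ne_top.2 fin2⟩
  have iF : Integrable F γ := by
    refine (i1.add i2).mono' (by fun_prop) (Filter.Eventually.of_forall fun x => ?_)
    simp only [Pi.add_apply]
    have h1 := Real.add_one_le_exp (F x)
    have h2 := Real.add_one_le_exp (-F x)
    have h3 := Real.exp_pos (F x)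
    have h4 := Real.exp_pos (-F x)
    rw [Real.norm_eq_abs, abs_le]
    constructor <;> linarith
  have iFn : Integrable (fun x => -F x) γ := iF.neg
  have hJ : (1 : ℝ) ≤ ∫ x, Real.exp (-F x) ∂γ := by
    calc (1 : ℝ) = ∫ x, (-F x + 1) ∂γ := by
          rw [integral_add iFn (integrable_const _), integral_neg, h0]; simp
      _ ≤ _ := integral_mono (iFn.add (integrable_const _)) i2 fun x => Real.add_one_le_exp _
  have hJ' : (1 : ℝ≥0∞) ≤ ∫⁻ x, ENNReal.ofReal (Real.exp (-F x)) ∂γ := by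
    rw [← ofReal_integral_eq_lintegral_ofReal i2
      (Filter.Eventually.of_forall fun x => (Real.exp_pos _).le)]
    rw [← ENNReal.ofReal_one]
    exact ENNReal.ofReal_le_ofReal hJ
  calc _ = (∫⁻ x, ENNReal.ofReal (Real.exp (F x)) ∂γ) * 1 := (mul_one _).symm
    _ ≤ _ := by gcongr
    _ ≤ _ := hcore

/-- real form -/
theorem mgf_lip' {F : EuclideanSpace ℝ ι → ℝ} {L : ℝ}
    (hL : ∀ x y, |F x - F y| ≤ L * ‖x - y‖)
    (h0 : ∫ x, F x ∂(stdGaussian (EuclideanSpace ℝ ι)) = 0) :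
    Integrable (fun x => Real.exp (F x)) (stdGaussian (EuclideanSpace ℝ ι)) ∧
      ∫ x, Real.exp (F x) ∂(stdGaussian (EuclideanSpace ℝ ι)) ≤ Real.exp (L ^ 2) := by
  have hc : Continuous F := by
    have hL' : ∀ x y, dist (F x) (F y) ≤ (L.toNNReal : ℝ) * dist x y := fun x y => by
      rw [Real.dist_eq, dist_eq_norm]
      exact (hL x y).trans (mul_le_mul_of_nonneg_right (Real.le_coe_toNNReal L) (norm_nonneg _))
    exact (LipschitzWith.of_dist_le_mul hL').continuous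
  have h := mgf_lip hL h0
  have i1 : Integrable (fun x => Real.exp (F x)) (stdGaussian (EuclideanSpace ℝ ι)) :=
    ⟨by fun_prop, by
      rw [hasFiniteIntegral_iff_ofReal (Filter.Eventually.of_forall fun x => (Real.exp_pos _).le)]
      exact h.trans_lt ENNReal.ofReal_lt_top⟩
  refine ⟨i1, ?_⟩
  rw [← ofReal_integral_eq_lintegral_ofReal i1
      (Filter.Eventually.of_forall fun x => (Real.exp_pos _).le)] at h
  exact (ENNReal.ofReal_le_ofReal_iff (Real.exp_pos _).le).1 h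

theorem lip_of_fderiv {X Y : Type*} [NormedAddCommGroup X] [NormedSpace ℝ X]
    [NormedAddCommGroup Y] [NormedSpace ℝ Y] {F : X → Y} (hF : ContDiff ℝ 1 F) {L : ℝ}
    (hL : ∀ x, ‖fderiv ℝ F x‖ ≤ L) (x y : X) : ‖F x - F y‖ ≤ L * ‖x - y‖ :=
  Convex.norm_image_sub_le_of_norm_fderiv_le (s := Set.univ) (𝕜 := ℝ)
    (fun z _ => (hF.differentiable (by norm_num)).differentiableAt) (fun z _ => hL z)
    convex_univ (Set.mem_univ y) (Set.mem_univ x)

theorem mgf_scalar (F : EuclideanSpace ℝ ι → ℝ) (hF : ContDiff ℝ 1 F)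
    {L : ℝ} (hL : ∀ x, ‖fderiv ℝ F x‖ ≤ L) (h0 : ∫ x, F x ∂(stdGaussian (EuclideanSpace ℝ ι)) = 0) :
    Integrable (fun x => Real.exp (F x)) (stdGaussian (EuclideanSpace ℝ ι)) ∧
      ∫ x, Real.exp (F x) ∂(stdGaussian (EuclideanSpace ℝ ι)) ≤ Real.exp (Real.pi ^ 2 * L ^ 2 / 8) := by
  obtain ⟨h1, h2⟩ := mgf_lip' (fun x y => by
    simpa [Real.norm_eq_abs] using lip_of_fderiv hF hL x y) h0
  refine ⟨h1, h2.trans (Real.exp_le_exp.2 ?_)⟩
  have hpi : (8 : ℝ) ≤ Real.pi ^ 2 := by nlinarith [Real.pi_gt_three]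
  nlinarith [sq_nonneg L]

theorem lintegral_exp_inner (a : EuclideanSpace ℝ κ) :
    ∫⁻ x, ENNReal.ofReal (Real.exp (inner ℝ a x)) ∂(stdGaussian (EuclideanSpace ℝ κ)) =
      ENNReal.ofReal (Real.exp (‖a‖ ^ 2 / 2)) := by
  have h1 : (stdGaussian (EuclideanSpace ℝ κ)).map (innerSL ℝ a) =
      gaussianReal 0 (‖a‖ ^ 2).toNNReal := by
    have := IsGaussian.map_eq_gaussianReal (μ := stdGaussian (EuclideanSpace ℝ κ)) (innerSL ℝ a)
    rw [this, integral_strongDual_stdGaussian, variance_dual_stdGaussian, innerSL_apply_norm]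
  have h2 : ∫⁻ t, ENNReal.ofReal (Real.exp t) ∂(gaussianReal 0 (‖a‖ ^ 2).toNNReal) =
      ENNReal.ofReal (Real.exp (‖a‖ ^ 2 / 2)) := by
    have h3 := congrFun (mgf_id_gaussianReal (μ := 0) (v := (‖a‖ ^ 2).toNNReal)) 1
    rw [mgf] at h3
    simp only [id, one_mul, zero_add, one_pow, mul_one,
      Real.coe_toNNReal _ (sq_nonneg ‖a‖)] at h3
    have h4 := integrable_exp_mul_gaussianReal (μ := 0) (v := (‖a‖ ^ 2).toNNReal) 1
    simp only [one_mul] at h4
    rw [← ofReal_integral_eq_lintegral_ofReal h4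
      (Filter.Eventually.of_forall fun x => (Real.exp_pos _).le), h3]
  rw [← h2, ← h1, lintegral_map (by fun_prop) (by fun_prop)]
  rfl

theorem integral_exp_sq_one {c : ℝ} (hc : c < 1 / 2) :
    ∫ x, Real.exp (c * x ^ 2) ∂(gaussianReal 0 1) = (√(1 - 2 * c))⁻¹ := by
  rw [integral_gaussianReal_eq_integral_smul one_ne_zero]
  have h1 : ∀ x : ℝ, gaussianPDFReal 0 1 x • Real.exp (c * x ^ 2)
      = (√(2 * Real.pi))⁻¹ * Real.exp (-(1 / 2 - c) * x ^ 2) := by
    intro x
    rw [gaussianPDFReal, smul_eq_mul, mul_assoc, ← Real.exp_add]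
    congr 2
    · simp
    · simp; ring
  simp_rw [h1]
  rw [integral_const_mul, integral_gaussian, ← Real.sqrt_inv, ← Real.sqrt_mul (by positivity),
    ← Real.sqrt_inv]
  congr 1
  have := Real.pi_ne_zero
  have h2 : (1 : ℝ) / 2 - c ≠ 0 := by linarith
  have h3 : (1 : ℝ) - 2 * c ≠ 0 := by linarith
  field_simp

theorem integral_exp_sq_one_le {c : ℝ} (h0 : 0 ≤ c) (hc : c ≤ 1 / 4) :
    ∫ x, Real.exp (c * x ^ 2) ∂(gaussianReal 0 1) ≤ Real.exp (2 * c) := by
  rw [integral_exp_sq_one (by linarith)]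
  have h1 : (0 : ℝ) < 1 - 2 * c := by linarith
  rw [inv_le_comm₀ (Real.sqrt_pos.2 h1) (Real.exp_pos _), ← Real.exp_neg]
  apply Real.le_sqrt_of_sq_le
  rw [← Real.exp_nat_mul]
  have h2 : Real.exp (4 * c) * (1 - 2 * c) ≥ 1 := by
    have := Real.add_one_le_exp (4 * c)
    nlinarith
  have h3 : Real.exp ((2 : ℕ) * -(2 * c)) * Real.exp (4 * c) = 1 := by
    rw [← Real.exp_add]; norm_num
    ring
  have h4 := Real.exp_pos ((2 : ℕ) * -(2 * c))
  nlinarith

theorem integrable_exp_sq_one {c : ℝ} (hc : c ≤ 1 / 4) :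
    Integrable (fun x : ℝ => Real.exp (c * x ^ 2)) (gaussianReal 0 1) := by
  by_contra h
  have h1 := integral_undef h
  rw [integral_exp_sq_one (by linarith)] at h1
  have h2 : (0 : ℝ) < (√(1 - 2 * c))⁻¹ := inv_pos.2 (Real.sqrt_pos.2 (by linarith))
  linarith

theorem lintegral_exp_sq_le {c : ℝ} (h0 : 0 ≤ c) (hc : c ≤ 1 / 4) :
    ∫⁻ x, ENNReal.ofReal (Real.exp (c * ‖x‖ ^ 2)) ∂(stdGaussian (EuclideanSpace ℝ κ)) ≤
      ENNReal.ofReal (Real.exp (2 * c * Fintype.card κ)) := by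
  have hprod : ∀ x : κ → ℝ, ∏ i, Real.exp (c * (x i) ^ 2) =
      Real.exp (c * ‖(WithLp.toLp 2 x : EuclideanSpace ℝ κ)‖ ^ 2) := by
    intro x
    rw [← Real.exp_sum, EuclideanSpace.norm_sq_eq, Finset.mul_sum]
    simp
  have hint : Integrable (fun x : κ → ℝ =>
      Real.exp (c * ‖(WithLp.toLp 2 x : EuclideanSpace ℝ κ)‖ ^ 2))
      (Measure.pi (fun _ : κ => gaussianReal 0 1)) := by
    have := Integrable.fintype_prod (μ := fun _ : κ => gaussianReal 0 1)
      (f := fun _ x => Real.exp (c * x ^ 2)) fun _ => integrable_exp_sq_one hc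
    simp_rw [hprod] at this
    exact this
  have hval : ∫ x : κ → ℝ, Real.exp (c * ‖(WithLp.toLp 2 x : EuclideanSpace ℝ κ)‖ ^ 2)
      ∂(Measure.pi (fun _ : κ => gaussianReal 0 1)) ≤ Real.exp (2 * c * Fintype.card κ) := by
    have := integral_fintype_prod_eq_prod (𝕜 := ℝ) (fun (_ : κ) (x : ℝ) => Real.exp (c * x ^ 2))
      (μ := fun _ : κ => gaussianReal 0 1)
    simp_rw [hprod] at this
    rw [this, Finset.prod_const]
    have h1 := integral_exp_sq_one_le h0 hc
    have h2 : (0 : ℝ) ≤ ∫ x, Real.exp (c * x ^ 2) ∂(gaussianReal 0 1) :=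
      integral_nonneg fun _ => (Real.exp_pos _).le
    calc _ ≤ Real.exp (2 * c) ^ (Finset.univ : Finset κ).card := pow_le_pow_left₀ h2 h1 _
      _ = _ := by rw [← Real.exp_nat_mul, Finset.card_univ]; ring_nf
  rw [← map_pi_eq_stdGaussian, lintegral_map (by fun_prop) (by fun_prop),
    ← ofReal_integral_eq_lintegral_ofReal hint
      (Filter.Eventually.of_forall fun x => (Real.exp_pos _).le)]
  exact ENNReal.ofReal_le_ofReal hval

theorem integrable_of_lip {F : EuclideanSpace ℝ ι → EuclideanSpace ℝ κ} {L : ℝ}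
    (hc : Continuous F) (hL : ∀ x y, ‖F x - F y‖ ≤ L * ‖x - y‖) :
    Integrable F (stdGaussian (EuclideanSpace ℝ ι)) := by
  have h1 : Integrable (fun x : EuclideanSpace ℝ ι => ‖F 0‖ + L * ‖x‖)
      (stdGaussian (EuclideanSpace ℝ ι)) :=
    (integrable_const _).add ((IsGaussian.integrable_id (μ := stdGaussian _)).norm.const_mul L)
  refine h1.mono' (hc.aestronglyMeasurable) (Filter.Eventually.of_forall fun x => ?_)
  have h2 := hL x 0
  rw [sub_zero] at h2
  calc ‖F x‖ = ‖F 0 + (F x - F 0)‖ := by congr 1; abel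
    _ ≤ ‖F 0‖ + ‖F x - F 0‖ := norm_add_le _ _
    _ ≤ _ := by linarith

/-- the iterated integral -/
theorem mgf_pair_aux {F : EuclideanSpace ℝ ι → EuclideanSpace ℝ κ} (hc : Continuous F)
    {L : ℝ} (hL0 : 0 ≤ L) (hL : ∀ x y, ‖F x - F y‖ ≤ L * ‖x - y‖)
    (h0 : ∫ x, F x ∂(stdGaussian (EuclideanSpace ℝ ι)) = 0) (hL4 : 2 * L ^ 4 ≤ 1 / 4) :
    ∫⁻ y, ∫⁻ x, ENNReal.ofReal (Real.exp (inner ℝ (F x) (F y)))
      ∂(stdGaussian (EuclideanSpace ℝ ι)) ∂(stdGaussian (EuclideanSpace ℝ ι)) ≤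
      ENNReal.ofReal (Real.exp (4 * L ^ 4 * Fintype.card κ)) := by
  set γ := stdGaussian (EuclideanSpace ℝ ι)
  set γ' := stdGaussian (EuclideanSpace ℝ κ)
  have hint : Integrable F γ := integrable_of_lip hc hL
  -- linear functionals of `F`
  have hlin : ∀ a : EuclideanSpace ℝ κ, ∫⁻ x, ENNReal.ofReal (Real.exp (inner ℝ a (F x))) ∂γ ≤
      ENNReal.ofReal (Real.exp (L ^ 2 * ‖a‖ ^ 2)) := by
    intro a
    have h1 := mgf_lip (F := fun x => inner ℝ a (F x)) (L := ‖a‖ * L) (fun x y => by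
      rw [← inner_sub_right]
      calc |inner ℝ a (F x - F y)| ≤ ‖a‖ * ‖F x - F y‖ := abs_real_inner_le_norm _ _
        _ ≤ ‖a‖ * (L * ‖x - y‖) := by gcongr; exact hL x y
        _ = _ := by ring) (by
      rw [integral_inner hint, h0, inner_zero_right])
    refine h1.trans (ENNReal.ofReal_le_ofReal (Real.exp_le_exp.2 (le_of_eq (by ring))))
  have hs2 : (√2 : ℝ) ^ 2 = 2 := Real.sq_sqrt (by norm_num)
  have hmeas : Measurable (fun p : EuclideanSpace ℝ ι × EuclideanSpace ℝ κ =>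
      ENNReal.ofReal (Real.exp (inner ℝ ((√2 * L) • F p.1) p.2))) := by
    have : Continuous (fun p : EuclideanSpace ℝ ι × EuclideanSpace ℝ κ =>
      Real.exp (inner ℝ ((√2 * L) • F p.1) p.2)) := by fun_prop
    exact this.measurable.ennreal_ofReal
  calc _ ≤ ∫⁻ y, ENNReal.ofReal (Real.exp (L ^ 2 * ‖F y‖ ^ 2)) ∂γ := by
        apply lintegral_mono
        intro y
        simp only
        calc _ = ∫⁻ x, ENNReal.ofReal (Real.exp (inner ℝ (F y) (F x))) ∂γ := by
              simp_rw [real_inner_comm]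
          _ ≤ _ := hlin (F y)
    _ = ∫⁻ y, ∫⁻ G, ENNReal.ofReal (Real.exp (inner ℝ ((√2 * L) • F y) G)) ∂γ' ∂γ := by
        congr 1
        funext y
        rw [lintegral_exp_inner, norm_smul, mul_pow, Real.norm_eq_abs, sq_abs, mul_pow, hs2]
        congr 2
        ring
    _ = ∫⁻ G, ∫⁻ y, ENNReal.ofReal (Real.exp (inner ℝ ((√2 * L) • F y) G)) ∂γ ∂γ' :=
        lintegral_lintegral_swap hmeas.aemeasurable
    _ ≤ ∫⁻ G, ENNReal.ofReal (Real.exp (2 * L ^ 4 * ‖G‖ ^ 2)) ∂γ' := by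
        apply lintegral_mono
        intro G
        simp only
        calc _ = ∫⁻ y, ENNReal.ofReal (Real.exp (inner ℝ ((√2 * L) • G) (F y))) ∂γ := by
              congr 1
              funext y
              rw [real_inner_smul_left, real_inner_smul_left, real_inner_comm]
          _ ≤ _ := hlin _
          _ = _ := by
              rw [norm_smul, mul_pow, Real.norm_eq_abs, sq_abs, mul_pow, hs2]
              congr 2
              ring
    _ ≤ ENNReal.ofReal (Real.exp (2 * (2 * L ^ 4) * Fintype.card κ)) :=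
        lintegral_exp_sq_le (by positivity) hL4
    _ = _ := by congr 3; ring

/-- `E exp ⟨F ξ, F ξ'⟩ ≤ (1 - (π²/4)² L⁴)^{-n/2}`, in the form used by `Absorb` -/
theorem mgf_pair (F : EuclideanSpace ℝ ι → EuclideanSpace ℝ κ) (hF : ContDiff ℝ 1 F)
    {L : ℝ} (hL0 : 0 ≤ L) (hL : ∀ x, ‖fderiv ℝ F x‖ ≤ L)
    (h0 : ∫ x, F x ∂(stdGaussian (EuclideanSpace ℝ ι)) = 0) (hn : 16 * L ^ 4 * Fintype.card κ ≤ 1) :
    Integrable (fun p : EuclideanSpace ℝ ι × EuclideanSpace ℝ ι => Real.exp (inner ℝ (F p.1) (F p.2)))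
      ((stdGaussian (EuclideanSpace ℝ ι)).prod (stdGaussian (EuclideanSpace ℝ ι))) ∧
    ∫ p, Real.exp (inner ℝ (F p.1) (F p.2))
        ∂((stdGaussian (EuclideanSpace ℝ ι)).prod (stdGaussian (EuclideanSpace ℝ ι))) ≤
      1 + 16 * L ^ 4 * Fintype.card κ := by
  have hc : Continuous F := hF.continuous
  have hlip := lip_of_fderiv hF hL
  have hcont : Continuous (fun p : EuclideanSpace ℝ ι × EuclideanSpace ℝ ι =>
      Real.exp (inner ℝ (F p.1) (F p.2))) := by fun_prop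
  have hmeas := hcont.measurable.ennreal_ofReal
  have key : ∫⁻ p, ENNReal.ofReal (Real.exp (inner ℝ (F p.1) (F p.2)))
        ∂((stdGaussian (EuclideanSpace ℝ ι)).prod (stdGaussian (EuclideanSpace ℝ ι))) ≤
      ENNReal.ofReal (1 + 16 * L ^ 4 * Fintype.card κ) := by
    rw [lintegral_prod_symm' _ hmeas]
    rcases Nat.eq_zero_or_pos (Fintype.card κ) with h | h
    · have hκ : IsEmpty κ := Fintype.card_eq_zero_iff.1 h
      have h1 : ∀ x y : EuclideanSpace ℝ κ, inner ℝ x y = (0 : ℝ) := fun x y => by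
        rw [Subsingleton.elim x 0, inner_zero_left]
      simp [h1, h]
    · have h1 : (1 : ℝ) ≤ Fintype.card κ := by exact_mod_cast h
      have h2 : 0 ≤ L ^ 4 := by positivity
      have h3 : 16 * L ^ 4 ≤ 1 := by nlinarith
      refine (mgf_pair_aux hc hL0 hlip h0 (by linarith)).trans (ENNReal.ofReal_le_ofReal ?_)
      have hu0 : 0 ≤ 4 * L ^ 4 * Fintype.card κ := by positivity
      have hu : 4 * L ^ 4 * Fintype.card κ ≤ 1 / 4 := by linarith
      have h5 := Real.exp_bound_div_one_sub_of_interval hu0 (by linarith)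
      refine h5.trans ?_
      rw [div_le_iff₀ (by linarith)]
      nlinarith
  have hi : Integrable (fun p : EuclideanSpace ℝ ι × EuclideanSpace ℝ ι =>
      Real.exp (inner ℝ (F p.1) (F p.2)))
      ((stdGaussian (EuclideanSpace ℝ ι)).prod (stdGaussian (EuclideanSpace ℝ ι))) :=
    ⟨hcont.aestronglyMeasurable, by
      rw [hasFiniteIntegral_iff_ofReal (Filter.Eventually.of_forall fun x => (Real.exp_pos _).le)]
      exact key.trans_lt ENNReal.ofReal_lt_top⟩
  refine ⟨hi, ?_⟩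
  rw [← ofReal_integral_eq_lintegral_ofReal hi
      (Filter.Eventually.of_forall fun x => (Real.exp_pos _).le)] at key
  exact (ENNReal.ofReal_le_ofReal_iff (by positivity)).1 key

end P347Q
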