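import Vale.Agent.P347Q.Defs

/-!
Module Model.  The algorithm is a first-order sampler with `n (N² + N)` queries.
`Comp q f`: the map `f V ω` is computable with `q` adaptive queries to the oracle of `V`.
No regularity of `V` is needed.
-/

open MeasureTheory ProbabilityTheory Function
open scoped ENNReal BigOperators

namespace P347Q

section comp

variable {d : ℕ} {Ω : Type} [MeasurableSpace Ω]

/-- the answers obtained with the query functions `query` -/
noncomputable def ans (query : (k : ℕ) → Ω → (Fin k → ℝ × E d) → E d) (V : E d → ℝ) (ω : Ω) :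
    (k : ℕ) → Fin k → ℝ × E d
  | 0 => Fin.elim0
  | k + 1 => Fin.snoc (ans query V ω k) (oracle V (query k ω (ans query V ω k)))

omit [MeasurableSpace Ω] in
theorem ans_congr {query query' : (k : ℕ) → Ω → (Fin k → ℝ × E d) → E d} {q : ℕ}
    (h : ∀ k < q, query k = query' k) (V : E d → ℝ) (ω : Ω) :
    ∀ k ≤ q, ans query V ω k = ans query' V ω k := by
  intro k
  induction k with
  | zero => intro _; rfl
  | succ k ih =>
    intro hk
    have h1 := ih (by omega)
    simp only [ans]
    rw [h1, h k (by omega)]

omit [MeasurableSpace Ω] in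
theorem ans_castLE (query : (k : ℕ) → Ω → (Fin k → ℝ × E d) → E d) (V : E d → ℝ) (ω : Ω)
    {q : ℕ} : ∀ {q' : ℕ} (h : q ≤ q') (i : Fin q),
      ans query V ω q' (Fin.castLE h i) = ans query V ω q i := by
  intro q' h
  induction h with
  | refl => intro i; rfl
  | @step m hm ih =>
    intro i
    simp only [ans]
    have : Fin.castLE (Nat.le_succ_of_le hm) i = Fin.castSucc (Fin.castLE hm i) := rfl
    rw [show (Fin.castLE (Nat.le.step hm) i : Fin (m + 1)) = Fin.castSucc (Fin.castLE hm i) from rfl,
      Fin.snoc_castSucc]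
    exact ih i

/-- `f V ω` is computable with `q` queries -/
def Comp {X : Type*} [MeasurableSpace X] (q : ℕ) (f : (E d → ℝ) → Ω → X) : Prop :=
  ∃ query : (k : ℕ) → Ω → (Fin k → ℝ × E d) → E d,
    (∀ k, Measurable (fun p : Ω × (Fin k → ℝ × E d) => query k p.1 p.2)) ∧
    ∃ out : Ω × (Fin q → ℝ × E d) → X, Measurable out ∧
      ∀ V ω, f V ω = out (ω, ans query V ω q)

variable {X Y : Type*} [MeasurableSpace X] [MeasurableSpace Y]

theorem Comp.zero {g : Ω → X} (hg : Measurable g) : Comp (d := d) 0 (fun _ ω => g ω) :=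
  ⟨fun _ _ _ => 0, fun _ => measurable_const, fun p => g p.1, hg.comp measurable_fst,
    fun _ _ => rfl⟩

theorem Comp.congr {q : ℕ} {f f' : (E d → ℝ) → Ω → X} (hf : Comp q f)
    (h : ∀ V ω, f V ω = f' V ω) : Comp q f' := by
  have : f = f' := by
    funext V ω
    exact h V ω
  rw [← this]
  exact hf

theorem Comp.map {q : ℕ} {f : (E d → ℝ) → Ω → X} (hf : Comp q f) {g : Ω × X → Y}
    (hg : Measurable g) : Comp q (fun V ω => g (ω, f V ω)) := by
  obtain ⟨query, hq, out, ho, h⟩ := hf
  exact ⟨query, hq, fun p => g (p.1, out p), hg.comp (measurable_fst.prodMk ho),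
    fun V ω => by simp only [h V ω]⟩

theorem Comp.query {q : ℕ} {f : (E d → ℝ) → Ω → X} (hf : Comp q f) {x : Ω × X → E d}
    (hx : Measurable x) : Comp (q + 1) (fun V ω => (f V ω, oracle V (x (ω, f V ω)))) := by
  classical
  obtain ⟨query, hq, out, ho, h⟩ := hf
  let query' : (k : ℕ) → Ω → (Fin k → ℝ × E d) → E d := fun k =>
    if hk : k = q then fun ω a => x (ω, out (ω, fun i => a (Fin.cast hk.symm i))) else query k
  have e1 : ∀ k < q, query k = query' k := by
    intro k hk
    simp only [query']
    rw [dif_neg hk.ne]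
  have e2 : query' q = fun ω a => x (ω, out (ω, a)) := by
    simp only [query', dif_pos]
    rfl
  refine ⟨query', ?_, fun p => (out (p.1, fun i => p.2 (Fin.castSucc i)), p.2 (Fin.last q)), ?_, ?_⟩
  · intro k
    by_cases hk : k = q
    · subst hk
      rw [e2]
      exact hx.comp (measurable_fst.prodMk ho)
    · simp only [query']
      rw [dif_neg hk]
      exact hq k
  · refine Measurable.prodMk ?_ ?_
    · refine ho.comp (measurable_fst.prodMk ?_)
      exact measurable_pi_lambda _ fun i => (measurable_pi_apply _).comp measurable_snd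
    · exact (measurable_pi_apply _).comp measurable_snd
  · intro V ω
    have e3 := ans_congr e1 V ω q le_rfl
    have e4 : ans query' V ω (q + 1) =
        Fin.snoc (ans query' V ω q) (oracle V (query' q ω (ans query' V ω q))) := rfl
    simp only [e4, Fin.snoc_castSucc, Fin.snoc_last, ← e3, e2, h V ω]

theorem Comp.batch {q : ℕ} {f : (E d → ℝ) → Ω → X} (hf : Comp q f) :
    ∀ (m : ℕ) (x : Fin m → Ω × X → E d), (∀ i, Measurable (x i)) →
      Comp (q + m) (fun V ω => (f V ω, fun i => oracle V (x i (ω, f V ω)))) := by
  intro m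
  induction m with
  | zero =>
    intro x _
    have := hf.map (g := fun p : Ω × X => (p.2, (Fin.elim0 : Fin 0 → ℝ × E d)))
      (measurable_snd.prodMk measurable_const)
    refine this.congr fun V ω => ?_
    refine Prod.ext rfl ?_
    funext i
    exact i.elim0
  | succ m ih =>
    intro x hx
    have h1 := ih (fun i => x i.castSucc) (fun i => hx _)
    have h2 := h1.query (x := fun p : Ω × (X × (Fin m → ℝ × E d)) => x (Fin.last m) (p.1, p.2.1))
      ((hx _).comp (measurable_fst.prodMk (measurable_fst.comp measurable_snd)))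
    have h3 := h2.map (g := fun p : Ω × ((X × (Fin m → ℝ × E d)) × (ℝ × E d)) =>
      (p.2.1.1, (Fin.snoc p.2.1.2 p.2.2 : Fin (m + 1) → ℝ × E d))) (by
        refine Measurable.prodMk (by fun_prop) ?_
        refine measurable_pi_lambda _ fun i => ?_
        refine Fin.lastCases ?_ (fun j => ?_) i
        · simp only [Fin.snoc_last]
          fun_prop
        · simp only [Fin.snoc_castSucc]
          fun_prop)
    refine Comp.congr (q := q + m + 1) h3 fun V ω => ?_
    refine Prod.ext rfl ?_
    funext i
    refine Fin.lastCases ?_ (fun j => ?_) i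
    · simp only [Fin.snoc_last]
    · simp only [Fin.snoc_castSucc]

theorem Comp.batch' {q : ℕ} {f : (E d → ℝ) → Ω → X} (hf : Comp q f) {ι : Type} [Fintype ι]
    (x : ι → Ω × X → E d) (hx : ∀ i, Measurable (x i)) :
      Comp (q + Fintype.card ι) (fun V ω => (f V ω, fun i => oracle V (x i (ω, f V ω)))) := by
  have h1 := hf.batch (Fintype.card ι) (fun j => x ((Fintype.equivFin ι).symm j)) (fun j => hx _)
  have h2 := h1.map (g := fun p : Ω × (X × (Fin (Fintype.card ι) → ℝ × E d)) =>
    (p.2.1, fun i : ι => p.2.2 (Fintype.equivFin ι i))) (by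
      refine Measurable.prodMk (by fun_prop) ?_
      exact measurable_pi_lambda _ fun i => by fun_prop)
  refine h2.congr fun V ω => ?_
  refine Prod.ext rfl ?_
  funext i
  simp

end comp

section step

variable {d m N : ℕ}

/-- predicted positions computed from the answers -/
noncomputable def posA (R : Rule m N) (η : ℝ) (z : E d × E d) (a : Fin N × Fin N → ℝ × E d)
    (i : Fin N) : E d :=
  z.1 + (η * R.t i) • z.2 - (η * R.t i) ^ 2 • ∑ j, (R.w j * (1 - R.t j)) • (a (i, j)).2

/-- the new state computed from the answers -/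
noncomputable def stepA (R : Rule m N) (η : ℝ) (z : E d × E d) (b : Fin N → ℝ × E d) :
    E d × E d :=
  (z.1 + η • z.2 - η ^ 2 • ∑ i, (R.w i * (1 - R.t i)) • (b i).2,
    z.2 - η • ∑ i, R.w i • (b i).2)

theorem measurable_blk (k : Idx N) :
    Measurable (fun ξ : EuclideanSpace ℝ (Idx N × Fin d) => blk (d := d) k ξ) := by
  have : Continuous (fun ξ : EuclideanSpace ℝ (Idx N × Fin d) => blk (d := d) k ξ) := by
    unfold blk
    fun_prop
  exact this.measurable

theorem Comp.kick {Ω : Type} [MeasurableSpace Ω] (R : Rule m N) (ε η : ℝ) {q : ℕ}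
    {f : (E d → ℝ) → Ω → E d × E d} (hf : Comp q f) {s : Ω → Noise N d} (hs : Measurable s) :
    Comp (q + (N ^ 2 + N)) (fun V ω => P347Q.kick R V ε η (f V ω) (s ω)) := by
  have hb : ∀ k : Idx N, Measurable (fun p : Ω × (E d × E d) => blk (d := d) k (s p.1).1) :=
    fun k => (measurable_blk k).comp (measurable_fst.comp (hs.comp measurable_fst))
  have hb2 : ∀ k : Idx N, Measurable
      (fun p : Ω × ((E d × E d) × (Fin N × Fin N → ℝ × E d)) => blk (d := d) k (s p.1).1) :=
    fun k => (measurable_blk k).comp (measurable_fst.comp (hs.comp measurable_fst))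
  have h1 := hf.batch' (ι := Fin N × Fin N) (fun ij p =>
    p.2.1 + (η * R.t ij.1 * R.t ij.2) • p.2.2 + ε • blk (Sum.inl ij) (s p.1).1) (by
      intro ij
      have := hb (Sum.inl ij)
      fun_prop)
  have h2 := h1.batch' (ι := Fin N) (fun i p =>
    posA R η p.2.1 p.2.2 i + ε • blk (Sum.inr i) (s p.1).1) (by
      intro i
      have := hb2 (Sum.inr i)
      unfold posA
      fun_prop)
  have h3 := h2.map (g := fun p : Ω × (((E d × E d) × (Fin N × Fin N → ℝ × E d)) ×
      (Fin N → ℝ × E d)) => inj η (stepA R η p.2.1.1 p.2.2) (s p.1).2) (by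
      have : Measurable (fun p : Ω × (((E d × E d) × (Fin N × Fin N → ℝ × E d)) ×
        (Fin N → ℝ × E d)) => (s p.1).2) := measurable_snd.comp (hs.comp measurable_fst)
      unfold inj stepA
      fun_prop)
  have e : q + (N ^ 2 + N) = q + Fintype.card (Fin N × Fin N) + Fintype.card (Fin N) := by
    rw [Fintype.card_prod, Fintype.card_fin]
    ring
  rw [e]
  exact h3

theorem Comp.run {n : ℕ} (R : Rule m N) (ε η : ℝ) :
    ∀ (s : ℕ) (h : s ≤ n), Comp (Ω := Fin n → Noise N d) (s * (N ^ 2 + N))
      (fun V ω => P347Q.run R V ε η s ((0 : E d), (0 : E d)) (fun i => ω (Fin.castLE h i))) := by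
  intro s
  induction s with
  | zero =>
    intro h
    simp only [P347Q.run]
    rw [Nat.zero_mul]
    exact Comp.zero measurable_const
  | succ s ih =>
    intro h
    have h1 := (ih (by omega)).kick R ε η (s := fun ω : Fin n → Noise N d =>
      ω (Fin.castLE h (Fin.last s))) (measurable_pi_apply _)
    rw [Nat.succ_mul]
    exact h1

end step

instance noiseM_prob (N d : ℕ) : IsProbabilityMeasure (noiseM N d) := by
  unfold noiseM
  infer_instance

theorem Sampler.answers_eq {d q : ℕ} (S : Sampler d q) (V : E d → ℝ) (ω : S.Ω) (k : ℕ) :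
    S.answers V ω k = ans S.query V ω k := by
  induction k with
  | zero => rfl
  | succ k ih => simp only [Sampler.answers, ans, ih]

theorem model {m N : ℕ} (R : Rule m N) (d n : ℕ) (ε η : ℝ) :
    ∃ S : Sampler d (n * (N ^ 2 + N)), ∀ V : E d → ℝ, S.law V = outLaw R V ε η n := by
  obtain ⟨query, hq, out, ho, h⟩ := (Comp.run (d := d) (n := n) R ε η n le_rfl).map
    (g := fun p : (Fin n → Noise N d) × (E d × E d) => p.2.1) (by fun_prop)
  refine ⟨{ Ω := Fin n → Noise N d
            mΩ := inferInstance
            P := Measure.pi (fun _ : Fin n => noiseM N d)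
            prob := inferInstance
            query := query
            meas_query := hq
            out := fun ω a => out (ω, a)
            meas_out := ho }, ?_⟩
  intro V
  rw [Sampler.law, outLaw]
  congr 1
  funext ω
  rw [Sampler.answers_eq]
  exact (h V ω).symm

/-- more queries never hurt -/
theorem Suff.mono {d q q' : ℕ} (h : Suff d q) (hq : q ≤ q') : Suff d q' := by
  obtain ⟨S, hS⟩ := h
  refine ⟨{ Ω := S.Ω
            mΩ := S.mΩ
            P := S.P
            prob := S.prob
            query := S.query
            meas_query := S.meas_query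
            out := fun ω a => S.out ω (fun i => a (Fin.castLE hq i))
            meas_out := S.meas_out.comp (measurable_fst.prodMk
              (measurable_pi_lambda _ fun i => (measurable_pi_apply _).comp measurable_snd)) }, ?_⟩
  intro V hV B hB
  have := hS V hV B hB
  convert this using 4
  rw [Sampler.law, Sampler.law]
  congr 1
  funext ω
  simp only
  congr 1
  funext i
  rw [Sampler.answers_eq, Sampler.answers_eq]
  exact ans_castLE S.query V ω hq i

end P347Q
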