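import Vale.Agent.P347Q.Defs

/-!
Module QuadEx.  Positive quadrature rules exist (Tchakaloff): `(1/(i+1))_{i<m} = ∫_0^1 (t^i)_i dt` lies in
the convex hull of the compact curve `{(t^i)_{i<m} : t ∈ [0,1]}`, write it as a convex combination.
The convex hull of a compact set in finite dimension is compact by Caratheodory.
-/

open MeasureTheory ProbabilityTheory Function
open scoped ENNReal BigOperators

namespace P347Q

theorem isClosed_convexHull_of_compact {V : Type} [NormedAddCommGroup V] [NormedSpace ℝ V]
    [FiniteDimensional ℝ V] {s : Set V} (hs : IsCompact s) : IsClosed (convexHull ℝ s) := by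
  classical
  rcases s.eq_empty_or_nonempty with rfl | ⟨z0, hz0⟩
  · simp
  set n := Module.finrank ℝ V + 1 with hn
  let F : (Fin n → ℝ) × (Fin n → V) → V := fun p => ∑ i, p.1 i • p.2 i
  have hF : Continuous F := by
    refine continuous_finsetSum _ ?_
    intro i _
    fun_prop
  have hK : IsCompact (stdSimplex ℝ (Fin n) ×ˢ (Set.univ.pi fun _ : Fin n => s)) :=
    (isCompact_stdSimplex ℝ (Fin n)).prod (isCompact_univ_pi fun _ => hs)
  have himg : F '' (stdSimplex ℝ (Fin n) ×ˢ (Set.univ.pi fun _ : Fin n => s))
      = convexHull ℝ s := by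
    apply Set.Subset.antisymm
    · rintro x ⟨⟨w, z⟩, ⟨hw, hz⟩, rfl⟩
      refine (convex_convexHull ℝ s).sum_mem (fun i _ => hw.1 i) hw.2 ?_
      intro i _
      exact subset_convexHull ℝ s (hz i (Set.mem_univ i))
    · intro x hx
      obtain ⟨ι, hι, z, w, hz, hind, hw0, hw1, hsum⟩ := eq_pos_convex_span_of_mem_convexHull hx
      have hcard : Fintype.card ι ≤ n := hind.card_le_finrank_succ.trans
        (Nat.succ_le_succ (Submodule.finrank_le _))
      obtain ⟨e⟩ : Nonempty (ι ↪ Fin n) := by
        refine Function.Embedding.nonempty_of_card_le ?_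
        simpa using hcard
      refine ⟨(Function.extend e w 0, Function.extend e z (fun _ => z0)), ⟨⟨?_, ?_⟩, ?_⟩, ?_⟩
      · intro j
        by_cases hj : ∃ i, e i = j
        · obtain ⟨i, rfl⟩ := hj
          simp only [e.injective.extend_apply]
          exact (hw0 i).le
        · simp only [Function.extend_apply' _ _ _ hj]
          exact le_rfl
      · rw [← hw1]
        symm
        refine Fintype.sum_of_injective e e.injective _ _ ?_ ?_
        · intro j hj
          exact Function.extend_apply' _ _ _ hj
        · intro i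
          simp only [e.injective.extend_apply]
      · intro j _
        by_cases hj : ∃ i, e i = j
        · obtain ⟨i, rfl⟩ := hj
          simp only [e.injective.extend_apply]
          exact hz ⟨i, rfl⟩
        · simp only [Function.extend_apply' _ _ _ hj]
          exact hz0
      · rw [← hsum]
        symm
        refine Fintype.sum_of_injective e e.injective _ _ ?_ ?_
        · intro j hj
          simp only [Function.extend_apply' _ _ _ hj, Pi.zero_apply, zero_smul]
        · intro i
          simp only [e.injective.extend_apply]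
  rw [← himg]
  exact (hK.image hF).isClosed

theorem rule_exists (m : ℕ) : ∃ N : ℕ, 0 < N ∧ Nonempty (Rule m N) := by
  set g : ℝ → (Fin m → ℝ) := fun t i => t ^ (i : ℕ) with hg
  have hgc : Continuous g := by fun_prop
  set s : Set (Fin m → ℝ) := g '' Set.Icc (0 : ℝ) 1 with hs
  have hsc : IsCompact s := isCompact_Icc.image hgc
  have hcl : IsClosed (convexHull ℝ s) := isClosed_convexHull_of_compact hsc
  have hpr : IsProbabilityMeasure (volume.restrict (Set.Icc (0 : ℝ) 1)) := by
    refine ⟨?_⟩
    simp
  have hint : Integrable g (volume.restrict (Set.Icc (0 : ℝ) 1)) :=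
    (hgc.continuousOn.integrableOn_compact isCompact_Icc)
  have hmem : ∫ t, g t ∂(volume.restrict (Set.Icc (0 : ℝ) 1)) ∈ convexHull ℝ s := by
    refine (convex_convexHull ℝ s).integral_mem hcl ?_ hint
    filter_upwards [ae_restrict_mem measurableSet_Icc] with t ht
    exact subset_convexHull ℝ s ⟨t, ht, rfl⟩
  have hval : ∀ i : Fin m, (∫ t, g t ∂(volume.restrict (Set.Icc (0 : ℝ) 1))) i
      = 1 / (((i : ℕ) : ℝ) + 1) := by
    intro i
    have h1 : (∫ t, g t ∂(volume.restrict (Set.Icc (0 : ℝ) 1))) i
        = ∫ t in Set.Icc (0 : ℝ) 1, t ^ (i : ℕ) := by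
      rw [eval_integral]
      intro j
      exact Integrable.eval hint j
    rw [h1, integral_Icc_eq_integral_Ioc, ← intervalIntegral.integral_of_le zero_le_one,
      integral_pow]
    simp
  rw [mem_convexHull_iff_exists_fintype] at hmem
  obtain ⟨ι, hι, w, z, hw0, hw1, hz, hsum⟩ := hmem
  have hne : Nonempty ι := by
    by_contra hcon
    rw [not_nonempty_iff] at hcon
    simp at hw1
  choose t ht htz using hz
  let e := Fintype.equivFin ι
  refine ⟨Fintype.card ι, Fintype.card_pos, ⟨⟨fun j => t (e.symm j), fun j => w (e.symm j),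
    fun j => ht _, fun j => hw0 _, ?_⟩⟩⟩
  intro i hi
  have h2 := congrFun hsum ⟨i, hi⟩
  rw [hval ⟨i, hi⟩] at h2
  rw [Finset.sum_apply] at h2
  rw [← h2]
  rw [← e.symm.sum_comp (fun k => (w k • z k) ⟨i, hi⟩)]
  refine Finset.sum_congr rfl ?_
  intro j _
  rw [← htz]
  simp [hg]

end P347Q
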