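import Vale.Agent.P347Q.Defs
import Vale.Agent.P347Q.GaussDens
import Vale.Agent.P347Q.AbsIBP

/-!
Module SmoothReg.  Regularity of Gaussian smoothing `smooth ε g`, `g` continuous of polynomial growth.

For `q` temperate put `sr_Tq ε g q x = E[g(x + ε z) q(z)]`.  Change of variables (density of
`stdGaussian`, see `GaussDens`) and differentiation under the integral give
`fderiv (Tq q) x = Tq (dq q) x`, `dq q z w = ε⁻¹ (⟨z,w⟩ q z - fderiv q z w)`; induction on the order.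

`smooth_bessel`: Bessel's inequality for the orthonormal functions `z ↦ z_i` in `L²(γ)`.
`smooth_semigroup`: `ε z + δ z'` has the law of `√(ε²+δ²) z` (characteristic functions), Fubini.
-/

open MeasureTheory ProbabilityTheory Function
open scoped ENNReal BigOperators ContDiff

namespace P347Q

variable {d : ℕ}

/-- continuous with polynomial growth -/
def PolyB (g : E d → ℝ) : Prop :=
  Continuous g ∧ ∃ (k : ℕ) (C : ℝ), ∀ x, |g x| ≤ C * (1 + ‖x‖) ^ k

theorem sr_tg_bound {Z F : Type*} [NormedAddCommGroup Z] [NormedSpace ℝ Z]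
    [NormedAddCommGroup F] [NormedSpace ℝ F] {g : Z → F} (hg : HasTemperateGrowth g) :
    ∃ (k : ℕ) (C : ℝ), 0 ≤ C ∧ ∀ x, ‖g x‖ ≤ C * (1 + ‖x‖) ^ k := by
  obtain ⟨k, C, h⟩ := hg.2 0
  refine ⟨k, |C|, abs_nonneg C, fun x => ?_⟩
  have := h x
  rw [norm_iteratedFDeriv_zero] at this
  exact this.trans (mul_le_mul_of_nonneg_right (le_abs_self C) (by positivity))

theorem HasTemperateGrowth.polyB {g : E d → ℝ} (hg : HasTemperateGrowth g) : PolyB g := by
  obtain ⟨k, C, -, h⟩ := sr_tg_bound hg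
  exact ⟨hg.1.continuous, k, C, fun x => by simpa using h x⟩

theorem PolyB.bound {g : E d → ℝ} (hg : PolyB g) :
    ∃ (k : ℕ) (C : ℝ), 0 ≤ C ∧ ∀ x, |g x| ≤ C * (1 + ‖x‖) ^ k := by
  obtain ⟨-, k, C, h⟩ := hg
  exact ⟨k, |C|, abs_nonneg C, fun x =>
    (h x).trans (mul_le_mul_of_nonneg_right (le_abs_self C) (by positivity))⟩

/-- polynomial moments of the Gaussian -/
theorem sr_gauss_pow_int (k : ℕ) :
    Integrable (fun z : E d => (1 + ‖z‖) ^ k) (stdGaussian (E d)) := by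
  have h : MemLp (id : E d → E d) (k : ℝ≥0∞) (stdGaussian (E d)) :=
    IsGaussian.memLp_id _ k (by simp)
  have h2 : MemLp (fun z : E d => (1 : ℝ) + ‖z‖) (k : ℝ≥0∞) (stdGaussian (E d)) := by
    have h3 : MemLp (fun _ : E d => (1 : ℝ)) (k : ℝ≥0∞) (stdGaussian (E d)) := memLp_const _
    exact h3.add h.norm
  have h4 := h2.integrable_norm_pow'
  refine h4.congr (Filter.Eventually.of_forall fun z => ?_)
  simp only [Real.norm_eq_abs]
  rw [abs_of_nonneg (by positivity)]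

theorem sr_gauss_int {F : Type*} [NormedAddCommGroup F] [NormedSpace ℝ F]
    {f : E d → F} (hf : Continuous f) {k : ℕ} {C : ℝ} (h : ∀ z, ‖f z‖ ≤ C * (1 + ‖z‖) ^ k) :
    Integrable f (stdGaussian (E d)) :=
  ((sr_gauss_pow_int k).const_mul C).mono' hf.aestronglyMeasurable
    (Filter.Eventually.of_forall h)

theorem sr_norm_shift_le (ε : ℝ) (x z : E d) :
    1 + ‖x + ε • z‖ ≤ (1 + ‖x‖) * ((1 + |ε|) * (1 + ‖z‖)) := by
  have h1 : ‖x + ε • z‖ ≤ ‖x‖ + |ε| * ‖z‖ := by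
    refine (norm_add_le _ _).trans ?_
    rw [norm_smul, Real.norm_eq_abs]
  have h2 := norm_nonneg x
  have h3 := norm_nonneg z
  have h4 := abs_nonneg ε
  nlinarith [mul_nonneg h2 h3, mul_nonneg h2 h4, mul_nonneg h3 h4, mul_nonneg (mul_nonneg h2 h3) h4]

theorem sr_shift_pow_le (ε : ℝ) (x z : E d) (k : ℕ) :
    (1 + ‖x + ε • z‖) ^ k ≤ ((1 + ‖x‖) ^ k * (1 + |ε|) ^ k) * (1 + ‖z‖) ^ k := by
  rw [mul_assoc, ← mul_pow, ← mul_pow]
  exact pow_le_pow_left₀ (by positivity) (sr_norm_shift_le ε x z) k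

theorem PolyB.integrable {g : E d → ℝ} (hg : PolyB g) (ε : ℝ) (x : E d) :
    Integrable (fun z => g (x + ε • z)) (stdGaussian (E d)) := by
  obtain ⟨k, C, hC, h⟩ := hg.bound
  have hc : Continuous (fun z => g (x + ε • z)) := hg.1.comp (by fun_prop)
  refine sr_gauss_int hc (k := k) (C := C * ((1 + ‖x‖) ^ k * (1 + |ε|) ^ k)) fun z => ?_
  rw [Real.norm_eq_abs]
  refine (h _).trans ?_
  rw [mul_assoc]
  exact mul_le_mul_of_nonneg_left (sr_shift_pow_le ε x z k) hC

/-! ### The operators `T q g` -/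

/-- `T q g x = E[g(x + ε z) q(z)]` -/
noncomputable def sr_Tq {F : Type*} [NormedAddCommGroup F] [NormedSpace ℝ F] (ε : ℝ) (g : E d → ℝ)
    (q : E d → F) (x : E d) : F :=
  ∫ z, g (x + ε • z) • q z ∂(stdGaussian (E d))

theorem sr_Tq_integrable {F : Type*} [NormedAddCommGroup F] [NormedSpace ℝ F] {g : E d → ℝ}
    (hg : PolyB g) {q : E d → F} (hq : HasTemperateGrowth q) (ε : ℝ) (x : E d) :
    Integrable (fun z => g (x + ε • z) • q z) (stdGaussian (E d)) := by
  obtain ⟨k, C, hC, h⟩ := hg.bound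
  obtain ⟨m, D, hD, h'⟩ := sr_tg_bound hq
  have hc : Continuous (fun z => g (x + ε • z) • q z) :=
    (hg.1.comp (by fun_prop)).smul hq.1.continuous
  refine sr_gauss_int hc (k := k + m) (C := C * ((1 + ‖x‖) ^ k * (1 + |ε|) ^ k) * D) fun z => ?_
  rw [norm_smul, Real.norm_eq_abs]
  calc |g (x + ε • z)| * ‖q z‖
      ≤ (C * (((1 + ‖x‖) ^ k * (1 + |ε|) ^ k) * (1 + ‖z‖) ^ k)) * (D * (1 + ‖z‖) ^ m) := by
        refine mul_le_mul ((h _).trans (mul_le_mul_of_nonneg_left (sr_shift_pow_le ε x z k) hC))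
          (h' z) (norm_nonneg _) (by positivity)
    _ = _ := by rw [pow_add]; ring

theorem sr_Tq_bound {F : Type*} [NormedAddCommGroup F] [NormedSpace ℝ F] {g : E d → ℝ}
    (hg : PolyB g) {q : E d → F} (hq : HasTemperateGrowth q) (ε : ℝ) :
    ∃ (k : ℕ) (C : ℝ), ∀ x, ‖sr_Tq ε g q x‖ ≤ C * (1 + ‖x‖) ^ k := by
  obtain ⟨k, C, hC, h⟩ := hg.bound
  obtain ⟨m, D, hD, h'⟩ := sr_tg_bound hq
  refine ⟨k, C * (1 + |ε|) ^ k * D * ∫ z, (1 + ‖z‖) ^ (k + m) ∂(stdGaussian (E d)), fun x => ?_⟩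
  unfold sr_Tq
  refine (norm_integral_le_integral_norm _).trans ?_
  have hle : ∀ z : E d, ‖g (x + ε • z) • q z‖ ≤
      (C * (1 + |ε|) ^ k * D * (1 + ‖x‖) ^ k) * (1 + ‖z‖) ^ (k + m) := by
    intro z
    rw [norm_smul, Real.norm_eq_abs]
    calc |g (x + ε • z)| * ‖q z‖
        ≤ (C * (((1 + ‖x‖) ^ k * (1 + |ε|) ^ k) * (1 + ‖z‖) ^ k)) * (D * (1 + ‖z‖) ^ m) := by
          refine mul_le_mul ((h _).trans (mul_le_mul_of_nonneg_left (sr_shift_pow_le ε x z k) hC))
            (h' z) (norm_nonneg _) (by positivity)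
      _ = _ := by rw [pow_add]; ring
  refine (integral_mono (sr_Tq_integrable hg hq ε x).norm
    ((sr_gauss_pow_int (k + m)).const_mul _) hle).trans (le_of_eq ?_)
  rw [integral_const_mul]
  ring

/-- normalising constant -/
noncomputable def sr_gz (d : ℕ) : ℝ :=
  ((∫⁻ x : E d, ENNReal.ofReal (Real.exp (-(‖x‖ ^ 2 / 2))))⁻¹).toReal

theorem sr_gauss_integral {F : Type*} [NormedAddCommGroup F] [NormedSpace ℝ F] (f : E d → F) :
    ∫ z, f z ∂(stdGaussian (E d)) = sr_gz d • ∫ z, Real.exp (-(‖z‖ ^ 2 / 2)) • f z := by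
  rw [stdGaussian_eq_gibbs, gibbs, integral_smul_measure, sr_gz]
  congr 1
  rw [integral_withDensity_eq_integral_toReal_smul]
  · refine integral_congr_ae (Filter.Eventually.of_forall fun z => ?_)
    simp only
    rw [ENNReal.toReal_ofReal (Real.exp_nonneg _)]
  · fun_prop
  · exact Filter.Eventually.of_forall fun z => ENNReal.ofReal_lt_top

/-- kernel of `T q` -/
noncomputable def sr_Kq {F : Type*} [NormedAddCommGroup F] [NormedSpace ℝ F] (q : E d → F)
    (z : E d) : F :=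
  Real.exp (-(‖z‖ ^ 2 / 2)) • q z

theorem sr_Tq_eq {F : Type*} [NormedAddCommGroup F] [NormedSpace ℝ F] {ε : ℝ} (hε : 0 < ε)
    (g : E d → ℝ) (q : E d → F) (x : E d) :
    sr_Tq ε g q x = (sr_gz d * |ε ^ d|⁻¹) • ∫ y, g y • sr_Kq q (ε⁻¹ • (y - x)) := by
  unfold sr_Tq
  rw [sr_gauss_integral]
  have h1 : ∫ y, g y • sr_Kq q (ε⁻¹ • (y - x)) = ∫ y, g (x + y) • sr_Kq q (ε⁻¹ • y) := by
    rw [← integral_add_right_eq_self (fun y => g y • sr_Kq q (ε⁻¹ • (y - x))) x]
    refine integral_congr_ae (Filter.Eventually.of_forall fun z => ?_)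
    simp only
    rw [add_sub_cancel_right, add_comm]
  have h2 := Measure.integral_comp_smul (volume : Measure (E d))
    (fun y => g (x + y) • sr_Kq q (ε⁻¹ • y)) ε
  rw [h1]
  have h3 : ∫ y, g (x + y) • sr_Kq q (ε⁻¹ • y) =
      |ε ^ d| • ∫ z, g (x + ε • z) • sr_Kq q (ε⁻¹ • (ε • z)) := by
    rw [h2]
    have : Module.finrank ℝ (E d) = d := by simp
    rw [this, smul_smul, abs_inv, mul_inv_cancel₀, one_smul]
    positivity
  rw [h3, smul_smul, mul_assoc, inv_mul_cancel₀ (by positivity), mul_one]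
  congr 1
  refine integral_congr_ae (Filter.Eventually.of_forall fun z => ?_)
  simp only
  rw [smul_smul ε⁻¹, inv_mul_cancel₀ hε.ne', one_smul, sr_Kq, smul_comm]

theorem sr_exp_decay (n : ℕ) : ∃ C : ℝ, 0 ≤ C ∧ ∀ t : ℝ, 0 ≤ t →
    (1 + t) ^ n * Real.exp (-(t ^ 2 / 2)) ≤ C := by
  refine ⟨n.factorial * Real.exp 2, by positivity, fun t ht => ?_⟩
  have h1 : (1 + t) ^ n ≤ n.factorial * Real.exp (1 + t) := by
    have := Real.pow_div_factorial_le_exp (1 + t) (by positivity) n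
    rw [div_le_iff₀ (by positivity)] at this
    linarith
  have h2 : Real.exp (-(t ^ 2 / 2)) ≤ Real.exp (1 - t) := by
    apply Real.exp_le_exp.2
    nlinarith [sq_nonneg (t - 1)]
  calc (1 + t) ^ n * Real.exp (-(t ^ 2 / 2))
      ≤ (n.factorial * Real.exp (1 + t)) * Real.exp (1 - t) :=
        mul_le_mul h1 h2 (Real.exp_nonneg _) (by positivity)
    _ = n.factorial * Real.exp 2 := by
        rw [mul_assoc, ← Real.exp_add]
        norm_num

theorem sr_Kq_decay {F : Type*} [NormedAddCommGroup F] [NormedSpace ℝ F] {q : E d → F}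
    (hq : HasTemperateGrowth q) (n : ℕ) :
    ∃ C : ℝ, 0 ≤ C ∧ ∀ z, (1 + ‖z‖) ^ n * ‖sr_Kq q z‖ ≤ C := by
  obtain ⟨m, D, hD, h'⟩ := sr_tg_bound hq
  obtain ⟨C, hC, h⟩ := sr_exp_decay (n + m)
  refine ⟨D * C, by positivity, fun z => ?_⟩
  rw [sr_Kq, norm_smul, Real.norm_eq_abs, abs_of_nonneg (Real.exp_nonneg _)]
  calc (1 + ‖z‖) ^ n * (Real.exp (-(‖z‖ ^ 2 / 2)) * ‖q z‖)
      ≤ (1 + ‖z‖) ^ n * (Real.exp (-(‖z‖ ^ 2 / 2)) * (D * (1 + ‖z‖) ^ m)) := by
        gcongr
        exact h' z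
    _ = D * ((1 + ‖z‖) ^ (n + m) * Real.exp (-(‖z‖ ^ 2 / 2))) := by rw [pow_add]; ring
    _ ≤ D * C := mul_le_mul_of_nonneg_left (h _ (norm_nonneg z)) hD

/-- the derivative symbol -/
noncomputable def sr_dq {F : Type*} [NormedAddCommGroup F] [NormedSpace ℝ F] (ε : ℝ) (q : E d → F)
    (z : E d) : E d →L[ℝ] F :=
  ε⁻¹ • (ContinuousLinearMap.smulRightL ℝ (E d) F (innerSL ℝ z) (q z) - fderiv ℝ q z)

theorem sr_dq_temp {F : Type*} [NormedAddCommGroup F] [NormedSpace ℝ F] {q : E d → F}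
    (hq : HasTemperateGrowth q) (ε : ℝ) : HasTemperateGrowth (sr_dq ε q) := by
  have h1 : HasTemperateGrowth (fun z : E d => innerSL ℝ z) :=
    ContinuousLinearMap.hasTemperateGrowth (innerSL ℝ : E d →L[ℝ] _)
  have h2 : HasTemperateGrowth (fun z : E d =>
      ContinuousLinearMap.smulRightL ℝ (E d) F (innerSL ℝ z) (q z)) :=
    ContinuousLinearMap.bilinear_hasTemperateGrowth _ h1 hq
  have h3 := h2.sub (temp_fderiv hq)
  have h4 : HasTemperateGrowth (fun _ : E d => ε⁻¹) := HasTemperateGrowth.const _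
  exact h4.smul h3

theorem sr_dq_apply {F : Type*} [NormedAddCommGroup F] [NormedSpace ℝ F] (ε : ℝ) (q : E d → F)
    (z w : E d) : sr_dq ε q z w = ε⁻¹ • (inner ℝ z w • q z - fderiv ℝ q z w) := rfl

theorem sr_Kq_continuous {F : Type*} [NormedAddCommGroup F] [NormedSpace ℝ F] {q : E d → F}
    (hq : HasTemperateGrowth q) : Continuous (sr_Kq q) := by
  unfold sr_Kq
  have := hq.1.continuous
  fun_prop

theorem sr_Kq_hasFDerivAt {F : Type*} [NormedAddCommGroup F] [NormedSpace ℝ F] {q : E d → F}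
    (hq : HasTemperateGrowth q) (ε : ℝ) (x y : E d) :
    HasFDerivAt (fun x : E d => sr_Kq q (ε⁻¹ • (y - x))) (sr_Kq (sr_dq ε q) (ε⁻¹ • (y - x))) x := by
  set z : E d := ε⁻¹ • (y - x) with hz
  have h1 : HasFDerivAt (fun x : E d => ε⁻¹ • (y - x))
      (ε⁻¹ • (-ContinuousLinearMap.id ℝ (E d))) x := by
    exact ((hasFDerivAt_id x).const_sub y).const_smul ε⁻¹
  have h2 : HasFDerivAt (fun z : E d => Real.exp (-(‖z‖ ^ 2 / 2)))
      (Real.exp (-(‖z‖ ^ 2 / 2)) • (-(innerSL ℝ z))) z := by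
    have h3 : HasFDerivAt (fun z : E d => -(‖z‖ ^ 2 / 2)) (-(innerSL ℝ z)) z := by
      have h4 := (hasStrictFDerivAt_norm_sq z).hasFDerivAt
      have h5 := ((h4.const_mul (1 / 2)).neg)
      refine (h5.congr_of_eventuallyEq (Filter.Eventually.of_forall fun w => ?_)).congr_fderiv ?_
      · simp only [Pi.neg_apply]; ring
      · ext w
        simp
    exact h3.exp
  have h6 : HasFDerivAt q (fderiv ℝ q z) z := (temp_diff hq z).hasFDerivAt
  have h7 : HasFDerivAt (sr_Kq q) (Real.exp (-(‖z‖ ^ 2 / 2)) • fderiv ℝ q z +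
      (Real.exp (-(‖z‖ ^ 2 / 2)) • (-(innerSL ℝ z))).smulRight (q z)) z := h2.smul h6
  have h8 := h7.comp x h1
  refine h8.congr_fderiv ?_
  ext w

  simp only [sr_Kq, ContinuousLinearMap.comp_apply, smul_apply, sr_dq_apply,
    add_apply, neg_apply, ContinuousLinearMap.smulRight_apply,
    ContinuousLinearMap.id_apply, smul_neg, map_neg, map_smul, neg_smul, smul_sub, smul_smul,
    smul_eq_mul, innerSL_apply_apply]
  module

theorem sr_norm_le_of_ball {x x₀ y : E d} {ε : ℝ} (hε : 0 < ε) (hx : x ∈ Metric.ball x₀ 1) :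
    1 + ‖y‖ ≤ ((1 + ‖x₀‖) * (2 + ε)) * (1 + ‖ε⁻¹ • (y - x)‖) ∧
    1 + ‖y - x₀‖ ≤ (2 + ε) * (1 + ‖ε⁻¹ • (y - x)‖) := by
  have h1 : ‖x - x₀‖ < 1 := by simpa [dist_eq_norm] using hx
  set z : E d := ε⁻¹ • (y - x) with hz
  have hy : y = x₀ + (x - x₀) + ε • z := by
    rw [hz, smul_smul, mul_inv_cancel₀ hε.ne', one_smul]; abel
  have h3 : ‖y - x₀‖ ≤ 1 + ε * ‖z‖ := by
    have : y - x₀ = (x - x₀) + ε • z := by rw [hy]; abel
    rw [this]
    refine (norm_add_le _ _).trans ?_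
    rw [norm_smul, Real.norm_eq_abs, abs_of_pos hε]
    linarith
  have h2 : ‖y‖ ≤ ‖x₀‖ + ‖y - x₀‖ := by
    have : y = x₀ + (y - x₀) := by abel
    calc ‖y‖ = ‖x₀ + (y - x₀)‖ := by rw [← this]
      _ ≤ _ := norm_add_le _ _
  have hz0 := norm_nonneg z
  have hx0 := norm_nonneg x₀
  constructor
  · nlinarith [mul_nonneg hx0 hz0, mul_nonneg hε.le hz0, mul_nonneg hx0 hε.le,
      mul_nonneg (mul_nonneg hx0 hε.le) hz0]
  · nlinarith [mul_nonneg hε.le hz0]

/-- domination of the kernel integrand, uniformly for `x` in a ball -/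
theorem sr_Kq_dom {F : Type*} [NormedAddCommGroup F] [NormedSpace ℝ F] {g : E d → ℝ}
    (hg : PolyB g) {q : E d → F} (hq : HasTemperateGrowth q) {ε : ℝ} (hε : 0 < ε) (x₀ : E d) :
    ∃ C : ℝ, 0 ≤ C ∧ ∀ x ∈ Metric.ball x₀ 1, ∀ y : E d,
      ‖g y • sr_Kq q (ε⁻¹ • (y - x))‖ ≤ C * (1 + ‖y - x₀‖) ^ (-((d : ℝ) + 1)) := by
  obtain ⟨k, C, hC, h⟩ := hg.bound
  obtain ⟨D, hD, h'⟩ := sr_Kq_decay hq (k + (d + 1))
  refine ⟨C * ((1 + ‖x₀‖) * (2 + ε)) ^ k * (2 + ε) ^ (d + 1) * D, by positivity, fun x hx y => ?_⟩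
  obtain ⟨a1, a2⟩ := sr_norm_le_of_ball (y := y) hε hx
  set z : E d := ε⁻¹ • (y - x) with hz
  have hpos : 0 < 1 + ‖y - x₀‖ := by positivity
  have hr : (1 + ‖y - x₀‖) ^ (-((d : ℝ) + 1)) = ((1 + ‖y - x₀‖) ^ (d + 1))⁻¹ := by
    rw [Real.rpow_neg hpos.le]
    congr 1
    exact_mod_cast Real.rpow_natCast (1 + ‖y - x₀‖) (d + 1)
  rw [hr, ← div_eq_mul_inv, le_div_iff₀ (by positivity), norm_smul, Real.norm_eq_abs]
  calc |g y| * ‖sr_Kq q z‖ * (1 + ‖y - x₀‖) ^ (d + 1)
      ≤ (C * (((1 + ‖x₀‖) * (2 + ε)) * (1 + ‖z‖)) ^ k) * ‖sr_Kq q z‖ *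
          ((2 + ε) * (1 + ‖z‖)) ^ (d + 1) := by
        gcongr
        exact (h y).trans (mul_le_mul_of_nonneg_left
          (pow_le_pow_left₀ (by positivity) a1 k) hC)
    _ = C * ((1 + ‖x₀‖) * (2 + ε)) ^ k * (2 + ε) ^ (d + 1) *
          ((1 + ‖z‖) ^ (k + (d + 1)) * ‖sr_Kq q z‖) := by
        rw [mul_pow _ (1 + ‖z‖) k, mul_pow _ (1 + ‖z‖) (d + 1), pow_add (1 + ‖z‖)]
        ring
    _ ≤ _ := mul_le_mul_of_nonneg_left (h' z) (by positivity)

theorem sr_Kq_dom_integrable (x₀ : E d) (C : ℝ) :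
    Integrable (fun y : E d => C * (1 + ‖y - x₀‖) ^ (-((d : ℝ) + 1))) volume := by
  have h : Integrable (fun y : E d => (1 + ‖y‖) ^ (-((d : ℝ) + 1))) volume := by
    apply integrable_one_add_norm
    simp
  exact (h.comp_sub_right x₀).const_mul C

theorem sr_Kq_int_hasFDerivAt {F : Type*} [NormedAddCommGroup F] [NormedSpace ℝ F] {g : E d → ℝ}
    (hg : PolyB g) {q : E d → F} (hq : HasTemperateGrowth q) {ε : ℝ} (hε : 0 < ε) (x₀ : E d) :
    HasFDerivAt (fun x => ∫ y, g y • sr_Kq q (ε⁻¹ • (y - x)))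
      (∫ y, g y • sr_Kq (sr_dq ε q) (ε⁻¹ • (y - x₀))) x₀ := by
  obtain ⟨C, hC, h⟩ := sr_Kq_dom hg hq hε x₀
  obtain ⟨C', hC', h'⟩ := sr_Kq_dom hg (sr_dq_temp hq ε) hε x₀
  have hc : ∀ x, Continuous (fun y => g y • sr_Kq q (ε⁻¹ • (y - x))) := fun x =>
    hg.1.smul ((sr_Kq_continuous hq).comp (by fun_prop))
  have hc' : Continuous (fun y => g y • sr_Kq (sr_dq ε q) (ε⁻¹ • (y - x₀))) :=
    hg.1.smul ((sr_Kq_continuous (sr_dq_temp hq ε)).comp (by fun_prop))
  refine hasFDerivAt_integral_of_dominated_of_fderiv_le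
    (F' := fun x y => g y • sr_Kq (sr_dq ε q) (ε⁻¹ • (y - x)))
    (Metric.ball_mem_nhds x₀ one_pos)
    (Filter.Eventually.of_forall fun x => (hc x).aestronglyMeasurable)
    ((sr_Kq_dom_integrable x₀ C).mono' (hc x₀).aestronglyMeasurable
      (Filter.Eventually.of_forall (h x₀ (Metric.mem_ball_self one_pos))))
    hc'.aestronglyMeasurable
    (Filter.Eventually.of_forall fun y x hx => h' x hx y)
    (sr_Kq_dom_integrable x₀ C')
    (Filter.Eventually.of_forall fun y x hx => ?_)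
  exact (sr_Kq_hasFDerivAt hq ε x y).const_smul (g y)

theorem sr_Tq_hasFDerivAt {F : Type*} [NormedAddCommGroup F] [NormedSpace ℝ F] {g : E d → ℝ}
    (hg : PolyB g) {q : E d → F} (hq : HasTemperateGrowth q) {ε : ℝ} (hε : 0 < ε) (x : E d) :
    HasFDerivAt (sr_Tq ε g q) (sr_Tq ε g (sr_dq ε q) x) x := by
  have h : sr_Tq ε g q = fun x => (sr_gz d * |ε ^ d|⁻¹) • ∫ y, g y • sr_Kq q (ε⁻¹ • (y - x)) := by
    funext x; exact sr_Tq_eq hε g q x
  rw [h, sr_Tq_eq hε]
  exact (sr_Kq_int_hasFDerivAt hg hq hε x).const_smul _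

theorem sr_Tq_temp_aux {g : E d → ℝ} (hg : PolyB g) {ε : ℝ} (hε : 0 < ε) (n : ℕ) :
    ∀ (F : Type) [NormedAddCommGroup F] [NormedSpace ℝ F] (q : E d → F), HasTemperateGrowth q →
      ContDiff ℝ n (sr_Tq ε g q) ∧
      ∃ (k : ℕ) (C : ℝ), ∀ x, ‖iteratedFDeriv ℝ n (sr_Tq ε g q) x‖ ≤ C * (1 + ‖x‖) ^ k := by
  induction n with
  | zero =>
    intro F _ _ q hq
    refine ⟨?_, ?_⟩
    · have : Differentiable ℝ (sr_Tq ε g q) := fun x => (sr_Tq_hasFDerivAt hg hq hε x).differentiableAt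
      simpa using this.continuous
    · obtain ⟨k, C, h⟩ := sr_Tq_bound hg hq ε
      refine ⟨k, C, fun x => ?_⟩
      rw [norm_iteratedFDeriv_zero]
      exact h x
  | succ n ih =>
    intro F _ _ q hq
    have hd : Differentiable ℝ (sr_Tq ε g q) := fun x => (sr_Tq_hasFDerivAt hg hq hε x).differentiableAt
    have hf : fderiv ℝ (sr_Tq ε g q) = sr_Tq ε g (sr_dq ε q) := by
      funext x
      exact (sr_Tq_hasFDerivAt hg hq hε x).fderiv
    obtain ⟨h1, k, C, h2⟩ := ih _ (sr_dq ε q) (sr_dq_temp hq ε)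
    refine ⟨?_, k, C, fun x => ?_⟩
    · push_cast
      rw [contDiff_succ_iff_fderiv]
      refine ⟨hd, by simp, ?_⟩
      rw [hf]
      exact h1
    · rw [← norm_iteratedFDeriv_fderiv, hf]
      exact h2 x

theorem sr_Tq_temp {g : E d → ℝ} (hg : PolyB g) {ε : ℝ} (hε : 0 < ε) {F : Type}
    [NormedAddCommGroup F] [NormedSpace ℝ F] {q : E d → F} (hq : HasTemperateGrowth q) :
    HasTemperateGrowth (sr_Tq ε g q) :=
  ⟨contDiff_infty.2 fun n => (sr_Tq_temp_aux hg hε n F q hq).1,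
    fun n => (sr_Tq_temp_aux hg hε n F q hq).2⟩

theorem sr_smooth_eq_Tq (ε : ℝ) (g : E d → ℝ) : smooth ε g = sr_Tq ε g (fun _ => (1 : ℝ)) := by
  funext x
  simp [smooth, sr_Tq]

theorem smooth_temp {g : E d → ℝ} (hg : PolyB g) {ε : ℝ} (hε : 0 < ε) :
    HasTemperateGrowth (smooth ε g) := by
  rw [sr_smooth_eq_Tq]
  exact sr_Tq_temp hg hε (HasTemperateGrowth.const _)

theorem smooth_fderiv_gauss {g : E d → ℝ} (hg : PolyB g) {ε : ℝ} (hε : 0 < ε) (x w : E d) :
    fderiv ℝ (smooth ε g) x w = ε⁻¹ * ∫ z, inner ℝ z w * g (x + ε • z) ∂(stdGaussian (E d)) := by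
  have h1 : HasTemperateGrowth (fun _ : E d => (1 : ℝ)) := HasTemperateGrowth.const _
  rw [sr_smooth_eq_Tq, (sr_Tq_hasFDerivAt hg h1 hε x).fderiv, sr_Tq,
    ContinuousLinearMap.integral_apply (sr_Tq_integrable hg (sr_dq_temp h1 ε) ε x), ← integral_const_mul]
  refine integral_congr_ae (Filter.Eventually.of_forall fun z => ?_)
  simp only [smul_apply, sr_dq_apply, fderiv_fun_const, Pi.zero_apply,
    zero_apply, smul_eq_mul, sub_zero, mul_one]
  ring

/-! ### Bessel's inequality -/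

theorem PolyB.mul {f g : E d → ℝ} (hf : PolyB f) (hg : PolyB g) : PolyB (fun x => f x * g x) := by
  obtain ⟨k, C, hC, h⟩ := hf.bound
  obtain ⟨m, D, hD, h'⟩ := hg.bound
  refine ⟨hf.1.mul hg.1, k + m, C * D, fun x => ?_⟩
  rw [abs_mul, pow_add]
  calc |f x| * |g x| ≤ (C * (1 + ‖x‖) ^ k) * (D * (1 + ‖x‖) ^ m) :=
        mul_le_mul (h x) (h' x) (abs_nonneg _) (by positivity)
    _ = _ := by ring

theorem PolyB.inner_left (w : E d) : PolyB (fun x : E d => inner ℝ x w) :=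
  HasTemperateGrowth.polyB (hasTemperateGrowth_inner_left w)

theorem PolyB.comp_shift {g : E d → ℝ} (hg : PolyB g) (ε : ℝ) (x : E d) :
    PolyB (fun z => g (x + ε • z)) := by
  obtain ⟨k, C, hC, h⟩ := hg.bound
  have hc : Continuous (fun z => g (x + ε • z)) := hg.1.comp (by fun_prop)
  refine ⟨hc, k, C * ((1 + ‖x‖) ^ k * (1 + |ε|) ^ k), fun z => ?_⟩
  refine (h _).trans ?_
  rw [mul_assoc]
  exact mul_le_mul_of_nonneg_left (sr_shift_pow_le ε x z k) hC

theorem PolyB.int {g : E d → ℝ} (hg : PolyB g) : Integrable g (stdGaussian (E d)) := by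
  have := hg.integrable 1 0
  simpa using this

theorem sr_gauss_inner_sq (a : E d) : ∫ z, (inner ℝ z a) ^ 2 ∂(stdGaussian (E d)) = ‖a‖ ^ 2 := by
  have h1 := variance_dual_stdGaussian (E := E d) (innerSL ℝ a)
  rw [variance_of_integral_eq_zero (by fun_prop) (integral_strongDual_stdGaussian _),
    innerSL_apply_norm] at h1
  rw [← h1]
  refine integral_congr_ae (Filter.Eventually.of_forall fun z => ?_)
  simp only [innerSL_apply_apply]
  rw [real_inner_comm]

/-- Bessel's inequality for the coordinates -/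
theorem sr_gauss_bessel {G : E d → ℝ} (hG : PolyB G) :
    ∑ i, (∫ z, inner ℝ z (bas d i) * G z ∂(stdGaussian (E d))) ^ 2 ≤
      ∫ z, G z ^ 2 ∂(stdGaussian (E d)) := by
  set a : E d := WithLp.toLp 2 (fun i => ∫ z, inner ℝ z (bas d i) * G z ∂(stdGaussian (E d)))
    with ha
  have hai : ∀ i, a i = ∫ z, inner ℝ z (bas d i) * G z ∂(stdGaussian (E d)) := fun i => rfl
  have hs : ∀ z : E d, (inner ℝ z a : ℝ) = ∑ i, a i * inner ℝ z (bas d i) := by
    intro z
    rw [PiLp.inner_apply]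
    refine Finset.sum_congr rfl fun i _ => ?_
    have h1 : (inner ℝ z (bas d i) : ℝ) = z i := by
      rw [bas, EuclideanSpace.inner_single_right]
      simp
    rw [h1]
    simp
  have hna : ‖a‖ ^ 2 = ∑ i, a i ^ 2 := by
    rw [EuclideanSpace.real_norm_sq_eq]
  have hGS : ∫ z, G z * inner ℝ z a ∂(stdGaussian (E d)) = ‖a‖ ^ 2 := by
    rw [hna]
    simp_rw [hs, Finset.mul_sum]
    rw [integral_finsetSum]
    · refine Finset.sum_congr rfl fun i _ => ?_
      rw [sq]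
      nth_rewrite 2 [hai i]
      rw [← integral_const_mul]
      refine integral_congr_ae (Filter.Eventually.of_forall fun z => ?_)
      simp only
      ring
    · intro i _
      have h1 := ((PolyB.inner_left (bas d i)).mul hG).int.const_mul (a i)
      refine h1.congr (Filter.Eventually.of_forall fun z => ?_)
      simp only
      ring
  have hsq := sr_gauss_inner_sq a
  have hi1 : Integrable (fun z => G z ^ 2) (stdGaussian (E d)) := by
    refine (hG.mul hG).int.congr (Filter.Eventually.of_forall fun z => ?_)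
    simp only; ring
  have hi2 : Integrable (fun z => G z * inner ℝ z a) (stdGaussian (E d)) :=
    (hG.mul (PolyB.inner_left a)).int
  have hi3 : Integrable (fun z => (inner ℝ z a : ℝ) ^ 2) (stdGaussian (E d)) := by
    refine ((PolyB.inner_left a).mul (PolyB.inner_left a)).int.congr
      (Filter.Eventually.of_forall fun z => ?_)
    simp only; ring
  have h0 : 0 ≤ ∫ z, (G z - inner ℝ z a) ^ 2 ∂(stdGaussian (E d)) :=
    integral_nonneg fun z => sq_nonneg _
  have h1 : ∫ z, (G z - inner ℝ z a) ^ 2 ∂(stdGaussian (E d)) =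
      ∫ z, G z ^ 2 ∂(stdGaussian (E d)) - 2 * ∫ z, G z * inner ℝ z a ∂(stdGaussian (E d)) +
        ∫ z, (inner ℝ z a) ^ 2 ∂(stdGaussian (E d)) := by
    have hi4 : Integrable (fun z => G z ^ 2 - 2 * (G z * inner ℝ z a)) (stdGaussian (E d)) :=
      hi1.sub (hi2.const_mul 2)
    rw [← integral_const_mul, ← integral_sub hi1 (hi2.const_mul 2), ← integral_add hi4 hi3]
    refine integral_congr_ae (Filter.Eventually.of_forall fun z => ?_)
    simp only
    ring
  rw [h1, hGS, hsq] at h0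
  have : ∑ i, (∫ z, inner ℝ z (bas d i) * G z ∂(stdGaussian (E d))) ^ 2 = ‖a‖ ^ 2 := by
    rw [hna]
  rw [this]
  linarith

theorem smooth_bessel {g : E d → ℝ} (hg : PolyB g) {ε : ℝ} (hε : 0 < ε) (x : E d) :
    ∑ i, (fderiv ℝ (smooth ε g) x (bas d i)) ^ 2 ≤ (ε ^ 2)⁻¹ * smooth ε (fun y => g y ^ 2) x := by
  simp_rw [smooth_fderiv_gauss hg hε, mul_pow]
  rw [← Finset.mul_sum, inv_pow]
  exact mul_le_mul_of_nonneg_left (sr_gauss_bessel (hg.comp_shift ε x)) (by positivity)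

/-! ### Commutation with derivatives -/

theorem smooth_fderiv_comm {g : E d → ℝ} (hg : HasTemperateGrowth g) (ε : ℝ) (x w : E d) :
    fderiv ℝ (smooth ε g) x w = smooth ε (fun y => fderiv ℝ g y w) x := by
  obtain ⟨k, C, hC, h⟩ := sr_tg_bound (temp_fderiv hg)
  have hc : ∀ x, Continuous (fun z => g (x + ε • z)) := fun x =>
    hg.1.continuous.comp (by fun_prop)
  have hc' : ∀ x, Continuous (fun z => fderiv ℝ g (x + ε • z)) := fun x =>
    (temp_fderiv hg).1.continuous.comp (by fun_prop)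
  have hbd : ∀ x, ∀ z : E d, ‖fderiv ℝ g (x + ε • z)‖ ≤
      (C * ((1 + ‖x‖) ^ k * (1 + |ε|) ^ k)) * (1 + ‖z‖) ^ k := by
    intro x z
    refine (h _).trans ?_
    rw [mul_assoc]
    exact mul_le_mul_of_nonneg_left (sr_shift_pow_le ε x z k) hC
  have hint : ∀ x, Integrable (fun z => fderiv ℝ g (x + ε • z)) (stdGaussian (E d)) := fun x =>
    sr_gauss_int (hc' x) (hbd x)
  have key : HasFDerivAt (smooth ε g) (∫ z, fderiv ℝ g (x + ε • z) ∂(stdGaussian (E d))) x := by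
    refine hasFDerivAt_integral_of_dominated_of_fderiv_le
      (F' := fun x z => fderiv ℝ g (x + ε • z))
      (bound := fun z => (C * ((2 + ‖x‖) ^ k * (1 + |ε|) ^ k)) * (1 + ‖z‖) ^ k)
      (Metric.ball_mem_nhds x one_pos)
      (Filter.Eventually.of_forall fun x => (hc x).aestronglyMeasurable)
      ((HasTemperateGrowth.polyB hg).integrable ε x)
      (hc' x).aestronglyMeasurable
      (Filter.Eventually.of_forall fun z y hy => (hbd y z).trans ?_)
      ((sr_gauss_pow_int k).const_mul _)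
      (Filter.Eventually.of_forall fun z y hy => ?_)
    · have h1 : ‖y‖ ≤ 1 + ‖x‖ := by
        have h2 : ‖y - x‖ < 1 := by simpa [dist_eq_norm] using hy
        have h3 : ‖y‖ ≤ ‖y - x‖ + ‖x‖ := by simpa using norm_add_le (y - x) x
        linarith
      have h4 : (1 + ‖y‖) ^ k ≤ (2 + ‖x‖) ^ k :=
        pow_le_pow_left₀ (by positivity) (by linarith) k
      gcongr
    · have h1 : HasFDerivAt g (fderiv ℝ g (y + ε • z)) (y + ε • z) :=
        (temp_diff hg _).hasFDerivAt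
      have h2 : HasFDerivAt (fun y : E d => y + ε • z) (ContinuousLinearMap.id ℝ (E d)) y :=
        (hasFDerivAt_id y).add_const _
      have h3 : HasFDerivAt (fun y : E d => g (y + ε • z))
          ((fderiv ℝ g (y + ε • z)).comp (ContinuousLinearMap.id ℝ (E d))) y := h1.comp y h2
      simpa using h3
  rw [key.fderiv, ContinuousLinearMap.integral_apply (hint x)]
  rfl

/-! ### Semigroup property -/

theorem sr_gauss_conv (ε δ : ℝ) :
    ((stdGaussian (E d)).map (ε • ·)).conv ((stdGaussian (E d)).map (δ • ·)) =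
      (stdGaussian (E d)).map (√(ε ^ 2 + δ ^ 2) • ·) := by
  have hm : ∀ c : ℝ, Measurable (fun z : E d => c • z) := fun c => by fun_prop
  have : ∀ c : ℝ, IsProbabilityMeasure ((stdGaussian (E d)).map (c • ·)) := fun c =>
    Measure.isProbabilityMeasure_map (hm c).aemeasurable
  apply Measure.ext_of_charFun
  funext t
  rw [charFun_conv, charFun_map_smul, charFun_map_smul, charFun_map_smul, charFun_stdGaussian,
    charFun_stdGaussian, charFun_stdGaussian, ← Complex.exp_add]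
  congr 1
  rw [norm_smul, norm_smul, norm_smul]
  norm_cast
  rw [mul_pow, mul_pow, mul_pow, Real.norm_eq_abs, Real.norm_eq_abs, Real.norm_eq_abs, sq_abs,
    sq_abs, sq_abs, Real.sq_sqrt (by positivity)]
  ring

theorem smooth_semigroup {g : E d → ℝ} (hg : PolyB g) (ε δ : ℝ) :
    smooth ε (smooth δ g) = smooth (√(ε ^ 2 + δ ^ 2)) g := by
  have hm : ∀ c : ℝ, Measurable (fun z : E d => c • z) := fun c => by fun_prop
  have : ∀ c : ℝ, IsProbabilityMeasure ((stdGaussian (E d)).map (c • ·)) := fun c =>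
    Measure.isProbabilityMeasure_map (hm c).aemeasurable
  funext x
  have hcx : Continuous (fun u => g (x + u)) := hg.1.comp (by fun_prop)
  have hint : Integrable (fun u => g (x + u))
      ((stdGaussian (E d)).map (√(ε ^ 2 + δ ^ 2) • ·)) := by
    rw [integrable_map_measure hcx.aestronglyMeasurable (hm _).aemeasurable]
    exact hg.integrable _ x
  have h1 : smooth (√(ε ^ 2 + δ ^ 2)) g x =
      ∫ u, g (x + u) ∂((stdGaussian (E d)).map (√(ε ^ 2 + δ ^ 2) • ·)) := by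
    rw [integral_map (hm _).aemeasurable hcx.aestronglyMeasurable]
    rfl
  rw [h1]
  rw [← sr_gauss_conv] at hint ⊢
  rw [integral_conv hint]
  have h2 : ∀ y, ∫ u, g (x + (y + u)) ∂((stdGaussian (E d)).map (δ • ·)) = smooth δ g (x + y) := by
    intro y
    have hc : Continuous (fun u => g (x + (y + u))) := hg.1.comp (by fun_prop)
    rw [integral_map (hm _).aemeasurable hc.aestronglyMeasurable]
    unfold smooth
    simp_rw [add_assoc]
  simp_rw [h2]
  have hsm : StronglyMeasurable (smooth δ g) := by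
    have hc : Continuous (uncurry fun (x : E d) (z : E d) => g (x + δ • z)) :=
      hg.1.comp (by fun_prop)
    exact hc.stronglyMeasurable.integral_prod_right
  rw [integral_map (hm _).aemeasurable]
  · rfl
  · exact (hsm.comp_measurable (by fun_prop)).aestronglyMeasurable

/-! ### Smoothing improves by one derivative -/

theorem sr_hs_tg {κ : Type*} [Fintype κ] {Z : Type*} [NormedAddCommGroup Z] [NormedSpace ℝ Z]
    (e : κ → Z) (n : ℕ) : ∀ f : Z → ℝ, HasTemperateGrowth f → HasTemperateGrowth (hs e n f) := by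
  induction n with
  | zero => intro f hf; exact hf.pow 2
  | succ n ih =>
    intro f hf
    exact HasTemperateGrowth.sum fun k _ => ih _ (temp_dir hf (e k))

/-- smoothing improves by one derivative: `hs (n+1) (P_δ f) ≤ δ^{-2} P_δ (hs n f)` -/
theorem hs_smooth {g : E d → ℝ} (hg : HasTemperateGrowth g) {δ : ℝ} (hδ : 0 < δ) (n : ℕ) (x : E d) :
    hs (bas d) (n + 1) (smooth δ g) x ≤ (δ ^ 2)⁻¹ * smooth δ (hs (bas d) n g) x := by
  induction n generalizing g with
  | zero => exact smooth_bessel (HasTemperateGrowth.polyB hg) hδ x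
  | succ n ih =>
    have h1 : hs (bas d) (n + 1 + 1) (smooth δ g) x =
        ∑ k, hs (bas d) (n + 1) (smooth δ (fun y => fderiv ℝ g y (bas d k))) x := by
      change ∑ k, hs (bas d) (n + 1) (fun z' => fderiv ℝ (smooth δ g) z' (bas d k)) x = _
      refine Finset.sum_congr rfl fun k _ => ?_
      congr 1
      funext z'
      exact smooth_fderiv_comm hg δ z' (bas d k)
    have h2 : smooth δ (hs (bas d) (n + 1) g) x =
        ∑ k, smooth δ (hs (bas d) n (fun y => fderiv ℝ g y (bas d k))) x := by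
      change ∫ z, ∑ k, hs (bas d) n (fun z' => fderiv ℝ g z' (bas d k)) (x + δ • z)
        ∂(stdGaussian (E d)) = _
      rw [integral_finsetSum]
      · rfl
      · intro k _
        exact (HasTemperateGrowth.polyB (sr_hs_tg (bas d) n _ (temp_dir hg (bas d k)))).integrable δ x
    rw [h1, h2, Finset.mul_sum]
    exact Finset.sum_le_sum fun k _ => ih (temp_dir hg (bas d k))

end P347Q
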