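import Vale.Agent.P347Q.AbsIBP

/-!
Module Tame (REG).  Abstract tame estimate for the powers of a Hamiltonian vector field.

Write `S_n(F) = ∫ hs e n F dμ`, `c_k = Σ_l J_kl ∂_l F`, `h_k = ∂_k H`, `X F = Σ_k h_k c_k`.

(1) `S_0(XF) ≤ S_2(F) + C S_1(F)`: since `Σ_k ∂_k c_k = 0` (antisymmetry of `J` and symmetry of
second derivatives), `XF = Σ_k (h_k c_k - ∂_k c_k)`, apply `ibp_sq` with `G = c`.

(2) For a family `h : κ → Z → ℝ` put `q h F = Σ_{kl} J_kl h_k ∂_l F` and recursively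
`qs 0 n h F = hs e n (q h F)`, `qs (j+1) n h F = Σ_i qs j n (∂_i h) F`.

(3) iterate.
-/

open MeasureTheory ProbabilityTheory Function
open scoped ENNReal BigOperators

namespace P347Q

/-- abstract Hamiltonian vector field -/
noncomputable def Xop {κ : Type*} [Fintype κ] {Z : Type*} [NormedAddCommGroup Z] [NormedSpace ℝ Z]
    (e : κ → Z) (J : κ → κ → ℝ) (H f : Z → ℝ) : Z → ℝ :=
  fun z => ∑ k, ∑ l, J k l * fderiv ℝ H z (e k) * fderiv ℝ f z (e l)

namespace TameAux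

variable {κ : Type*} [Fintype κ] {Z : Type*} [NormedAddCommGroup Z] [NormedSpace ℝ Z]
  [MeasurableSpace Z]

theorem hs_nonneg (e : κ → Z) (n : ℕ) (f : Z → ℝ) (z : Z) : 0 ≤ hs e n f z := by
  induction n generalizing f with
  | zero => exact sq_nonneg _
  | succ n ih => exact Finset.sum_nonneg fun k _ => ih _

theorem hs_temp (e : κ → Z) (n : ℕ) {f : Z → ℝ} (hf : HasTemperateGrowth f) :
    HasTemperateGrowth (hs e n f) := by
  induction n generalizing f with
  | zero => exact hf.fun_pow 2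
  | succ n ih => exact HasTemperateGrowth.sum fun k _ => ih (temp_dir hf (e k))

theorem temp_diff {f : Z → ℝ} (hf : HasTemperateGrowth f) : Differentiable ℝ f :=
  hf.1.differentiable (by simp)

theorem dir_add {f g : Z → ℝ} (hf : HasTemperateGrowth f) (hg : HasTemperateGrowth g) (w : Z) :
    (fun z => fderiv ℝ (fun z' => f z' + g z') z w) =
      fun z => fderiv ℝ f z w + fderiv ℝ g z w := by
  funext z
  rw [fderiv_fun_add (temp_diff hf z) (temp_diff hg z)]
  rfl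

theorem hs_add_le (e : κ → Z) (n : ℕ) {f g : Z → ℝ} (hf : HasTemperateGrowth f)
    (hg : HasTemperateGrowth g) (z : Z) :
    hs e n (fun z' => f z' + g z') z ≤ 2 * hs e n f z + 2 * hs e n g z := by
  induction n generalizing f g with
  | zero =>
    simp only [hs]
    nlinarith [sq_nonneg (f z - g z)]
  | succ n ih =>
    simp only [hs]
    rw [Finset.mul_sum, Finset.mul_sum, ← Finset.sum_add_distrib]
    refine Finset.sum_le_sum fun k _ => ?_
    rw [dir_add hf hg (e k)]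
    exact ih (temp_dir hf _) (temp_dir hg _)

/-- the first order operator with coefficient family `h` -/
noncomputable def qop (e : κ → Z) (J : κ → κ → ℝ) (h : κ → Z → ℝ) (f : Z → ℝ) : Z → ℝ :=
  fun z => ∑ k, ∑ l, J k l * h k z * fderiv ℝ f z (e l)

theorem qop_temp (e : κ → Z) (J : κ → κ → ℝ) {h : κ → Z → ℝ} {f : Z → ℝ}
    (hh : ∀ k, HasTemperateGrowth (h k)) (hf : HasTemperateGrowth f) :
    HasTemperateGrowth (qop e J h f) := by
  unfold qop
  refine HasTemperateGrowth.sum fun k _ => HasTemperateGrowth.sum fun l _ => ?_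
  exact ((HasTemperateGrowth.const (J k l)).fun_mul (hh k)).fun_mul (temp_dir hf (e l))

/-- Leibniz rule for `qop` -/
theorem dir_qop (e : κ → Z) (J : κ → κ → ℝ) {h : κ → Z → ℝ} {f : Z → ℝ}
    (hh : ∀ k, HasTemperateGrowth (h k)) (hf : HasTemperateGrowth f) (i : κ) :
    (fun z => fderiv ℝ (qop e J h f) z (e i)) =
      fun z => qop e J (fun k z' => fderiv ℝ (h k) z' (e i)) f z +
        qop e J h (fun z' => fderiv ℝ f z' (e i)) z := by
  funext z
  have h1 : ∀ k l, HasFDerivAt (fun z' => J k l * h k z' * fderiv ℝ f z' (e l))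
      ((J k l * h k z) • fderiv ℝ (fun z' => fderiv ℝ f z' (e l)) z +
        (fderiv ℝ f z (e l)) • (J k l • fderiv ℝ (h k) z)) z := by
    intro k l
    have ha : HasFDerivAt (fun z' => J k l * h k z') (J k l • fderiv ℝ (h k) z) z :=
      ((temp_diff (hh k) z).hasFDerivAt).const_mul (J k l)
    exact ha.mul ((temp_diff (temp_dir hf (e l)) z).hasFDerivAt)
  have h2 : HasFDerivAt (qop e J h f)
      (∑ k, ∑ l, ((J k l * h k z) • fderiv ℝ (fun z' => fderiv ℝ f z' (e l)) z +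
        (fderiv ℝ f z (e l)) • (J k l • fderiv ℝ (h k) z))) z := by
    unfold qop
    exact HasFDerivAt.fun_sum fun k _ => HasFDerivAt.fun_sum fun l _ => h1 k l
  rw [h2.fderiv]
  simp only [qop, sum_apply, add_apply, smul_apply, smul_eq_mul]
  rw [← Finset.sum_add_distrib]
  refine Finset.sum_congr rfl fun k _ => ?_
  rw [← Finset.sum_add_distrib]
  refine Finset.sum_congr rfl fun l _ => ?_
  rw [dir_comm hf (e l) (e i) z]
  ring

/-- auxiliary quantities -/
noncomputable def qs (e : κ → Z) (J : κ → κ → ℝ) :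
    ℕ → ℕ → (κ → Z → ℝ) → (Z → ℝ) → Z → ℝ
  | 0, n, h, f => hs e n (qop e J h f)
  | j + 1, n, h, f => fun z => ∑ i, qs e J j n (fun k z' => fderiv ℝ (h k) z' (e i)) f z

theorem qs_temp (e : κ → Z) (J : κ → κ → ℝ) (j n : ℕ) {h : κ → Z → ℝ} {f : Z → ℝ}
    (hh : ∀ k, HasTemperateGrowth (h k)) (hf : HasTemperateGrowth f) :
    HasTemperateGrowth (qs e J j n h f) := by
  induction j generalizing h with
  | zero => exact hs_temp e n (qop_temp e J hh hf)
  | succ j ih =>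
    exact HasTemperateGrowth.sum fun i _ => ih fun k => temp_dir (hh k) (e i)

theorem qs_succ_le (e : κ → Z) (J : κ → κ → ℝ) (j n : ℕ) {h : κ → Z → ℝ} {f : Z → ℝ}
    (hh : ∀ k, HasTemperateGrowth (h k)) (hf : HasTemperateGrowth f) (z : Z) :
    qs e J j (n + 1) h f z ≤ 2 * qs e J (j + 1) n h f z +
      2 * ∑ i, qs e J j n h (fun z' => fderiv ℝ f z' (e i)) z := by
  induction j generalizing h with
  | zero =>
    simp only [qs, hs]
    rw [Finset.mul_sum, Finset.mul_sum, ← Finset.sum_add_distrib]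
    refine Finset.sum_le_sum fun i _ => ?_
    rw [dir_qop e J hh hf i]
    exact hs_add_le e n (qop_temp e J (fun k => temp_dir (hh k) _) hf)
      (qop_temp e J hh (temp_dir hf _)) z
  | succ j ih =>
    have h1 : qs e J (j + 1) (n + 1) h f z =
        ∑ i, qs e J j (n + 1) (fun k z' => fderiv ℝ (h k) z' (e i)) f z := rfl
    have h2 : qs e J (j + 1 + 1) n h f z =
        ∑ i, qs e J (j + 1) n (fun k z' => fderiv ℝ (h k) z' (e i)) f z := rfl
    have h3 : ∀ i, qs e J (j + 1) n h (fun z' => fderiv ℝ f z' (e i)) z =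
        ∑ i', qs e J j n (fun k z' => fderiv ℝ (h k) z' (e i'))
          (fun z' => fderiv ℝ f z' (e i)) z := fun _ => rfl
    rw [h1, h2]
    simp only [h3]
    rw [Finset.sum_comm, Finset.mul_sum, Finset.mul_sum, ← Finset.sum_add_distrib]
    refine Finset.sum_le_sum fun i _ => ?_
    exact ih (fun k => temp_dir (hh k) (e i))

theorem qs_zero (e : κ → Z) (J : κ → κ → ℝ) (j : ℕ) {h : κ → Z → ℝ} {f : Z → ℝ}
    (hh : ∀ k, HasTemperateGrowth (h k)) (z : Z) :
    qs e J j 0 h f z =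
      hs e j (fun z' => ∑ k, (∑ l, J k l * fderiv ℝ f z (e l)) * h k z') z := by
  induction j generalizing h with
  | zero =>
    simp only [qs, hs, qop]
    congr 1
    refine Finset.sum_congr rfl fun k _ => ?_
    rw [Finset.sum_mul]
    refine Finset.sum_congr rfl fun l _ => ?_
    ring
  | succ j ih =>
    have h1 : qs e J (j + 1) 0 h f z =
        ∑ i, qs e J j 0 (fun k z' => fderiv ℝ (h k) z' (e i)) f z := rfl
    rw [h1]
    simp only [hs]
    refine Finset.sum_congr rfl fun i _ => ?_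
    rw [ih (fun k => temp_dir (hh k) (e i))]
    congr 1
    funext y
    have h2 : HasFDerivAt (fun z' => ∑ k, (∑ l, J k l * fderiv ℝ f z (e l)) * h k z')
        (∑ k, (∑ l, J k l * fderiv ℝ f z (e l)) • fderiv ℝ (h k) y) y :=
      HasFDerivAt.fun_sum fun k _ => ((temp_diff (hh k) y).hasFDerivAt).const_mul _
    rw [h2.fderiv]
    simp [sum_apply]

/-- step (1), pointwise bound of the right-hand side of `ibp_sq` -/
theorem pt_bound (e : κ → Z) (J : κ → κ → ℝ)
    (hJ2 : ∀ w : κ → ℝ, ∑ k, (∑ l, J k l * w l) ^ 2 ≤ ∑ k, w k ^ 2)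
    (f : Z → ℝ) (z : Z) :
    ∑ k, (∑ l, J k l * fderiv ℝ f z (e l)) ^ 2 ≤ hs e 1 f z := by
  have := hJ2 (fun l => fderiv ℝ f z (e l))
  simpa [hs] using this

/-- step (1) -/
theorem base (e : κ → Z) {μ : Measure Z} {H : Z → ℝ} (hI : IBPm μ e H) {J : κ → κ → ℝ}
    (hJ1 : ∀ k l, J k l = - J l k)
    (hJ2 : ∀ w : κ → ℝ, ∑ k, (∑ l, J k l * w l) ^ 2 ≤ ∑ k, w k ^ 2) {b : ℝ} (hb : 0 ≤ b)
    (hB : ∀ (w : κ → ℝ) (z : Z),
        hs e 1 (fun z' => ∑ k, w k * fderiv ℝ H z' (e k)) z ≤ b * ∑ k, w k ^ 2)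
    {f : Z → ℝ} (hf : HasTemperateGrowth f) :
    ∫ z, (Xop e J H f z) ^ 2 ∂μ ≤ ∫ z, hs e 2 f z ∂μ + (1 + b) / 2 * ∫ z, hs e 1 f z ∂μ := by
  set c : κ → Z → ℝ := fun k z => ∑ l, J k l * fderiv ℝ f z (e l) with hc
  have hct : ∀ k, HasTemperateGrowth (c k) := fun k =>
    HasTemperateGrowth.sum fun l _ => (HasTemperateGrowth.const (J k l)).fun_mul (temp_dir hf (e l))
  have hcd : ∀ k z w, fderiv ℝ (c k) z w =
      ∑ l, J k l * fderiv ℝ (fun z' => fderiv ℝ f z' (e l)) z w := by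
    intro k z w
    have h2 : HasFDerivAt (c k) (∑ l, J k l • fderiv ℝ (fun z' => fderiv ℝ f z' (e l)) z) z :=
      HasFDerivAt.fun_sum fun l _ => ((temp_diff (temp_dir hf (e l)) z).hasFDerivAt).const_mul _
    rw [h2.fderiv]
    simp [sum_apply]
  -- divergence free
  have hdiv : ∀ z, ∑ k, fderiv ℝ (c k) z (e k) = 0 := by
    intro z
    simp only [hcd]
    have h1 : ∑ k, ∑ l, J k l * fderiv ℝ (fun z' => fderiv ℝ f z' (e l)) z (e k) =
        - ∑ k, ∑ l, J k l * fderiv ℝ (fun z' => fderiv ℝ f z' (e l)) z (e k) := by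
      conv_lhs => rw [Finset.sum_comm]
      rw [← Finset.sum_neg_distrib]
      refine Finset.sum_congr rfl fun k _ => ?_
      rw [← Finset.sum_neg_distrib]
      refine Finset.sum_congr rfl fun l _ => ?_
      rw [dir_comm hf (e k) (e l) z, hJ1 l k]
      ring
    linarith
  have hX : ∀ z, Xop e J H f z =
      ∑ k, (fderiv ℝ H z (e k) * c k z - fderiv ℝ (c k) z (e k)) := by
    intro z
    rw [Finset.sum_sub_distrib, hdiv z, sub_zero]
    simp only [Xop, hc]
    refine Finset.sum_congr rfl fun k _ => ?_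
    rw [Finset.mul_sum]
    refine Finset.sum_congr rfl fun l _ => ?_
    ring
  have h1 := ibp_sq hI c hct
  simp only [← hX] at h1
  rw [h1]
  have hHt := hI.temp
  -- first term
  have hint1 : ∀ k l, Integrable (fun z => fderiv ℝ (c k) z (e l) * fderiv ℝ (c l) z (e k)) μ :=
    fun k l => hI.int _ ((temp_dir (hct k) (e l)).fun_mul (temp_dir (hct l) (e k)))
  have hterm1 : ∑ k, ∑ l, ∫ z, fderiv ℝ (c k) z (e l) * fderiv ℝ (c l) z (e k) ∂μ ≤
      ∫ z, hs e 2 f z ∂μ := by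
    have h2 : ∑ k, ∑ l, ∫ z, fderiv ℝ (c k) z (e l) * fderiv ℝ (c l) z (e k) ∂μ =
        ∫ z, ∑ k, ∑ l, fderiv ℝ (c k) z (e l) * fderiv ℝ (c l) z (e k) ∂μ := by
      rw [integral_finsetSum _ (fun k _ => integrable_finsetSum _ fun l _ => hint1 k l)]
      refine Finset.sum_congr rfl fun k _ => ?_
      rw [integral_finsetSum _ (fun l _ => hint1 k l)]
    rw [h2]
    refine integral_mono (integrable_finsetSum _ fun k _ => integrable_finsetSum _ fun l _ => hint1 k l)
      (hI.int _ (hs_temp e 2 hf)) fun z => ?_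
    have h3 : ∑ k, ∑ l, fderiv ℝ (c k) z (e l) * fderiv ℝ (c l) z (e k) ≤
        ∑ k, ∑ l, (fderiv ℝ (c k) z (e l)) ^ 2 := by
      have h4 : ∑ k, ∑ l, fderiv ℝ (c k) z (e l) * fderiv ℝ (c l) z (e k) ≤
          ∑ k, ∑ l, ((fderiv ℝ (c k) z (e l)) ^ 2 + (fderiv ℝ (c l) z (e k)) ^ 2) / 2 :=
        Finset.sum_le_sum fun k _ => Finset.sum_le_sum fun l _ => by
          nlinarith [sq_nonneg (fderiv ℝ (c k) z (e l) - fderiv ℝ (c l) z (e k))]
      have h5 : ∑ k, ∑ l, ((fderiv ℝ (c k) z (e l)) ^ 2 + (fderiv ℝ (c l) z (e k)) ^ 2) / 2 =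
          ∑ k, ∑ l, (fderiv ℝ (c k) z (e l)) ^ 2 := by
        have h6 : ∑ k, ∑ l, ((fderiv ℝ (c k) z (e l)) ^ 2 + (fderiv ℝ (c l) z (e k)) ^ 2) / 2 =
            (∑ k, ∑ l, (fderiv ℝ (c k) z (e l)) ^ 2 + ∑ k, ∑ l, (fderiv ℝ (c l) z (e k)) ^ 2) / 2 := by
          simp only [← Finset.sum_div, Finset.sum_add_distrib]
        rw [h6, Finset.sum_comm (f := fun k l => (fderiv ℝ (c l) z (e k)) ^ 2)]
        ring
      linarith
    refine h3.trans ?_
    rw [Finset.sum_comm]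
    simp only [hs]
    refine Finset.sum_le_sum fun i _ => ?_
    have h7 := hJ2 (fun l => fderiv ℝ (fun z' => fderiv ℝ f z' (e i)) z (e l))
    refine le_trans (le_of_eq ?_) h7
    refine Finset.sum_congr rfl fun k _ => ?_
    rw [hcd]
    congr 1
    refine Finset.sum_congr rfl fun l _ => ?_
    rw [dir_comm hf (e l) (e i) z]
  -- second term
  have hterm2 : ∫ z, ∑ k, ∑ l, fderiv ℝ (fun y => fderiv ℝ H y (e l)) z (e k) * c k z * c l z ∂μ ≤
      (1 + b) / 2 * ∫ z, hs e 1 f z ∂μ := by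
    rw [← integral_const_mul]
    refine integral_mono (hI.int _ ?_) ((hI.int _ (hs_temp e 1 hf)).const_mul _) fun z => ?_
    · exact HasTemperateGrowth.sum fun k _ => HasTemperateGrowth.sum fun l _ =>
        ((temp_dir (temp_dir hHt (e l)) (e k)).fun_mul (hct k)).fun_mul (hct l)
    have h3 : ∑ k, ∑ l, fderiv ℝ (fun y => fderiv ℝ H y (e l)) z (e k) * c k z * c l z =
        ∑ k, c k z * ∑ l, c l z * fderiv ℝ (fun y => fderiv ℝ H y (e l)) z (e k) := by
      refine Finset.sum_congr rfl fun k _ => ?_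
      rw [Finset.mul_sum]
      refine Finset.sum_congr rfl fun l _ => ?_
      ring
    have h4 : ∑ k, c k z * ∑ l, c l z * fderiv ℝ (fun y => fderiv ℝ H y (e l)) z (e k) ≤
        ∑ k, ((c k z) ^ 2 / 2 +
          (∑ l, c l z * fderiv ℝ (fun y => fderiv ℝ H y (e l)) z (e k)) ^ 2 / 2) :=
      Finset.sum_le_sum fun k _ => by
        nlinarith [sq_nonneg (c k z - ∑ l, c l z * fderiv ℝ (fun y => fderiv ℝ H y (e l)) z (e k))]
    have h5 : ∑ k, (∑ l, c l z * fderiv ℝ (fun y => fderiv ℝ H y (e l)) z (e k)) ^ 2 ≤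
        b * ∑ k, (c k z) ^ 2 := by
      refine le_trans (le_of_eq ?_) (hB (fun k => c k z) z)
      simp only [hs]
      refine Finset.sum_congr rfl fun k _ => ?_
      have h2 : HasFDerivAt (fun z' => ∑ l, c l z * fderiv ℝ H z' (e l))
          (∑ l, c l z • fderiv ℝ (fun z' => fderiv ℝ H z' (e l)) z) z :=
        HasFDerivAt.fun_sum fun l _ => ((temp_diff (temp_dir hHt (e l)) z).hasFDerivAt).const_mul _
      rw [h2.fderiv]
      simp [sum_apply]
    have h6 : ∑ k, (c k z) ^ 2 ≤ hs e 1 f z := pt_bound e J hJ2 f z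
    show ∑ k, ∑ l, fderiv ℝ (fun y => fderiv ℝ H y (e l)) z (e k) * c k z * c l z ≤
      (1 + b) / 2 * hs e 1 f z
    rw [h3]
    refine h4.trans ?_
    rw [Finset.sum_add_distrib, ← Finset.sum_div, ← Finset.sum_div]
    have h7 : 0 ≤ ∑ k, (c k z) ^ 2 := Finset.sum_nonneg fun k _ => sq_nonneg _
    nlinarith [mul_le_mul_of_nonneg_left h6 hb]
  linarith

/-- the constants -/
noncomputable def cst (B : ℕ → ℝ) : ℕ → ℕ → ℝ
  | 0, j => 2 + |B 1| + |B j|
  | n + 1, j => 2 * cst B n (j + 1) + 2 * cst B n j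

theorem cst_nonneg (B : ℕ → ℝ) (n j : ℕ) : 0 ≤ cst B n j := by
  induction n generalizing j with
  | zero => simp only [cst]; positivity
  | succ n ih => simp only [cst]; have := ih j; have := ih (j + 1); positivity

theorem qs_int_le (B : ℕ → ℝ) (e : κ → Z) {μ : Measure Z} {H : Z → ℝ} (hI : IBPm μ e H)
    {J : κ → κ → ℝ} (hJ1 : ∀ k l, J k l = - J l k)
    (hJ2 : ∀ w : κ → ℝ, ∑ k, (∑ l, J k l * w l) ^ 2 ≤ ∑ k, w k ^ 2)
    (hB : ∀ n, 1 ≤ n → ∀ (w : κ → ℝ) (z : Z),
        hs e n (fun z' => ∑ k, w k * fderiv ℝ H z' (e k)) z ≤ B n * ∑ k, w k ^ 2)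
    (n j : ℕ) {f : Z → ℝ} (hf : HasTemperateGrowth f) :
    ∫ z, qs e J j n (fun k z' => fderiv ℝ H z' (e k)) f z ∂μ ≤
      cst B n j * ∑ i ∈ Finset.range (n + 3), ∫ z, hs e i f z ∂μ := by
  have hHt := hI.temp
  have hht : ∀ k, HasTemperateGrowth (fun z' => fderiv ℝ H z' (e k)) := fun k => temp_dir hHt (e k)
  induction n generalizing j f with
  | zero =>
    have hS0 : 0 ≤ ∫ z, hs e 0 f z ∂μ := integral_nonneg fun z => hs_nonneg e 0 f z
    have hS1 : 0 ≤ ∫ z, hs e 1 f z ∂μ := integral_nonneg fun z => hs_nonneg e 1 f z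
    have hS2 : 0 ≤ ∫ z, hs e 2 f z ∂μ := integral_nonneg fun z => hs_nonneg e 2 f z
    have hsum : ∑ i ∈ Finset.range (0 + 3), ∫ z, hs e i f z ∂μ =
        ∫ z, hs e 0 f z ∂μ + ∫ z, hs e 1 f z ∂μ + ∫ z, hs e 2 f z ∂μ := by
      simp [Finset.sum_range_succ]
    rw [hsum]
    simp only [cst]
    rcases j with _ | j
    · have h1 : ∀ (w : κ → ℝ) (z : Z),
          hs e 1 (fun z' => ∑ k, w k * fderiv ℝ H z' (e k)) z ≤ |B 1| * ∑ k, w k ^ 2 := by
        intro w z
        refine (hB 1 le_rfl w z).trans ?_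
        exact mul_le_mul_of_nonneg_right (le_abs_self _) (Finset.sum_nonneg fun k _ => sq_nonneg _)
      have h2 := base e hI hJ1 hJ2 (abs_nonneg (B 1)) h1 hf
      have h3 : ∫ z, qs e J 0 0 (fun k z' => fderiv ℝ H z' (e k)) f z ∂μ =
          ∫ z, (Xop e J H f z) ^ 2 ∂μ := rfl
      rw [h3]
      refine h2.trans ?_
      have h4 := abs_nonneg (B 1)
      have h5 := abs_nonneg (B 0)
      nlinarith [mul_nonneg h4 hS0, mul_nonneg h4 hS1, mul_nonneg h4 hS2, mul_nonneg h5 hS0,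
        mul_nonneg h5 hS1, mul_nonneg h5 hS2]
    · have h1 : ∫ z, qs e J (j + 1) 0 (fun k z' => fderiv ℝ H z' (e k)) f z ∂μ ≤
          |B (j + 1)| * ∫ z, hs e 1 f z ∂μ := by
        rw [← integral_const_mul]
        refine integral_mono (hI.int _ (qs_temp e J (j + 1) 0 hht hf))
          ((hI.int _ (hs_temp e 1 hf)).const_mul _) fun z => ?_
        show qs e J (j + 1) 0 (fun k z' => fderiv ℝ H z' (e k)) f z ≤ |B (j + 1)| * hs e 1 f z
        rw [qs_zero e J (j + 1) hht z]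
        refine (hB (j + 1) (by omega) _ z).trans ?_
        refine mul_le_mul (le_abs_self _) (pt_bound e J hJ2 f z)
          (Finset.sum_nonneg fun k _ => sq_nonneg _) (abs_nonneg _)
      refine h1.trans ?_
      have h4 := abs_nonneg (B 1)
      have h5 := abs_nonneg (B (j + 1))
      nlinarith [mul_nonneg h4 hS0, mul_nonneg h4 hS1, mul_nonneg h4 hS2, mul_nonneg h5 hS0,
        mul_nonneg h5 hS1, mul_nonneg h5 hS2]
  | succ n ih =>
    have h1 : ∫ z, qs e J j (n + 1) (fun k z' => fderiv ℝ H z' (e k)) f z ∂μ ≤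
        2 * ∫ z, qs e J (j + 1) n (fun k z' => fderiv ℝ H z' (e k)) f z ∂μ +
        2 * ∑ i, ∫ z, qs e J j n (fun k z' => fderiv ℝ H z' (e k))
          (fun z' => fderiv ℝ f z' (e i)) z ∂μ := by
      have hi1 : Integrable (fun z => 2 * qs e J (j + 1) n (fun k z' => fderiv ℝ H z' (e k)) f z) μ :=
        (hI.int _ (qs_temp e J (j + 1) n hht hf)).const_mul _
      have hi2 : ∀ i, Integrable (fun z => qs e J j n (fun k z' => fderiv ℝ H z' (e k))
          (fun z' => fderiv ℝ f z' (e i)) z) μ :=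
        fun i => hI.int _ (qs_temp e J j n hht (temp_dir hf (e i)))
      rw [← integral_finsetSum _ (fun i _ => hi2 i), ← integral_const_mul, ← integral_const_mul,
        ← integral_add hi1 ((integrable_finsetSum _ fun i _ => hi2 i).const_mul 2)]
      refine integral_mono (hI.int _ (qs_temp e J j (n + 1) hht hf))
        (hi1.add ((integrable_finsetSum _ fun i _ => hi2 i).const_mul 2)) fun z => ?_
      exact qs_succ_le e J j n hht hf z
    have h2 := ih (j + 1) hf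
    have h3 : ∑ i, ∫ z, qs e J j n (fun k z' => fderiv ℝ H z' (e k))
          (fun z' => fderiv ℝ f z' (e i)) z ∂μ ≤
        cst B n j * ∑ i' ∈ Finset.range (n + 3), ∫ z, hs e (i' + 1) f z ∂μ := by
      have h4 : ∀ i' : ℕ, ∫ z, hs e (i' + 1) f z ∂μ =
          ∑ i, ∫ z, hs e i' (fun z' => fderiv ℝ f z' (e i)) z ∂μ := by
        intro i'
        simp only [hs]
        rw [integral_finsetSum _ (fun i _ => hI.int _ (hs_temp e i' (temp_dir hf (e i))))]
      simp only [h4]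
      rw [Finset.sum_comm, Finset.mul_sum]
      exact Finset.sum_le_sum fun i _ => ih j (temp_dir hf (e i))
    have h5 : ∑ i' ∈ Finset.range (n + 3), ∫ z, hs e (i' + 1) f z ∂μ ≤
        ∑ i ∈ Finset.range (n + 1 + 3), ∫ z, hs e i f z ∂μ := by
      rw [show n + 1 + 3 = (n + 3) + 1 by ring, Finset.sum_range_succ' _ (n + 3)]
      have : 0 ≤ ∫ z, hs e 0 f z ∂μ := integral_nonneg fun z => hs_nonneg e 0 f z
      linarith
    have h6 : ∑ i ∈ Finset.range (n + 3), ∫ z, hs e i f z ∂μ ≤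
        ∑ i ∈ Finset.range (n + 1 + 3), ∫ z, hs e i f z ∂μ := by
      rw [show n + 1 + 3 = (n + 3) + 1 by ring, Finset.sum_range_succ _ (n + 3)]
      have : 0 ≤ ∫ z, hs e (n + 3) f z ∂μ := integral_nonneg fun z => hs_nonneg e (n + 3) f z
      linarith
    simp only [cst]
    have h7 := cst_nonneg B n j
    have h8 := cst_nonneg B n (j + 1)
    have h9 := mul_le_mul_of_nonneg_left h5 h7
    have h10 := mul_le_mul_of_nonneg_left h6 h8
    nlinarith

/-- one application of the vector field -/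
theorem hs_Xop_le (B : ℕ → ℝ) (e : κ → Z) {μ : Measure Z} {H : Z → ℝ} (hI : IBPm μ e H)
    {J : κ → κ → ℝ} (hJ1 : ∀ k l, J k l = - J l k)
    (hJ2 : ∀ w : κ → ℝ, ∑ k, (∑ l, J k l * w l) ^ 2 ≤ ∑ k, w k ^ 2)
    (hB : ∀ n, 1 ≤ n → ∀ (w : κ → ℝ) (z : Z),
        hs e n (fun z' => ∑ k, w k * fderiv ℝ H z' (e k)) z ≤ B n * ∑ k, w k ^ 2)
    (n : ℕ) {f : Z → ℝ} (hf : HasTemperateGrowth f) :
    ∫ z, hs e n (Xop e J H f) z ∂μ ≤
      cst B n 0 * ∑ i ∈ Finset.range (n + 3), ∫ z, hs e i f z ∂μ :=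
  qs_int_le B e hI hJ1 hJ2 hB n 0 hf

theorem Xop_temp (e : κ → Z) (J : κ → κ → ℝ) {H f : Z → ℝ} (hH : HasTemperateGrowth H)
    (hf : HasTemperateGrowth f) : HasTemperateGrowth (Xop e J H f) :=
  qop_temp e J (h := fun k z => fderiv ℝ H z (e k)) (fun k => temp_dir hH (e k)) hf

end TameAux

theorem tame (m : ℕ) (B : ℕ → ℝ) : ∃ C : ℝ, 0 < C ∧
    ∀ (κ : Type) [Fintype κ] (Z : Type) [NormedAddCommGroup Z] [NormedSpace ℝ Z]
      [MeasurableSpace Z] (μ : Measure Z) (e : κ → Z) (H : Z → ℝ), IBPm μ e H →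
      (∀ n, 1 ≤ n → ∀ (w : κ → ℝ) (z : Z),
        hs e n (fun z' => ∑ k, w k * fderiv ℝ H z' (e k)) z ≤ B n * ∑ k, w k ^ 2) →
      ∀ J : κ → κ → ℝ, (∀ k l, J k l = - J l k) →
      (∀ w : κ → ℝ, ∑ k, (∑ l, J k l * w l) ^ 2 ≤ ∑ k, w k ^ 2) →
      ∀ f : Z → ℝ, HasTemperateGrowth f →
      ∀ M : ℝ, (∀ n ≤ 2 * m, ∫ z, hs e n f z ∂μ ≤ M) →
        ∫ z, ((Xop e J H)^[m] f z) ^ 2 ∂μ ≤ C * M := by
  induction m with
  | zero =>
    refine ⟨1, one_pos, ?_⟩
    intro κ _ Z _ _ _ μ e H hI hB J hJ1 hJ2 f hf M hM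
    have := hM 0 le_rfl
    simpa [hs] using this
  | succ m ih =>
    obtain ⟨C, hC, hmain⟩ := ih
    set D : ℝ := ∑ n ∈ Finset.range (2 * m + 1), (TameAux.cst B n 0 * (n + 3)) with hD
    have hD0 : 0 ≤ D := Finset.sum_nonneg fun n _ =>
      mul_nonneg (TameAux.cst_nonneg B n 0) (by positivity)
    refine ⟨C * (D + 1), by positivity, ?_⟩
    intro κ _ Z _ _ _ μ e H hI hB J hJ1 hJ2 f hf M hM
    have hM0 : 0 ≤ M := le_trans (integral_nonneg fun z => TameAux.hs_nonneg e 0 f z)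
      (hM 0 (by omega))
    have h1 : ∀ n ≤ 2 * m, ∫ z, hs e n (Xop e J H f) z ∂μ ≤ (D + 1) * M := by
      intro n hn
      refine (TameAux.hs_Xop_le B e hI hJ1 hJ2 hB n hf).trans ?_
      have h2 : ∑ i ∈ Finset.range (n + 3), ∫ z, hs e i f z ∂μ ≤ (n + 3) * M := by
        refine (Finset.sum_le_card_nsmul _ _ M fun i hi => hM i ?_).trans ?_
        · have := Finset.mem_range.1 hi; omega
        · simp
      have h3 : TameAux.cst B n 0 * (n + 3) ≤ D := by
        rw [hD]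
        exact Finset.single_le_sum (f := fun n : ℕ => TameAux.cst B n 0 * ((n : ℝ) + 3))
          (fun n _ => mul_nonneg (TameAux.cst_nonneg B n 0) (by positivity))
          (Finset.mem_range.2 (by omega))
      calc TameAux.cst B n 0 * ∑ i ∈ Finset.range (n + 3), ∫ z, hs e i f z ∂μ
          ≤ TameAux.cst B n 0 * ((n + 3) * M) :=
            mul_le_mul_of_nonneg_left h2 (TameAux.cst_nonneg B n 0)
        _ = (TameAux.cst B n 0 * (n + 3)) * M := by ring
        _ ≤ D * M := mul_le_mul_of_nonneg_right h3 hM0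
        _ ≤ (D + 1) * M := by nlinarith
    have h2 := hmain κ Z μ e H hI hB J hJ1 hJ2 (Xop e J H f)
      (TameAux.Xop_temp e J hI.temp hf) ((D + 1) * M) h1
    rw [Function.iterate_succ_apply]
    calc _ ≤ C * ((D + 1) * M) := h2
      _ = C * (D + 1) * M := by ring

end P347Q
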